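import Crest.Prelude.Def_GlobularCoherator

/-!
# Row 248, file 1: globular sets, lifting properties, hom globular sets, trees and positions.
-/

set_option autoImplicit false

namespace Crest.Agent.R248

open Crest.GeometryTopology.Coherator

universe u

abbrev GS := GlobSet.{u}
abbrev GMap (X Y : GS.{u}) := GlobSet.Map X Y

namespace GMap

def id (X : GS.{u}) : GMap X X := ⟨fun _ x => x, fun _ _ => rfl, fun _ _ => rfl⟩

/-- diagrammatic composition -/
def comp {X Y Z : GS.{u}} (f : GMap X Y) (g : GMap Y Z) : GMap X Z :=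
  ⟨fun n x => g.app n (f.app n x), fun n x => by rw [f.app_src, g.app_src],
    fun n x => by rw [f.app_tgt, g.app_tgt]⟩

@[simp] theorem id_app (X : GS.{u}) (n : ℕ) (x : X.cell n) : (id X).app n x = x := rfl
@[simp] theorem comp_app {X Y Z : GS.{u}} (f : GMap X Y) (g : GMap Y Z) (n : ℕ) (x : X.cell n) :
    (f.comp g).app n x = g.app n (f.app n x) := rfl

theorem ext' {X Y : GS.{u}} {f g : GMap X Y} (h : ∀ n x, f.app n x = g.app n x) : f = g :=
  GlobSet.Map.ext (funext fun n => funext fun x => h n x)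

@[simp] theorem id_comp {X Y : GS.{u}} (f : GMap X Y) : (id X).comp f = f := rfl
@[simp] theorem comp_id {X Y : GS.{u}} (f : GMap X Y) : f.comp (id Y) = f := rfl
theorem comp_assoc {X Y Z W : GS.{u}} (f : GMap X Y) (g : GMap Y Z) (h : GMap Z W) :
    (f.comp g).comp h = f.comp (g.comp h) := rfl

end GMap

section Par

variable {X Y Z : GS.{u}}

theorem par_iff_bdry : ∀ (n : ℕ) (x y : X.cell n), X.AreParallel n x y ↔ X.bdry n x = X.bdry n y
  | 0, _, _ => ⟨fun _ => rfl, fun _ => trivial⟩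
  | n + 1, x, y => by
    constructor
    · rintro ⟨h1, h2⟩
      apply Subtype.ext
      exact Prod.ext h1 h2
    · intro h
      have := congrArg Subtype.val h
      exact ⟨congrArg Prod.fst this, congrArg Prod.snd this⟩

theorem par_refl (n : ℕ) (x : X.cell n) : X.AreParallel n x x := (par_iff_bdry n x x).2 rfl
theorem par_symm {n : ℕ} {x y : X.cell n} (h : X.AreParallel n x y) : X.AreParallel n y x :=
  (par_iff_bdry n _ _).2 ((par_iff_bdry n _ _).1 h).symm
theorem par_trans {n : ℕ} {x y z : X.cell n} (h : X.AreParallel n x y) (h' : X.AreParallel n y z) :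
    X.AreParallel n x z :=
  (par_iff_bdry n _ _).2 (((par_iff_bdry n _ _).1 h).trans ((par_iff_bdry n _ _).1 h'))

theorem par_src_tgt (n : ℕ) (x : X.cell (n + 1)) : X.AreParallel n (X.src n x) (X.tgt n x) :=
  (X.bdry (n + 1) x).2

theorem step_par {n : ℕ} {x y : X.cell n} (h : X.Step n x y) : X.AreParallel n x y := by
  obtain ⟨c, rfl, rfl⟩ := h
  exact par_src_tgt n c

theorem par_map (f : GMap X Y) : ∀ {n : ℕ} {x y : X.cell n}, X.AreParallel n x y →
    Y.AreParallel n (f.app n x) (f.app n y)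
  | 0, _, _, _ => trivial
  | n + 1, _, _, h => ⟨by rw [← f.app_src, ← f.app_src, h.1], by rw [← f.app_tgt, ← f.app_tgt, h.2]⟩

theorem step_map (f : GMap X Y) {n : ℕ} {x y : X.cell n} (h : X.Step n x y) :
    Y.Step n (f.app n x) (f.app n y) := by
  obtain ⟨c, rfl, rfl⟩ := h
  exact ⟨f.app _ c, (f.app_src _ _).symm, (f.app_tgt _ _).symm⟩

theorem bdry_map (f : GMap X Y) : ∀ (n : ℕ) (x : X.cell n),
    Y.bdry n (f.app n x) = f.sphere n (X.bdry n x)
  | 0, _ => rfl
  | n + 1, x => by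
    apply Subtype.ext
    exact Prod.ext (f.app_src n x).symm (f.app_tgt n x).symm

theorem sphere_comp (f : GMap X Y) (g : GMap Y Z) : ∀ (n : ℕ) (s : X.Sphere n),
    (f.comp g).sphere n s = g.sphere n (f.sphere n s)
  | 0, _ => rfl
  | _ + 1, _ => rfl

theorem sphere_id : ∀ (n : ℕ) (s : X.Sphere n), (GMap.id X).sphere n s = s
  | 0, _ => rfl
  | _ + 1, _ => rfl

theorem bdry_eq_iff {n : ℕ} (x : X.cell (n + 1)) (s : X.Sphere (n + 1)) :
    X.bdry (n + 1) x = s ↔ X.src n x = s.1.1 ∧ X.tgt n x = s.1.2 := by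
  constructor
  · rintro rfl; exact ⟨rfl, rfl⟩
  · rintro ⟨h1, h2⟩
    apply Subtype.ext
    exact Prod.ext h1 h2

end Par

/-! ## Lifting properties -/

section Lift

variable {X Y Z : GS.{u}}

/-- strict lifting against the boundary inclusion of the `n`-disk -/
def ILift (p : GMap X Y) (n : ℕ) : Prop :=
  ∀ (s : X.Sphere n) (y : Y.cell n), Y.bdry n y = p.sphere n s →
    ∃ x, X.bdry n x = s ∧ p.app n x = y

/-- weak lifting (up to an `(n+1)`-cell of the target) -/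
def WLift (f : GMap X Y) (n : ℕ) : Prop :=
  ∀ (s : X.Sphere n) (y : Y.cell n), Y.bdry n y = f.sphere n s →
    ∃ x, X.bdry n x = s ∧ Y.Step n (f.app n x) y

/-- lifting against the source inclusion of the `n`-disk in the `(n+1)`-disk -/
def JLift (p : GMap X Y) (n : ℕ) : Prop :=
  ∀ (a : X.cell n) (w : Y.cell (n + 1)), Y.src n w = p.app n a →
    ∃ h, X.src n h = a ∧ p.app (n + 1) h = w

/-- `W L f`: weak lifting in all dimensions below `L` -/
def W (L : ℕ) (f : GMap X Y) : Prop := ∀ n, n < L → WLift f n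

/-- trivial fibration -/
def TFib (p : GMap X Y) : Prop := ∀ n, ILift p n

/-- all spheres of dimension `< L` have a filler -/
def Conn (L : ℕ) (X : GS.{u}) : Prop := ∀ n, n < L → ∀ s : X.Sphere n, ∃ x, X.bdry n x = s

theorem W.mono {L L' : ℕ} {f : GMap X Y} (h : W L f) (hl : L' ≤ L) : W L' f :=
  fun n hn => h n (lt_of_lt_of_le hn hl)

theorem W_zero (f : GMap X Y) : W 0 f := fun _ h => absurd h (Nat.not_lt_zero _)

theorem ILift.succ {p : GMap X Y} {n : ℕ} (h : ILift p (n + 1)) {u v : X.cell n}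
    (huv : X.AreParallel n u v) (y : Y.cell (n + 1)) (hs : Y.src n y = p.app n u)
    (ht : Y.tgt n y = p.app n v) : ∃ x, X.src n x = u ∧ X.tgt n x = v ∧ p.app (n + 1) x = y := by
  obtain ⟨x, hx, hy⟩ := h ⟨(u, v), huv⟩ y ((bdry_eq_iff _ _).2 ⟨hs, ht⟩)
  obtain ⟨h1, h2⟩ := (bdry_eq_iff _ _).1 hx
  exact ⟨x, h1, h2, hy⟩

theorem ILift.zero {p : GMap X Y} (h : ILift p 0) (y : Y.cell 0) : ∃ x, p.app 0 x = y := by
  obtain ⟨x, -, hy⟩ := h PUnit.unit y rfl
  exact ⟨x, hy⟩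

theorem ILift.of_succ {p : GMap X Y} {n : ℕ}
    (h : ∀ u v : X.cell n, X.AreParallel n u v → ∀ y : Y.cell (n + 1), Y.src n y = p.app n u →
      Y.tgt n y = p.app n v → ∃ x, X.src n x = u ∧ X.tgt n x = v ∧ p.app (n + 1) x = y) :
    ILift p (n + 1) := by
  intro s y hy
  obtain ⟨h1, h2⟩ := (bdry_eq_iff _ _).1 hy
  obtain ⟨x, a, b, c⟩ := h s.1.1 s.1.2 s.2 y h1 h2
  exact ⟨x, (bdry_eq_iff _ _).2 ⟨a, b⟩, c⟩

theorem ILift.of_zero {p : GMap X Y} (h : ∀ y, ∃ x, p.app 0 x = y) : ILift p 0 := by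
  intro s y _
  obtain ⟨x, hx⟩ := h y
  exact ⟨x, rfl, hx⟩

theorem WLift.succ {p : GMap X Y} {n : ℕ} (h : WLift p (n + 1)) {u v : X.cell n}
    (huv : X.AreParallel n u v) (y : Y.cell (n + 1)) (hs : Y.src n y = p.app n u)
    (ht : Y.tgt n y = p.app n v) :
    ∃ x, X.src n x = u ∧ X.tgt n x = v ∧ Y.Step (n + 1) (p.app (n + 1) x) y := by
  obtain ⟨x, hx, hy⟩ := h ⟨(u, v), huv⟩ y ((bdry_eq_iff _ _).2 ⟨hs, ht⟩)
  obtain ⟨h1, h2⟩ := (bdry_eq_iff _ _).1 hx
  exact ⟨x, h1, h2, hy⟩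

theorem WLift.zero {p : GMap X Y} (h : WLift p 0) (y : Y.cell 0) :
    ∃ x, Y.Step 0 (p.app 0 x) y := by
  obtain ⟨x, -, hy⟩ := h PUnit.unit y rfl
  exact ⟨x, hy⟩

theorem WLift.of_succ {p : GMap X Y} {n : ℕ}
    (h : ∀ u v : X.cell n, X.AreParallel n u v → ∀ y : Y.cell (n + 1), Y.src n y = p.app n u →
      Y.tgt n y = p.app n v →
      ∃ x, X.src n x = u ∧ X.tgt n x = v ∧ Y.Step (n + 1) (p.app (n + 1) x) y) :
    WLift p (n + 1) := by
  intro s y hy
  obtain ⟨h1, h2⟩ := (bdry_eq_iff _ _).1 hy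
  obtain ⟨x, a, b, c⟩ := h s.1.1 s.1.2 s.2 y h1 h2
  exact ⟨x, (bdry_eq_iff _ _).2 ⟨a, b⟩, c⟩

theorem WLift.of_zero {p : GMap X Y} (h : ∀ y, ∃ x, Y.Step 0 (p.app 0 x) y) : WLift p 0 := by
  intro s y _
  obtain ⟨x, hx⟩ := h y
  exact ⟨x, rfl, hx⟩

theorem Conn.succ {L n : ℕ} (h : Conn L X) (hn : n + 1 < L) {u v : X.cell n}
    (huv : X.AreParallel n u v) : X.Step n u v := by
  obtain ⟨x, hx⟩ := h (n + 1) hn ⟨(u, v), huv⟩
  exact ⟨x, (bdry_eq_iff _ _).1 hx⟩

theorem Conn.mono {L L' : ℕ} (h : Conn L X) (hl : L' ≤ L) : Conn L' X :=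
  fun n hn => h n (lt_of_lt_of_le hn hl)

/-- (W2) left cancellation, with a shift of level. -/
theorem W.of_comp_left {L : ℕ} {f : GMap X Y} {g : GMap Y Z} (hgf : W L (f.comp g))
    (hg : W (L + 1) g) : W L f := by
  intro n hn s y hy
  obtain ⟨x, hx, c, hc1, hc2⟩ := hgf n hn s (g.app n y) (by rw [bdry_map, hy, sphere_comp])
  refine ⟨x, hx, ?_⟩
  have hp : Y.AreParallel n (f.app n x) y := by
    rw [par_iff_bdry, bdry_map, hx, hy]
  obtain ⟨e, h1, h2, -⟩ := (hg (n + 1) (by omega)).succ hp c hc1 hc2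
  exact ⟨e, h1, h2⟩

/-- a retract of a map in `W L` is in `W L` -/
theorem W.retract {X' Y' : GS.{u}} {L : ℕ} {f : GMap X Y} {f' : GMap X' Y'} (h : W L f')
    (i : GMap X X') (r : GMap X' X) (j : GMap Y Y') (q : GMap Y' Y)
    (hir : i.comp r = GMap.id X) (hjq : j.comp q = GMap.id Y)
    (h1 : i.comp f' = f.comp j) (h2 : f'.comp q = r.comp f) : W L f := by
  intro n hn s y hy
  obtain ⟨x, hx, hs⟩ := h n hn (i.sphere n s) (j.app n y) (by
    rw [bdry_map, hy, ← sphere_comp, ← sphere_comp, h1])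
  refine ⟨r.app n x, by rw [bdry_map, hx, ← sphere_comp, hir, sphere_id], ?_⟩
  have := step_map q hs
  rw [← GMap.comp_app j q, hjq, ← GMap.comp_app f' q, h2] at this
  exact this

theorem ILift.of_W_JLift {p : GMap X Y} {n : ℕ} (hw : WLift p n) (hj : JLift p n) : ILift p n := by
  intro s y hy
  obtain ⟨x, hx, c, hc1, hc2⟩ := hw s y hy
  obtain ⟨h, hh1, hh2⟩ := hj x c hc1
  refine ⟨X.tgt n h, ?_, by rw [p.app_tgt, hh2, hc2]⟩
  rw [← hx, ← hh1]
  exact ((par_iff_bdry _ _ _).1 (par_src_tgt n h)).symm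

theorem JLift.of_ILift {p : GMap X Y} {n : ℕ} (h0 : ILift p n) (h1 : ILift p (n + 1)) :
    JLift p n := by
  intro a w hw
  obtain ⟨a', ha1, ha2⟩ := h0 (X.bdry n a) (Y.tgt n w) (by
    rw [← bdry_map, ← hw]; exact ((par_iff_bdry _ _ _).1 (par_src_tgt n w)).symm)
  obtain ⟨h, hh1, -, hh3⟩ := h1.succ ((par_iff_bdry _ _ _).2 ha1.symm) w hw ha2.symm
  exact ⟨h, hh1, hh3⟩

theorem ILift.comp {f : GMap X Y} {g : GMap Y Z} {n : ℕ} (hf : ILift f n) (hg : ILift g n) :
    ILift (f.comp g) n := by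
  intro s z hz
  obtain ⟨y, hy, rfl⟩ := hg (f.sphere n s) z (by rw [hz, sphere_comp])
  obtain ⟨x, hx, rfl⟩ := hf s y hy
  exact ⟨x, hx, rfl⟩

theorem TFib.comp {f : GMap X Y} {g : GMap Y Z} (hf : TFib f) (hg : TFib g) : TFib (f.comp g) :=
  fun n => (hf n).comp (hg n)

theorem sphere_inj {f : GMap X Y} (hf : ∀ n, Function.Injective (f.app n)) :
    ∀ n, Function.Injective (f.sphere n)
  | 0 => fun _ _ _ => rfl
  | n + 1 => fun s t h => by
    have := congrArg Subtype.val h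
    apply Subtype.ext
    exact Prod.ext (hf n (congrArg Prod.fst this)) (hf n (congrArg Prod.snd this))

theorem TFib.of_bij {f : GMap X Y} (hf : ∀ n, Function.Bijective (f.app n)) : TFib f := by
  intro n s y hy
  obtain ⟨x, rfl⟩ := (hf n).2 y
  refine ⟨x, ?_, rfl⟩
  rw [bdry_map] at hy
  exact sphere_inj (fun n => (hf n).1) n hy

/-- a trivial fibration is surjective on cells and on spheres -/
theorem TFib.surj {p : GMap X Y} (hp : TFib p) : ∀ n,
    (∀ s : Y.Sphere n, ∃ t, p.sphere n t = s) ∧ (∀ y : Y.cell n, ∃ x, p.app n x = y) := by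
  intro n
  induction n with
  | zero =>
    exact ⟨fun _ => ⟨PUnit.unit, rfl⟩, fun y => (hp 0).zero y⟩
  | succ n ih =>
    have hs : ∀ s : Y.Sphere (n + 1), ∃ t, p.sphere (n + 1) t = s := by
      rintro ⟨⟨a, b⟩, hab⟩
      obtain ⟨x, rfl⟩ := ih.2 a
      obtain ⟨y, hy, rfl⟩ := hp n (X.bdry n x) b (by
        rw [← bdry_map]; exact ((par_iff_bdry _ _ _).1 hab).symm)
      exact ⟨⟨(x, y), (par_iff_bdry _ _ _).2 hy.symm⟩, rfl⟩
    refine ⟨hs, fun y => ?_⟩
    obtain ⟨t, ht⟩ := hs (Y.bdry _ y)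
    obtain ⟨x, -, hx⟩ := hp (n + 1) t y ht.symm
    exact ⟨x, hx⟩

end Lift

/-! ## Iterated boundaries, hom globular sets, graph presentations -/

def s0 (X : GS.{u}) : (n : ℕ) → X.cell n → X.cell 0
  | 0, x => x
  | n + 1, x => s0 X n (X.src n x)

def t0 (X : GS.{u}) : (n : ℕ) → X.cell n → X.cell 0
  | 0, x => x
  | n + 1, x => t0 X n (X.tgt n x)

theorem s0_tgt (X : GS.{u}) (n : ℕ) (x : X.cell (n + 2)) :
    s0 X (n + 1) (X.tgt (n + 1) x) = s0 X (n + 2) x := by
  simp only [s0, X.src_src]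

theorem t0_src (X : GS.{u}) (n : ℕ) (x : X.cell (n + 2)) :
    t0 X (n + 1) (X.src (n + 1) x) = t0 X (n + 2) x := by
  simp only [t0, X.tgt_tgt]

theorem s0_map {X Y : GS.{u}} (f : GMap X Y) : ∀ (n : ℕ) (x : X.cell n),
    s0 Y n (f.app n x) = f.app 0 (s0 X n x)
  | 0, _ => rfl
  | n + 1, x => by simp only [s0]; rw [← f.app_src, s0_map f n]

theorem t0_map {X Y : GS.{u}} (f : GMap X Y) : ∀ (n : ℕ) (x : X.cell n),
    t0 Y n (f.app n x) = f.app 0 (t0 X n x)
  | 0, _ => rfl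
  | n + 1, x => by simp only [t0]; rw [← f.app_tgt, t0_map f n]

/-- the globular set of cells of positive dimension from `x` to `y` -/
@[reducible] def homG (X : GS.{u}) (x y : X.cell 0) : GS.{u} where
  cell n := {c : X.cell (n + 1) // s0 X (n + 1) c = x ∧ t0 X (n + 1) c = y}
  src n c := ⟨X.src (n + 1) c.1, c.2.1, (t0_src X n c.1).trans c.2.2⟩
  tgt n c := ⟨X.tgt (n + 1) c.1, (s0_tgt X n c.1).trans c.2.1, c.2.2⟩
  src_src n c := Subtype.ext (X.src_src (n + 1) c.1)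
  tgt_tgt n c := Subtype.ext (X.tgt_tgt (n + 1) c.1)

def homMap {X Y : GS.{u}} (f : GMap X Y) (x y : X.cell 0) (x' y' : Y.cell 0)
    (hx : f.app 0 x = x') (hy : f.app 0 y = y') : GMap (homG X x y) (homG Y x' y') where
  app n c := ⟨f.app (n + 1) c.1, by rw [s0_map, c.2.1, hx], by rw [t0_map, c.2.2, hy]⟩
  app_src n c := Subtype.ext (f.app_src (n + 1) c.1)
  app_tgt n c := Subtype.ext (f.app_tgt (n + 1) c.1)

/-- A presentation of the positive-dimensional cells of `Y` by a family of globular sets indexed by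
pairs of `0`-cells. -/
structure Graph (Y : GS.{u}) where
  H : Y.cell 0 → Y.cell 0 → GS.{u}
  ι : ∀ {x y : Y.cell 0} (n : ℕ), (H x y).cell n → Y.cell (n + 1)
  src0 : ∀ {x y : Y.cell 0} (z : (H x y).cell 0), Y.src 0 (ι 0 z) = x
  tgt0 : ∀ {x y : Y.cell 0} (z : (H x y).cell 0), Y.tgt 0 (ι 0 z) = y
  srcS : ∀ {x y : Y.cell 0} (n : ℕ) (z : (H x y).cell (n + 1)),
    Y.src (n + 1) (ι (n + 1) z) = ι n ((H x y).src n z)
  tgtS : ∀ {x y : Y.cell 0} (n : ℕ) (z : (H x y).cell (n + 1)),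
    Y.tgt (n + 1) (ι (n + 1) z) = ι n ((H x y).tgt n z)
  inj : ∀ {x y : Y.cell 0} (n : ℕ), Function.Injective (ι (x := x) (y := y) n)
  surj : ∀ (n : ℕ) (c : Y.cell (n + 1)), ∃ x y, ∃ z : (H x y).cell n, ι n z = c

namespace Graph

variable {Y : GS.{u}} (G : Graph Y)

theorem s0_ι {x y : Y.cell 0} : ∀ (n : ℕ) (z : (G.H x y).cell n), s0 Y (n + 1) (G.ι n z) = x
  | 0, z => G.src0 z
  | n + 1, z => by
    show s0 Y (n + 1) (Y.src (n + 1) _) = x
    rw [G.srcS, s0_ι n]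

theorem t0_ι {x y : Y.cell 0} : ∀ (n : ℕ) (z : (G.H x y).cell n), t0 Y (n + 1) (G.ι n z) = y
  | 0, z => G.tgt0 z
  | n + 1, z => by
    show t0 Y (n + 1) (Y.tgt (n + 1) _) = y
    rw [G.tgtS, t0_ι n]

theorem surj' {x y : Y.cell 0} (n : ℕ) (c : Y.cell (n + 1)) (hx : s0 Y (n + 1) c = x)
    (hy : t0 Y (n + 1) c = y) : ∃ z : (G.H x y).cell n, G.ι n z = c := by
  obtain ⟨x', y', z, rfl⟩ := G.surj n c
  rw [G.s0_ι] at hx
  rw [G.t0_ι] at hy
  subst hx hy
  exact ⟨z, rfl⟩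

end Graph

@[reducible] def homGraph (Y : GS.{u}) : Graph Y where
  H := homG Y
  ι _ z := z.1
  src0 z := z.2.1
  tgt0 z := z.2.2
  srcS _ _ := rfl
  tgtS _ _ := rfl
  inj _ := Subtype.val_injective
  surj _ c := ⟨_, _, ⟨c, rfl, rfl⟩, rfl⟩

/-! ## Faces -/

/-- `Face X a b`: `a` is an iterated boundary of `b` (possibly `b` itself). -/
inductive Face (X : GS.{u}) (b : Σ n, X.cell n) : (Σ n, X.cell n) → Prop
  | refl : Face X b b
  | src {n : ℕ} (x : X.cell (n + 1)) : Face X b ⟨n + 1, x⟩ → Face X b ⟨n, X.src n x⟩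
  | tgt {n : ℕ} (x : X.cell (n + 1)) : Face X b ⟨n + 1, x⟩ → Face X b ⟨n, X.tgt n x⟩

theorem Face.trans {X : GS.{u}} {a b c : Σ n, X.cell n} (h : Face X a b) (h' : Face X b c) :
    Face X a c := by
  induction h' with
  | refl => exact h
  | src x _ ih => exact Face.src x ih
  | tgt x _ ih => exact Face.tgt x ih

theorem Face.s0 {X : GS.{u}} : ∀ (n : ℕ) (x : X.cell n), Face X ⟨n, x⟩ ⟨0, s0 X n x⟩
  | 0, _ => Face.refl
  | n + 1, x => (Face.src x Face.refl).trans (Face.s0 n _)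

theorem Face.t0 {X : GS.{u}} : ∀ (n : ℕ) (x : X.cell n), Face X ⟨n, x⟩ ⟨0, t0 X n x⟩
  | 0, _ => Face.refl
  | n + 1, x => (Face.tgt x Face.refl).trans (Face.t0 n _)

theorem Face.map {X Y : GS.{u}} (f : GMap X Y) {a b : Σ n, X.cell n} (h : Face X a b) :
    Face Y ⟨a.1, f.app _ a.2⟩ ⟨b.1, f.app _ b.2⟩ := by
  induction h with
  | refl => exact Face.refl
  | src x _ ih => simp only [f.app_src]; exact Face.src _ ih
  | tgt x _ ih => simp only [f.app_tgt]; exact Face.tgt _ ih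

theorem Face.le {X : GS.{u}} {a b : Σ n, X.cell n} (h : Face X a b) : b.1 ≤ a.1 := by
  induction h with
  | refl => exact le_rfl
  | src x _ ih => exact le_trans (Nat.le_succ _) ih
  | tgt x _ ih => exact le_trans (Nat.le_succ _) ih

theorem Face.eq_of_dim {X : GS.{u}} {a b : Σ n, X.cell n} (h : Face X a b) (hd : a.1 ≤ b.1) :
    b = a := by
  cases h with
  | refl => rfl
  | src x h => have := h.le; simp at this hd; omega
  | tgt x h => have := h.le; simp at this hd; omega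

/-- a proper face of `x` is a face of its source or of its target -/
theorem Face.cases_top {X : GS.{u}} {n : ℕ} {x : X.cell (n + 1)} {b : Σ n, X.cell n}
    (h : Face X ⟨n + 1, x⟩ b) :
    b = ⟨n + 1, x⟩ ∨ Face X ⟨n, X.src n x⟩ b ∨ Face X ⟨n, X.tgt n x⟩ b := by
  induction h with
  | refl => exact Or.inl rfl
  | src y _ ih =>
    rcases ih with h | h | h
    · cases h; exact Or.inr (Or.inl Face.refl)
    · exact Or.inr (Or.inl (Face.src y h))
    · exact Or.inr (Or.inr (Face.src y h))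
  | tgt y _ ih =>
    rcases ih with h | h | h
    · cases h; exact Or.inr (Or.inr Face.refl)
    · exact Or.inr (Or.inl (Face.tgt y h))
    · exact Or.inr (Or.inr (Face.tgt y h))

/-- a proper face of the target of `x` is a face of its source -/
theorem Face.of_tgt {X : GS.{u}} {n : ℕ} {x : X.cell (n + 1)} {b : Σ n, X.cell n}
    (h : Face X ⟨n, X.tgt n x⟩ b) : b = ⟨n, X.tgt n x⟩ ∨ Face X ⟨n, X.src n x⟩ b := by
  cases n with
  | zero => exact Or.inl (h.eq_of_dim (Nat.zero_le _))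
  | succ n =>
    rcases h.cases_top with h | h | h
    · exact Or.inl h
    · rw [← X.src_src] at h
      exact Or.inr ((Face.src _ Face.refl).trans h)
    · rw [← X.tgt_tgt] at h
      exact Or.inr ((Face.tgt _ Face.refl).trans h)

theorem Face.app_eq {X Y : GS.{u}} {f g : GMap X Y} {a b : Σ n, X.cell n} (h : Face X a b)
    (ha : f.app _ a.2 = g.app _ a.2) : f.app _ b.2 = g.app _ b.2 := by
  induction h with
  | refl => exact ha
  | src x _ ih => simp only [f.app_src, g.app_src]; exact congrArg _ ih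
  | tgt x _ ih => simp only [f.app_tgt, g.app_tgt]; exact congrArg _ ih

/-! ## Trees and their positions -/

inductive Tr : Type
  | node (m : ℕ) (ch : Fin m → Tr) : Tr

namespace Tr

def dim : Tr → ℕ
  | node m ch => if m = 0 then 0 else (Finset.univ.sup fun l => (ch l).dim) + 1

def pt : Tr := node 0 Fin.elim0

def susp (A : Tr) : Tr := node 1 fun _ => A

def disk : ℕ → Tr
  | 0 => pt
  | n + 1 => susp (disk n)

theorem dim_ch_lt {m : ℕ} (ch : Fin m → Tr) (l : Fin m) : (ch l).dim < (node m ch).dim := by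
  have hm : m ≠ 0 := by rintro rfl; exact l.elim0
  rw [dim, if_neg hm]
  exact Nat.lt_succ_of_le (Finset.le_sup (f := fun l => (ch l).dim) (Finset.mem_univ l))

theorem dim_le_succ {m : ℕ} (ch : Fin m → Tr) (k : ℕ) (h : ∀ l, (ch l).dim ≤ k) :
    (node m ch).dim ≤ k + 1 := by
  rw [dim]
  split_ifs
  · omega
  · exact Nat.succ_le_succ (Finset.sup_le fun l _ => h l)

@[simp] theorem dim_pt : pt.dim = 0 := by simp [pt, dim]

@[simp] theorem dim_susp (A : Tr) : (susp A).dim = A.dim + 1 := by simp [susp, dim]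

@[simp] theorem dim_disk : ∀ n, (disk n).dim = n
  | 0 => dim_pt
  | n + 1 => by rw [disk, dim_susp, dim_disk n]

end Tr

open Tr

inductive Pos : Tr → ℕ → Type u
  | vtx {m : ℕ} {ch : Fin m → Tr} (i : Fin (m + 1)) : Pos (.node m ch) 0
  | br {m : ℕ} {ch : Fin m → Tr} {n : ℕ} (l : Fin m) (p : Pos (ch l) n) :
      Pos (.node m ch) (n + 1)

namespace Pos

def src : {A : Tr} → {n : ℕ} → Pos.{u} A (n + 1) → Pos.{u} A n
  | _, 0, br l _ => vtx l.castSucc
  | _, _ + 1, br l p => br l (src p)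

def tgt : {A : Tr} → {n : ℕ} → Pos.{u} A (n + 1) → Pos.{u} A n
  | _, 0, br l _ => vtx l.succ
  | _, _ + 1, br l p => br l (tgt p)

theorem src_src : ∀ {A : Tr} {n : ℕ} (p : Pos.{u} A (n + 2)), src (src p) = src (tgt p)
  | _, 0, br _ _ => rfl
  | _, _ + 1, br l p => congrArg (br l) (src_src p)

theorem tgt_tgt : ∀ {A : Tr} {n : ℕ} (p : Pos.{u} A (n + 2)), tgt (src p) = tgt (tgt p)
  | _, 0, br _ _ => rfl
  | _, _ + 1, br l p => congrArg (br l) (tgt_tgt p)

theorem le_dim : ∀ {A : Tr} {n : ℕ} (_ : Pos.{u} A n), n ≤ A.dim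
  | _, _, vtx _ => Nat.zero_le _
  | _, _, br l p => Nat.succ_le_of_lt (lt_of_le_of_lt (le_dim p) (dim_ch_lt _ l))

/-- the first vertex -/
def v0 : (A : Tr) → Pos.{u} A 0
  | .node _ _ => vtx 0

theorem finite_all : ∀ A : Tr, Finite (Σ n, Pos.{u} A n)
  | .node m ch => by
    have := fun l => finite_all (ch l)
    let f : (Fin (m + 1) ⊕ Σ l : Fin m, Σ n, Pos.{u} (ch l) n) → Σ n, Pos.{u} (.node m ch) n :=
      fun a => match a with
        | .inl i => ⟨0, vtx i⟩
        | .inr ⟨l, n, p⟩ => ⟨n + 1, br l p⟩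
    refine Finite.of_surjective f ?_
    rintro ⟨n, p⟩
    cases p with
    | vtx i => exact ⟨.inl i, rfl⟩
    | br l p => exact ⟨.inr ⟨l, _, p⟩, rfl⟩

instance (A : Tr) : Finite (Σ n, Pos.{u} A n) := finite_all A

theorem src_ne_tgt : ∀ {A : Tr} {n : ℕ} (p : Pos.{u} A (n + 1)), src p ≠ tgt p
  | _, 0, br l _ => by
    intro h
    have : l.castSucc = l.succ := by simpa [src, tgt] using h
    exact absurd (congrArg Fin.val this) (by simp)
  | _, _ + 1, br l p => by
    intro h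
    have : src p = tgt p := by simpa [src, tgt] using h
    exact src_ne_tgt p this

end Pos

/-- the globular set of positions of a tree -/
@[reducible] def posG (A : Tr) : GS.{u} where
  cell := Pos A
  src _ := Pos.src
  tgt _ := Pos.tgt
  src_src _ := Pos.src_src
  tgt_tgt _ := Pos.tgt_tgt

namespace Graph

variable {Y : GS.{u}} (G : Graph Y)

/-- assemble a map out of the positions of a tree from vertices and maps on the branches -/
def asm {m : ℕ} {ch : Fin m → Tr} (x : Fin (m + 1) → Y.cell 0)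
    (σ : ∀ l, GMap (posG (ch l)) (G.H (x l.castSucc) (x l.succ))) :
    GMap (posG (.node m ch)) Y where
  app n p := match n, p with
    | _, .vtx i => x i
    | _, .br l p => G.ι _ ((σ l).app _ p)
  app_src n p := match n, p with
    | 0, .br _ _ => (G.src0 _).symm
    | n + 1, .br l p => by
      show G.ι n ((σ l).app n ((posG _).src n p)) = Y.src (n + 1) (G.ι (n + 1) _)
      rw [G.srcS, (σ l).app_src]
  app_tgt n p := match n, p with
    | 0, .br _ _ => (G.tgt0 _).symm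
    | n + 1, .br l p => by
      show G.ι n ((σ l).app n ((posG _).tgt n p)) = Y.tgt (n + 1) (G.ι (n + 1) _)
      rw [G.tgtS, (σ l).app_tgt]

@[simp] theorem asm_vtx {m : ℕ} {ch : Fin m → Tr} (x : Fin (m + 1) → Y.cell 0)
    (σ : ∀ l, GMap (posG (ch l)) (G.H (x l.castSucc) (x l.succ))) (i : Fin (m + 1)) :
    (G.asm x σ).app 0 (Pos.vtx i) = x i := rfl

@[simp] theorem asm_br {m : ℕ} {ch : Fin m → Tr} (x : Fin (m + 1) → Y.cell 0)
    (σ : ∀ l, GMap (posG (ch l)) (G.H (x l.castSucc) (x l.succ))) (l : Fin m) (n : ℕ)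
    (p : Pos (ch l) n) : (G.asm x σ).app (n + 1) (Pos.br l p) = G.ι n ((σ l).app n p) := rfl

theorem s0_br {m : ℕ} {ch : Fin m → Tr} (l : Fin m) : ∀ (n : ℕ) (p : Pos.{u} (ch l) n),
    s0 (posG (.node m ch)) (n + 1) (Pos.br l p) = Pos.vtx l.castSucc
  | 0, _ => rfl
  | n + 1, p => s0_br l n (Pos.src p)

theorem t0_br {m : ℕ} {ch : Fin m → Tr} (l : Fin m) : ∀ (n : ℕ) (p : Pos.{u} (ch l) n),
    t0 (posG (.node m ch)) (n + 1) (Pos.br l p) = Pos.vtx l.succ
  | 0, _ => rfl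
  | n + 1, p => t0_br l n (Pos.tgt p)

theorem asm_surj {m : ℕ} {ch : Fin m → Tr} (τ : GMap (posG (.node m ch)) Y)
    (x : Fin (m + 1) → Y.cell 0) (hx : ∀ i, τ.app 0 (Pos.vtx i) = x i) :
    ∃ σ : ∀ l, GMap (posG (ch l)) (G.H (x l.castSucc) (x l.succ)), G.asm x σ = τ := by
  have h : ∀ l n (p : Pos.{u} (ch l) n), ∃ z : (G.H (x l.castSucc) (x l.succ)).cell n,
      G.ι n z = τ.app (n + 1) (Pos.br l p) := fun l n p =>
    G.surj' n _ (by rw [s0_map, s0_br, hx]) (by rw [t0_map, t0_br, hx])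
  choose z hz using h
  refine ⟨fun l => ⟨z l, fun n p => G.inj n ?_, fun n p => G.inj n ?_⟩, GMap.ext' fun n p => ?_⟩
  · rw [hz, ← G.srcS, hz, ← τ.app_src]; rfl
  · rw [hz, ← G.tgtS, hz, ← τ.app_tgt]; rfl
  · cases p with
    | vtx i => exact (hx i).symm
    | br l p => exact hz l _ p

theorem asm_inj {m : ℕ} {ch : Fin m → Tr} (x : Fin (m + 1) → Y.cell 0)
    {σ σ' : ∀ l, GMap (posG (ch l)) (G.H (x l.castSucc) (x l.succ))}
    (h : G.asm x σ = G.asm x σ') : σ = σ' := by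
  funext l
  refine GMap.ext' fun n p => G.inj n ?_
  rw [← G.asm_br x σ, h, G.asm_br]

end Graph

/-! ## Disks -/

def top : (n : ℕ) → Pos.{u} (disk n) n
  | 0 => .vtx 0
  | n + 1 => .br 0 (top n)

/-- the embedding of the positions of a branch, as a map into a hom globular set -/
def brMap {m : ℕ} (ch : Fin m → Tr) (l : Fin m) :
    GMap (posG.{u} (ch l)) (homG (posG (.node m ch)) (Pos.vtx l.castSucc) (Pos.vtx l.succ)) where
  app n p := ⟨Pos.br l p, Graph.s0_br l n p, Graph.t0_br l n p⟩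
  app_src _ _ := rfl
  app_tgt _ _ := rfl

theorem Face.br {m : ℕ} {ch : Fin m → Tr} (l : Fin m) {a b : Σ n, (posG.{u} (ch l)).cell n}
    (h : Face (posG (ch l)) a b) :
    Face (posG (.node m ch)) ⟨a.1 + 1, Pos.br l a.2⟩ ⟨b.1 + 1, Pos.br l b.2⟩ := by
  induction h with
  | refl => exact Face.refl
  | src x _ ih => exact Face.src (X := posG (.node m ch)) (Pos.br l x) ih
  | tgt x _ ih => exact Face.tgt (X := posG (.node m ch)) (Pos.br l x) ih

theorem face_top : ∀ (n k : ℕ) (p : Pos.{u} (disk n) k), Face (posG (disk n)) ⟨n, top n⟩ ⟨k, p⟩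
  | 0, _, .vtx i => by
    have : i = 0 := Subsingleton.elim (α := Fin 1) _ _
    subst this; exact Face.refl
  | 0, _, .br l _ => l.elim0
  | n + 1, _, .vtx i => by
    have h1 := Face.s0 (X := posG.{u} (disk (n + 1))) (n + 1) (top (n + 1))
    have h2 := Face.t0 (X := posG.{u} (disk (n + 1))) (n + 1) (top (n + 1))
    have e1 := Graph.s0_br (ch := fun _ : Fin 1 => disk n) 0 n (top.{u} n)
    have e2 := Graph.t0_br (ch := fun _ : Fin 1 => disk n) 0 n (top.{u} n)
    fin_cases i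
    · exact e1 ▸ h1
    · exact e2 ▸ h2
  | n + 1, _, .br l p => by
    have : l = 0 := Subsingleton.elim (α := Fin 1) _ _
    subst this
    exact Face.br (ch := fun _ : Fin 1 => disk n) 0 (face_top n _ p)

theorem disk_ext {n : ℕ} {Y : GS.{u}} {f g : GMap (posG (disk n)) Y}
    (h : f.app n (top n) = g.app n (top n)) : f = g :=
  GMap.ext' fun k p => Face.app_eq (face_top n k p) h

theorem pos_disk_top {n : ℕ} (p : Pos.{u} (disk n) n) : p = top n := by
  have := (face_top n n p).eq_of_dim le_rfl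
  cases this; rfl

/-- the map from the `n`-disk classifying an `n`-cell -/
def cls : (n : ℕ) → {Y : GS.{u}} → Y.cell n → GMap (posG (disk n)) Y
  | 0, Y, y => (homGraph Y).asm (m := 0) (fun _ => y) (fun l => l.elim0)
  | n + 1, Y, y => (homGraph Y).asm (m := 1) (ch := fun _ => disk n)
      (fun i => if i = 0 then s0 Y _ y else t0 Y _ y)
      (fun l => cls n (Y := homG Y _ _) ⟨y, by fin_cases l; rfl, by fin_cases l; rfl⟩)

@[simp] theorem cls_top : ∀ (n : ℕ) {Y : GS.{u}} (y : Y.cell n), (cls n y).app n (top n) = y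
  | 0, _, _ => rfl
  | n + 1, Y, y => by
    exact congrArg Subtype.val (cls_top n (Y := homG Y _ _) ⟨y, rfl, rfl⟩)

theorem cls_comp {n : ℕ} {Y Z : GS.{u}} (y : Y.cell n) (f : GMap Y Z) :
    (cls n y).comp f = cls n (f.app n y) := disk_ext (by simp)

theorem eq_cls {n : ℕ} {Y : GS.{u}} (f : GMap (posG (disk n)) Y) : f = cls n (f.app n (top n)) :=
  disk_ext (by simp)

theorem cls_face {n : ℕ} {Y : GS.{u}} (y : Y.cell n) (k : ℕ) (p : Pos.{u} (disk n) k) :
    Face Y ⟨n, y⟩ ⟨k, (cls n y).app k p⟩ := by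
  have := (face_top n k p).map (cls n y)
  simpa using this

theorem face_cls {n : ℕ} {Y : GS.{u}} (y : Y.cell n) {b : Σ k, Y.cell k} (h : Face Y ⟨n, y⟩ b) :
    ∃ p : Pos.{u} (disk n) b.1, (cls n y).app b.1 p = b.2 := by
  induction h with
  | refl => exact ⟨top n, cls_top n y⟩
  | src x _ ih =>
    obtain ⟨p, hp⟩ := ih
    exact ⟨Pos.src p, ((cls n y).app_src _ p).trans (congrArg _ hp)⟩
  | tgt x _ ih =>
    obtain ⟨p, hp⟩ := ih
    exact ⟨Pos.tgt p, ((cls n y).app_tgt _ p).trans (congrArg _ hp)⟩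

/-- source face of disks -/
def dσ (n : ℕ) : GMap (posG.{u} (disk n)) (posG (disk (n + 1))) :=
  cls n (Y := posG (disk (n + 1))) (Pos.src (top (n + 1)))

/-- target face of disks -/
def dτ (n : ℕ) : GMap (posG.{u} (disk n)) (posG (disk (n + 1))) :=
  cls n (Y := posG (disk (n + 1))) (Pos.tgt (top (n + 1)))

theorem dσ_cls {n : ℕ} {Y : GS.{u}} (y : Y.cell (n + 1)) :
    (dσ n).comp (cls (n + 1) y) = cls n (Y.src n y) := by
  rw [dσ, cls_comp]
  congr 1
  exact ((cls (n + 1) y).app_src n (top (n + 1))).trans (by rw [cls_top])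

theorem dτ_cls {n : ℕ} {Y : GS.{u}} (y : Y.cell (n + 1)) :
    (dτ n).comp (cls (n + 1) y) = cls n (Y.tgt n y) := by
  rw [dτ, cls_comp]
  congr 1
  exact ((cls (n + 1) y).app_tgt n (top (n + 1))).trans (by rw [cls_top])

/-- generic chain construction by dependent choice -/
theorem exists_chain {α : Sort*} (P : ℕ → α → Prop) (le : α → α → Prop) (a0 : α) (h0 : P 0 a0)
    (hs : ∀ r a, P r a → ∃ b, P (r + 1) b ∧ le a b) :
    ∃ f : ℕ → α, f 0 = a0 ∧ ∀ r, P r (f r) ∧ le (f r) (f (r + 1)) := by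
  choose g hg using hs
  let F : (r : ℕ) → {a // P r a} := fun r =>
    Nat.rec (motive := fun r => {a // P r a}) ⟨a0, h0⟩ (fun r a => ⟨g r a.1 a.2, (hg r a.1 a.2).1⟩) r
  exact ⟨fun r => (F r).1, rfl, fun r => ⟨(F r).2, (hg r (F r).1 (F r).2).2⟩⟩

end Crest.Agent.R248
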