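import Crest.Agent.R248.Natural

/-!
# Row 248, file 5: hom algebras, whiskering, the division lemma, two-out-of-three.
-/

set_option autoImplicit false

namespace Crest.Agent.R248

open Crest.GeometryTopology.Coherator Tr

universe u

/-! ## Recursive description of the lifting properties through graphs -/

section GraphLift

variable {X Y : GS.{u}} (GX : Graph X) (GY : Graph Y) (f : GMap X Y)

/-- a family of maps between the hom objects inducing `f` -/
structure Graph.Over (GX : Graph X) (GY : Graph Y) (f : GMap X Y) where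
  m : ∀ x x', GMap (GX.H x x') (GY.H (f.app 0 x) (f.app 0 x'))
  comm : ∀ x x' n z, GY.ι n ((m x x').app n z) = f.app (n + 1) (GX.ι n z)

def homOver : Graph.Over (homGraph X) (homGraph Y) f :=
  ⟨fun x x' => homMap f x x' _ _ rfl rfl, fun _ _ _ _ => rfl⟩

variable {GX GY f}

theorem Graph.step_iff (G : Graph X) {x y : X.cell 0} {n : ℕ} (a b : (G.H x y).cell n) :
    (G.H x y).Step n a b ↔ X.Step (n + 1) (G.ι n a) (G.ι n b) := by
  constructor
  · rintro ⟨c, rfl, rfl⟩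
    exact ⟨G.ι _ c, G.srcS _ _, G.tgtS _ _⟩
  · rintro ⟨c, h1, h2⟩
    obtain ⟨z, rfl⟩ := G.surj' (x := x) (y := y) (n + 1) c
      (by show s0 X (n + 1) (X.src _ c) = x; rw [h1, G.s0_ι])
      (by show t0 X (n + 1) (X.tgt _ c) = y; rw [h2, G.t0_ι])
    rw [G.srcS] at h1
    rw [G.tgtS] at h2
    exact ⟨z, G.inj _ h1, G.inj _ h2⟩

theorem Graph.par_iff (G : Graph X) {x y : X.cell 0} : ∀ {n : ℕ} (a b : (G.H x y).cell n),
    (G.H x y).AreParallel n a b ↔ X.AreParallel (n + 1) (G.ι n a) (G.ι n b)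
  | 0, a, b => ⟨fun _ => ⟨by rw [G.src0, G.src0], by rw [G.tgt0, G.tgt0]⟩, fun _ => trivial⟩
  | n + 1, a, b => by
    show _ ∧ _ ↔ _ ∧ _
    rw [G.srcS, G.srcS, G.tgtS, G.tgtS, (G.inj n).eq_iff, (G.inj n).eq_iff]

theorem par_s0 {n : ℕ} {a b : X.cell (n + 1)} (h : X.AreParallel (n + 1) a b) :
    s0 X _ a = s0 X _ b ∧ t0 X _ a = t0 X _ b :=
  ⟨congrArg (s0 X n) h.1, congrArg (t0 X n) h.2⟩

/-- a generic transfer: a lifting property with a relation `Rel` on cells of the target -/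
theorem Graph.Over.lift_succ (F : Graph.Over GX GY f)
    (Rel : ∀ (Z : GS.{u}) (n : ℕ), Z.cell n → Z.cell n → Prop)
    (hRel : ∀ {x y : Y.cell 0} {n : ℕ} (a b : (GY.H x y).cell n),
      Rel _ n a b ↔ Rel Y (n + 1) (GY.ι n a) (GY.ι n b)) (n : ℕ) :
    (∀ (s : X.Sphere (n + 1)) (y : Y.cell (n + 1)), Y.bdry _ y = f.sphere _ s →
      ∃ x, X.bdry _ x = s ∧ Rel Y _ (f.app _ x) y) ↔
    ∀ x x', ∀ (s : (GX.H x x').Sphere n) (y : (GY.H _ _).cell n),
      (GY.H _ _).bdry _ y = (F.m x x').sphere _ s →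
      ∃ z, (GX.H x x').bdry _ z = s ∧ Rel _ _ ((F.m x x').app _ z) y := by
  cases n with
  | zero =>
    constructor
    · intro h x x' s y _
      obtain ⟨c, hc, hr⟩ := h ⟨(x, x'), trivial⟩ (GY.ι 0 y)
        ((bdry_eq_iff _ _).2 ⟨GY.src0 _, GY.tgt0 _⟩)
      obtain ⟨h1, h2⟩ := (bdry_eq_iff _ _).1 hc
      obtain ⟨z, rfl⟩ := GX.surj' (x := x) (y := x') 0 c h1 h2
      exact ⟨z, rfl, (hRel _ _).2 (by rwa [F.comm])⟩
    · rintro h ⟨⟨x, x'⟩, hx⟩ y hy
      obtain ⟨h1, h2⟩ := (bdry_eq_iff _ _).1 hy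
      obtain ⟨y', rfl⟩ := GY.surj' (x := f.app 0 x) (y := f.app 0 x') 0 y h1 h2
      obtain ⟨z, -, hr⟩ := h x x' PUnit.unit y' rfl
      exact ⟨GX.ι 0 z, (bdry_eq_iff _ _).2 ⟨GX.src0 _, GX.tgt0 _⟩,
        by rw [← F.comm]; exact (hRel _ _).1 hr⟩
  | succ n =>
    constructor
    · rintro h x x' ⟨⟨a, b⟩, hab⟩ y hy
      obtain ⟨h1, h2⟩ := (bdry_eq_iff _ _).1 hy
      obtain ⟨c, hc, hr⟩ := h ⟨(GX.ι n a, GX.ι n b), (GX.par_iff a b).1 hab⟩ (GY.ι _ y)
        ((bdry_eq_iff _ _).2 ⟨by rw [GY.srcS, h1]; exact F.comm _ _ _ _,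
          by rw [GY.tgtS, h2]; exact F.comm _ _ _ _⟩)
      obtain ⟨h3, h4⟩ := (bdry_eq_iff _ _).1 hc
      obtain ⟨z, rfl⟩ := GX.surj' (x := x) (y := x') (n + 1) c
        (by show s0 X (n + 1) (X.src _ c) = x; rw [h3, GX.s0_ι])
        (by show t0 X (n + 1) (X.tgt _ c) = x'; rw [h4, GX.t0_ι])
      rw [GX.srcS] at h3
      rw [GX.tgtS] at h4
      exact ⟨z, (bdry_eq_iff _ _).2 ⟨GX.inj _ h3, GX.inj _ h4⟩, (hRel _ _).2 (by rwa [F.comm])⟩
    · rintro h ⟨⟨a, b⟩, hab⟩ y hy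
      obtain ⟨h1, h2⟩ := (bdry_eq_iff _ _).1 hy
      obtain ⟨x, x', a, rfl⟩ := GX.surj n a
      obtain ⟨b, rfl⟩ := GX.surj' (x := x) (y := x') n b
        (by rw [← (par_s0 hab).1, GX.s0_ι]) (by rw [← (par_s0 hab).2, GX.t0_ι])
      replace h1 : Y.src _ y = f.app _ (GX.ι n a) := h1
      replace h2 : Y.tgt _ y = f.app _ (GX.ι n b) := h2
      obtain ⟨y', rfl⟩ := GY.surj' (x := f.app 0 x) (y := f.app 0 x') (n + 1) y
        (by show s0 Y (n + 1) (Y.src _ y) = _; rw [h1, s0_map, GX.s0_ι])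
        (by show t0 Y (n + 1) (Y.tgt _ y) = _; rw [h2, t0_map, GX.t0_ι])
      rw [GY.srcS, ← F.comm] at h1
      rw [GY.tgtS, ← F.comm] at h2
      obtain ⟨z, hz, hr⟩ := h x x' ⟨(a, b), (GX.par_iff a b).2 hab⟩ y'
        ((bdry_eq_iff _ _).2 ⟨GY.inj _ h1, GY.inj _ h2⟩)
      obtain ⟨h3, h4⟩ := (bdry_eq_iff _ _).1 hz
      refine ⟨GX.ι _ z, (bdry_eq_iff _ _).2 ⟨by rw [GX.srcS, h3], by rw [GX.tgtS, h4]⟩, ?_⟩
      rw [← F.comm]
      exact (hRel _ _).1 hr

theorem Graph.Over.wlift_succ (F : Graph.Over GX GY f) (n : ℕ) :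
    WLift f (n + 1) ↔ ∀ x x', WLift (F.m x x') n :=
  F.lift_succ (fun Z n a b => Z.Step n a b) (fun a b => GY.step_iff a b) n

theorem Graph.Over.ilift_succ (F : Graph.Over GX GY f) (n : ℕ) :
    ILift f (n + 1) ↔ ∀ x x', ILift (F.m x x') n :=
  F.lift_succ (fun _ _ a b => a = b) (fun _ _ => (GY.inj _).eq_iff.symm) n

theorem Graph.Over.jlift_succ (F : Graph.Over GX GY f) (n : ℕ) (h : ∀ x x', JLift (F.m x x') n) :
    JLift f (n + 1) := by
  intro a w hw
  obtain ⟨x, x', a, rfl⟩ := GX.surj n a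
  obtain ⟨w, rfl⟩ := GY.surj' (x := f.app 0 x) (y := f.app 0 x') (n + 1) w
    (by show s0 Y (n + 1) (Y.src _ w) = _; rw [hw, s0_map, GX.s0_ι])
    (by rw [← t0_src, hw, t0_map, GX.t0_ι])
  rw [GY.srcS, ← F.comm] at hw
  obtain ⟨c, h1, h2⟩ := h x x' a w (GY.inj _ hw)
  exact ⟨GX.ι _ c, by rw [GX.srcS, h1], by rw [← F.comm, h2]⟩

theorem Graph.Over.W_succ (F : Graph.Over GX GY f) (L : ℕ) :
    W (L + 1) f ↔ (∀ y, ∃ x, Y.Step 0 (f.app 0 x) y) ∧ ∀ x x', W L (F.m x x') := by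
  constructor
  · intro h
    exact ⟨fun y => (h 0 (Nat.succ_pos _)).zero y,
      fun x x' n hn => (F.wlift_succ n).1 (h (n + 1) (Nat.succ_lt_succ hn)) x x'⟩
  · rintro ⟨h0, h⟩ n hn
    cases n with
    | zero => exact WLift.of_zero h0
    | succ n => exact (F.wlift_succ n).2 fun x x' => h x x' n (Nat.lt_of_succ_lt_succ hn)

theorem W_succ_iff (f : GMap X Y) (L : ℕ) :
    W (L + 1) f ↔ (∀ y, ∃ x, Y.Step 0 (f.app 0 x) y) ∧
      ∀ x x', W L (homMap f x x' _ _ rfl rfl) := (homOver f).W_succ L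

theorem conn_hom {L : ℕ} (h : Conn (L + 1) X) (x y : X.cell 0) : Conn L (homG X x y) := by
  intro n hn s
  have := ((homOver (toUnit X)).ilift_succ n).1 (ILift_unit_iff.2 (h _ (Nat.succ_lt_succ hn))) x y
  have e : ∀ k, Subsingleton ((homG unitG.{u} PUnit.unit PUnit.unit).cell k) := fun k =>
    ⟨fun a b => Subtype.ext rfl⟩
  obtain ⟨z, hz, -⟩ := this s ⟨PUnit.unit, rfl, rfl⟩ (by
    cases n with
    | zero => rfl
    | succ n => exact Subtype.ext (Prod.ext (Subtype.ext rfl) (Subtype.ext rfl)))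
  exact ⟨z, hz⟩

end GraphLift

/-! ## Hom algebras -/

section HomAlg

variable (D : Coh.{u})

/-- the two end points of a suspension -/
def ends {α : Type u} (x y : α) : Fin 2 → α := fun i => if i = 0 then x else y

/-- the map out of a suspension given by a map into a hom object of a graph -/
def Graph.susp {Y : GS.{u}} (G : Graph Y) {A : Tr} (x y : Y.cell 0) (σ : GMap (posG A) (G.H x y)) :
    GMap (posG (susp A)) Y :=
  G.asm (m := 1) (ch := fun _ => A) (ends x y) fun l => match l with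
    | ⟨0, _⟩ => σ

@[simp] theorem Graph.susp_br {Y : GS.{u}} (G : Graph Y) {A : Tr} (x y : Y.cell 0)
    (σ : GMap (posG A) (G.H x y)) (n : ℕ) (p : Pos A n) :
    (G.susp x y σ).app (n + 1) (Pos.br (ch := fun _ : Fin 1 => A) 0 p) = G.ι n (σ.app n p) := rfl

@[simp] theorem Graph.susp_v0 {Y : GS.{u}} (G : Graph Y) {A : Tr} (x y : Y.cell 0)
    (σ : GMap (posG A) (G.H x y)) :
    (G.susp x y σ).app 0 (Pos.vtx (ch := fun _ : Fin 1 => A) 0) = x := rfl

@[simp] theorem Graph.susp_v1 {Y : GS.{u}} (G : Graph Y) {A : Tr} (x y : Y.cell 0)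
    (σ : GMap (posG A) (G.H x y)) :
    (G.susp x y σ).app 0 (Pos.vtx (ch := fun _ : Fin 1 => A) 1) = y := rfl

theorem susp_ext {Y : GS.{u}} {A : Tr} {f g : GMap (posG (susp A)) Y}
    (h : ∀ n p, f.app (n + 1) (Pos.br (ch := fun _ : Fin 1 => A) 0 p) =
      g.app (n + 1) (Pos.br (ch := fun _ : Fin 1 => A) 0 p)) : f = g := by
  refine GMap.ext' fun n p => ?_
  cases p with
  | vtx i =>
    fin_cases i
    · have := congrArg (Y.src 0) (h 0 (Pos.v0 A))
      rwa [← f.app_src, ← g.app_src] at this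
    · have := congrArg (Y.tgt 0) (h 0 (Pos.v0 A))
      rwa [← f.app_tgt, ← g.app_tgt] at this
  | br l p =>
    obtain rfl : l = 0 := Subsingleton.elim _ _
    exact h _ p

/-- bipointed algebras and their hom globular sets -/
def homFam : NatFam.{u, u + 1, u} D where
  Obj := Σ Y : Alg D.toSig, Y.G.cell 0 × Y.G.cell 0
  Hom a b := {f : AHom a.1 b.1 // f.map.app 0 a.2.1 = b.2.1 ∧ f.map.app 0 a.2.2 = b.2.2}
  Φ a := homG a.1.G a.2.1 a.2.2
  Φm f := homMap f.1.map _ _ _ _ f.2.1 f.2.2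
  Ψ _ := unitAlg D.toThy
  π _ := toUnit _

noncomputable def homRep : (homFam D).Rep where
  rep A := ⟨FrT D.toThy (susp A), (η D.toThy _).app 0 (Pos.vtx 0), (η D.toThy _).app 0 (Pos.vtx 1)⟩
  un A := (brMap (fun _ : Fin 1 => A) 0).comp (homMap (η D.toThy _) _ _ _ _ rfl rfl)
  ex A a σ := ⟨⟨ext ((homGraph a.1.G).susp _ _ σ), ext_η_app _ _ _, ext_η_app _ _ _⟩,
    GMap.ext' fun _ _ => Subtype.ext (ext_η_app _ _ _)⟩
  uniq A a h h' e := by
    have : h.1 = h'.1 := frG_ext (susp_ext fun n p =>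
      congrArg Subtype.val (congrArg (fun φ : GMap (posG A) _ => φ.app n p) e))
    obtain rfl : h = h' := Subtype.ext this
    rfl
  comp _ _ _ h k := ⟨⟨h.1.comp k.1, by simp [h.2.1, k.2.1], by simp [h.2.2, k.2.2]⟩, rfl⟩
  Ψm _ := AHom.id _
  π_nat _ _ _ := rfl
  lift A n _ := ILift_unit_iff.2 (conn_hom (D.full (susp A) (n + 3)) _ _ _ (by omega))

variable {D}

/-- the hom algebra -/
noncomputable def homAlg (Y : Alg D.toSig) (x y : Y.G.cell 0) : Alg D.toSig where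
  G := homG Y.G x y
  str := (NatFam.exists_str_of_rep (homRep D)).choose ⟨Y, x, y⟩
  total := ((NatFam.exists_str_of_rep (homRep D)).choose_spec.1 ⟨Y, x, y⟩).1
  act := ((NatFam.exists_str_of_rep (homRep D)).choose_spec.1 ⟨Y, x, y⟩).2

@[simp] theorem homAlg_G (Y : Alg D.toSig) (x y : Y.G.cell 0) : (homAlg Y x y).G = homG Y.G x y :=
  rfl

/-- the induced homomorphism of hom algebras -/
noncomputable def homAHom {Y Y' : Alg D.toSig} (f : AHom Y Y') (x y : Y.G.cell 0)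
    (x' y' : Y'.G.cell 0) (hx : f.map.app 0 x = x') (hy : f.map.app 0 y = y') :
    AHom (homAlg Y x y) (homAlg Y' x' y') :=
  ⟨homMap f.map x y x' y' hx hy, (NatFam.exists_str_of_rep (homRep D)).choose_spec.2.1
    ⟨Y, x, y⟩ ⟨Y', x', y'⟩ ⟨f, hx, hy⟩⟩

theorem homAHom_comp_eq {X Y Y' Z : Alg D.toSig} {f : AHom X Y} {g : AHom Y Z} {f' : AHom X Y'}
    {g' : AHom Y' Z} {a b c d c' d' e e'} {h1 h2 h3 h4 h5 h6 h7 h8} (h : f.comp g = f'.comp g') :
    (homAHom f a b c d h1 h2).comp (homAHom g c d e e' h3 h4) =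
      (homAHom f' a b c' d' h5 h6).comp (homAHom g' c' d' e e' h7 h8) :=
  AHom.ext (GMap.ext' fun n x => Subtype.ext
    (congrArg (fun φ : AHom X Z => φ.map.app (n + 1) x.1) h))

theorem homAHom_eq_comp {X Y Z : Alg D.toSig} {f : AHom X Y} {g : AHom Y Z} {k : AHom X Z}
    {a b c d e e'} {h1 h2 h3 h4 h5 h6} (h : k = f.comp g) :
    homAHom k a b e e' h5 h6 = (homAHom f a b c d h1 h2).comp (homAHom g c d e e' h3 h4) :=
  AHom.ext (GMap.ext' fun n x => Subtype.ext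
    (congrArg (fun φ : AHom X Z => φ.map.app (n + 1) x.1) h))

end HomAlg

/-! ## Homotopy of cells is an equivalence relation -/

section Step

variable {D : Coh.{u}}

/-- the path of length two -/
def path2 : Tr := .node 2 fun _ => pt

theorem step_of_tree (Y : Alg D.toSig) {A : Tr} (σ : GMap (posG A) Y.G) {n : ℕ}
    (p q : Pos A n) (h : (posG A).AreParallel n p q) : Y.G.Step n (σ.app n p) (σ.app n q) := by
  have := step_map (ext σ).map ((D.full A (n + 2)).succ (by omega)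
    (par_map (η D.toThy (posG A)) h))
  rwa [ext_η_app, ext_η_app] at this

theorem step_refl (Y : Alg D.toSig) {n : ℕ} (a : Y.G.cell n) : Y.G.Step n a a := by
  have := step_of_tree Y (cls n a) (top n) (top n) (par_refl _ _)
  rwa [cls_top] at this

theorem step_symm (Y : Alg D.toSig) {n : ℕ} {a b : Y.G.cell n} (h : Y.G.Step n a b) :
    Y.G.Step n b a := by
  obtain ⟨c, rfl, rfl⟩ := h
  have := step_of_tree Y (cls (n + 1) c) (Pos.tgt (top (n + 1))) (Pos.src (top (n + 1)))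
    (par_symm (par_src_tgt (X := posG _) n _))
  have e1 := (cls (n + 1) c).app_src n (top (n + 1))
  have e2 := (cls (n + 1) c).app_tgt n (top (n + 1))
  rw [cls_top] at e1 e2
  exact e1 ▸ e2 ▸ this

/-- the map from the path of length two given by two composable edges -/
def path2Map {Y : GS.{u}} (a b : Y.cell 1) (h : Y.tgt 0 a = Y.src 0 b) : GMap (posG path2) Y :=
  (homGraph Y).asm (m := 2) (ch := fun _ => pt) ![Y.src 0 a, Y.tgt 0 a, Y.tgt 0 b] fun l =>
    match l with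
    | ⟨0, _⟩ => cls 0 (Y := homG Y _ _) ⟨a, rfl, rfl⟩
    | ⟨1, _⟩ => cls 0 (Y := homG Y _ _) ⟨b, h.symm, rfl⟩

theorem step_trans : ∀ {n : ℕ} (Y : Alg D.toSig) {a b c : Y.G.cell n}, Y.G.Step n a b →
    Y.G.Step n b c → Y.G.Step n a c
  | 0, Y, _, _, _, ⟨e, rfl, rfl⟩, ⟨e', h, rfl⟩ =>
    step_of_tree Y (path2Map e e' h.symm) (Pos.vtx 0) (Pos.vtx 2) trivial
  | n + 1, Y, a, b, c, h, h' => by
    have p1 := par_s0 (step_par h)
    have p2 := par_s0 (step_par h')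
    have := step_trans (homAlg Y (s0 _ _ a) (t0 _ _ a)) (a := ⟨a, rfl, rfl⟩)
      (b := ⟨b, p1.1.symm, p1.2.symm⟩) (c := ⟨c, (p1.1.trans p2.1).symm, (p1.2.trans p2.2).symm⟩)
      (((homGraph Y.G).step_iff _ _).2 h) (((homGraph Y.G).step_iff _ _).2 h')
    exact ((homGraph Y.G).step_iff _ _).1 this

theorem ILift.wlift {X : GS.{u}} {Y : Alg D.toSig} {p : GMap X Y.G} {n : ℕ} (h : ILift p n) :
    WLift p n := fun s y hy => by
  obtain ⟨x, hx, rfl⟩ := h s y hy
  exact ⟨x, hx, step_refl Y _⟩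

theorem TFib.W {X : GS.{u}} {Y : Alg D.toSig} {p : GMap X Y.G} (h : TFib p) (L : ℕ) : W L p :=
  fun n _ => (h n).wlift

theorem W_id (Y : Alg D.toSig) (L : ℕ) : W L (GMap.id Y.G) :=
  (TFib.of_bij fun _ => Function.bijective_id).W L

theorem W_of_bij {X : GS.{u}} {Y : Alg D.toSig} {p : GMap X Y.G}
    (h : ∀ n, Function.Bijective (p.app n)) (L : ℕ) : W L p := (TFib.of_bij h).W L

theorem jlift_unit (Y : Alg D.toSig) (n : ℕ) : JLift (toUnit Y.G) n := fun a _ _ => by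
  obtain ⟨h, h1, -⟩ := step_refl Y a
  exact ⟨h, h1, rfl⟩

/-- (W1) composition -/
theorem W.comp {X Y : GS.{u}} {Z : Alg D.toSig} {L : ℕ} {f : GMap X Y} {g : GMap Y Z.G}
    (hf : W L f) (hg : W L g) : W L (f.comp g) := by
  intro n hn s z hz
  obtain ⟨y, hy, h1⟩ := hg n hn (f.sphere n s) z (by rw [hz, sphere_comp])
  obtain ⟨x, hx, h2⟩ := hf n hn s y hy
  exact ⟨x, hx, step_trans Z (step_map g h2) h1⟩

end Step

/-! ## Whiskering -/

section Whisker

variable (D : Coh.{u})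

/-- the tree with two branches `A` and `B` -/
def twoCh (A B : Tr) : Fin 2 → Tr := fun l => match l with
  | ⟨0, _⟩ => A
  | ⟨1, _⟩ => B

/-- the tree with two branches `A` and `B` -/
def two (A B : Tr) : Tr := .node 2 (twoCh A B)

def twoMap {Y : GS.{u}} {A B : Tr} {x y z : Y.cell 0} (σ : GMap (posG A) (homG Y x y))
    (τ : GMap (posG B) (homG Y y z)) : GMap (posG (two A B)) Y :=
  (homGraph Y).asm (m := 2) ![x, y, z] fun l => match l with
    | ⟨0, _⟩ => σ
    | ⟨1, _⟩ => τ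

theorem two_ext {Y : GS.{u}} {A B : Tr} {f g : GMap (posG (two A B)) Y}
    (h0 : ∀ n (p : Pos A n), f.app (n + 1) (Pos.br ⟨0, by decide⟩ p) =
      g.app (n + 1) (Pos.br ⟨0, by decide⟩ p))
    (h1 : ∀ n (p : Pos B n), f.app (n + 1) (Pos.br ⟨1, by decide⟩ p) =
      g.app (n + 1) (Pos.br ⟨1, by decide⟩ p)) : f = g := by
  refine GMap.ext' fun n p => ?_
  cases p with
  | vtx i =>
    fin_cases i
    · have := congrArg (Y.src 0) (h0 0 (Pos.v0 A))
      rwa [← f.app_src, ← g.app_src] at this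
    · have := congrArg (Y.tgt 0) (h0 0 (Pos.v0 A))
      rwa [← f.app_tgt, ← g.app_tgt] at this
    · have := congrArg (Y.tgt 0) (h1 0 (Pos.v0 B))
      rwa [← f.app_tgt, ← g.app_tgt] at this
  | br l p =>
    fin_cases l
    · exact h0 _ p
    · exact h1 _ p

/-- A sequence of contractible globular sets with face maps has a compatible sequence of cells. -/
theorem exists_compat (C : ℕ → GS.{u}) (s t : ∀ n, GMap (C n) (C (n + 1)))
    (hs : ∀ n, (s n).comp (s (n + 1)) = (s n).comp (t (n + 1)))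
    (ht : ∀ n, (t n).comp (s (n + 1)) = (t n).comp (t (n + 1)))
    (hC : ∀ n, Conn (n + 1) (C n)) :
    ∃ c : ∀ n, (C n).cell n, ∀ n, (C (n + 1)).src n (c (n + 1)) = (s n).app n (c n) ∧
      (C (n + 1)).tgt n (c (n + 1)) = (t n).app n (c n) := by
  obtain ⟨c0, -⟩ := hC 0 0 (by omega) PUnit.unit
  have step : ∀ n (c : (C n).cell n),
      (C (n + 1)).AreParallel n ((s n).app n c) ((t n).app n c) → ∃ c' : (C (n + 1)).cell (n + 1),
      ((C (n + 1)).src n c' = (s n).app n c ∧ (C (n + 1)).tgt n c' = (t n).app n c) ∧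
      (C (n + 2)).AreParallel (n + 1) ((s _).app _ c') ((t _).app _ c') := by
    intro n c hc
    obtain ⟨c', h1, h2⟩ := (hC (n + 1)).succ (by omega) hc
    refine ⟨c', ⟨h1, h2⟩, ?_, ?_⟩
    · rw [← (s _).app_src, ← (t _).app_src, h1, ← GMap.comp_app, hs]; rfl
    · rw [← (s _).app_tgt, ← (t _).app_tgt, h2, ← GMap.comp_app, ht]; rfl
  choose F hF using step
  let c : ∀ n, {c : (C n).cell n // (C (n + 1)).AreParallel n ((s n).app n c) ((t n).app n c)} :=
    fun n => Nat.rec ⟨c0, trivial⟩ (fun n c => ⟨F n c.1 c.2, (hF n c.1 c.2).2⟩) n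
  exact ⟨fun n => (c n).1, fun n => (hF n (c n).1 (c n).2).1⟩

theorem dσ_dσ (n : ℕ) : (dσ.{u} n).comp (dσ (n + 1)) = (dσ n).comp (dτ (n + 1)) := by
  refine (dσ_cls _).trans (Eq.trans ?_ (dσ_cls _).symm)
  exact congrArg _ (Pos.src_src _)

theorem dτ_dσ (n : ℕ) : (dτ.{u} n).comp (dσ (n + 1)) = (dτ n).comp (dτ (n + 1)) := by
  refine (dτ_cls _).trans (Eq.trans ?_ (dτ_cls _).symm)
  exact congrArg _ (Pos.tgt_tgt _)

/-- functoriality of `two` in both arguments -/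
def twoF {A A' B B' : Tr} (f : GMap (posG.{u} A) (posG A')) (g : GMap (posG.{u} B) (posG B')) :
    GMap (posG.{u} (two A B)) (posG (two A' B')) :=
  twoMap (x := Pos.vtx 0) (y := Pos.vtx 1) (z := Pos.vtx 2)
    (f.comp (brMap (twoCh A' B') ⟨0, by decide⟩)) (g.comp (brMap (twoCh A' B') ⟨1, by decide⟩))

/-- functoriality of free algebras on globular sets -/
noncomputable def frMap (D : Thy.{u}) {G G' : GS.{u}} (f : GMap G G') : AHom (FrG D G) (FrG D G') :=
  ext (f.comp (η D G'))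

theorem frMap_ext {D : Thy.{u}} {G G' : GS.{u}} {Y : Alg D.toSig} (f : GMap G G')
    (σ : GMap G' Y.G) : (frMap D f).comp (ext σ) = ext (f.comp σ) := by
  rw [frMap, ext_comp, GMap.comp_assoc, η_ext]

/-- the universal hom object from the first to the last vertex of `two A B` -/
abbrev twoH (A B : Tr) : GS.{u} :=
  homG (FrT D.toThy (two A B)).G ((η D.toThy _).app 0 (Pos.vtx 0)) ((η D.toThy _).app 0 (Pos.vtx 2))

noncomputable def twoHF {A A' B B' : Tr} (f : GMap (posG.{u} A) (posG A'))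
    (g : GMap (posG.{u} B) (posG B')) : GMap (twoH D A B) (twoH D A' B') :=
  homMap (frMap D.toThy (twoF f g)).map _ _ _ _ (ext_η_app _ _ _) (ext_η_app _ _ _)

theorem twoF_comp {D : Thy.{u}} {A A' A'' B B' B'' : Tr} (f : GMap (posG.{u} A) (posG A'))
    (g : GMap (posG.{u} B) (posG B')) (f' : GMap (posG.{u} A') (posG A''))
    (g' : GMap (posG.{u} B') (posG B'')) :
    (frMap D (twoF f g)).comp (frMap D (twoF f' g')) =
      frMap D (twoF (f.comp f') (g.comp g')) := by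
  refine (frMap_ext _ _).trans ?_
  rw [frMap, ← GMap.comp_assoc]
  congr 2
  exact two_ext (fun _ _ => rfl) fun _ _ => rfl

theorem twoHF_comp {A A' A'' B B' B'' : Tr} (f : GMap (posG.{u} A) (posG A'))
    (g : GMap (posG.{u} B) (posG B')) (f' : GMap (posG.{u} A') (posG A''))
    (g' : GMap (posG.{u} B') (posG B'')) :
    (twoHF D f g).comp (twoHF D f' g') = twoHF D (f.comp f') (g.comp g') := by
  have : (frMap D.toThy (twoF f g)).comp (frMap D.toThy (twoF f' g')) =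
      frMap D.toThy (twoF (f.comp f') (g.comp g')) := by
    refine (frMap_ext _ _).trans ?_
    rw [frMap, ← GMap.comp_assoc]
    congr 2
    exact two_ext (fun _ _ => rfl) fun _ _ => rfl
  exact GMap.ext' fun n x => Subtype.ext (congrArg (fun φ : AHom _ _ => φ.map.app _ x.1) this)

variable {D}

/-- evaluation of the universal hom object at a pair of maps -/
noncomputable def twoEv (Y : Alg D.toSig) {A B : Tr} {x y z : Y.G.cell 0}
    (σ : GMap (posG A) (homG Y.G x y)) (τ : GMap (posG B) (homG Y.G y z)) :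
    GMap (twoH D A B) (homG Y.G x z) :=
  homMap (ext (twoMap σ τ)).map _ _ _ _ (ext_η_app _ _ _) (ext_η_app _ _ _)

theorem twoHF_twoEv (Y : Alg D.toSig) {A B A' B' : Tr} {x y z : Y.G.cell 0}
    (f : GMap (posG.{u} A) (posG A')) (g : GMap (posG.{u} B) (posG B'))
    (σ : GMap (posG A') (homG Y.G x y)) (τ : GMap (posG B') (homG Y.G y z)) :
    (twoHF D f g).comp (twoEv Y σ τ) = twoEv Y (f.comp σ) (g.comp τ) := by
  have : (frMap D.toThy (twoF f g)).comp (ext (twoMap σ τ)) =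
      ext (twoMap (f.comp σ) (g.comp τ)) := by
    rw [frMap_ext]
    congr 1
    exact two_ext (fun _ _ => rfl) fun _ _ => rfl
  exact GMap.ext' fun n x => Subtype.ext (congrArg (fun φ : AHom _ _ => φ.map.app _ x.1) this)

theorem twoEv_map {Y Y' : Alg D.toSig} (φ : AHom Y Y') {A B : Tr} {x y z : Y.G.cell 0}
    {x' y' z' : Y'.G.cell 0} (hx : φ.map.app 0 x = x') (hy : φ.map.app 0 y = y')
    (hz : φ.map.app 0 z = z') (σ : GMap (posG A) (homG Y.G x y))
    (τ : GMap (posG B) (homG Y.G y z)) :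
    (twoEv Y σ τ).comp (homMap φ.map _ _ _ _ hx hz) =
      twoEv Y' (σ.comp (homMap φ.map _ _ _ _ hx hy)) (τ.comp (homMap φ.map _ _ _ _ hy hz)) := by
  have : (ext (twoMap σ τ)).comp φ = ext (twoMap (σ.comp (homMap φ.map _ _ _ _ hx hy))
      (τ.comp (homMap φ.map _ _ _ _ hy hz))) := by
    rw [ext_comp]
    congr 1
    exact two_ext (fun _ _ => rfl) fun _ _ => rfl
  exact GMap.ext' fun n x => Subtype.ext (congrArg (fun φ : AHom _ _ => φ.map.app _ x.1) this)

variable (D)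

theorem exists_wr : ∃ c : ∀ n, (twoH D (disk n) (disk 0)).cell n, ∀ n,
    (twoH D _ _).src n (c (n + 1)) = (twoHF D (dσ n) (GMap.id _)).app n (c n) ∧
    (twoH D _ _).tgt n (c (n + 1)) = (twoHF D (dτ n) (GMap.id _)).app n (c n) :=
  exists_compat (fun n => twoH D (disk n) (disk 0)) _ _
    (fun n => by rw [twoHF_comp, twoHF_comp, dσ_dσ])
    (fun n => by rw [twoHF_comp, twoHF_comp, dτ_dσ])
    fun n => conn_hom (D.full _ _) _ _

theorem exists_wl : ∃ c : ∀ n, (twoH D (disk 0) (disk n)).cell n, ∀ n,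
    (twoH D _ _).src n (c (n + 1)) = (twoHF D (GMap.id _) (dσ n)).app n (c n) ∧
    (twoH D _ _).tgt n (c (n + 1)) = (twoHF D (GMap.id _) (dτ n)).app n (c n) :=
  exists_compat (fun n => twoH D (disk 0) (disk n)) _ _
    (fun n => by rw [twoHF_comp, twoHF_comp, dσ_dσ])
    (fun n => by rw [twoHF_comp, twoHF_comp, dτ_dσ])
    fun n => conn_hom (D.full _ _) _ _

variable {D}

/-- whiskering on the right (post-composition) with an edge -/
noncomputable def wr (Y : Alg D.toSig) (x : Y.G.cell 0) {y z : Y.G.cell 0}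
    (e : (homG Y.G y z).cell 0) : GMap (homG Y.G x y) (homG Y.G x z) where
  app n a := (twoEv Y (cls n a) (cls 0 e)).app n ((exists_wr D).choose n)
  app_src n a := by
    rw [← (twoEv Y _ _).app_src, ((exists_wr D).choose_spec n).1, ← GMap.comp_app, twoHF_twoEv,
      dσ_cls]; rfl
  app_tgt n a := by
    rw [← (twoEv Y _ _).app_tgt, ((exists_wr D).choose_spec n).2, ← GMap.comp_app, twoHF_twoEv,
      dτ_cls]; rfl

/-- whiskering on the left (pre-composition) with an edge -/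
noncomputable def wl (Y : Alg D.toSig) {x y : Y.G.cell 0} (e : (homG Y.G x y).cell 0)
    (z : Y.G.cell 0) : GMap (homG Y.G y z) (homG Y.G x z) where
  app n a := (twoEv Y (cls 0 e) (cls n a)).app n ((exists_wl D).choose n)
  app_src n a := by
    rw [← (twoEv Y _ _).app_src, ((exists_wl D).choose_spec n).1, ← GMap.comp_app, twoHF_twoEv,
      dσ_cls]; rfl
  app_tgt n a := by
    rw [← (twoEv Y _ _).app_tgt, ((exists_wl D).choose_spec n).2, ← GMap.comp_app, twoHF_twoEv,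
      dτ_cls]; rfl

theorem wr_map {Y Y' : Alg D.toSig} (φ : AHom Y Y') {x y z : Y.G.cell 0} {x' y' z' : Y'.G.cell 0}
    (hx : φ.map.app 0 x = x') (hy : φ.map.app 0 y = y') (hz : φ.map.app 0 z = z')
    (e : (homG Y.G y z).cell 0) :
    (wr Y x e).comp (homMap φ.map _ _ _ _ hx hz) =
      (homMap φ.map _ _ _ _ hx hy).comp (wr Y' x' ((homMap φ.map _ _ _ _ hy hz).app 0 e)) := by
  refine GMap.ext' fun n a => ?_
  show ((twoEv Y _ _).comp _).app n _ = (twoEv Y' _ _).app n _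
  rw [twoEv_map φ hx hy hz, cls_comp, cls_comp]

theorem wl_map {Y Y' : Alg D.toSig} (φ : AHom Y Y') {x y z : Y.G.cell 0} {x' y' z' : Y'.G.cell 0}
    (hx : φ.map.app 0 x = x') (hy : φ.map.app 0 y = y') (hz : φ.map.app 0 z = z')
    (e : (homG Y.G x y).cell 0) :
    (wl Y e z).comp (homMap φ.map _ _ _ _ hx hz) =
      (homMap φ.map _ _ _ _ hy hz).comp (wl Y' ((homMap φ.map _ _ _ _ hx hy).app 0 e) z') := by
  refine GMap.ext' fun n a => ?_
  show ((twoEv Y _ _).comp _).app n _ = (twoEv Y' _ _).app n _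
  rw [twoEv_map φ hx hy hz, cls_comp, cls_comp]

/-- value-level naturality of `wr` -/
theorem wr_nat {Y Y' : Alg D.toSig} (φ : AHom Y Y') {x y z : Y.G.cell 0} {x' y' z' : Y'.G.cell 0}
    {e : (homG Y.G y z).cell 0} {e' : (homG Y'.G y' z').cell 0} {n : ℕ}
    {a : (homG Y.G x y).cell n} {a' : (homG Y'.G x' y').cell n} (ha : φ.map.app _ a.1 = a'.1)
    (he : φ.map.app _ e.1 = e'.1) :
    φ.map.app _ ((wr Y x e).app n a).1 = ((wr Y' x' e').app n a').1 := by
  have hx : φ.map.app 0 x = x' := by rw [← a.2.1, ← s0_map, ha, a'.2.1]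
  have hy : φ.map.app 0 y = y' := by rw [← a.2.2, ← t0_map, ha, a'.2.2]
  have hz : φ.map.app 0 z = z' := by rw [← e.2.2, ← t0_map, he, e'.2.2]
  obtain rfl : (homMap φ.map _ _ _ _ hx hy).app n a = a' := Subtype.ext ha
  obtain rfl : (homMap φ.map _ _ _ _ hy hz).app 0 e = e' := Subtype.ext he
  exact congrArg (fun ψ : GMap _ (homG Y'.G x' z') => (ψ.app n a).1) (wr_map φ hx hy hz e)

/-- value-level naturality of `wl` -/
theorem wl_nat {Y Y' : Alg D.toSig} (φ : AHom Y Y') {x y z : Y.G.cell 0} {x' y' z' : Y'.G.cell 0}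
    {e : (homG Y.G x y).cell 0} {e' : (homG Y'.G x' y').cell 0} {n : ℕ}
    {a : (homG Y.G y z).cell n} {a' : (homG Y'.G y' z').cell n} (ha : φ.map.app _ a.1 = a'.1)
    (he : φ.map.app _ e.1 = e'.1) :
    φ.map.app _ ((wl Y e z).app n a).1 = ((wl Y' e' z').app n a').1 := by
  have hx : φ.map.app 0 x = x' := by rw [← e.2.1, ← s0_map, he, e'.2.1]
  have hy : φ.map.app 0 y = y' := by rw [← a.2.1, ← s0_map, ha, a'.2.1]
  have hz : φ.map.app 0 z = z' := by rw [← a.2.2, ← t0_map, ha, a'.2.2]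
  obtain rfl : (homMap φ.map _ _ _ _ hy hz).app n a = a' := Subtype.ext ha
  obtain rfl : (homMap φ.map _ _ _ _ hx hy).app 0 e = e' := Subtype.ext he
  exact congrArg (fun ψ : GMap _ (homG Y'.G x' z') => (ψ.app n a).1) (wl_map φ hx hy hz e)

end Whisker

/-! ## The division lemma -/

section Division

variable {D : Coh.{u}}

/-- levelwise equivalences with injectivity on components -/
def Q : ℕ → {X Y : GS.{u}} → GMap X Y → Prop
  | 0, _, _, _ => True
  | L + 1, X, Y, f => (∀ y, ∃ x, Y.Step 0 (f.app 0 x) y) ∧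
      (∀ x x', Y.Step 0 (f.app 0 x) (f.app 0 x') → X.Step 0 x x') ∧
      ∀ x x', Q L (homMap f x x' _ _ rfl rfl)

theorem Q.W : ∀ {L : ℕ} {X Y : GS.{u}} {f : GMap X Y}, Q L f → W L f
  | 0, _, _, f, _ => W_zero f
  | _ + 1, _, _, f, h => (W_succ_iff f _).2 ⟨h.1, fun x x' => Q.W (h.2.2 x x')⟩

theorem Q.of_W : ∀ {L : ℕ} {X Y : GS.{u}} {f : GMap X Y}, Crest.Agent.R248.W (L + 1) f → Q L f
  | 0, _, _, _, _ => trivial
  | L + 1, _, _, f, h => by
    obtain ⟨h1, h2⟩ := (W_succ_iff f _).1 h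
    refine ⟨h1, fun x x' ⟨c, hc1, hc2⟩ => ?_, fun x x' => Q.of_W (h2 x x')⟩
    obtain ⟨z, a, b, -⟩ := (h 1 (by omega)).succ (u := x) (v := x') trivial c hc1 hc2
    exact ⟨z, a, b⟩

theorem Q.comp : ∀ {L : ℕ} {X Y : GS.{u}} {Z : Alg D.toSig} {f : GMap X Y} {g : GMap Y Z.G},
    Q L f → Q L g → Q L (f.comp g)
  | 0, _, _, _, _, _, _, _ => trivial
  | L + 1, _, _, Z, f, g, hf, hg => by
    refine ⟨fun z => ?_, fun x x' h => hf.2.1 x x' (hg.2.1 _ _ h), fun x x' => ?_⟩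
    · obtain ⟨y, hy⟩ := hg.1 z
      obtain ⟨x, hx⟩ := hf.1 y
      exact ⟨x, step_trans Z (step_map g hx) hy⟩
    · exact Q.comp (Z := homAlg Z _ _) (hf.2.2 x x') (hg.2.2 _ _)

theorem Q.of_comp_left : ∀ {L : ℕ} {X Y Z : GS.{u}} {f : GMap X Y} {g : GMap Y Z},
    Q L (f.comp g) → Q L g → Q L f
  | 0, _, _, _, _, _, _, _ => trivial
  | _ + 1, _, _, _, _, g, h, hg =>
    ⟨fun y => (h.1 (g.app 0 y)).imp fun _ hx => hg.2.1 _ _ hx,
      fun x x' e => h.2.1 x x' (step_map g e),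
      fun x x' => Q.of_comp_left (g := homMap g _ _ _ _ rfl rfl) (h.2.2 x x') (hg.2.2 _ _)⟩

theorem Q.two_six : ∀ {L : ℕ} {X Y Z V : GS.{u}} {f : GMap X Y} {g : GMap Y Z} {h : GMap Z V},
    Q L (f.comp g) → Q L (g.comp h) → Q L f
  | 0, _, _, _, _, _, _, _, _, _ => trivial
  | _ + 1, _, _, _, _, _, g, h, a, b =>
    ⟨fun y => (a.1 (g.app 0 y)).imp fun _ hx => b.2.1 _ _ (step_map h hx),
      fun x x' e => a.2.1 x x' (step_map g e),
      fun x x' => Q.two_six (g := homMap g _ _ _ _ rfl rfl) (h := homMap h _ _ _ _ rfl rfl)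
        (a.2.2 x x') (b.2.2 _ _)⟩

/-- truncated homotopies between globular maps into an algebra -/
def Htpy : ℕ → {X : GS.{u}} → (Y : Alg D.toSig) → GMap X Y.G → GMap X Y.G → Prop
  | 0, _, _, _, _ => True
  | L + 1, X, Y, φ, ψ => ∃ θ : ∀ x : X.cell 0, (homG Y.G (φ.app 0 x) (ψ.app 0 x)).cell 0,
      ∀ x x', Htpy L (homAlg Y (φ.app 0 x) (ψ.app 0 x'))
        ((homMap φ x x' _ _ rfl rfl).comp (wr Y _ (θ x')))
        ((homMap ψ x x' _ _ rfl rfl).comp (wl Y (θ x) _))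

/-- whiskerings are equivalences of level `L` -/
def Div (D : Coh.{u}) (L : ℕ) : Prop :=
  ∀ (Y : Alg D.toSig) (x y z : Y.G.cell 0), (∀ e : (homG Y.G y z).cell 0, Q L (wr Y x e)) ∧
    ∀ e : (homG Y.G x y).cell 0, Q L (wl Y e z)

theorem Htpy.Q : ∀ {L : ℕ} (_ : ∀ k, k < L → Div D k) {X : GS.{u}} {Y : Alg D.toSig}
    {φ ψ : GMap X Y.G}, Htpy L Y φ ψ → Q L ψ → Q L φ
  | 0, _, _, _, _, _, _, _ => trivial
  | L + 1, hd, _, Y, φ, ψ, ⟨θ, h⟩, hq => by
    have e : ∀ x, Y.G.Step 0 (φ.app 0 x) (ψ.app 0 x) := fun x => ⟨(θ x).1, (θ x).2⟩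
    refine ⟨fun y => (hq.1 y).imp fun x hx => step_trans Y (e x) hx, fun x x' a => hq.2.1 x x'
      (step_trans Y (step_symm Y (e x)) (step_trans Y a (e x'))), fun x x' => ?_⟩
    exact (Htpy.Q (fun k hk => hd k (by omega)) (h x x') (Q.comp (Z := homAlg Y _ _) (hq.2.2 x x')
      ((hd L (by omega) Y _ _ _).2 _))).of_comp_left ((hd L (by omega) Y _ _ _).1 _)

variable (D) in
/-- a coglobular sequence of contractible algebras -/
structure Carrier where
  C : ℕ → Alg D.toSig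
  s : ∀ n, AHom (C n) (C (n + 1))
  t : ∀ n, AHom (C n) (C (n + 1))
  ss : ∀ n, (s n).comp (s (n + 1)) = (s n).comp (t (n + 1))
  tt : ∀ n, (t n).comp (s (n + 1)) = (t n).comp (t (n + 1))
  conn : ∀ n L, Conn L (C n).G

namespace Carrier

variable (K : Carrier D)

def IsSec (c : ∀ n, (K.C n).G.cell n) : Prop :=
  ∀ n, (K.C (n + 1)).G.src n (c (n + 1)) = (K.s n).map.app n (c n) ∧
    (K.C (n + 1)).G.tgt n (c (n + 1)) = (K.t n).map.app n (c n)

structure Ev (X : GS.{u}) (Y : Alg D.toSig) where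
  ev : ∀ n, X.cell n → AHom (K.C n) Y
  src : ∀ n a, ev n (X.src n a) = (K.s n).comp (ev (n + 1) a)
  tgt : ∀ n a, ev n (X.tgt n a) = (K.t n).comp (ev (n + 1) a)

def sN : ∀ n, AHom (K.C 0) (K.C (n + 1))
  | 0 => K.s 0
  | n + 1 => (sN n).comp (K.s (n + 1))

def tN : ∀ n, AHom (K.C 0) (K.C (n + 1))
  | 0 => K.t 0
  | n + 1 => (tN n).comp (K.t (n + 1))

theorem sN_t : ∀ n, (K.sN n).comp (K.t (n + 1)) = K.sN (n + 1)
  | 0 => (K.ss 0).symm
  | n + 1 => congrArg (K.sN n).comp (K.ss (n + 1)).symm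

theorem tN_s : ∀ n, (K.tN n).comp (K.s (n + 1)) = K.tN (n + 1)
  | 0 => K.tt 0
  | n + 1 => congrArg (K.tN n).comp (K.tt (n + 1))

theorem app_congr {X Y : Alg D.toSig} {f g : AHom X Y} (h : f = g) (n : ℕ) (x : X.G.cell n) :
    f.map.app n x = g.map.app n x := by rw [h]

/-- the carrier of hom algebras -/
noncomputable def hom (a b : (K.C 0).G.cell 0) : Carrier D where
  C n := homAlg (K.C (n + 1)) ((K.sN n).map.app 0 a) ((K.tN n).map.app 0 b)
  s n := homAHom (K.s (n + 1)) _ _ _ _ rfl (app_congr (K.tN_s n) 0 b)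
  t n := homAHom (K.t (n + 1)) _ _ _ _ (app_congr (K.sN_t n) 0 a) rfl
  ss n := AHom.ext (GMap.ext' fun _ x => Subtype.ext (app_congr (K.ss (n + 1)) _ x.1))
  tt n := AHom.ext (GMap.ext' fun _ x => Subtype.ext (app_congr (K.tt (n + 1)) _ x.1))
  conn _ _ := conn_hom (K.conn _ _) _ _

variable {K}

theorem IsSec.s0 {c : ∀ n, (K.C n).G.cell n} (h : K.IsSec c) : ∀ n,
    s0 _ (n + 1) (c (n + 1)) = (K.sN n).map.app 0 (c 0)
  | 0 => (h 0).1
  | n + 1 => by
    show Crest.Agent.R248.s0 _ (n + 1) ((K.C (n + 2)).G.src _ _) = _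
    rw [(h (n + 1)).1, s0_map, h.s0 n]; rfl

theorem IsSec.t0 {c : ∀ n, (K.C n).G.cell n} (h : K.IsSec c) : ∀ n,
    t0 _ (n + 1) (c (n + 1)) = (K.tN n).map.app 0 (c 0)
  | 0 => (h 0).2
  | n + 1 => by
    show Crest.Agent.R248.t0 _ (n + 1) ((K.C (n + 2)).G.tgt _ _) = _
    rw [(h (n + 1)).2, t0_map, h.t0 n]; rfl

variable {X : GS.{u}} {Y : Alg D.toSig} (E : K.Ev X Y)

def Ev.map {c : ∀ n, (K.C n).G.cell n} (h : K.IsSec c) : GMap X Y.G where
  app n a := (E.ev n a).map.app n (c n)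
  app_src n a := by rw [E.src, ← (E.ev _ a).map.app_src, (h n).1]; rfl
  app_tgt n a := by rw [E.tgt, ← (E.ev _ a).map.app_tgt, (h n).2]; rfl

theorem Ev.sN : ∀ n (a : X.cell (n + 1)), (K.sN n).comp (E.ev _ a) = E.ev 0 (s0 X _ a)
  | 0, a => (E.src 0 a).symm
  | n + 1, a => by
    show (K.sN n).comp ((K.s (n + 1)).comp (E.ev _ a)) = _
    rw [← E.src, Ev.sN n]; rfl

theorem Ev.tN : ∀ n (a : X.cell (n + 1)), (K.tN n).comp (E.ev _ a) = E.ev 0 (t0 X _ a)
  | 0, a => (E.tgt 0 a).symm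
  | n + 1, a => by
    show (K.tN n).comp ((K.t (n + 1)).comp (E.ev _ a)) = _
    rw [← E.tgt, Ev.tN n]; rfl

noncomputable def Ev.hom (a b : (K.C 0).G.cell 0) (x x' : X.cell 0) :
    (K.hom a b).Ev (homG X x x')
      (homAlg Y ((E.ev 0 x).map.app 0 a) ((E.ev 0 x').map.app 0 b)) where
  ev n z := homAHom (E.ev (n + 1) z.1) _ _ _ _
    ((app_congr (E.sN n z.1) 0 a).trans (by rw [z.2.1]))
    ((app_congr (E.tN n z.1) 0 b).trans (by rw [z.2.2]))
  src n z := AHom.ext (GMap.ext' fun _ x => Subtype.ext (app_congr (E.src (n + 1) z.1) _ x.1))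
  tgt n z := AHom.ext (GMap.ext' fun _ x => Subtype.ext (app_congr (E.tgt (n + 1) z.1) _ x.1))

theorem gapp_congr {X Y : GS.{u}} {f g : GMap X Y} (h : f = g) (n : ℕ) (x : X.cell n) :
    f.app n x = g.app n x := by rw [h]

/-- **Acyclic carrier lemma.** -/
theorem htpy : ∀ (L : ℕ) {K : Carrier D} {X : GS.{u}} {Y : Alg D.toSig} (E : K.Ev X Y)
    {c c' : ∀ n, (K.C n).G.cell n} (h : K.IsSec c) (h' : K.IsSec c'),
    Htpy L Y (E.map h) (E.map h')
  | 0, _, _, _, _, _, _, _, _ => trivial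
  | L + 1, K, X, Y, E, c, c', h, h' => by
    obtain ⟨θ, hθ⟩ := (K.conn 0 2).succ (n := 0) (by omega) (u := c 0) (v := c' 0) trivial
    let θ' : (homG (K.C 0).G (c 0) (c' 0)).cell 0 := ⟨θ, hθ⟩
    refine ⟨fun x => (homMap (E.ev 0 x).map _ _ _ _ rfl rfl).app 0 θ', fun x x' => ?_⟩
    let d : ∀ n, ((K.hom (c 0) (c' 0)).C n).G.cell n := fun n =>
      (wr (K.C (n + 1)) _ ((homMap (K.tN n).map _ _ _ _ rfl rfl).app 0 θ')).app n
        ⟨c (n + 1), h.s0 n, h.t0 n⟩
    let d' : ∀ n, ((K.hom (c 0) (c' 0)).C n).G.cell n := fun n =>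
      (wl (K.C (n + 1)) ((homMap (K.sN n).map _ _ _ _ rfl rfl).app 0 θ') _).app n
        ⟨c' (n + 1), h'.s0 n, h'.t0 n⟩
    have hd : (K.hom (c 0) (c' 0)).IsSec d := fun n =>
      ⟨((wr _ _ _).app_src _ _).symm.trans (Subtype.ext (wr_nat (K.s (n + 1)) (h (n + 1)).1.symm
          (by exact app_congr (K.tN_s n) 1 θ)).symm),
        ((wr _ _ _).app_tgt _ _).symm.trans
          (Subtype.ext (wr_nat (K.t (n + 1)) (h (n + 1)).2.symm rfl).symm)⟩
    have hd' : (K.hom (c 0) (c' 0)).IsSec d' := fun n =>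
      ⟨((wl _ _ _).app_src _ _).symm.trans
          (Subtype.ext (wl_nat (K.s (n + 1)) (h' (n + 1)).1.symm rfl).symm),
        ((wl _ _ _).app_tgt _ _).symm.trans (Subtype.ext (wl_nat (K.t (n + 1)) (h' (n + 1)).2.symm
          (by exact app_congr (K.sN_t n) 1 θ)).symm)⟩
    have := htpy L (E.hom (c 0) (c' 0) x x') hd hd'
    have e1 : (E.hom (c 0) (c' 0) x x').map hd = (homMap (E.map h) x x' _ _ rfl rfl).comp
        (wr Y _ ((homMap (E.ev 0 x').map _ _ _ _ rfl rfl).app 0 θ')) :=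
      GMap.ext' fun n a => Subtype.ext (wr_nat (E.ev (n + 1) a.1) rfl
        ((app_congr (E.tN n a.1) 1 θ).trans (by rw [a.2.2]; rfl)))
    have e2 : (E.hom (c 0) (c' 0) x x').map hd' = (homMap (E.map h') x x' _ _ rfl rfl).comp
        (wl Y ((homMap (E.ev 0 x).map _ _ _ _ rfl rfl).app 0 θ') _) :=
      GMap.ext' fun n a => Subtype.ext (wl_nat (E.ev (n + 1) a.1) rfl
        ((app_congr (E.sN n a.1) 1 θ).trans (by rw [a.2.1]; rfl)))
    rw [e1, e2] at this
    exact this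

end Carrier

/-- the universal inverse of an edge -/
theorem exists_inv (D : Coh.{u}) : ∃ c : (FrT D.toThy (disk 1)).G.cell 1,
    (FrT D.toThy (disk 1)).G.src 0 c = (η D.toThy _).app 0 (Pos.tgt (top 1)) ∧
    (FrT D.toThy (disk 1)).G.tgt 0 c = (η D.toThy _).app 0 (Pos.src (top 1)) :=
  (D.full (disk 1) 2).succ (n := 0) (by omega) trivial

/-- a natural choice of inverses of edges -/
noncomputable def inv (Y : Alg D.toSig) {x y : Y.G.cell 0} (e : (homG Y.G x y).cell 0) :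
    (homG Y.G y x).cell 0 :=
  ⟨(ext (cls 1 e.1)).map.app 1 (exists_inv D).choose, by
    show Y.G.src 0 _ = y
    rw [← (ext _).map.app_src, (exists_inv D).choose_spec.1, ext_η_app]
    exact ((cls 1 e.1).app_tgt 0 (top 1)).trans (by rw [cls_top]; exact e.2.2), by
    show Y.G.tgt 0 _ = x
    rw [← (ext _).map.app_tgt, (exists_inv D).choose_spec.2, ext_η_app]
    exact ((cls 1 e.1).app_src 0 (top 1)).trans (by rw [cls_top]; exact e.2.1)⟩

theorem inv_nat {Y Y' : Alg D.toSig} (φ : AHom Y Y') {x y : Y.G.cell 0} {x' y' : Y'.G.cell 0}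
    {e : (homG Y.G x y).cell 0} {e' : (homG Y'.G x' y').cell 0} (he : φ.map.app _ e.1 = e'.1) :
    φ.map.app _ (inv Y e).1 = (inv Y' e').1 := by
  show ((ext (cls 1 e.1)).comp φ).map.app _ _ = _
  rw [ext_comp, cls_comp, he]
  rfl

theorem wr2_nat {Y Y' : Alg D.toSig} (φ : AHom Y Y') {x y z : Y.G.cell 0} {x' y' z' : Y'.G.cell 0}
    {e : (homG Y.G y z).cell 0} {e' : (homG Y'.G y' z').cell 0} {n : ℕ}
    {a : (homG Y.G x y).cell n} {a' : (homG Y'.G x' y').cell n} (ha : φ.map.app _ a.1 = a'.1)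
    (he : φ.map.app _ e.1 = e'.1) :
    φ.map.app _ (((wr Y x e).comp (wr Y x (inv Y e))).app n a).1 =
      (((wr Y' x' e').comp (wr Y' x' (inv Y' e'))).app n a').1 :=
  wr_nat φ (wr_nat φ ha he) (inv_nat φ he)

theorem wl2_nat {Y Y' : Alg D.toSig} (φ : AHom Y Y') {x y z : Y.G.cell 0} {x' y' z' : Y'.G.cell 0}
    {e : (homG Y.G x y).cell 0} {e' : (homG Y'.G x' y').cell 0} {n : ℕ}
    {a : (homG Y.G y z).cell n} {a' : (homG Y'.G y' z').cell n} (ha : φ.map.app _ a.1 = a'.1)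
    (he : φ.map.app _ e.1 = e'.1) :
    φ.map.app _ (((wl Y e z).comp (wl Y (inv Y e) z)).app n a).1 =
      (((wl Y' e' z').comp (wl Y' (inv Y' e') z')).app n a').1 :=
  wl_nat φ (wl_nat φ ha he) (inv_nat φ he)

variable (D) in
/-- the carrier for right whiskering -/
noncomputable def carR : Carrier D where
  C n := homAlg (FrT D.toThy (two (disk n) (disk 0))) ((η D.toThy _).app 0 (Pos.vtx 0))
    ((η D.toThy _).app 0 (Pos.vtx 1))
  s n := homAHom (frMap D.toThy (twoF (dσ n) (GMap.id _))) _ _ _ _ (ext_η_app _ _ _)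
    (ext_η_app _ _ _)
  t n := homAHom (frMap D.toThy (twoF (dτ n) (GMap.id _))) _ _ _ _ (ext_η_app _ _ _)
    (ext_η_app _ _ _)
  ss n := homAHom_comp_eq (by rw [twoF_comp, twoF_comp, dσ_dσ])
  tt n := homAHom_comp_eq (by rw [twoF_comp, twoF_comp, dτ_dσ])
  conn _ _ := conn_hom (D.full _ _) _ _

variable (D) in
/-- the carrier for left whiskering -/
noncomputable def carL : Carrier D where
  C n := homAlg (FrT D.toThy (two (disk 0) (disk n))) ((η D.toThy _).app 0 (Pos.vtx 1))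
    ((η D.toThy _).app 0 (Pos.vtx 2))
  s n := homAHom (frMap D.toThy (twoF (GMap.id _) (dσ n))) _ _ _ _ (ext_η_app _ _ _)
    (ext_η_app _ _ _)
  t n := homAHom (frMap D.toThy (twoF (GMap.id _) (dτ n))) _ _ _ _ (ext_η_app _ _ _)
    (ext_η_app _ _ _)
  ss n := homAHom_comp_eq (by rw [twoF_comp, twoF_comp, dσ_dσ])
  tt n := homAHom_comp_eq (by rw [twoF_comp, twoF_comp, dτ_dσ])
  conn _ _ := conn_hom (D.full _ _) _ _

theorem twoF_ext (Y : Alg D.toSig) {A B A' B' : Tr} {x y z : Y.G.cell 0}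
    (f : GMap (posG.{u} A) (posG A')) (g : GMap (posG.{u} B) (posG B'))
    (σ : GMap (posG A') (homG Y.G x y)) (τ : GMap (posG B') (homG Y.G y z)) :
    (frMap D.toThy (twoF f g)).comp (ext (twoMap σ τ)) = ext (twoMap (f.comp σ) (g.comp τ)) := by
  rw [frMap_ext]
  congr 1
  exact two_ext (fun _ _ => rfl) fun _ _ => rfl

theorem htpy_wr (L : ℕ) (Y : Alg D.toSig) (x : Y.G.cell 0) {y z : Y.G.cell 0}
    (e : (homG Y.G y z).cell 0) :
    Htpy L (homAlg Y x y) ((wr Y x e).comp (wr Y x (inv Y e))) (GMap.id _) := by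
  let E : (carR D).Ev (homG Y.G x y) (homAlg Y x y) :=
    { ev := fun n a => homAHom (ext (twoMap (cls n a) (cls 0 e))) _ _ _ _ (ext_η_app _ _ _)
        (ext_η_app _ _ _)
      src := fun n a => homAHom_eq_comp (by rw [twoF_ext, dσ_cls]; rfl)
      tgt := fun n a => homAHom_eq_comp (by rw [twoF_ext, dτ_cls]; rfl) }
  let c' : ∀ n, ((carR D).C n).G.cell n := fun n =>
    (homMap (η D.toThy _) _ _ _ _ rfl rfl).app n
      ((brMap (twoCh (disk n) (disk 0)) ⟨0, by decide⟩).app n (top n))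
  let ε : ∀ n, (homG (FrT D.toThy (two (disk n) (disk 0))).G ((η D.toThy _).app 0 (Pos.vtx 1))
      ((η D.toThy _).app 0 (Pos.vtx 2))).cell 0 := fun n =>
    (homMap (η D.toThy _) _ _ _ _ rfl rfl).app 0
      ((brMap (twoCh (disk n) (disk 0)) ⟨1, by decide⟩).app 0 (top 0))
  have h' : (carR D).IsSec c' := fun n =>
    ⟨Subtype.ext (Eq.symm ((ext_η_app _ _ _).trans (Subtype.ext (congrArg Tm.var
        (congrArg (Pos.br (ch := twoCh (disk (n + 1)) (disk 0)) ⟨0, by decide⟩) (cls_top n _)))))),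
      Subtype.ext (Eq.symm ((ext_η_app _ _ _).trans (Subtype.ext (congrArg Tm.var
        (congrArg (Pos.br (ch := twoCh (disk (n + 1)) (disk 0)) ⟨0, by decide⟩) (cls_top n _))))))⟩
  let c : ∀ n, ((carR D).C n).G.cell n := fun n =>
    ((wr _ _ (ε n)).comp (wr _ _ (inv _ (ε n)))).app n (c' n)
  have h : (carR D).IsSec c := fun n =>
    ⟨(((wr _ _ (ε _)).comp (wr _ _ (inv _ (ε _)))).app_src _ _).symm.trans (Subtype.ext
        (wr2_nat (frMap D.toThy (twoF (dσ n) (GMap.id _))) (a := c' n) (e := ε n)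
          (e' := ε (n + 1)) (congrArg Subtype.val (h' n).1).symm (ext_η_app _ _ _)).symm),
      (((wr _ _ (ε _)).comp (wr _ _ (inv _ (ε _)))).app_tgt _ _).symm.trans (Subtype.ext
        (wr2_nat (frMap D.toThy (twoF (dτ n) (GMap.id _))) (a := c' n) (e := ε n)
          (e' := ε (n + 1)) (congrArg Subtype.val (h' n).2).symm (ext_η_app _ _ _)).symm)⟩
  have e' : E.map h' = GMap.id _ := GMap.ext' fun n a => Subtype.ext
    ((ext_η_app _ _ _).trans (congrArg Subtype.val (cls_top n a)))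
  have e1 : E.map h = (wr Y x e).comp (wr Y x (inv Y e)) := GMap.ext' fun n a => Subtype.ext
    (wr2_nat (ext (twoMap (cls n a) (cls 0 e))) (a := c' n) (e := ε n)
      (congrArg Subtype.val (Carrier.gapp_congr e' n a)) (ext_η_app _ _ _))
  have := Carrier.htpy L E h h'
  rwa [e', e1] at this

theorem htpy_wl (L : ℕ) (Y : Alg D.toSig) {x y : Y.G.cell 0} (e : (homG Y.G x y).cell 0)
    (z : Y.G.cell 0) :
    Htpy L (homAlg Y y z) ((wl Y e z).comp (wl Y (inv Y e) z)) (GMap.id _) := by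
  let E : (carL D).Ev (homG Y.G y z) (homAlg Y y z) :=
    { ev := fun n a => homAHom (ext (twoMap (cls 0 e) (cls n a))) _ _ _ _ (ext_η_app _ _ _)
        (ext_η_app _ _ _)
      src := fun n a => homAHom_eq_comp (by rw [twoF_ext, dσ_cls]; rfl)
      tgt := fun n a => homAHom_eq_comp (by rw [twoF_ext, dτ_cls]; rfl) }
  let c' : ∀ n, ((carL D).C n).G.cell n := fun n =>
    (homMap (η D.toThy _) _ _ _ _ rfl rfl).app n
      ((brMap (twoCh (disk 0) (disk n)) ⟨1, by decide⟩).app n (top n))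
  let ε : ∀ n, (homG (FrT D.toThy (two (disk 0) (disk n))).G ((η D.toThy _).app 0 (Pos.vtx 0))
      ((η D.toThy _).app 0 (Pos.vtx 1))).cell 0 := fun n =>
    (homMap (η D.toThy _) _ _ _ _ rfl rfl).app 0
      ((brMap (twoCh (disk 0) (disk n)) ⟨0, by decide⟩).app 0 (top 0))
  have h' : (carL D).IsSec c' := fun n =>
    ⟨Subtype.ext (Eq.symm ((ext_η_app _ _ _).trans (Subtype.ext (congrArg Tm.var
        (congrArg (Pos.br (ch := twoCh (disk 0) (disk (n + 1))) ⟨1, by decide⟩) (cls_top n _)))))),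
      Subtype.ext (Eq.symm ((ext_η_app _ _ _).trans (Subtype.ext (congrArg Tm.var
        (congrArg (Pos.br (ch := twoCh (disk 0) (disk (n + 1))) ⟨1, by decide⟩) (cls_top n _))))))⟩
  let c : ∀ n, ((carL D).C n).G.cell n := fun n =>
    ((wl _ (ε n) _).comp (wl _ (inv _ (ε n)) _)).app n (c' n)
  have h : (carL D).IsSec c := fun n =>
    ⟨(((wl _ (ε _) _).comp (wl _ (inv _ (ε _)) _)).app_src _ _).symm.trans (Subtype.ext
        (wl2_nat (frMap D.toThy (twoF (GMap.id _) (dσ n))) (a := c' n) (e := ε n)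
          (e' := ε (n + 1)) (congrArg Subtype.val (h' n).1).symm (ext_η_app _ _ _)).symm),
      (((wl _ (ε _) _).comp (wl _ (inv _ (ε _)) _)).app_tgt _ _).symm.trans (Subtype.ext
        (wl2_nat (frMap D.toThy (twoF (GMap.id _) (dτ n))) (a := c' n) (e := ε n)
          (e' := ε (n + 1)) (congrArg Subtype.val (h' n).2).symm (ext_η_app _ _ _)).symm)⟩
  have e' : E.map h' = GMap.id _ := GMap.ext' fun n a => Subtype.ext
    ((ext_η_app _ _ _).trans (congrArg Subtype.val (cls_top n a)))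
  have e1 : E.map h = (wl Y e z).comp (wl Y (inv Y e) z) := GMap.ext' fun n a => Subtype.ext
    (wl2_nat (ext (twoMap (cls 0 e) (cls n a))) (a := c' n) (e := ε n)
      (congrArg Subtype.val (Carrier.gapp_congr e' n a)) (ext_η_app _ _ _))
  have := Carrier.htpy L E h h'
  rwa [e', e1] at this

theorem div (D : Coh.{u}) (L : ℕ) : Div D L := by
  induction L using Nat.strong_induction_on with
  | _ L ih =>
    intro Y x y z
    have q : ∀ Z : Alg D.toSig, Q L (GMap.id Z.G) := fun Z => Q.of_W (W_id Z _)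
    exact ⟨fun e => Q.two_six ((htpy_wr L Y x e).Q ih (q (homAlg Y x y)))
        ((htpy_wr L Y x (inv Y e)).Q ih (q (homAlg Y x z))),
      fun e => Q.two_six ((htpy_wl L Y e z).Q ih (q (homAlg Y y z)))
        ((htpy_wl L Y (inv Y e) z).Q ih (q (homAlg Y x z)))⟩

/-- **Division lemma.** -/
theorem W_wr (L : ℕ) (Y : Alg D.toSig) (x : Y.G.cell 0) {y z : Y.G.cell 0}
    (e : (homG Y.G y z).cell 0) : W L (wr Y x e) := ((div D L Y x y z).1 e).W

theorem W_wl (L : ℕ) (Y : Alg D.toSig) {x y : Y.G.cell 0} (e : (homG Y.G x y).cell 0)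
    (z : Y.G.cell 0) : W L (wl Y e z) := ((div D L Y x y z).2 e).W

/-- transfer of `W` between hom maps along edges -/
theorem W_hom_transfer {Y Z : Alg D.toSig} (g : AHom Y Z) {L : ℕ} {x x' y y' : Y.G.cell 0}
    (h1 : Y.G.Step 0 x y) (h2 : Y.G.Step 0 y' x') (h : W L (homMap g.map x x' _ _ rfl rfl)) :
    W L (homMap g.map y y' _ _ rfl rfl) := by
  obtain ⟨e, he⟩ := h1
  obtain ⟨e', he'⟩ := h2
  let a : (homG Y.G x y).cell 0 := ⟨e, he⟩
  let b : (homG Y.G y' x').cell 0 := ⟨e', he'⟩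
  have h3 : W L (((wl Y a y').comp (wr Y x b)).comp (homMap g.map x x' _ _ rfl rfl)) :=
    W.comp (Z := homAlg Z _ _) (W.comp (Z := homAlg Y _ _) (W_wl L Y a y') (W_wr L Y x b)) h
  have h4 : ((wl Y a y').comp (wr Y x b)).comp (homMap g.map x x' _ _ rfl rfl) =
      (homMap g.map y y' _ _ rfl rfl).comp
        ((wl Z ((homMap g.map _ _ _ _ rfl rfl).app 0 a) _).comp
          (wr Z _ ((homMap g.map _ _ _ _ rfl rfl).app 0 b))) :=
    GMap.ext' fun n c => Subtype.ext (wr_nat g (wl_nat g rfl rfl) rfl)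
  rw [h4] at h3
  exact h3.of_comp_left (W.comp (Z := homAlg Z _ _) (W_wl _ Z _ _) (W_wr _ Z _ _))

/-- (W3') right cancellation, gaining one level -/
theorem W.of_comp_right' : ∀ {L : ℕ} {X : GS.{u}} {Y Z : Alg D.toSig} {f : GMap X Y.G}
    {g : AHom Y Z}, W L f → W (L + 1) (f.comp g.map) → W (L + 1) g.map
  | 0, _, _, _, f, g, _, h => (W_succ_iff _ _).2
      ⟨fun z => (((W_succ_iff _ _).1 h).1 z).elim fun x hx => ⟨f.app 0 x, hx⟩, fun _ _ => W_zero _⟩
  | L + 1, _, Y, Z, f, g, hf, h => by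
    obtain ⟨h1, h2⟩ := (W_succ_iff _ _).1 h
    obtain ⟨h3, h4⟩ := (W_succ_iff _ _).1 hf
    refine (W_succ_iff _ _).2 ⟨fun z => (h1 z).elim fun x hx => ⟨f.app 0 x, hx⟩, fun y y' => ?_⟩
    obtain ⟨x, hx⟩ := h3 y
    obtain ⟨x', hx'⟩ := h3 y'
    exact W_hom_transfer g hx (step_symm Y hx') (W.of_comp_right' (Y := homAlg Y _ _)
      (Z := homAlg Z _ _) (g := homAHom g _ _ _ _ rfl rfl) (h4 x x') (h2 x x'))

/-- (W3) right cancellation -/
theorem W.of_comp_right {L : ℕ} {X : GS.{u}} {Y Z : Alg D.toSig} {f : GMap X Y.G}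
    {g : AHom Y Z} (hf : W L f) (h : W L (f.comp g.map)) : W L g.map := by
  cases L with
  | zero => exact W_zero _
  | succ L => exact W.of_comp_right' (hf.mono (Nat.le_succ L)) h

/-- transfer of connectivity along a map -/
theorem Conn.of_W {L : ℕ} {X : GS.{u}} {Y : Alg D.toSig} {f : GMap X Y.G} (hf : W L f)
    (h : Conn (L + 1) X) : Conn (L + 1) Y.G :=
  W_unit_iff.1 (W.of_comp_right' (g := toUnitA Y) hf (W_unit_iff.2 h))

theorem Conn.of_W' {L : ℕ} {X : GS.{u}} {Y : Alg D.toSig} {f : GMap X Y.G} (hf : W L f)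
    (h : Conn L X) : Conn L Y.G :=
  W_unit_iff.1 (W.of_comp_right (g := toUnitA Y) hf (W_unit_iff.2 h))

/-- a map between connected objects -/
theorem W.of_conn {L : ℕ} {X Y : GS.{u}} (f : GMap X Y) (h : Conn L X) (h' : Conn (L + 1) Y) :
    W L f := W.of_comp_left (g := toUnit Y) (W_unit_iff.2 h) (W_unit_iff.2 h')

/-- the source of a map in `W` to a connected algebra is connected -/
theorem Conn.of_W_src {L : ℕ} {X Y : GS.{u}} {f : GMap X Y} (hf : W L f) (h : Conn L Y) :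
    Conn L X := fun n hn s => by
  obtain ⟨y, hy⟩ := h n hn (f.sphere n s)
  obtain ⟨x, hx, -⟩ := hf n hn s y hy
  exact ⟨x, hx⟩

end Division

end Crest.Agent.R248
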