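import Crest.Agent.R248.Pull
import Crest.Agent.R248.Homotopy

/-!
# Row 248, bridge file 4: from the syntactic statement `PJ` to the statement about models.

Cellular lifting, weak equivalences from weak lifting, and the retract argument.
-/

set_option autoImplicit false

namespace Crest.Agent.R248

open CategoryTheory CategoryTheory.Limits Opposite Crest.GeometryTopology.Coherator

universe u

/-- cofibrant replacements exist (proved in `SOA.lean`; taken as a hypothesis here) -/
def HasCofib (D : Thy.{u}) : Prop :=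
  ∀ Y : Alg D.toSig, ∃ (Δ : Ctx D.Op) (U : VSet Δ.Var) (_ : Closed D.toSig Δ U)
    (q : AHom (Fr D Δ U) Y), TFib q.map

section Models

open GlobTheory GlobTheory.GlobModel

variable {C : GlobTheory.{u}}

theorem brCellsMap_comp {X Y Z : C.GlobModel} (f : X ⟶ Y) (g : Y ⟶ Z) :
    cellsMap (f ≫ g) = GMap.comp (cellsMap f) (cellsMap g) := rfl

theorem brCellsMap_id (X : C.GlobModel) : cellsMap (𝟙 X) = GMap.id X.cells := rfl

/-- the generating cell of the `n`-disk -/
noncomputable def brGen (C : GlobTheory.{u}) (n : ℕ) : (diskModel C n).cells.cell n :=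
  C.one (Shape.globe n)

/-- the map out of a disk classifying a cell -/
noncomputable def brYon {Z : C.GlobModel} {n : ℕ} (z : Z.cells.cell n) : diskModel C n ⟶ Z :=
  (yonedaEquiv (X := (⟨Shape.globe n⟩ : C.Ob)) (F := Z.functor)).symm z

theorem brYon_gen {Z : C.GlobModel} {n : ℕ} (z : Z.cells.cell n) :
    (cellsMap (brYon z)).app n (brGen C n) = z :=
  (yonedaEquiv (X := (⟨Shape.globe n⟩ : C.Ob)) (F := Z.functor)).apply_symm_apply z

theorem brDisk_ext {Z : C.GlobModel} {n : ℕ} {f g : diskModel C n ⟶ Z}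
    (h : (cellsMap f).app n (brGen C n) = (cellsMap g).app n (brGen C n)) : f = g :=
  (yonedaEquiv (X := (⟨Shape.globe n⟩ : C.Ob)) (F := Z.functor)).injective h

theorem brSourceIncl_gen (n : ℕ) :
    (cellsMap (sourceIncl C n)).app n (brGen C n) =
      (diskModel C (n + 1)).cells.src n (brGen C (n + 1)) :=
  (C.one_seq (C.ofShape (Shape.σ n))).trans (C.seq_one (C.ofShape (Shape.σ n))).symm

theorem brAttach_lift {X Y E B : C.GlobModel} {f : X ⟶ Y} (hf : IsAttaching f) (p : E ⟶ B)
    (hp : TFib (cellsMap p)) : HasLiftingProperty f p where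
  sq_hasLift {u v} sq := by
    have hz : ∀ k, ∃ z : E.cells.cell (hf.dimOf k),
        E.cells.bdry _ z = (cellsMap u).sphere _ (hf.sphere k) ∧
          (cellsMap p).app _ z = (cellsMap v).app _ (hf.newCell k) := fun k => by
      refine hp _ _ _ ?_
      rw [bdry_map, hf.newCell_bdry, ← sphere_comp, ← sphere_comp, ← brCellsMap_comp,
        ← brCellsMap_comp, sq.w]
    choose z hz1 hz2 using hz
    obtain ⟨l, ⟨hl1, hl2⟩, -⟩ := hf.universal E u z hz1
    refine ⟨⟨⟨l, hl1, ?_⟩⟩⟩
    refine (hf.universal B (f ≫ v) (fun k => (cellsMap v).app _ (hf.newCell k)) fun k => ?_).unique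
      ⟨by rw [← Category.assoc, hl1, sq.w], fun k => ?_⟩ ⟨rfl, fun _ => rfl⟩
    · rw [bdry_map, hf.newCell_bdry, ← sphere_comp, ← brCellsMap_comp]
    · rw [brCellsMap_comp, GMap.comp_app, hl2, hz2]

end Models

/-- Cellular models lift against maps which are trivial fibrations on cells.
Recipe: for `p : E ⟶ B` with `TFib (cellsMap p)`, an `IsAttaching` map has the left lifting
property against `p` (choose the cells by `ILift`, use `universal` for existence and uniqueness);
left lifting properties are stable under transfinite composition (Mathlib: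
`MorphismProperty.llp`, `IsStableUnderTransfiniteCompositionOfShape`, or
`HasLiftingProperty.transfiniteComposition`), and the source of `fromStart` is initial. -/
theorem cellular_lift {C : GlobTheory.{u}} {X E B : C.GlobModel} (hX : X.IsCellularModel)
    (p : E ⟶ B) (hp : TFib (GlobTheory.GlobModel.cellsMap p)) (g : X ⟶ B) :
    ∃ l : X ⟶ E, l ≫ p = g := by
  obtain ⟨P⟩ := hX
  let _ := P.linOrd
  let _ := P.bot
  let _ := P.succ
  have _ := P.wf
  have _ := P.chain.isWellOrderContinuous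
  have h := HasLiftingProperty.transfiniteComposition.hasLiftingProperty_ι_app_bot
    (p := p) P.chain.isColimit fun j hj => brAttach_lift (P.attach j hj) p hp
  have hi : IsInitial (P.chain.F.obj ⊥) := P.startIsInitial.ofIso P.chain.isoBot.symm
  have sq : CommSq (hi.to E) ((Cocone.mk X P.chain.incl).ι.app ⊥) p g := ⟨hi.hom_ext _ _⟩
  exact ⟨sq.lift, sq.fac_right⟩

theorem brQuot_bij {α β : Type u} {r : α → α → Prop} {s : β → β → Prop} (f : α → β)
    (hf : ∀ a b, r a b → s (f a) (f b)) (hs : Equivalence s)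
    (hi : ∀ a b, s (f a) (f b) → r a b) (hu : ∀ y, ∃ x, s (f x) y) :
    Function.Bijective (Quot.map f hf : Quot r → Quot s) := by
  constructor
  · rintro ⟨a⟩ ⟨b⟩ h
    exact Quot.sound (hi a b (hs.eqvGen_iff.1 (Quot.eqvGen_exact h)))
  · rintro ⟨y⟩
    obtain ⟨x, hx⟩ := hu y
    exact ⟨Quot.mk _ x, Quot.sound hx⟩

/-- Weak lifting in all dimensions gives a weak equivalence.  `Step` is an equivalence relation on
the cells of `K.alg Y` (`step_refl`, `step_symm`, `step_trans`), so equality in the quotients of `Y`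
is `Step` (`Quot.eqvGen_exact`/`Relation.EqvGen`); injectivity uses `WLift.succ` one dimension up,
surjectivity uses `WLift.zero` / `WLift.succ`. -/
theorem isWeakEquiv_of_W {C : GlobTheory.{u}} (K : Cover C) (e : C.UnitChoice)
    {X Y : C.GlobModel} (i : X ⟶ Y) (h : ∀ L, W L (GlobTheory.GlobModel.cellsMap i)) :
    GlobTheory.GlobModel.IsWeakEquiv e i := by
  have hw : ∀ n, WLift (GlobTheory.GlobModel.cellsMap i) n := fun n =>
    h (n + 1) n (Nat.lt_succ_self n)
  refine ⟨brQuot_bij _ _ ⟨fun a => step_refl (K.alg Y) a, fun h => step_symm (K.alg Y) h,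
    fun h h' => step_trans (K.alg Y) h h'⟩ ?_ fun y => (hw 0).zero y, fun x n => ?_⟩
  · rintro a b ⟨c, hc1, hc2⟩
    obtain ⟨d, h1, h2, -⟩ := (hw 1).succ (n := 0) (u := a) (v := b) trivial c hc1 hc2
    exact ⟨d, h1, h2⟩
  · refine brQuot_bij _ _ ⟨fun a => step_refl (K.alg Y) a.1, fun h => step_symm (K.alg Y) h,
      fun h h' => step_trans (K.alg Y) h h'⟩ ?_ ?_
    · rintro a b ⟨c, hc1, hc2⟩
      obtain ⟨d, h1, h2, -⟩ := (hw (n + 2)).succ (u := a.1) (v := b.1)
        ⟨a.2.1.trans b.2.1.symm, a.2.2.trans b.2.2.symm⟩ c hc1 hc2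
      exact ⟨d, h1, h2⟩
    · intro y
      have hb : ∀ k, (GlobTheory.GlobModel.cellsMap i).app k (X.basePoint e x k) =
          Y.basePoint e ((GlobTheory.GlobModel.cellsMap i).app 0 x) k := by
        intro k
        induction k with
        | zero => rfl
        | succ k ih =>
          have h := types_congr_hom (NatTrans.naturality (i : X.functor ⟶ Y.functor) (Quiver.Hom.op
            (X := (⟨Shape.globe (k + 1)⟩ : C.Ob)) (Y := (⟨Shape.globe k⟩ : C.Ob)) (e.unit k)))
            (X.basePoint e x k)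
          change (GlobTheory.GlobModel.cellsMap i).app (k + 1)
              (X.unitCell e k (X.basePoint e x k)) =
            Y.unitCell e k ((GlobTheory.GlobModel.cellsMap i).app k (X.basePoint e x k)) at h
          rw [ih] at h
          exact h
      obtain ⟨z, h1, h2, h3⟩ := (hw (n + 1)).succ (par_refl n (X.basePoint e x n)) y.1
        (y.2.1.trans (hb n).symm) (y.2.2.trans (hb n).symm)
      exact ⟨⟨z, h1, h2⟩, h3⟩

/-! ## Adjoining a cell `x` parallel to a term `t` and a cell `h` from `t` to `x` -/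

section Extend

/-- the variables of the extended context -/
inductive BrVar (V : Vars.{u}) (n k : ℕ) : Type u
  | old (x : V k) : BrVar V n k
  | pt (e : k = n) : BrVar V n k
  | arr (e : k = n + 1) : BrVar V n k

variable {D : Thy.{u}} {Δ : Ctx D.Op} {U : VSet Δ.Var} {n : ℕ}

/-- transport of a graded element to a propositionally equal dimension -/
def brAt {F : ℕ → Type u} {n : ℕ} (t : F n) (k : ℕ) (e : k = n) : F k := e ▸ t

/-- the inclusion of the old variables -/
abbrev brOld (V : Vars.{u}) (n : ℕ) : ∀ k, V k → BrVar V n k := fun _ x => .old x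

variable (Δ) in
/-- the extended context -/
@[reducible] def brCtx (t : Tm D.Op Δ.Var n) : Ctx D.Op where
  Var := BrVar Δ.Var n
  src {k} v := match v with
    | .old x => (Δ.src x).ren (brOld _ n)
    | .pt e => (rsrc D.toSig Δ (brAt (F := Tm D.Op Δ.Var) t _ e)).ren (brOld _ n)
    | .arr e => (brAt (F := Tm D.Op Δ.Var) t k (Nat.succ.inj e)).ren (brOld _ n)
  tgt {_} v := match v with
    | .old x => (Δ.tgt x).ren (brOld _ n)
    | .pt e => (rtgt D.toSig Δ (brAt (F := Tm D.Op Δ.Var) t _ e)).ren (brOld _ n)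
    | .arr e => .var (.pt (Nat.succ.inj e))

variable (U n) in
/-- the old variables -/
def brU0 : VSet (BrVar Δ.Var n) := fun k v => ∃ x, v = .old x ∧ U k x

variable (U n) in
/-- the old variables and the two new ones -/
def brU1 : VSet (BrVar Δ.Var n) := fun k v => ∀ x, v = .old x → U k x

theorem brBP (t : Tm D.Op Δ.Var n) :
    BP D.toSig Δ (brCtx Δ t) U fun k x => .var (brOld _ n k x) := fun _ _ _ => ⟨rfl, rfl⟩

theorem brOK (t : Tm D.Op Δ.Var n) {k : ℕ} {s : Tm D.Op Δ.Var k} (h : OK D.toSig Δ U s) :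
    OK D.toSig (brCtx Δ t) (brU0 U n) (s.ren (brOld _ n)) :=
  OK.ren (brBP t) (fun _ x hx => ⟨x, rfl, hx.mem⟩) h

/-- the extension by one pair -/
def brJ (hU : Closed D.toSig Δ U) (t : (Fr D Δ U).G.cell n) :
    JExt D.toSig (brCtx Δ t.1) (brU0 U n) (brU1 U n) where
  st _ _ := 0
  pair _ v w := (∃ e, v = .pt e) ∧ ∃ e, w = .arr e
  sub := by
    rintro k _ ⟨x, rfl, hx⟩ y e
    cases e
    exact hx
  closed := by
    rintro k _ ⟨x, rfl, hx⟩
    exact brOK t.1 (hU k x hx)
  pair_uniq := by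
    rintro k x _ _ ⟨-, e, rfl⟩ ⟨-, e', rfl⟩
    rfl
  pair_new := by
    rintro k _ _ ⟨⟨e, rfl⟩, e', rfl⟩
    refine ⟨fun _ h => ?_, fun ⟨_, h, _⟩ => ?_, fun _ h => ?_, fun ⟨_, h, _⟩ => ?_⟩ <;> cases h
  pair_st _ _ _ _ := rfl
  pair_not := by
    rintro k x _ _ ⟨-, e, rfl⟩ ⟨⟨e', h⟩, -⟩
    cases h
  pair_tgt := by
    rintro k _ _ ⟨⟨e, rfl⟩, e', rfl⟩
    rfl
  pair_src := by
    rintro k _ _ ⟨⟨e, rfl⟩, e', rfl⟩
    subst e
    exact (brOK t.1 t.2).mono fun _ _ h => Or.inl h
  pair_par := by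
    rintro k _ _ ⟨⟨e, rfl⟩, e', rfl⟩
    subst e
    cases k with
    | zero => trivial
    | succ k => exact ⟨rsrc_subst (brBP t.1) t.2, rtgt_subst (brBP t.1) t.2⟩
  icell := by
    intro k v h1 h2 h3 h4
    exfalso
    rcases v with x | e | rfl
    · exact h2 ⟨x, rfl, h1 x rfl⟩
    · exact h3 ⟨.arr (congrArg Nat.succ e), ⟨e, rfl⟩, _, rfl⟩
    · exact h4 ⟨.pt rfl, ⟨rfl, rfl⟩, rfl, rfl⟩

theorem brJ_noI (hU : Closed D.toSig Δ U) (t : (Fr D Δ U).G.cell n) : (brJ hU t).NoI := by
  rintro k v ⟨h1, h2, h3, h4⟩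
  rcases v with x | e | rfl
  · exact h2 ⟨x, rfl, h1 x rfl⟩
  · exact h3 ⟨.arr (congrArg Nat.succ e), ⟨e, rfl⟩, _, rfl⟩
  · exact h4 ⟨.pt rfl, ⟨rfl, rfl⟩, rfl, rfl⟩

/-- the renaming onto the old variables -/
def brRen (t : Tm D.Op Δ.Var n) : AHom (Fr D Δ U) (Fr D (brCtx Δ t) (brU0 U n)) :=
  frRen (brOld _ n) (brBP t) fun _ x hx => ⟨x, rfl, hx.mem⟩

theorem brRen_bij (hU : Closed D.toSig Δ U) (t : Tm D.Op Δ.Var n) (k : ℕ) :
    Function.Bijective ((brRen (U := U) t).map.app k) := by
  refine frRen_bij _ _ _ (fun _ x y _ _ h => ?_) (fun _ v hv => ?_) k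
  · exact BrVar.old.inj h
  · obtain ⟨x, rfl, hx⟩ := hv.mem
    exact ⟨x, hU _ x hx, rfl⟩

/-- the free extension along the source inclusion at the cell `t` -/
theorem exists_brExt (hU : Closed D.toSig Δ U) (t : (Fr D Δ U).G.cell n) :
    ∃ (Δ' : Ctx D.Op) (U₀ U' : VSet Δ'.Var) (J : JExt D.toSig Δ' U₀ U')
      (r : AHom (Fr D Δ U) (Fr D Δ' U₀)) (h : (Fr D Δ' U').G.cell (n + 1)),
      J.NoI ∧ (∀ k, Function.Bijective (r.map.app k)) ∧
      (Fr D Δ' U').G.src n h = (r.comp (frIncl J.sub')).map.app n t ∧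
      ∀ (Z : Alg D.toSig) (g : AHom (Fr D Δ U) Z) (z : Z.G.cell (n + 1)),
        Z.G.src n z = g.map.app n t →
        ∃ g' : AHom (Fr D Δ' U') Z, (r.comp (frIncl J.sub')).comp g' = g ∧
          g'.map.app (n + 1) h = z := by
  have hh : OK D.toSig (brCtx Δ t.1) (brU1 U n) (.var (BrVar.arr rfl)) :=
    (brJ hU t).closed' _ _ fun _ h => by cases h
  refine ⟨brCtx Δ t.1, brU0 U n, brU1 U n, brJ hU t, brRen t.1, fv _ hh, brJ_noI hU t,
    brRen_bij hU t.1, rfl, fun Z g z hz => ?_⟩
  let ρ : Asg (BrVar Δ.Var n) Z.G := fun k v y => match v with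
    | .old x => g.asg k x y
    | .pt e => y = brAt (F := Z.G.cell) (Z.G.tgt n z) k e
    | .arr e => y = brAt (F := Z.G.cell) z k e
  have ev : ∀ {k : ℕ} {s : Tm D.Op Δ.Var k} {y : Z.G.cell k}, Eval Z.str.op g.asg s y →
      Eval Z.str.op ρ (s.ren (brOld _ n)) y := fun h =>
    Eval.subst (ρ' := ρ) (θ := fun k x => .var (brOld _ n k x)) (fun _ _ _ h => .var h) h
  have ht : Eval Z.str.op g.asg t.1 (Z.G.src n z) := hz ▸ g.eval t
  have hρ : Valid (brCtx Δ t.1) Z.str ρ := by
    constructor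
    · intro k v y y' h h'
      cases v with
      | old x => exact g.asg_valid.func _ _ _ _ h h'
      | pt e => exact h.trans h'.symm
      | arr e => exact h.trans h'.symm
    · intro k v y h
      rcases v with x | rfl | e
      · exact ⟨ev (g.asg_valid.law _ _ _ h).1, ev (g.asg_valid.law _ _ _ h).2⟩
      · obtain rfl : y = Z.G.tgt _ z := h
        obtain ⟨a, b⟩ := g.asg_valid.bdry ht
        rw [Z.G.src_src] at a
        rw [Z.G.tgt_tgt] at b
        exact ⟨ev a, ev b⟩
      · cases e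
        obtain rfl : y = z := h
        exact ⟨ev ht, .var rfl⟩
  have hT : ∀ k v, OK D.toSig (brCtx Δ t.1) (brU1 U n) (.var v) → ∃ y, ρ k v y := by
    intro k v hv
    cases v with
    | old x => exact ⟨_, hU _ x (hv.mem x rfl), rfl⟩
    | pt e => exact ⟨_, rfl⟩
    | arr e => exact ⟨_, rfl⟩
  refine ⟨lift hρ hT, fr_ext fun k x hx => ?_, lift_var hρ hT _ hh⟩
  exact lift_eq hρ hT (.var ⟨hx, rfl⟩)

end Extend

/-- Recipe.  Take `K` from `exists_cover`, `P` from `exists_pull`, a cofibrant replacement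
`q : Fr D Δ U → K.alg X`.  The map `P.map q ≫ P.counit X` is a trivial fibration on cells
(`cells_nat`, `counit_cells`, `TFib.of_bij`, `TFib.comp`), so it has a section `s` by
`cellular_lift`.  Let `t : (Fr D Δ U).G.cell n` be the image of the cell classified by `a` under `s`
and `cells`.  Extend `Δ` to `Δ'` by two variables `x` (dimension `n`, boundary that of `t`) and
`h` (dimension `n + 1`, from `t` to `x`), e.g. `Var k := Δ.Var k ⊕ PLift (k = n) ⊕ PLift (k = n+1)`
or an inductive family; the old variables give a bijective renaming (`frRen_bij`) onto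
`Fr D Δ' U₀` and `U₀ ⊆ U'` is a `JExt` with one pair (stage `0`) and `NoI`, so the composite
`j : Fr D Δ U → Fr D Δ' U'` is in `W L` for all `L` (`H`, `W.comp`, `W_of_bij`).  Define
`q' : Fr D Δ' U' → K.alg Y` by `lift` (old variables via `q` and `K.hom i`, `h ↦ b (top)`,
`x ↦` its target) and `s' : Y ⟶ P.obj (Fr D Δ' U')` by `sq.desc` from `s ≫ P.map j` and the Yoneda
map classifying `h`.  Then `s' ≫ P.map q' ≫ P.counit Y = 𝟙` by `sq.hom_ext`, so `cellsMap i` is a
retract of `j.map` (`W.retract`), and `isWeakEquiv_of_W` concludes. -/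
theorem bridge (H : ∀ (D : Coh.{u}) (L : ℕ), PJ D.toThy L) (Hc : ∀ D : Thy.{u}, HasCofib D)
    (C : GlobTheory.{u}) (hC : C.IsCoheratorTheory) (e : C.UnitChoice)
    (X : C.GlobModel) (hX : X.IsCellularModel) (n : ℕ)
    (a : GlobTheory.GlobModel.diskModel C n ⟶ X)
    (Y : C.GlobModel) (i : X ⟶ Y) (b : GlobTheory.GlobModel.diskModel C (n + 1) ⟶ Y)
    (sq : IsPushout a (GlobTheory.GlobModel.sourceIncl C n) i b) :
    GlobTheory.GlobModel.IsWeakEquiv e i := by
  obtain ⟨⟨T⟩, hC⟩ := hC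
  obtain ⟨K⟩ := exists_cover C hC
  obtain ⟨P⟩ := exists_pull T K
  obtain ⟨Δ, U, hU, q, hq⟩ := Hc K.D.toThy (K.alg X)
  -- cells of the composite `P.map q ≫ P.counit`
  have hcells : ∀ {Z : Alg K.D.toSig} {V : C.GlobModel} (f : AHom Z (K.alg V)),
      GlobTheory.GlobModel.cellsMap (P.map f ≫ P.counit V) = (P.cells Z).hom.comp f.map := by
    intro Z V f
    rw [brCellsMap_comp, P.counit_cells, P.cells_nat]
  have hbij : ∀ (Z : Alg K.D.toSig) (k : ℕ), Function.Bijective ((P.cells Z).hom.app k) :=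
    fun Z k => Function.bijective_iff_has_inverse.2 ⟨(P.cells Z).inv.app k,
      fun x => congrArg (fun φ : GMap _ _ => φ.app k x) (P.cells Z).hom_inv,
      fun x => congrArg (fun φ : GMap _ _ => φ.app k x) (P.cells Z).inv_hom⟩
  obtain ⟨s, hs⟩ := cellular_lift hX (P.map q ≫ P.counit X)
    (by rw [hcells]; exact (TFib.of_bij (hbij _)).comp hq) (𝟙 X)
  let σ : GMap X.cells (Fr K.D.toThy Δ U).G :=
    GMap.comp (GlobTheory.GlobModel.cellsMap s) (P.cells _).hom
  have hσ : σ.comp q.map = GMap.id _ := by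
    rw [GMap.comp_assoc, ← hcells, ← brCellsMap_comp, hs, brCellsMap_id]
  let α : X.cells.cell n := (GlobTheory.GlobModel.cellsMap a).app n (brGen C n)
  let β : Y.cells.cell (n + 1) := (GlobTheory.GlobModel.cellsMap b).app (n + 1) (brGen C (n + 1))
  have hβ : Y.cells.src n β = (GlobTheory.GlobModel.cellsMap i).app n α := by
    rw [← GlobSet.Map.app_src, ← brSourceIncl_gen, ← GMap.comp_app, ← brCellsMap_comp, ← sq.w]
    rfl
  obtain ⟨Δ', U₀, U', J, r, h, hJ, hr, hh, huniv⟩ := exists_brExt hU (σ.app n α)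
  set j := r.comp (frIncl J.sub') with hj
  obtain ⟨q', hq1, hq2⟩ := huniv (K.alg Y) (q.comp (K.hom i)) β (by
    rw [hβ]
    exact (congrArg ((GlobTheory.GlobModel.cellsMap i).app n)
      (congrArg (fun φ : GMap _ _ => φ.app n α) hσ)).symm)
  have hW : ∀ L, W L j.map := fun L => by
    have h1 : W L (frIncl (D := K.D.toThy) J.sub').map := H K.D L Δ' U₀ U' J hJ
    exact W.comp (D := K.D) (Z := Fr K.D.toThy Δ' U')
      (W_of_bij (D := K.D) (Y := Fr K.D.toThy Δ' U₀) hr L) h1
  have w : a ≫ s ≫ P.map j =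
      GlobTheory.GlobModel.sourceIncl C n ≫ brYon ((P.cells _).inv.app (n + 1) h) := by
    refine brDisk_ext ((hbij _ n).1 ?_)
    rw [brCellsMap_comp (GlobTheory.GlobModel.sourceIncl C n), GMap.comp_app, brSourceIncl_gen,
      GlobSet.Map.app_src, brYon_gen, GlobSet.Map.app_src, ← GMap.comp_app (P.cells _).inv,
      (P.cells _).inv_hom, GMap.id_app, hh]
    exact congrArg (fun φ : GMap _ _ => φ.app n ((GlobTheory.GlobModel.cellsMap s).app n α))
      (P.cells_nat j)
  let s' : Y ⟶ P.obj (Fr K.D.toThy Δ' U') := sq.desc _ _ w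
  have hs1 : i ≫ s' = s ≫ P.map j := sq.inl_desc _ _ w
  have hs2 : b ≫ s' = brYon ((P.cells _).inv.app (n + 1) h) := sq.inr_desc _ _ w
  have hs' : s' ≫ P.map q' ≫ P.counit Y = 𝟙 Y := by
    refine sq.hom_ext ?_ ?_
    · rw [← Category.assoc, hs1, Category.assoc, ← Category.assoc (P.map j), ← P.map_comp, hq1,
        P.map_comp, Category.assoc, P.counit_nat, ← Category.assoc (P.map q), ← Category.assoc,
        hs, Category.id_comp, Category.comp_id]
    · rw [← Category.assoc, hs2, Category.comp_id]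
      refine brDisk_ext ?_
      rw [brCellsMap_comp, GMap.comp_app, brYon_gen, hcells, GMap.comp_app,
        ← GMap.comp_app (P.cells _).inv, (P.cells _).inv_hom, GMap.id_app, hq2]
  refine isWeakEquiv_of_W K e i fun L => (hW L).retract σ q.map
    (GMap.comp (GlobTheory.GlobModel.cellsMap s') (P.cells _).hom) q'.map hσ ?_ ?_ ?_
  · rw [GMap.comp_assoc, ← hcells, ← brCellsMap_comp, hs', brCellsMap_id]
  · rw [← GMap.comp_assoc, ← brCellsMap_comp, hs1, brCellsMap_comp, GMap.comp_assoc,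
      GMap.comp_assoc, P.cells_nat]
  · exact congrArg AHom.map hq1

end Crest.Agent.R248
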