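import Crest.Agent.R248.Term

/-!
# Row 248, file 3: heights, staged cell extensions (`JExt`), the lifting lemma, dimension lemmas.
-/

set_option autoImplicit false

namespace Crest.Agent.R248

open Crest.GeometryTopology.Coherator

universe u

/-! ## Heights -/

section Height

variable (Γ : Sig.{u}) (Δ : Ctx Γ.Op)

/-- immediate predecessors of a raw term: source, target, arguments -/
inductive Pre : (Σ n, Tm Γ.Op Δ.Var n) → (Σ n, Tm Γ.Op Δ.Var n) → Prop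
  | src {n : ℕ} (t : Tm Γ.Op Δ.Var (n + 1)) : Pre ⟨n, rsrc Γ Δ t⟩ ⟨n + 1, t⟩
  | tgt {n : ℕ} (t : Tm Γ.Op Δ.Var (n + 1)) : Pre ⟨n, rtgt Γ Δ t⟩ ⟨n + 1, t⟩
  | arg {A : Tr} {n : ℕ} (γ : Γ.Op A n) (σ : ∀ k, Pos A k → Tm Γ.Op Δ.Var k) (k : ℕ)
      (p : Pos A k) : Pre ⟨k, σ k p⟩ ⟨n + 1, .op γ σ⟩

/-- `Hgt α t`: all chains of predecessors below `t` have length `< α` -/
def Hgt : ℕ → (Σ n, Tm Γ.Op Δ.Var n) → Prop
  | 0, _ => False
  | α + 1, a => ∀ b, Pre Γ Δ b a → Hgt α b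

variable {Γ Δ}

theorem Hgt.succ : ∀ {α : ℕ} {a : Σ n, Tm Γ.Op Δ.Var n}, Hgt Γ Δ α a → Hgt Γ Δ (α + 1) a
  | 0, _, h => h.elim
  | _ + 1, _, h => fun b hb => Hgt.succ (h b hb)

theorem Hgt.mono {α β : ℕ} {a : Σ n, Tm Γ.Op Δ.Var n} (h : Hgt Γ Δ α a) (hl : α ≤ β) :
    Hgt Γ Δ β a := by
  induction hl with
  | refl => exact h
  | step _ ih => exact ih.succ

theorem Hgt.pre {α : ℕ} {a b : Σ n, Tm Γ.Op Δ.Var n} (h : Hgt Γ Δ α a) (hb : Pre Γ Δ b a) :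
    Hgt Γ Δ α b := by
  cases α with
  | zero => exact h.elim
  | succ α => exact (h b hb).succ

theorem Pre.var0_inv {x : Δ.Var 0} {b : Σ n, Tm Γ.Op Δ.Var n} (h : Pre Γ Δ b ⟨0, .var x⟩) :
    False := by
  generalize ha : (⟨0, .var x⟩ : Σ n, Tm Γ.Op Δ.Var n) = a at h
  cases h <;> cases ha

theorem Pre.var_inv {n : ℕ} {x : Δ.Var (n + 1)} {b : Σ n, Tm Γ.Op Δ.Var n}
    (h : Pre Γ Δ b ⟨n + 1, .var x⟩) : b = ⟨n, Δ.src x⟩ ∨ b = ⟨n, Δ.tgt x⟩ := by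
  generalize ha : (⟨n + 1, .var x⟩ : Σ n, Tm Γ.Op Δ.Var n) = a at h
  cases h with
  | src t => cases ha; exact Or.inl rfl
  | tgt t => cases ha; exact Or.inr rfl
  | arg γ σ k p => cases ha

theorem Pre.op_inv {A : Tr} {n : ℕ} {γ : Γ.Op A n} {σ : ∀ k, Pos A k → Tm Γ.Op Δ.Var k}
    {b : Σ n, Tm Γ.Op Δ.Var n} (h : Pre Γ Δ b ⟨n + 1, .op γ σ⟩) :
    b = ⟨n, (Γ.src γ).subst σ⟩ ∨ b = ⟨n, (Γ.tgt γ).subst σ⟩ ∨ ∃ k p, b = ⟨k, σ k p⟩ := by
  generalize ha : (⟨n + 1, .op γ σ⟩ : Σ n, Tm Γ.Op Δ.Var n) = a at h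
  cases h with
  | src t => cases ha; exact Or.inl rfl
  | tgt t => cases ha; exact Or.inr (Or.inl rfl)
  | arg γ σ k p => cases ha; exact Or.inr (Or.inr ⟨k, p, rfl⟩)

theorem OK.pre {T : VSet Δ.Var} {a b : Σ n, Tm Γ.Op Δ.Var n} (h : Pre Γ Δ b a)
    (ha : OK Γ Δ T a.2) : OK Γ Δ T b.2 := by
  cases h with
  | src t => exact ha.src
  | tgt t => exact ha.tgt
  | arg γ σ k p => exact ha.op_inv.2.1 k p

theorem OK.hgt {T : VSet Δ.Var} {n : ℕ} {t : Tm Γ.Op Δ.Var n} (h : OK Γ Δ T t) :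
    ∃ α, Hgt Γ Δ α ⟨n, t⟩ := by
  induction h with
  | var0 x _ => exact ⟨1, fun b hb => hb.var0_inv⟩
  | varS x _ _ _ _ ih1 ih2 =>
    obtain ⟨a, ha⟩ := ih1
    obtain ⟨b, hb⟩ := ih2
    refine ⟨a + b + 1, fun c hc => ?_⟩
    rcases hc.var_inv with rfl | rfl
    · exact ha.mono (by omega)
    · exact hb.mono (by omega)
  | @op A n γ σ _ _ _ _ _ _ ih1 ih2 ih3 =>
    choose f hf using ih1
    obtain ⟨r0, hr0⟩ := (Set.finite_range fun a : Σ k, Pos.{u} A k => f a.1 a.2).bddAbove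
    obtain ⟨a, ha⟩ := ih2
    obtain ⟨b, hb⟩ := ih3
    refine ⟨r0 + a + b + 1, fun c hc => ?_⟩
    rcases hc.op_inv with rfl | rfl | ⟨k, p, rfl⟩
    · exact ha.mono (by omega)
    · exact hb.mono (by omega)
    · have := hr0 ⟨⟨k, p⟩, rfl⟩
      simp only at this
      exact (hf k p).mono (by omega)

theorem OK.of_hgt {T : VSet Δ.Var} {α : ℕ} {n : ℕ} {t : Tm Γ.Op Δ.Var n} (h : OK Γ Δ T t)
    (hα : Hgt Γ Δ α ⟨n, t⟩) : OK Γ Δ (fun k x => T k x ∧ Hgt Γ Δ α ⟨k, .var x⟩) t := by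
  induction h with
  | var0 x hx => exact .var0 x ⟨hx, hα⟩
  | varS x hx _ _ h3 ih1 ih2 =>
    exact .varS x ⟨hx, hα⟩ (ih1 (hα.pre (.src (.var x)))) (ih2 (hα.pre (.tgt (.var x)))) h3
  | op γ σ h1 _ h3 _ _ h6 ih1 ih2 ih3 =>
    exact .op γ σ h1 (fun k p => ih1 k p (hα.pre (.arg γ σ k p))) h3
      (ih2 (hα.pre (.src (.op γ σ)))) (ih3 (hα.pre (.tgt (.op γ σ)))) h6

/-- predecessors are preserved by boundary-preserving substitutions -/
theorem Pre.subst {Δ' : Ctx Γ.Op} {T : VSet Δ.Var} {θ : ∀ n, Δ.Var n → Tm Γ.Op Δ'.Var n}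
    (hθ : BP Γ Δ Δ' T θ) {a b : Σ n, Tm Γ.Op Δ.Var n} (h : Pre Γ Δ b a) (ha : OK Γ Δ T a.2) :
    Pre Γ Δ' ⟨b.1, b.2.subst θ⟩ ⟨a.1, a.2.subst θ⟩ := by
  cases h with
  | src t => simp only; rw [← rsrc_subst hθ ha]; exact .src _
  | tgt t => simp only; rw [← rtgt_subst hθ ha]; exact .tgt _
  | arg γ σ k p => exact .arg γ (fun k p => (σ k p).subst θ) k p

theorem Hgt.of_subst {Δ' : Ctx Γ.Op} {T : VSet Δ.Var} {θ : ∀ n, Δ.Var n → Tm Γ.Op Δ'.Var n}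
    (hθ : BP Γ Δ Δ' T θ) : ∀ {α : ℕ} {a : Σ n, Tm Γ.Op Δ.Var n}, OK Γ Δ T a.2 →
      Hgt Γ Δ' α ⟨a.1, a.2.subst θ⟩ → Hgt Γ Δ α a
  | 0, _, _, h => h
  | _ + 1, _, ha, h => fun _ hb => Hgt.of_subst hθ (OK.pre hb ha) (h _ (hb.subst hθ ha))

end Height

/-! ## Boundary conditions of a variable -/

section Bd

variable (Γ : Sig.{u}) (Δ : Ctx Γ.Op)

/-- the boundary of the variable is a well-formed sphere over `T` -/
def BdOK (T : VSet Δ.Var) : (n : ℕ) → Δ.Var n → Prop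
  | 0, _ => True
  | n + 1, x => OK Γ Δ T (Δ.src x) ∧ OK Γ Δ T (Δ.tgt x) ∧ RPar Γ Δ n (Δ.src x) (Δ.tgt x)

variable {Γ Δ}

theorem ok_var_iff {T : VSet Δ.Var} : ∀ {n : ℕ} {x : Δ.Var n},
    OK Γ Δ T (.var x) ↔ T n x ∧ BdOK Γ Δ T n x
  | 0, x => ⟨fun h => ⟨h.mem, trivial⟩, fun h => .var0 x h.1⟩
  | _ + 1, x => ⟨fun h => ⟨h.mem, h.src, h.tgt, h.par⟩, fun h => .varS x h.1 h.2.1 h.2.2.1 h.2.2.2⟩

theorem BdOK.mono' {T T' : VSet Δ.Var} (hT : ∀ k x, OK Γ Δ T (.var x) → T' k x) :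
    ∀ {n : ℕ} {x : Δ.Var n}, BdOK Γ Δ T n x → BdOK Γ Δ T' n x
  | 0, _, _ => trivial
  | _ + 1, _, h => ⟨h.1.mono' hT, h.2.1.mono' hT, h.2.2⟩

theorem BdOK.mono {T T' : VSet Δ.Var} (hT : ∀ k x, T k x → T' k x) {n : ℕ} {x : Δ.Var n}
    (h : BdOK Γ Δ T n x) : BdOK Γ Δ T' n x := h.mono' fun k x hx => hT k x hx.mem

theorem BdOK.inter {T T' : VSet Δ.Var} : ∀ {n : ℕ} {x : Δ.Var n}, BdOK Γ Δ T n x →
    BdOK Γ Δ T' n x → BdOK Γ Δ (fun k x => T k x ∧ T' k x) n x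
  | 0, _, _, _ => trivial
  | _ + 1, _, h, h' => ⟨h.1.inter h'.1, h.2.1.inter h'.2.1, h.2.2⟩

theorem BdOK.of_par {T : VSet Δ.Var} : ∀ {n : ℕ} {x : Δ.Var n} {a : Tm Γ.Op Δ.Var n},
    OK Γ Δ T a → RPar Γ Δ n a (.var x) → BdOK Γ Δ T n x
  | 0, _, _, _, _ => trivial
  | _ + 1, _, _, ha, ⟨h1, h2⟩ => by
    simp only [rsrc_var, rtgt_var] at h1 h2
    exact ⟨h1 ▸ ha.src, h2 ▸ ha.tgt, h1 ▸ h2 ▸ ha.par⟩

/-- the boundary sphere of a variable in the free globular set -/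
def bdSphere {T : VSet Δ.Var} : (n : ℕ) → (x : Δ.Var n) → BdOK Γ Δ T n x → (frG Γ Δ T).Sphere n
  | 0, _, _ => PUnit.unit
  | _ + 1, x, h => ⟨(⟨Δ.src x, h.1⟩, ⟨Δ.tgt x, h.2.1⟩), (frG_par _ _).2 h.2.2⟩

/-- a set of variables is closed when each of its members is well formed over it -/
def Closed (Γ : Sig.{u}) (Δ : Ctx Γ.Op) (U : VSet Δ.Var) : Prop :=
  ∀ n x, U n x → OK Γ Δ U (.var x)

theorem closed_closure (T : VSet Δ.Var) : Closed Γ Δ fun _ x => OK Γ Δ T (.var x) :=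
  fun _ _ h => h.closure

theorem Closed.union {U V : VSet Δ.Var} (hU : Closed Γ Δ U) (hV : Closed Γ Δ V) :
    Closed Γ Δ fun n x => U n x ∨ V n x := by
  rintro n x (h | h)
  · exact (hU n x h).mono fun _ _ h => Or.inl h
  · exact (hV n x h).mono fun _ _ h => Or.inr h

theorem Closed.inter {U V : VSet Δ.Var} (hU : Closed Γ Δ U) (hV : Closed Γ Δ V) :
    Closed Γ Δ fun n x => U n x ∧ V n x := fun n x h => (hU n x h.1).inter (hV n x h.2)

end Bd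

/-! ## Staged extensions -/

/-- the variables of `U` and those of `U'` of stage `< r` -/
def Below {X : Vars.{u}} (U U' : VSet X) (st : ∀ n, X n → ℕ) (r : ℕ) : VSet X :=
  fun k y => U k y ∨ (U' k y ∧ st k y < r)

/-- `x` is the second component of a pair -/
def IsJc {X : Vars.{u}} (pair : ∀ n, X n → X (n + 1) → Prop) : (n : ℕ) → X n → Prop
  | 0, _ => False
  | n + 1, h => ∃ x, pair n x h

/-- `U'` is obtained from the closed set `U` in countably many stages by adding pairs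
(a new cell `x` and a new cell `h` from an old term to `x`) and single cells. -/
structure JExt (Γ : Sig.{u}) (Δ : Ctx Γ.Op) (U U' : VSet Δ.Var) where
  st : ∀ n, Δ.Var n → ℕ
  pair : ∀ n, Δ.Var n → Δ.Var (n + 1) → Prop
  sub : ∀ n x, U n x → U' n x
  closed : Closed Γ Δ U
  pair_uniq : ∀ n x h h', pair n x h → pair n x h' → h = h'
  pair_new : ∀ n x h, pair n x h → U' n x ∧ ¬U n x ∧ U' _ h ∧ ¬U _ h
  pair_st : ∀ n x h, pair n x h → st _ h = st n x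
  pair_not : ∀ n x h k, pair n x h → ¬pair (n + 1) h k
  pair_tgt : ∀ n x h, pair n x h → Δ.tgt h = .var x
  pair_src : ∀ n x h, pair n x h → OK Γ Δ (Below U U' st (st n x)) (Δ.src h)
  pair_par : ∀ n x h, pair n x h → RPar Γ Δ n (Δ.src h) (.var x)
  icell : ∀ n x, U' n x → ¬U n x → (¬∃ h, pair n x h) → ¬IsJc pair n x →
    BdOK Γ Δ (Below U U' st (st n x)) n x

namespace JExt

variable {Γ : Sig.{u}} {Δ : Ctx Γ.Op} {U U' : VSet Δ.Var} (J : JExt Γ Δ U U')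

abbrev below (r : ℕ) : VSet Δ.Var := Below U U' J.st r

/-- the single (unpaired) new cells -/
def ICell (n : ℕ) (x : Δ.Var n) : Prop :=
  U' n x ∧ ¬U n x ∧ (¬∃ h, J.pair n x h) ∧ ¬IsJc J.pair n x

/-- there are no single cells -/
def NoI : Prop := ∀ n x, ¬J.ICell n x

/-- single cells have dimension at least `L` -/
def IDim (L : ℕ) : Prop := ∀ n x, J.ICell n x → L ≤ n

/-- pairs have dimensions `(n, n+1)` with `1 ≤ n` -/
def Pos1 : Prop := ∀ n x h, J.pair n x h → 1 ≤ n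

theorem below_mono {r r' : ℕ} (h : r ≤ r') (k : ℕ) (y : Δ.Var k) (hy : J.below r k y) :
    J.below r' k y := hy.imp id fun a => ⟨a.1, lt_of_lt_of_le a.2 h⟩

theorem below_sub {r : ℕ} (k : ℕ) (y : Δ.Var k) (hy : J.below r k y) : U' k y :=
  hy.elim (J.sub k y) fun a => a.1

theorem pair_left_uniq {n : ℕ} {x x' : Δ.Var n} {h : Δ.Var (n + 1)} (h1 : J.pair n x h)
    (h2 : J.pair n x' h) : x = x' := by
  have := (J.pair_tgt _ _ _ h1).symm.trans (J.pair_tgt _ _ _ h2)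
  simpa using this

theorem cases_new {n : ℕ} {x : Δ.Var n} (h : U' n x) (h' : ¬U n x) :
    J.ICell n x ∨ (∃ h, J.pair n x h) ∨ IsJc J.pair n x := by
  by_cases h1 : ∃ h, J.pair n x h
  · exact Or.inr (Or.inl h1)
  by_cases h2 : IsJc J.pair n x
  · exact Or.inr (Or.inr h2)
  exact Or.inl ⟨h, h', h1, h2⟩

theorem ICell.bd {J : JExt Γ Δ U U'} {n : ℕ} {x : Δ.Var n} (h : J.ICell n x) :
    BdOK Γ Δ (J.below (J.st n x)) n x := J.icell n x h.1 h.2.1 h.2.2.1 h.2.2.2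

theorem pair_bd {n : ℕ} {x : Δ.Var n} {h : Δ.Var (n + 1)} (hp : J.pair n x h) :
    BdOK Γ Δ (J.below (J.st n x)) n x := BdOK.of_par (J.pair_src _ _ _ hp) (J.pair_par _ _ _ hp)

theorem ok_below {n : ℕ} {x : Δ.Var n} (h : U' n x) :
    OK Γ Δ (J.below (J.st n x + 1)) (.var x) := by
  by_cases h' : U n x
  · exact (J.closed n x h').mono fun _ _ h => Or.inl h
  have hx : J.below (J.st n x + 1) n x := Or.inr ⟨h, Nat.lt_succ_self _⟩
  rcases J.cases_new h h' with h1 | ⟨k, h1⟩ | h1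
  · exact ok_var_iff.2 ⟨hx, h1.bd.mono (J.below_mono (Nat.le_succ _))⟩
  · exact ok_var_iff.2 ⟨hx, (J.pair_bd h1).mono (J.below_mono (Nat.le_succ _))⟩
  · cases n with
    | zero => exact h1.elim
    | succ n =>
      obtain ⟨y, hy⟩ := h1
      have e := J.pair_st _ _ _ hy
      have a := (J.pair_src _ _ _ hy).mono (J.below_mono (Nat.le_succ _))
      refine .varS x hx (e ▸ a) ?_ ?_
      · rw [J.pair_tgt _ _ _ hy, e]
        exact OK.var_of_par (Or.inr ⟨(J.pair_new _ _ _ hy).1, Nat.lt_succ_self _⟩) a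
          (J.pair_par _ _ _ hy)
      · rw [J.pair_tgt _ _ _ hy]
        exact J.pair_par _ _ _ hy

theorem closed_below (r : ℕ) : Closed Γ Δ (J.below r) := by
  rintro n x (h | ⟨h, hr⟩)
  · exact (J.closed n x h).mono fun _ _ h => Or.inl h
  · exact (J.ok_below h).mono (J.below_mono hr)

include J in
theorem closed' : Closed Γ Δ U' := fun _ _ h => (J.ok_below h).mono J.below_sub

theorem exists_below {n : ℕ} {t : Tm Γ.Op Δ.Var n} (h : OK Γ Δ U' t) :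
    ∃ r, OK Γ Δ (J.below r) t :=
  OK.directed J.below (fun _ _ h => J.below_mono h)
    (h.mono fun k x hx => ⟨J.st k x + 1, Or.inr ⟨hx, Nat.lt_succ_self _⟩⟩)

include J in
theorem sub' (n : ℕ) (x : Δ.Var n) (h : OK Γ Δ U (.var x)) : U' n x := J.sub n x h.mem

/-- restriction to a closed, pair-saturated subset -/
def shrink (V V' : VSet Δ.Var) (hV : ∀ n x, V n x ↔ U n x ∧ V' n x) (hV' : ∀ n x, V' n x → U' n x)
    (hc : Closed Γ Δ V') (hp : ∀ n x h, J.pair n x h → (V' n x ↔ V' _ h)) : JExt Γ Δ V V' where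
  st := J.st
  pair n x h := J.pair n x h ∧ V' n x
  sub n x h := ((hV n x).1 h).2
  closed n x h := ((J.closed n x ((hV n x).1 h).1).inter (hc n x ((hV n x).1 h).2)).mono
    fun k y hy => (hV k y).2 hy
  pair_uniq n x h h' a b := J.pair_uniq n x h h' a.1 b.1
  pair_new n x h a := ⟨a.2, fun b => (J.pair_new _ _ _ a.1).2.1 ((hV _ _).1 b).1,
    (hp _ _ _ a.1).1 a.2, fun b => (J.pair_new _ _ _ a.1).2.2.2 ((hV _ _).1 b).1⟩
  pair_st n x h a := J.pair_st n x h a.1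
  pair_not n x h k a b := J.pair_not n x h k a.1 b.1
  pair_tgt n x h a := J.pair_tgt n x h a.1
  pair_src n x h a := ((J.pair_src n x h a.1).inter (hc _ h ((hp _ _ _ a.1).1 a.2)).src).mono
    fun k y hy => hy.1.imp (fun b => (hV k y).2 ⟨b, hy.2⟩) fun b => ⟨hy.2, b.2⟩
  pair_par n x h a := J.pair_par n x h a.1
  icell n x h1 h2 h3 h4 := by
    have a : BdOK Γ Δ (J.below (J.st n x)) n x := by
      refine J.icell n x (hV' n x h1) (fun b => h2 ((hV n x).2 ⟨b, h1⟩))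
        (fun ⟨h, b⟩ => h3 ⟨h, b, h1⟩) ?_
      cases n with
      | zero => exact id
      | succ n => exact fun ⟨y, b⟩ => h4 ⟨y, b, (hp _ _ _ b).2 h1⟩
    exact (a.inter (ok_var_iff.1 (hc n x h1)).2).mono
      fun k y hy => hy.1.imp (fun b => (hV k y).2 ⟨b, hy.2⟩) fun b => ⟨hy.2, b.2⟩

theorem shrink_icell {V V' : VSet Δ.Var} {hV : ∀ n x, V n x ↔ U n x ∧ V' n x}
    {hV' : ∀ n x, V' n x → U' n x} {hc : Closed Γ Δ V'}
    {hp : ∀ n x h, J.pair n x h → (V' n x ↔ V' _ h)} {n : ℕ} {x : Δ.Var n}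
    (h : (J.shrink V V' hV hV' hc hp).ICell n x) : J.ICell n x ∧ V' n x := by
  obtain ⟨h1, h2, h3, h4⟩ := h
  refine ⟨⟨hV' n x h1, fun b => h2 ((hV n x).2 ⟨b, h1⟩), fun ⟨h, b⟩ => h3 ⟨h, b, h1⟩, ?_⟩, h1⟩
  cases n with
  | zero => exact id
  | succ n => exact fun ⟨y, b⟩ => h4 ⟨y, b, (hp _ _ _ b).2 h1⟩

/-- enlarging the base to a closed, pair-saturated intermediate set -/
def upper (M : VSet Δ.Var) (h1 : ∀ n x, U n x → M n x) (h2 : ∀ n x, M n x → U' n x)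
    (hc : Closed Γ Δ M) (hp : ∀ n x h, J.pair n x h → (M n x ↔ M _ h)) : JExt Γ Δ M U' where
  st := J.st
  pair n x h := J.pair n x h ∧ ¬M n x
  sub := h2
  closed := hc
  pair_uniq n x h h' a b := J.pair_uniq n x h h' a.1 b.1
  pair_new n x h a := ⟨(J.pair_new _ _ _ a.1).1, a.2, (J.pair_new _ _ _ a.1).2.2.1,
    fun b => a.2 ((hp _ _ _ a.1).2 b)⟩
  pair_st n x h a := J.pair_st n x h a.1
  pair_not n x h k a b := J.pair_not n x h k a.1 b.1
  pair_tgt n x h a := J.pair_tgt n x h a.1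
  pair_src n x h a := (J.pair_src n x h a.1).mono fun k y hy => hy.imp (h1 k y) id
  pair_par n x h a := J.pair_par n x h a.1
  icell n x a b c d := by
    refine (J.icell n x a (fun e => b (h1 _ _ e)) (fun ⟨h, e⟩ => c ⟨h, e, b⟩) ?_).mono
      fun k y hy => hy.imp (h1 k y) id
    cases n with
    | zero => exact id
    | succ n => exact fun ⟨y, e⟩ => d ⟨y, e, fun f => b ((hp _ _ _ e).1 f)⟩

theorem upper_icell {M : VSet Δ.Var} {h1 : ∀ n x, U n x → M n x} {h2 : ∀ n x, M n x → U' n x}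
    {hc : Closed Γ Δ M} {hp : ∀ n x h, J.pair n x h → (M n x ↔ M _ h)} {n : ℕ} {x : Δ.Var n}
    (h : (J.upper M h1 h2 hc hp).ICell n x) : J.ICell n x ∧ ¬M n x := by
  obtain ⟨a, b, c, d⟩ := h
  refine ⟨⟨a, fun e => b (h1 _ _ e), fun ⟨h, e⟩ => c ⟨h, e, b⟩, ?_⟩, b⟩
  cases n with
  | zero => exact id
  | succ n => exact fun ⟨y, e⟩ => d ⟨y, e, fun f => b ((hp _ _ _ e).1 f)⟩

open Classical in
/-- any inclusion of closed sets is a staged extension by single cells -/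
noncomputable def ofClosed (hU : Closed Γ Δ U) (hU' : Closed Γ Δ U') (h : ∀ n x, U n x → U' n x) :
    JExt Γ Δ U U' where
  st n x := if h : ∃ α, Hgt Γ Δ α ⟨n, .var x⟩ then Nat.find h else 0
  pair _ _ _ := False
  sub := h
  closed := hU
  pair_uniq _ _ _ _ a := a.elim
  pair_new _ _ _ a := a.elim
  pair_st _ _ _ a := a.elim
  pair_not _ _ _ _ a := a.elim
  pair_tgt _ _ _ a := a.elim
  pair_src _ _ _ a := a.elim
  pair_par _ _ _ a := a.elim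
  icell n x a _ _ _ := by
    cases n with
    | zero => trivial
    | succ n =>
      have hx := hU' _ x a
      have e := hx.hgt
      simp only [dif_pos e]
      have h1 := Nat.find_spec e
      generalize Nat.find e = α at h1
      cases α with
      | zero => exact h1.elim
      | succ α =>
        have key : ∀ k y, U' k y ∧ Hgt Γ Δ α ⟨k, .var y⟩ → Below U U'
            (fun n x => if h : ∃ α, Hgt Γ Δ α ⟨n, .var x⟩ then Nat.find h else 0) (α + 1) k y := by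
          intro k y hy
          refine Or.inr ⟨hy.1, ?_⟩
          have e' : ∃ α, Hgt Γ Δ α ⟨k, .var y⟩ := ⟨α, hy.2⟩
          simp only [dif_pos e']
          exact Nat.lt_succ_of_le (Nat.find_min' e' hy.2)
        exact ⟨(hx.src.of_hgt (h1 _ (.src _))).mono key, (hx.tgt.of_hgt (h1 _ (.tgt _))).mono key,
          hx.par⟩

end JExt

/-! ## The lifting lemma -/

section Lifting

variable {D : Thy.{u}} {Δ : Ctx D.Op} {U U' : VSet Δ.Var}

theorem JExt.lift_step (J : JExt D.toSig Δ U U') {E B : Alg D.toSig} (p : AHom E B)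
    (g : AHom (Fr D Δ U') B) (hI : ∀ n x, J.ICell n x → ILift p.map n)
    (hJ : ∀ n x h, J.pair n x h → JLift p.map n) (r : ℕ) (ρ : Asg Δ.Var E.G)
    (hv : Valid Δ E.str ρ) (hd : ∀ n x, J.below r n x ↔ ∃ y, ρ n x y)
    (hc : ∀ n x y, ρ n x y → g.asg n x (p.map.app n y)) :
    ∃ ρ' : Asg Δ.Var E.G, (Valid Δ E.str ρ' ∧ (∀ n x, J.below (r + 1) n x ↔ ∃ y, ρ' n x y) ∧
      ∀ n x y, ρ' n x y → g.asg n x (p.map.app n y)) ∧ ∀ n x y, ρ n x y → ρ' n x y := by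
  classical
  -- evaluation of old terms
  have ev : ∀ {n : ℕ} {t : Tm D.Op Δ.Var n}, OK D.toSig Δ (J.below r) t →
      ∃ y, Eval E.str.op ρ t y := fun h =>
    hv.total E.total (fun n x hx => (hd n x).1 hx.mem) h
  have evp : ∀ {n : ℕ} {t : Tm D.Op Δ.Var n} {y : E.G.cell n} (ht : OK D.toSig Δ U' t),
      Eval E.str.op ρ t y → g.map.app n ⟨t, ht⟩ = p.map.app n y := fun ht h =>
    g.asg_valid.uniq (g.eval ⟨_, ht⟩) (Eval.map p.map p.hom hc h)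
  -- single cells
  have hi : ∀ n (x : Δ.Var n) (hx : J.ICell n x), J.st n x = r → ∃ y : E.G.cell n,
      g.asg n x (p.map.app n y) ∧ ∀ m (e : n = m + 1),
        Eval E.str.op ρ (Δ.src (e ▸ x)) (E.G.src m (e ▸ y)) ∧
        Eval E.str.op ρ (Δ.tgt (e ▸ x)) (E.G.tgt m (e ▸ y)) := by
    intro n x hx hr
    have hx' := J.closed' n x hx.1
    cases n with
    | zero =>
      obtain ⟨y, hy⟩ := (hI 0 x hx).zero (g.map.app 0 (fv x hx'))
      exact ⟨y, ⟨hx', hy.symm⟩, fun m e => by omega⟩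
    | succ n =>
      obtain ⟨b1, b2, b3⟩ := hx.bd
      rw [hr] at b1 b2
      obtain ⟨s, hs⟩ := ev b1
      obtain ⟨t, ht⟩ := ev b2
      obtain ⟨y, h1, h2, h3⟩ := (hI _ x hx).succ (hv.par b3 hs ht) (g.map.app _ (fv x hx'))
        (by rw [← g.map.app_src]; exact evp hx'.src hs)
        (by rw [← g.map.app_tgt]; exact evp hx'.tgt ht)
      refine ⟨y, ⟨hx', h3.symm⟩, fun m e => ?_⟩
      cases e
      exact ⟨h1 ▸ hs, h2 ▸ ht⟩
  choose fi hfi using hi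
  -- pairs
  have hj : ∀ n (x : Δ.Var n) (h : Δ.Var (n + 1)) (hp : J.pair n x h), J.st n x = r →
      ∃ y : E.G.cell (n + 1), g.asg _ h (p.map.app _ y) ∧
        Eval E.str.op ρ (Δ.src h) (E.G.src n y) := by
    intro n x h hp hr
    have hh := J.closed' _ h (J.pair_new _ _ _ hp).2.2.1
    have b1 := J.pair_src _ _ _ hp
    rw [hr] at b1
    obtain ⟨s, hs⟩ := ev b1
    obtain ⟨y, h1, h2⟩ := hJ n x h hp s (g.map.app _ (fv h hh))
      (by rw [← g.map.app_src]; exact evp hh.src hs)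
    exact ⟨y, ⟨hh, h2.symm⟩, h1 ▸ hs⟩
  choose fj hfj using hj
  let ρ' : Asg Δ.Var E.G := fun n x y => ρ n x y ∨ (∃ hx hr, y = fi n x hx hr) ∨
    (∃ h hp hr, y = E.G.tgt n (fj n x h hp hr)) ∨
    (∃ (m : ℕ) (e : n = m + 1) (z : Δ.Var m) (hp : J.pair m z (e ▸ x)) (hr : J.st m z = r),
      e ▸ y = fj m z (e ▸ x) hp hr)
  have sub : ∀ n x y, ρ n x y → ρ' n x y := fun _ _ _ h => Or.inl h
  have esub : ∀ {n : ℕ} {t : Tm D.Op Δ.Var n} {y : E.G.cell n}, Eval E.str.op ρ t y →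
      Eval E.str.op ρ' t y := fun h => h.mono (fun _ _ _ _ _ h => h) sub
  have old : ∀ n x y, ρ n x y → ¬U n x → J.st n x ≠ r := by
    intro n x y h hU e
    rcases (hd n x).2 ⟨y, h⟩ with a | a
    · exact hU a
    · omega
  refine ⟨ρ', ⟨⟨?_, ?_⟩, ?_, ?_⟩, sub⟩
  · rintro n x y y' (h | ⟨hx, hr, rfl⟩ | ⟨k, hp, hr, rfl⟩ | ⟨m, rfl, z, hp, hr, rfl⟩)
      (h' | ⟨hx', hr', rfl⟩ | ⟨k', hp', hr', rfl⟩ | ⟨m', e', z', hp', hr', e''⟩)
    · exact hv.func _ _ _ _ h h'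
    · exact absurd hr' (old _ _ _ h hx'.2.1)
    · exact absurd hr' (old _ _ _ h (J.pair_new _ _ _ hp').2.1)
    · subst e'
      exact absurd ((J.pair_st _ _ _ hp').trans hr') (old _ _ _ h (J.pair_new _ _ _ hp').2.2.2)
    · exact absurd hr (old _ _ _ h' hx.2.1)
    · rfl
    · exact absurd ⟨_, hp'⟩ hx.2.2.1
    · subst e'
      exact absurd ⟨_, hp'⟩ hx.2.2.2
    · exact absurd hr (old _ _ _ h' (J.pair_new _ _ _ hp).2.1)
    · exact absurd ⟨_, hp⟩ hx'.2.2.1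
    · obtain rfl := J.pair_uniq _ _ _ _ hp hp'
      rfl
    · subst e'
      exact absurd hp (J.pair_not _ _ _ _ hp')
    · exact absurd ((J.pair_st _ _ _ hp).trans hr) (old _ _ _ h' (J.pair_new _ _ _ hp).2.2.2)
    · exact absurd ⟨_, hp⟩ hx'.2.2.2
    · exact absurd hp' (J.pair_not _ _ _ _ hp)
    · cases e'
      obtain rfl := J.pair_left_uniq hp hp'
      exact e''.symm
  · rintro n x y (h | ⟨hx, hr, rfl⟩ | ⟨k, hp, hr, rfl⟩ | ⟨m, e, z, hp, hr, e'⟩)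
    · exact ⟨esub (hv.law _ _ _ h).1, esub (hv.law _ _ _ h).2⟩
    · exact ⟨esub ((hfi _ x hx hr).2 n rfl).1, esub ((hfi _ x hx hr).2 n rfl).2⟩
    · obtain ⟨a, b⟩ := hv.bdry (hfj _ x k hp hr).2
      obtain ⟨c, d⟩ := J.pair_par _ _ _ hp
      rw [c, E.G.src_src] at a
      rw [d, E.G.tgt_tgt] at b
      exact ⟨esub a, esub b⟩
    · cases e
      obtain rfl : y = _ := e'
      refine ⟨esub (hfj _ z x hp hr).2, ?_⟩
      rw [J.pair_tgt _ _ _ hp]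
      exact .var (Or.inr (Or.inr (Or.inl ⟨x, hp, hr, rfl⟩)))
  · intro n x
    constructor
    · intro hx
      by_cases h0 : J.below r n x
      · obtain ⟨y, hy⟩ := (hd n x).1 h0
        exact ⟨y, sub _ _ _ hy⟩
      have hU : ¬U n x := fun a => h0 (Or.inl a)
      have hU' : U' n x := J.below_sub _ _ hx
      have hr : J.st n x = r := by
        rcases hx with a | a
        · exact absurd a hU
        · by_contra e
          exact h0 (Or.inr ⟨hU', by omega⟩)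
      rcases J.cases_new hU' hU with h1 | ⟨k, h1⟩ | h1
      · exact ⟨_, Or.inr (Or.inl ⟨h1, hr, rfl⟩)⟩
      · exact ⟨_, Or.inr (Or.inr (Or.inl ⟨k, h1, hr, rfl⟩))⟩
      · cases n with
        | zero => exact h1.elim
        | succ n =>
          obtain ⟨z, hz⟩ := h1
          exact ⟨_, Or.inr (Or.inr (Or.inr
            ⟨n, rfl, z, hz, (J.pair_st _ _ _ hz).symm.trans hr, rfl⟩))⟩
    · rintro ⟨y, h | ⟨hx, hr, -⟩ | ⟨k, hp, hr, -⟩ | ⟨m, rfl, z, hp, hr, -⟩⟩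
      · exact J.below_mono (Nat.le_succ r) _ _ ((hd n x).2 ⟨y, h⟩)
      · exact Or.inr ⟨hx.1, by omega⟩
      · exact Or.inr ⟨(J.pair_new _ _ _ hp).1, by omega⟩
      · exact Or.inr ⟨(J.pair_new _ _ _ hp).2.2.1,
          ((J.pair_st _ _ _ hp).trans hr).le.trans_lt (Nat.lt_succ_self r)⟩
  · rintro n x y (h | ⟨hx, hr, rfl⟩ | ⟨k, hp, hr, rfl⟩ | ⟨m, e, z, hp, hr, e'⟩)
    · exact hc _ _ _ h
    · exact (hfi _ x hx hr).1
    · obtain ⟨hh, e⟩ := (hfj _ x k hp hr).1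
      refine ⟨J.closed' _ x (J.pair_new _ _ _ hp).1, ?_⟩
      rw [p.map.app_tgt, ← e, ← g.map.app_tgt]
      congr 1
      exact Subtype.ext (J.pair_tgt _ _ _ hp).symm
    · cases e
      obtain rfl : y = _ := e'
      exact (hfj _ z x hp hr).1

/-- **Lifting lemma.** -/
theorem JExt.lifting (J : JExt D.toSig Δ U U') {E B : Alg D.toSig} (p : AHom E B)
    (f : AHom (Fr D Δ U) E) (g : AHom (Fr D Δ U') B)
    (hfg : f.comp p = (frIncl J.sub').comp g) (hI : ∀ n x, J.ICell n x → ILift p.map n)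
    (hJ : ∀ n x h, J.pair n x h → JLift p.map n) :
    ∃ l : AHom (Fr D Δ U') E, (frIncl J.sub').comp l = f ∧ l.comp p = g := by
  obtain ⟨F, hF0, hF⟩ := exists_chain
    (fun r (ρ : Asg Δ.Var E.G) => Valid Δ E.str ρ ∧ (∀ n x, J.below r n x ↔ ∃ y, ρ n x y) ∧
      ∀ n x y, ρ n x y → g.asg n x (p.map.app n y))
    (fun ρ ρ' => ∀ n x y, ρ n x y → ρ' n x y) f.asg
    ⟨f.asg_valid, fun n x => ⟨fun h => by
        rcases h with h | h
        · exact ⟨_, J.closed n x h, rfl⟩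
        · exact absurd h.2 (Nat.not_lt_zero _),
      fun ⟨_, h, _⟩ => Or.inl h.mem⟩, by
      rintro n x _ ⟨h, rfl⟩
      exact ⟨h.mono J.sub,
        (congrArg (fun φ : AHom (Fr D Δ U) B => φ.map.app n (fv x h)) hfg).symm⟩⟩
    (fun r ρ h => J.lift_step p g hI hJ r ρ h.1 h.2.1 h.2.2)
  have mono : ∀ r r', r ≤ r' → ∀ n x y, F r n x y → F r' n x y := by
    intro r r' h
    induction h with
    | refl => exact fun _ _ _ h => h
    | step _ ih => exact fun n x y h => (hF _).2 n x y (ih n x y h)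
  let ρ : Asg Δ.Var E.G := fun n x y => ∃ r, F r n x y
  have hv : Valid Δ E.str ρ := by
    constructor
    · rintro n x y y' ⟨r, h⟩ ⟨r', h'⟩
      exact (hF (r + r')).1.1.func _ _ _ _ (mono _ _ (by omega) _ _ _ h)
        (mono _ _ (by omega) _ _ _ h')
    · rintro n x y ⟨r, h⟩
      obtain ⟨a, b⟩ := (hF r).1.1.law _ _ _ h
      exact ⟨a.mono (fun _ _ _ _ _ h => h) fun _ _ _ h => ⟨r, h⟩,
        b.mono (fun _ _ _ _ _ h => h) fun _ _ _ h => ⟨r, h⟩⟩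
  have ht : ∀ n x, OK D.toSig Δ U' (.var x) → ∃ y, ρ n x y := by
    intro n x h
    obtain ⟨y, hy⟩ := ((hF (J.st n x + 1)).1.2.1 n x).1 (Or.inr ⟨h.mem, Nat.lt_succ_self _⟩)
    exact ⟨y, _, hy⟩
  refine ⟨lift hv ht, fr_ext fun n x hx => ?_, fr_ext fun n x hx => ?_⟩
  · exact lift_eq hv ht (.var ⟨0, hF0 ▸ ⟨hx, rfl⟩⟩)
  · obtain ⟨r, hr⟩ := lift_var hv ht x hx
    obtain ⟨_, e⟩ := (hF r).1.2.2 _ _ _ hr
    exact e.symm

/-- the empty set of variables gives an initial algebra -/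
noncomputable def frEmptyTo (Δ : Ctx D.Op) (E : Alg D.toSig) : AHom (Fr D Δ ⊥) E :=
  lift (ρ := fun _ _ _ => False) ⟨fun _ _ _ _ h => h.elim, fun _ _ _ h => h.elim⟩
    fun _ _ h => h.mem.elim

/-- free algebras lift against trivial fibrations -/
theorem fr_cofibrant {T : VSet Δ.Var} {E B : Alg D.toSig} (p : AHom E B) (g : AHom (Fr D Δ T) B)
    (hp : ∀ n x, OK D.toSig Δ T (.var (x : Δ.Var n)) → ILift p.map n) :
    ∃ l : AHom (Fr D Δ T) E, l.comp p = g := by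
  let J : JExt D.toSig Δ ⊥ fun _ x => OK D.toSig Δ T (.var x) :=
    JExt.ofClosed (fun _ _ h => h.elim) (closed_closure T) fun _ _ h => h.elim
  obtain ⟨l, -, hl⟩ := J.lifting p (frEmptyTo Δ E) ((frIncl fun _ _ h => h.mem.mem).comp g)
    (fr_ext fun _ _ h => h.mem.elim) (fun n x hx => hp n x hx.1) fun _ _ _ h => h.elim
  refine ⟨(frIncl fun _ _ h => h).comp l, fr_ext fun n x hx => ?_⟩
  exact congrArg (fun φ : AHom _ B => φ.map.app n (fv x hx.closure)) hl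

end Lifting

/-! ## Dimension lemmas -/

/-- the arity of an active symbol producing `(n+1)`-cells has height at most `n+1` -/
def Sig.DimLe (Γ : Sig.{u}) : Prop := ∀ A n (γ : Γ.Op A n), Γ.ok γ → A.dim ≤ n + 1

section Dim

variable {Γ : Sig.{u}} {Δ : Ctx Γ.Op} {T : VSet Δ.Var}

theorem OK.dim_vars (hΓ : Γ.DimLe) {n : ℕ} {t : Tm Γ.Op Δ.Var n} (h : OK Γ Δ T t) {N : ℕ}
    (hn : n ≤ N) : OK Γ Δ (fun k x => T k x ∧ k ≤ N) t := by
  induction h with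
  | var0 x hx => exact .var0 x ⟨hx, hn⟩
  | varS x hx _ _ h3 ih1 ih2 => exact .varS x ⟨hx, hn⟩ (ih1 (by omega)) (ih2 (by omega)) h3
  | op γ σ h1 _ h3 _ _ h6 ih1 ih2 ih3 =>
    exact .op γ σ h1 (fun k p => ih1 k p (p.le_dim.trans ((hΓ _ _ γ h1).trans hn))) h3
      (ih2 (by omega)) (ih3 (by omega)) h6

theorem rsrc_res (S : ∀ (A : Tr) (n : ℕ), Γ.Op A n → Prop) {n : ℕ} (t : Tm Γ.Op Δ.Var (n + 1)) :
    rsrc (Γ.res S) Δ t = rsrc Γ Δ t := by cases t <;> rfl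

theorem rtgt_res (S : ∀ (A : Tr) (n : ℕ), Γ.Op A n → Prop) {n : ℕ} (t : Tm Γ.Op Δ.Var (n + 1)) :
    rtgt (Γ.res S) Δ t = rtgt Γ Δ t := by cases t <;> rfl

theorem rpar_res (S : ∀ (A : Tr) (n : ℕ), Γ.Op A n → Prop) : ∀ {n : ℕ} (s t : Tm Γ.Op Δ.Var n),
    RPar (Γ.res S) Δ n s t ↔ RPar Γ Δ n s t
  | 0, _, _ => Iff.rfl
  | _ + 1, s, t => by simp only [RPar, rsrc_res, rtgt_res]

theorem glob_res (S : ∀ (A : Tr) (n : ℕ), Γ.Op A n → Prop) {A : Tr}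
    (σ : ∀ k, Pos.{u} A k → Tm Γ.Op Δ.Var k) : Glob (Γ.res S) Δ σ ↔ Glob Γ Δ σ := by
  simp only [Glob, rsrc_res, rtgt_res]

/-- terms of dimension `≤ N` only use symbols of index `< N` -/
theorem OK.dim_ops (hΓ : Γ.DimLe) {n : ℕ} {t : Tm Γ.Op Δ.Var n} (h : OK Γ Δ T t) {N : ℕ}
    (hn : n ≤ N) : OK (Γ.res fun _ k γ => Γ.ok γ ∧ k < N) Δ T t := by
  induction h with
  | var0 x hx => exact .var0 (Γ := Γ.res fun _ k γ => Γ.ok γ ∧ k < N) x hx
  | varS x hx _ _ h3 ih1 ih2 =>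
    exact .varS (Γ := Γ.res fun _ k γ => Γ.ok γ ∧ k < N) x hx (ih1 (by omega)) (ih2 (by omega))
      ((rpar_res _ _ _).2 h3)
  | op γ σ h1 _ h3 _ _ h6 ih1 ih2 ih3 =>
    exact .op (Γ := Γ.res fun _ k γ => Γ.ok γ ∧ k < N) γ σ ⟨h1, by omega⟩
      (fun k p => ih1 k p (p.le_dim.trans ((hΓ _ _ γ h1).trans hn))) ((glob_res _ _).2 h3)
      (ih2 (by omega)) (ih3 (by omega)) ((rpar_res _ _ _).2 h6)

/-- totality of evaluation in a partial structure which is total on symbols of small index -/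
theorem Valid.total_dim (hΓ : Γ.DimLe) {Y : GS.{u}} {R : Str Γ Y} {ρ : Asg Δ.Var Y}
    (hρ : Valid Δ R ρ) {N : ℕ}
    (hR : ∀ A k (γ : Γ.Op A k), Γ.ok γ → k < N → ∀ τ, ∃ y, R.op A k γ τ y)
    (hT : ∀ n x, OK Γ Δ T (.var x) → ∃ y, ρ n x y) {n : ℕ} {t : Tm Γ.Op Δ.Var n}
    (h : OK Γ Δ T t) (hn : n ≤ N) : ∃ y, Eval R.op ρ t y := by
  induction h with
  | var0 x hx => obtain ⟨y, hy⟩ := hT _ _ (.var0 x hx); exact ⟨y, .var hy⟩
  | varS x hx h1 h2 h3 _ _ => obtain ⟨y, hy⟩ := hT _ _ (.varS x hx h1 h2 h3); exact ⟨y, .var hy⟩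
  | op γ σ h1 _ h3 _ _ _ ih _ _ =>
    obtain ⟨τ, hτ⟩ := hρ.exists_map h3 fun k p => ih k p (p.le_dim.trans ((hΓ _ _ γ h1).trans hn))
    obtain ⟨y, hy⟩ := hR _ _ γ h1 (by omega) τ
    exact ⟨y, .op τ hτ hy⟩

end Dim

/-- syntactic coherators: theories with the dimension constraint in which admissible pairs have
fillers -/
structure Coh extends Thy.{u} where
  dim_le : toSig.DimLe
  fill : ∀ (A : Tr) (n : ℕ), A.dim ≤ n + 1 → ∀ f g : (FrT toThy A).G.cell n,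
    (FrT toThy A).G.AreParallel n f g → (FrT toThy A).G.Step n f g

/-- the statement proved by induction on the level `L`: extensions by pairs are in `W L` -/
def PJ (D : Thy.{u}) (L : ℕ) : Prop :=
  ∀ (Δ : Ctx D.Op) (U U' : VSet Δ.Var) (J : JExt D.toSig Δ U U'), J.NoI →
    W L (frIncl (D := D) J.sub').map

end Crest.Agent.R248
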