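import Crest.Agent.R248.Shapes
import Crest.Agent.R248.JExt

/-!
# Row 248, bridge file 2: a syntactic coherator covering a given globular theory.

SKELETON (task "R248 Cover.lean"): keep the names and statements; auxiliary lemmas are free.
-/

set_option autoImplicit false

namespace Crest.Agent.R248

open CategoryTheory Opposite Crest.GeometryTopology.Coherator

universe u

/-- the identity of `S` as an `S`-tuple of the model represented by `S` -/
noncomputable def genTuple (C : GlobTheory.{u}) (S : Shape) :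
    GMap (pshG S) (GlobTheory.GlobModel.freeOn C S).cells :=
  segal (GlobTheory.GlobModel.freeOn C S) S (C.one S)

/-- A syntactic coherator `D` acting naturally on all models of `C`, whose free algebras on shapes
surject onto the fillers of `C`. -/
structure Cover (C : GlobTheory.{u}) where
  D : Coh.{u}
  str : ∀ X : C.GlobModel, Str D.toSig X.cells
  total : ∀ X, (str X).Total
  act : ∀ X, (str X).Act
  nat : ∀ {X Y : C.GlobModel} (f : X ⟶ Y),
    IsHom (str X).op (str Y).op (GlobTheory.GlobModel.cellsMap f)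
  lift : ∀ (S : Shape) (n : ℕ), S.dim ≤ n + 1 →
    ILift (ext (D := D.toThy) (Y := ⟨_, str (GlobTheory.GlobModel.freeOn C S), total _, act _⟩)
      (genTuple C S)).map (n + 1)

/-- the algebra underlying a model -/
@[reducible] noncomputable def Cover.alg {C : GlobTheory.{u}} (K : Cover C) (X : C.GlobModel) :
    Alg K.D.toSig := ⟨X.cells, K.str X, K.total X, K.act X⟩

/-- the homomorphism underlying a map of models -/
noncomputable def Cover.hom {C : GlobTheory.{u}} (K : Cover C) {X Y : C.GlobModel} (f : X ⟶ Y) :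
    AHom (K.alg X) (K.alg Y) := ⟨GlobTheory.GlobModel.cellsMap f, K.nat f⟩

namespace CoverAux

/-- raw symbols (`false`) and raw terms (`true`) -/
inductive Cd (C : GlobTheory.{u}) : Bool → Tr → ℕ → Type u
  | mk {A : Tr} {n : ℕ} (f g : Cd C true A n) (S : Shape) (e : GIso (posG.{u} A) (pshG S))
      (z : C.arr (Shape.globe (n + 1)) S) : Cd C false A n
  | var {A : Tr} {n : ℕ} (p : Pos.{u} A n) : Cd C true A n
  | op {A A' : Tr} {n : ℕ} (γ : Cd C false A' n) (σ : ∀ k, Pos.{u} A' k → Cd C true A k) :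
      Cd C true A (n + 1)

variable {C : GlobTheory.{u}}

/-- the term of a raw term, and the source term of a symbol -/
def tm : {b : Bool} → {A : Tr} → {n : ℕ} → Cd C b A n → Tm (Cd C false) (Pos A) n
  | _, _, _, .mk f _ _ _ _ => tm f
  | _, _, _, .var p => .var p
  | _, _, _, .op γ σ => .op γ fun k p => tm (σ k p)

/-- the target term of a symbol -/
def tmTgt {A : Tr} {n : ℕ} : Cd C false A n → Tm (Cd C false) (Pos A) n
  | .mk _ g _ _ _ => tm g

def ofTm {A : Tr} : {n : ℕ} → Tm (Cd C false) (Pos A) n → Cd C true A n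
  | _, .var p => .var p
  | _, .op γ σ => .op γ fun k p => ofTm (σ k p)

theorem tm_ofTm {A : Tr} : ∀ {n : ℕ} (t : Tm (Cd C false) (Pos A) n), tm (ofTm t) = t
  | _, .var _ => rfl
  | _, .op γ σ => by
    simp only [ofTm, tm]; congr 1; funext k p; exact tm_ofTm (σ k p)

variable (C) in
/-- the raw signature -/
@[reducible] def sig0 : Sig.{u} where
  Op := Cd C false
  src := tm
  tgt := tmTgt
  ok _ := True

/-- raw interpretation in a model -/
def R (X : C.GlobModel) : OpRel (Cd C false) X.cells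
  | _, _, .mk _ _ S e z, τ, y => ∃ x, segal X S x = e.inv.comp τ ∧ y = X.act z x

theorem cellsMap_act {X Y : C.GlobModel} (f : X ⟶ Y) {S : Shape} {n : ℕ}
    (z : C.arr (Shape.globe n) S) (x : X.functor.obj (op ⟨S⟩)) :
    (GlobTheory.GlobModel.cellsMap f).app n (X.act z x) =
      Y.act z ((f : X.functor ⟶ Y.functor).app _ x) :=
  types_congr_hom ((f : X.functor ⟶ Y.functor).naturality (Quiver.Hom.op
    (X := (⟨Shape.globe n⟩ : C.Ob)) (Y := (⟨S⟩ : C.Ob)) z)) x

theorem R_nat {X Y : C.GlobModel} (f : X ⟶ Y) :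
    IsHom (R X) (R Y) (GlobTheory.GlobModel.cellsMap f) := by
  rintro A n ⟨f', g, S, e, z⟩ τ y ⟨x, h1, rfl⟩
  exact ⟨_, by rw [segal_map, h1]; rfl, cellsMap_act f z x⟩

/-- the Yoneda map -/
noncomputable def yo (X : C.GlobModel) {S : Shape} (x : X.functor.obj (op ⟨S⟩)) :
    GlobTheory.GlobModel.freeOn C S ⟶ X :=
  (yonedaEquiv.symm x : yoneda.obj (⟨S⟩ : C.Ob) ⟶ X.functor)

theorem yo_one (X : C.GlobModel) {S : Shape} (x : X.functor.obj (op ⟨S⟩)) :
    (yo X x : (GlobTheory.GlobModel.freeOn C S).functor ⟶ X.functor).app (op ⟨S⟩) (C.one S) = x :=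
  yonedaEquiv.apply_symm_apply x

theorem free_act_one {S T : Shape} (z : C.arr T S) :
    (GlobTheory.GlobModel.freeOn C S).act z (C.one S) = z := C.seq_one z

theorem yo_cell (X : C.GlobModel) {S : Shape} (x : X.functor.obj (op ⟨S⟩)) {n : ℕ}
    (z : C.arr (Shape.globe n) S) :
    (GlobTheory.GlobModel.cellsMap (yo X x)).app n z = X.act z x := by
  have := cellsMap_act (yo X x) z (C.one S)
  rwa [free_act_one, yo_one] at this

theorem gen_yo (X : C.GlobModel) {S : Shape} (x : X.functor.obj (op ⟨S⟩)) :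
    (genTuple C S).comp (GlobTheory.GlobModel.cellsMap (yo X x)) = segal X S x := by
  rw [genTuple, ← segal_map, yo_one]

theorem ok_res_mono {Γ : Sig.{u}} {S S' : ∀ (A : Tr) (n : ℕ), Γ.Op A n → Prop}
    (h : ∀ A n γ, S A n γ → S' A n γ) {Δ : Ctx (Γ.res S).Op} {T : VSet Δ.Var} {n : ℕ}
    {t : Tm (Γ.res S).Op Δ.Var n} (ht : OK (Γ.res S) Δ T t) : OK (Γ.res S') Δ T t := by
  induction ht with
  | var0 x hx => exact .var0 (Γ := Γ.res S') x hx
  | varS x hx _ _ h3 ih1 ih2 =>
    exact .varS (Γ := Γ.res S') x hx ih1 ih2 ((rpar_res _ _ _).2 ((rpar_res _ _ _).1 h3))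
  | op γ σ h1 _ h3 _ _ h6 ih1 ih2 ih3 =>
    exact .op (Γ := Γ.res S') γ σ (h _ _ _ h1) ih1 ((glob_res _ _).2 ((glob_res _ _).1 h3))
      ih2 ih3 ((rpar_res _ _ _).2 ((rpar_res _ _ _).1 h6))

theorem eval_act {Γ : Sig.{u}} {Δ : Ctx Γ.Op} {T : VSet Δ.Var} {Y : GS.{u}} {Q : OpRel Γ.Op Y}
    {ρ : Asg Δ.Var Y} {n : ℕ} {t : Tm Γ.Op Δ.Var n} {y : Y.cell n} (h : Eval Q ρ t y)
    (ht : OK Γ Δ T t) : Eval (fun A n γ τ y => Γ.ok γ ∧ Q A n γ τ y) ρ t y := by
  induction h with
  | var h => exact .var h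
  | op τ _ h2 ih => exact .op τ (fun k p => ih k p (ht.op_inv.2.1 k p)) ⟨ht.op_inv.1, h2⟩

/-- one step of activation -/
def F (P : ∀ (A : Tr) (n : ℕ), Cd C false A n → Prop) :
    ∀ (A : Tr) (n : ℕ), Cd C false A n → Prop
  | A, n, .mk f g S e z => A.dim ≤ n + 1 ∧
    OK ((sig0 C).res P) (Ctx.ofGS _ (posG A)) ⊤ (tm f) ∧
    OK ((sig0 C).res P) (Ctx.ofGS _ (posG A)) ⊤ (tm g) ∧
    RPar (sig0 C) (Ctx.ofGS _ (posG A)) n (tm f) (tm g) ∧
    Eval (R (GlobTheory.GlobModel.freeOn C S)) (gr (e.hom.comp (genTuple C S)).app) (tm f)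
      ((GlobTheory.GlobModel.freeOn C S).cells.src n z) ∧
    Eval (R (GlobTheory.GlobModel.freeOn C S)) (gr (e.hom.comp (genTuple C S)).app) (tm g)
      ((GlobTheory.GlobModel.freeOn C S).cells.tgt n z)

variable (C) in
def Fo : (∀ (A : Tr) (n : ℕ), Cd C false A n → Prop) →o
    (∀ (A : Tr) (n : ℕ), Cd C false A n → Prop) where
  toFun := F
  monotone' := by
    rintro P P' h A n ⟨f, g, S, e, z⟩ ⟨h1, h2, h3, h4⟩
    exact ⟨h1, ok_res_mono (Γ := sig0 C) h h2, ok_res_mono (Γ := sig0 C) h h3, h4⟩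

variable (C) in
/-- the active symbols -/
def act : ∀ (A : Tr) (n : ℕ), Cd C false A n → Prop := (Fo C).lfp

theorem act_iff (A : Tr) (n : ℕ) (γ : Cd C false A n) : act C A n γ ↔ F (act C) A n γ :=
  (iff_of_eq (congrFun (congrFun (congrFun (Fo C).map_lfp A) n) γ)).symm

variable (C) in
@[reducible] def thy : Thy.{u} where
  toSig := (sig0 C).res (act C)
  wf := by
    rintro A n ⟨f, g, S, e, z⟩ hγ
    obtain ⟨-, h2, h3, h4, -⟩ := (act_iff _ _ _).1 hγ
    refine .op _ _ hγ (fun k p => OK.ofGS_top (posG A) k p) (fun k p => ⟨rfl, rfl⟩) ?_ ?_ ?_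
    · rw [Tm.subst_id]; exact h2
    · rw [Tm.subst_id]; exact h3
    · rw [Tm.subst_id, Tm.subst_id]; exact (rpar_res _ _ _).2 h4

@[reducible] def str (X : C.GlobModel) : Str (thy C).toSig X.cells where
  op A n γ τ y := act C A n γ ∧ R X A n γ τ y
  func := by
    rintro A n ⟨f, g, S, e, z⟩ τ y y' ⟨-, x, h1, rfl⟩ ⟨-, x', h1', rfl⟩
    rw [(segal_bij X S).1 (h1.trans h1'.symm)]
  law := by
    rintro A n ⟨f, g, S, e, z⟩ τ y ⟨hγ, x, h1, rfl⟩
    obtain ⟨-, h2, h3, -, h5, h6⟩ := (act_iff _ _ _).1 hγ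
    have hρ : ∀ k p y, gr (e.hom.comp (genTuple C S)).app k p y →
        gr τ.app k p ((GlobTheory.GlobModel.cellsMap (yo X x)).app k y) := by
      rintro k p _ rfl
      have : (e.hom.comp (genTuple C S)).comp (GlobTheory.GlobModel.cellsMap (yo X x)) = τ := by
        rw [GMap.comp_assoc, gen_yo, h1, ← GMap.comp_assoc, e.hom_inv, GMap.id_comp]
      rw [← this]
      rfl
    have a := h5.map _ (R_nat (yo X x)) hρ
    have b := h6.map _ (R_nat (yo X x)) hρ
    rw [GlobSet.Map.app_src, yo_cell] at a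
    rw [GlobSet.Map.app_tgt, yo_cell] at b
    exact ⟨eval_act (Γ := (thy C).toSig) (Δ := Ctx.ofGS _ (posG A)) a h2,
      eval_act (Γ := (thy C).toSig) (Δ := Ctx.ofGS _ (posG A)) b h3⟩

theorem str_total (X : C.GlobModel) : (str X).Total := by
  rintro A n ⟨f, g, S, e, z⟩ hγ τ
  obtain ⟨x, hx⟩ := (segal_bij X S).2 (e.inv.comp τ)
  exact ⟨_, hγ, x, hx, rfl⟩

theorem str_act (X : C.GlobModel) : (str X).Act := fun _ _ _ _ _ h => h.1

@[reducible] noncomputable def alg (X : C.GlobModel) : Alg (thy C).toSig :=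
  ⟨X.cells, str X, str_total X, str_act X⟩

theorem key {A : Tr} {S : Shape} (e : GIso (posG.{u} A) (pshG S)) {n : ℕ} (hA : A.dim ≤ n + 1) :
    ILift (ext (D := thy C) (Y := alg (GlobTheory.GlobModel.freeOn C S))
      (e.hom.comp (genTuple C S))).map (n + 1) := by
  refine ILift.of_succ fun f g hfg z hs ht => ?_
  have hγ : act C A n (.mk (ofTm f.1) (ofTm g.1) S e z) := by
    rw [act_iff]
    refine ⟨hA, ?_, ?_, ?_, ?_, ?_⟩
    · rw [tm_ofTm]; exact f.2
    · rw [tm_ofTm]; exact g.2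
    · rw [tm_ofTm, tm_ofTm]; exact (rpar_res _ _ _).1 ((frG_par f g).1 hfg)
    · rw [tm_ofTm]
      have := ext_eval (D := thy C) (Y := alg (GlobTheory.GlobModel.freeOn C S))
        (e.hom.comp (genTuple C S)) f
      rw [← hs] at this
      exact this.mono (fun _ _ _ _ _ h => h.2) fun _ _ _ h => h
    · rw [tm_ofTm]
      have := ext_eval (D := thy C) (Y := alg (GlobTheory.GlobModel.freeOn C S))
        (e.hom.comp (genTuple C S)) g
      rw [← ht] at this
      exact this.mono (fun _ _ _ _ _ h => h.2) fun _ _ _ h => h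
  refine ⟨fop (D := thy C) _ hγ (η (thy C) (posG A)), Subtype.ext ?_, Subtype.ext ?_, ?_⟩
  · exact (Tm.subst_id _).trans (tm_ofTm _)
  · exact (Tm.subst_id _).trans (tm_ofTm _)
  · refine (op_iff_ext (D := thy C) hγ _ _).1 ⟨hγ, C.one S, ?_, (free_act_one z).symm⟩
    rw [← GMap.comp_assoc, e.inv_hom, GMap.id_comp]
    rfl

theorem opsParallel {S : Shape} : ∀ {n : ℕ} {f g : C.arr (Shape.globe n) S},
    (GlobTheory.GlobModel.freeOn C S).cells.AreParallel n f g → C.OpsParallel n f g
  | 0, _, _, _ => trivial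
  | _ + 1, _, _, h => h

/-- the syntactic coherator -/
@[reducible] def coh
    (hC : ∀ p : C.Admissible, ∃ z, GlobTheory.IsFillerAlong (GlobTheory.TheoryMap.id C) p z) :
    Coh.{u} where
  toThy := thy C
  dim_le := by
    rintro A n ⟨f, g, S, e, z⟩ hγ
    exact ((act_iff _ _ _).1 hγ).1
  fill := by
    intro A n hA f g hfg
    obtain ⟨S, hS, ⟨e⟩⟩ := tree_shape.{u} A
    obtain ⟨z, h1, h2⟩ := hC ⟨n, S, hS ▸ hA, _, _, opsParallel (par_map
      (ext (D := thy C) (Y := alg (GlobTheory.GlobModel.freeOn C S))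
        (e.hom.comp (genTuple C S))).map hfg)⟩
    obtain ⟨x, a, b, -⟩ := (key (C := C) e hA).succ hfg z h1 h2
    exact ⟨x, a, b⟩

theorem lift' (S : Shape) (n : ℕ) (hS : S.dim ≤ n + 1) :
    ILift (ext (D := thy C) (Y := alg (GlobTheory.GlobModel.freeOn C S)) (genTuple C S)).map
      (n + 1) := by
  obtain ⟨A, hA, ⟨e⟩⟩ := shape_tree.{u} S
  let ψ : AHom (FrG (thy C) (pshG S)) (FrT (thy C) A) := ext (e.inv.comp (η _ _))
  let ψ' : AHom (FrT (thy C) A) (FrG (thy C) (pshG S)) := ext (e.hom.comp (η _ _))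
  have h1 : ψ.comp ψ' = AHom.id _ := by
    rw [ext_comp, GMap.comp_assoc, η_ext, ← GMap.comp_assoc, e.inv_hom, GMap.id_comp, ext_η]
  have h2 : ψ'.comp ψ = AHom.id _ := by
    rw [ext_comp, GMap.comp_assoc, η_ext, ← GMap.comp_assoc, e.hom_inv, GMap.id_comp, ext_η]
  have h3 : ext (D := thy C) (Y := alg (GlobTheory.GlobModel.freeOn C S)) (genTuple C S) =
      ψ.comp (ext (e.hom.comp (genTuple C S))) := by
    rw [ext_comp, GMap.comp_assoc, η_ext, ← GMap.comp_assoc, e.inv_hom, GMap.id_comp]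
  rw [h3, AHom.comp_map]
  refine ILift.comp (TFib.of_bij (fun k => Function.bijective_iff_has_inverse.2
    ⟨ψ'.map.app k, fun x => ?_, fun x => ?_⟩) _) (key e (hA ▸ hS))
  · exact congrArg (fun φ : AHom _ _ => φ.map.app k x) h1
  · exact congrArg (fun φ : AHom _ _ => φ.map.app k x) h2

end CoverAux

/-- Recipe.  Raw symbols: one indexed inductive family with a `Bool` tag (no nested inductives),
`Cd false A n` = symbols `mk (f g : Cd true A n) (S : Shape) (e : GIso (posG A) (pshG S))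
(z : C.arr (globe (n+1)) S)`, `Cd true A n` = raw terms `var p | op (γ : Cd false A' k) σ`, with
conversions `toTm`/`ofTm` to `Tm Op (Pos A) n` (`toTm (ofTm t) = t`).  `src (mk f g ..) = toTm f`,
`tgt = toTm g`.  Raw interpretation in a model `X`:
`R X A n (mk f g S e z) τ y := ∃ x, segal X S x = e.inv.comp τ ∧ y = X.act z x` (functional and
total by `segal_bij`, natural by `segal_map`).  Active symbols by recursion on the index `n`
(`ok (n+1) = ok n ∪ new`, or `Nat.strongRec`): `mk f g S e z` of index `n` is active when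
`A.dim ≤ n + 1`, `toTm f`, `toTm g` are `OK` over `posG A` for the signature
restricted (`Sig.res`) to active symbols of index `< n`, `RPar`, and they evaluate
(`Eval (R (freeOn C S)) (gr (e.hom.comp (genTuple C S)).app)`) to the source and target of `z`.
`OK.dim_ops`, `rsrc_res`, `rpar_res`, `glob_res` (JExt.lean) move between the restricted and the
full signature.  `str X := ok γ ∧ R X ..`; its law follows by transport (`Eval.map`) along the
Yoneda map `freeOn C S ⟶ X`.  `Coh.fill`: choose `S` by `tree_shape`, evaluate the parallel pair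
in `freeOn C S`, get `z` from `hC`, and take `fop (mk ..) _ (η ..)`.  `lift`: choose a tree by
`shape_tree`, transport along the isomorphism (`ext (e.inv.comp (η ..))` and its inverse). -/
theorem exists_cover (C : GlobTheory.{u})
    (hC : ∀ p : C.Admissible, ∃ z, GlobTheory.IsFillerAlong (GlobTheory.TheoryMap.id C) p z) :
    Nonempty (Cover C) :=
  ⟨{ D := CoverAux.coh hC
     str := CoverAux.str
     total := CoverAux.str_total
     act := CoverAux.str_act
     nat := fun f _ _ _ _ _ h => ⟨h.1, CoverAux.R_nat f _ _ _ _ _ h.2⟩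
     lift := CoverAux.lift' }⟩

end Crest.Agent.R248
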