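import Crest.Agent.R248.LemmaLAux

/-!
# Row 248: Lemma L.  An extension of contexts by pairs and by single cells of dimension `≥ L`
induces an equivalence of level `L` in every system `WSys D L`.

Only the final statement `WSys.lemmaL` is used elsewhere.
-/

set_option autoImplicit false

namespace Crest.Agent.R248

open Crest.GeometryTopology.Coherator Tr

universe u

variable {D : Thy.{u}} {L : ℕ}

/-- sets of cells -/
abbrev CSet (X : Alg D.toSig) := ∀ n, X.G.cell n → Prop

/-- diagrams all of whose cells lie in `S` -/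
def EE {X : Alg D.toSig} (S : CSet X) : El X → Prop := fun e => ∀ k p, S k (e.2.app k p)

/-- disks whose top cell lies in `S` -/
def DD {X : Alg D.toSig} (S : CSet X) : El X → Prop :=
  fun e => ∃ n t, S n t ∧ e = ⟨disk n, cls n t⟩

/-- preimage of a set of cells -/
def CSet.pb {X X' : Alg D.toSig} (S : CSet X) (φ : AHom X' X) : CSet X' :=
  fun n t => S n (φ.map.app n t)

theorem loc_EE {X : Alg D.toSig} (u : El X) (S : CSet X) :
    loc u (EE S) = EE (S.pb (ext u.2)) := rfl

/-- use `eq_cls`, `cls_comp` -/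
theorem loc_DD {X : Alg D.toSig} (u : El X) (S : CSet X) :
    loc u (DD S) = DD (S.pb (ext u.2)) := by
  funext e
  refine propext ⟨?_, ?_⟩
  · rintro ⟨n, t, ht, he⟩
    obtain ⟨s, rfl, rfl⟩ := (El.map_eq_dk _ e).1 he
    exact ⟨n, s, ht, rfl⟩
  · rintro ⟨n, s, hs, rfl⟩
    exact ⟨n, _, hs, (El.map_eq_dk _ _).2 ⟨s, rfl, rfl⟩⟩

theorem DD_mono {X : Alg D.toSig} {S S' : CSet X} (h : ∀ n t, S n t → S' n t) {e : El X}
    (he : DD S e) : DD S' e := by
  obtain ⟨n, t, ht, he⟩ := he
  exact ⟨n, t, h n t ht, he⟩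

theorem EE_mono {X : Alg D.toSig} {S S' : CSet X} (h : ∀ n t, S n t → S' n t) {e : El X}
    (he : EE S e) : EE S' e := fun k p => h _ _ (he k p)

theorem DD_congr {X : Alg D.toSig} {S S' : CSet X} (h : ∀ n t, S n t ↔ S' n t) (e : El X) :
    DD S e ↔ DD S' e := ⟨DD_mono fun n t => (h n t).1, DD_mono fun n t => (h n t).2⟩

theorem EE_congr {X : Alg D.toSig} {S S' : CSet X} (h : ∀ n t, S n t ↔ S' n t) (e : El X) :
    EE S e ↔ EE S' e := ⟨EE_mono fun n t => (h n t).1, EE_mono fun n t => (h n t).2⟩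

theorem DD_le_EE {X : Alg D.toSig} {S S' : CSet X}
    (hS : ∀ n t, S' (n + 1) t → S' n (X.G.src n t) ∧ S' n (X.G.tgt n t))
    (h : ∀ n t, S n t → S' n t) {e : El X} (he : DD S e) : EE S' e := by
  obtain ⟨n, t, ht, rfl⟩ := he
  exact cls_closed hS (h n t ht)

theorem DD_or {X : Alg D.toSig} {S S' : CSet X} (e : El X) :
    DD (fun n t => S n t ∨ S' n t) e ↔ DD S e ∨ DD S' e := by
  constructor
  · rintro ⟨n, t, ht | ht, he⟩
    · exact Or.inl ⟨n, t, ht, he⟩
    · exact Or.inr ⟨n, t, ht, he⟩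
  · rintro (h | h)
    · exact DD_mono (fun _ _ h => Or.inl h) h
    · exact DD_mono (fun _ _ h => Or.inr h) h

section Free

variable {Δ : Ctx D.Op} {T0 : VSet Δ.Var}

/-- the cells which are variables -/
def vars (Δ : Ctx D.Op) (T0 : VSet Δ.Var) : CSet (Fr D Δ T0) := fun _ t => t.1.IsVar

/-- closed under sources, targets and arguments -/
def PreCl (S : CSet (Fr D Δ T0)) : Prop :=
  (∀ n t, S (n + 1) t → S n ((Fr D Δ T0).G.src n t) ∧ S n ((Fr D Δ T0).G.tgt n t)) ∧
    ∀ A n (γ : D.Op A n) hγ τ, S (n + 1) (fop γ hγ τ) → ∀ k p, S k (τ.app k p)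

theorem PreCl.pb {Δ' : Ctx D.Op} {T1 : VSet Δ'.Var} {S : CSet (Fr D Δ T0)} (hS : PreCl S)
    (φ : AHom (Fr D Δ' T1) (Fr D Δ T0)) : PreCl (S.pb φ) := by
  refine ⟨fun n t ht => ?_, fun A n γ hγ τ h k p => ?_⟩
  · have := hS.1 n _ ht
    rw [← φ.map.app_src, ← φ.map.app_tgt] at this
    exact this
  · have h' : S (n + 1) (φ.map.app _ (fop γ hγ τ)) := h
    rw [map_fop] at h'
    exact hS.2 A n γ hγ _ h' k p

theorem PreCl.or {S S' : CSet (Fr D Δ T0)} (hS : PreCl S) (hS' : PreCl S') :
    PreCl fun n t => S n t ∨ S' n t := by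
  refine ⟨?_, ?_⟩
  · rintro n t (h | h)
    · exact ⟨Or.inl (hS.1 n t h).1, Or.inl (hS.1 n t h).2⟩
    · exact ⟨Or.inr (hS'.1 n t h).1, Or.inr (hS'.1 n t h).2⟩
  · rintro A n γ hγ τ (h | h) k p
    · exact Or.inl (hS.2 A n γ hγ τ h k p)
    · exact Or.inr (hS'.2 A n γ hγ τ h k p)

theorem hgt_arg {a : ℕ} {A : Tr} {n : ℕ} {γ : D.Op A n} {hγ : D.ok γ}
    {τ : GMap (posG A) (Fr D Δ T0).G} (h : Hgt D.toSig Δ (a + 1) ⟨n + 1, (fop γ hγ τ).1⟩) (k : ℕ)
    (p : Pos A k) : Hgt D.toSig Δ a ⟨k, (τ.app k p).1⟩ :=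
  h _ (.arg γ (fun k p => (τ.app k p).1) k p)

theorem PreCl.hgt {S : CSet (Fr D Δ T0)} (hS : PreCl S) (a : ℕ) :
    PreCl (T0 := T0) fun n t => S n t ∧ Hgt D.toSig Δ a ⟨n, t.1⟩ :=
  ⟨fun n t h => ⟨⟨(hS.1 n t h.1).1, h.2.pre (.src t.1)⟩, ⟨(hS.1 n t h.1).2, h.2.pre (.tgt t.1)⟩⟩,
    fun A n γ hγ τ h k p => ⟨hS.2 A n γ hγ τ h.1 k p, hgt_arg h.2.succ k p⟩⟩

theorem preCl_OK (V : VSet Δ.Var) : PreCl (T0 := T0) fun _ t => OK D.toSig Δ V t.1 :=
  ⟨fun _ _ h => ⟨h.src, h.tgt⟩, fun _ _ _ _ _ h k p => h.op_inv.2.1 k p⟩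

theorem vars_closed (G : GS.{u}) (n : ℕ) (t : (FrG D G).G.cell (n + 1)) (h : vars _ _ _ t) :
    vars _ _ n ((FrG D G).G.src n t) ∧ vars _ _ n ((FrG D G).G.tgt n t) := by
  obtain ⟨t, ht⟩ := t
  obtain ⟨x, hx⟩ := h
  simp only at hx
  subst hx
  exact ⟨⟨_, rfl⟩, ⟨_, rfl⟩⟩

theorem vars_η (G : GS.{u}) (n : ℕ) (x : G.cell n) : vars _ _ n ((η D G).app n x) := ⟨x, rfl⟩

theorem vars_iff {G : GS.{u}} {n : ℕ} {t : (FrG D G).G.cell n} :
    vars _ _ n t ↔ ∃ x, t = (η D G).app n x :=
  ⟨fun ⟨x, hx⟩ => ⟨x, Subtype.ext hx⟩, fun ⟨x, hx⟩ => hx ▸ vars_η G n x⟩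

/-- (R) A disk on a compound cell `fop γ τ` reflects onto `(A, τ)`.
Recipe: `S.gl` with `𝒰 = EE S ∪ N`; locally `S.ls` with `hasTerm_loc` on both sides.  A map from
`(disk n, cls t)` to `(B, σ)` is a term `f` over `B` with `f.subst σ = t` (`ext_val`, `disk_ext`);
`f` is not a variable by `hC'`, so `Tm.subst_eq_op` gives the factorisation through
`cls _ (fop γ _ (η ..))`, unique by `Tm.op_inj`. -/
theorem WSys.reflR (W : WSys D L) (S C : CSet (Fr D Δ T0)) (N : El (Fr D Δ T0) → Prop)
    (hC : ∀ n t, C n t → ∃ (A : Tr) (m : ℕ) (γ : D.Op A m) (hγ : D.ok γ)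
      (τ : GMap (posG A) (Fr D Δ T0).G), (⟨n, t⟩ : Σ n, (Fr D Δ T0).G.cell n) = ⟨m + 1, fop γ hγ τ⟩ ∧
      ∀ k p, S k (τ.app k p))
    (hC' : ∀ e, EE S e ∨ N e → ∀ k p, ¬C k (e.2.app k p)) :
    W.WT L _ (fun e => EE S e ∨ N e) fun e => (EE S e ∨ N e) ∨ DD C e := by
  refine W.gl (fun e => EE S e ∨ N e) le_rfl (fun _ h => Or.inl h) ?_ fun v hv =>
    W.ls (fun _ h => Or.inl h) (hasTerm_loc hv) (hasTerm_loc (Or.inl hv))
  rintro e (he | ⟨n, t, ht, rfl⟩)
  · exact reflects_self he
  obtain ⟨A, m, γ, hγ, τ, h1, h2⟩ := hC n t ht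
  cases h1
  have h0 : (ext (Y := Fr D Δ T0) τ).map.app _ (fop γ hγ (η D _)) = fop γ hγ τ := by
    rw [map_fop, η_ext]
  refine ⟨⟨A, τ⟩, Or.inl h2, Arr.ofCell ⟨A, τ⟩ (fop γ hγ (η D _)) h0, fun v hv f => ?_⟩
  have key : ∀ g : Arr (X := Fr D Δ T0) ⟨A, τ⟩ v,
      ((Arr.ofCell ⟨A, τ⟩ (fop γ hγ (η D _)) h0).comp g).cell = fop γ hγ g.1 := fun g => by
    rw [Arr.comp_cell, Arr.ofCell_cell, map_fop, η_ext]
  rcases ext_eq_fop v.2 f.cell_spec with ⟨p, hp⟩ | ⟨ρ, h3, h4⟩
  · exact absurd (hp ▸ ht) (hC' v hv _ p)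
  · refine ⟨⟨ρ, h4⟩, Arr.cell_ext ((key _).trans h3.symm), fun g hg => Subtype.ext ?_⟩
    have := key g
    rw [hg, h3] at this
    exact (fop_inj this).symm

/-- Attaching the disks of the new variables of stage `r` of a staged extension.
Recipe: `W.gl` with `𝒰 = T ∪ {disks on second components h of pairs, disks on single cells}`
(stage `r`); the disk on a first component `x` reflects onto the disk on its partner `h` through
`cls _ (η (Pos.tgt (top _)))`: a map out of the disk on `var x` is a variable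
(`Tm.subst_eq_var`), objects of `T` and proper faces of single cells or of `Δ.src h'` lie over
`J.below r`, which does not contain `x` (`cls_face`, `Face.cases_top`, `Face.of_tgt`). -/
theorem WSys.attach (W : WSys D L) {U U' : VSet Δ.Var} (J : JExt D.toSig Δ U U') (r : ℕ)
    (T : El (Fr D Δ U') → Prop) (hT : T ≤ EE (X := Fr D Δ U') fun _ t => OK D.toSig Δ (J.below r) t.1)
    (hb : ∀ n x h (hp : J.pair n x h), J.st n x = r → HasTerm
      (loc ⟨disk (n + 1), cls _ (fv h (J.closed' _ h (J.pair_new _ _ _ hp).2.2.1))⟩ T))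
    (hc : ∀ n y (hy : J.ICell n y), J.st n y = r →
      W.WT L _ (loc ⟨disk n, cls _ (fv y (J.closed' _ y hy.1))⟩ T)
        fun e => loc ⟨disk n, cls _ (fv y (J.closed' _ y hy.1))⟩ T e ∨ e = El.gen _) :
    W.WT L _ T fun e => T e ∨
      DD (X := Fr D Δ U') (fun n t => ∃ x, t.1 = .var x ∧ ¬U n x ∧ J.st n x = r) e := by
  have hok : ∀ n (t : (Fr D Δ U').G.cell (n + 1)), OK D.toSig Δ (J.below r) t.1 →
      OK D.toSig Δ (J.below r) ((Fr D Δ U').G.src n t).1 ∧
        OK D.toSig Δ (J.below r) ((Fr D Δ U').G.tgt n t).1 := fun _ _ h => ⟨h.src, h.tgt⟩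
  have hnew : ∀ n x, ¬U n x → J.st n x = r → ¬OK D.toSig Δ (J.below r) (.var x) := by
    intro n x h1 h2 h3
    rcases h3.mem with h | h
    · exact h1 h
    · omega
  let 𝒰 : El (Fr D Δ U') → Prop := fun e => T e ∨
    (∃ n x h, ∃ hp : J.pair n x h, J.st n x = r ∧
      e = dk (n + 1) (fv h (J.closed' _ h (J.pair_new _ _ _ hp).2.2.1))) ∨
    ∃ n y, ∃ hy : J.ICell n y, J.st n y = r ∧ e = dk n (fv y (J.closed' _ y hy.1))
  refine W.gl 𝒰 le_rfl (fun _ h => Or.inl h) ?_ ?_
  · rintro e (he | ⟨n, ⟨t, ht⟩, ⟨x, hx, hxU, hxr⟩, rfl⟩)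
    · exact reflects_self (Or.inl he)
    simp only at hx
    subst hx
    rcases J.cases_new ht.mem hxU with hy | ⟨h, hp⟩ | hj
    · exact reflects_self (Or.inr (Or.inr ⟨n, x, hy, hxr, rfl⟩))
    swap
    · cases n with
      | zero => exact hj.elim
      | succ n =>
        obtain ⟨y, hy⟩ := hj
        exact reflects_self (Or.inr (Or.inl ⟨n, y, x, hy, (J.pair_st _ _ _ hy).symm.trans hxr, rfl⟩))
    have hh := J.closed' _ h (J.pair_new _ _ _ hp).2.2.1
    have h0 : (ext (Y := Fr D Δ U') (cls (n + 1) (fv h hh))).map.app n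
        ((η D _).app n (top (n + 1)).tgt) = ⟨.var x, ht⟩ := by
      rw [ext_η_app, cls_tgt_top]
      exact Subtype.ext (J.pair_tgt _ _ _ hp)
    refine ⟨dk (n + 1) (fv h hh), Or.inr (Or.inl ⟨n, x, h, hp, hxr, rfl⟩),
      Arr.ofCell (dk (n + 1) (fv h hh)) _ h0, fun v hv f => ?_⟩
    obtain ⟨p, hp1, hp2⟩ := ext_eq_var v.2 (congrArg Subtype.val f.cell_spec)
    have hno := hnew n x hxU hxr
    rcases hv with hv | ⟨m, x', h', hp', hr', rfl⟩ | ⟨m, y, hy, hr', rfl⟩
    · exact absurd (hp2 ▸ hT v hv n p) hno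
    · rcases pos_disk_succ p with e | e | ⟨q, rfl⟩
      · cases e
        rw [cls_top] at hp2
        cases hp2
        exact absurd hp (J.pair_not _ _ _ _ hp')
      · cases e
        rw [cls_tgt_top] at hp2
        have e1 : x' = x := by
          have := (J.pair_tgt _ _ _ hp').symm.trans hp2
          simpa using this
        subst e1
        obtain rfl := J.pair_uniq _ _ _ _ hp hp'
        refine ⟨Arr.id _, ?_, fun g _ => Arr.cell_ext ?_⟩
        · exact (Arr.comp_id _).trans (Arr.cell_ext (by rw [Arr.ofCell_cell, hp1]))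
        · obtain ⟨q, hq, -⟩ := ext_eq_var _ (congrArg Subtype.val g.cell_spec)
          rw [hq, pos_disk_top q]
          rfl
      · rw [cls_dσ] at hp2
        refine absurd (hp2 ▸ cls_closed (X := (Fr D Δ U').G)
          (S := fun _ t => OK D.toSig Δ (J.below r) t.1) hok ?_ n q)
          hno
        exact hr' ▸ J.pair_src _ _ _ hp'
    · by_cases hnm : n < m
      · obtain ⟨m, rfl⟩ : ∃ k, m = k + 1 := ⟨m - 1, by omega⟩
        have hb := hy.bd
        rw [hr'] at hb
        exact absurd (hp2 ▸ cls_proper (X := (Fr D Δ U').G)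
          (S := fun _ t => OK D.toSig Δ (J.below r) t.1) (t := fv y (J.closed' _ y hy.1)) hok
          hb.1 hb.2.1 hnm p) hno
      · have := p.le_dim
        simp only [dim_disk] at this
        obtain rfl : n = m := by omega
        rw [pos_disk_top p, cls_top] at hp2
        cases hp2
        exact absurd ⟨h, hp⟩ hy.2.2.1
  · rintro v (hv | ⟨n, x, h, hp, hr, rfl⟩ | ⟨n, y, hy, hr, rfl⟩)
    · exact W.ls (fun _ h => Or.inl h) (hasTerm_loc hv) (hasTerm_loc (Or.inl hv))
    · refine W.ls (fun _ h => Or.inl h) (hb n x h hp hr) (hasTerm_loc (Or.inr ?_))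
      exact ⟨n + 1, _, ⟨h, rfl, (J.pair_new _ _ _ hp).2.2.2, (J.pair_st _ _ _ hp).trans hr⟩, rfl⟩
    · have hm : DD (X := Fr D Δ U') (fun n t => ∃ x, t.1 = .var x ∧ ¬U n x ∧ J.st n x = r)
          (dk n (fv y (J.closed' _ y hy.1))) := ⟨n, _, ⟨y, rfl, hy.2.1, hr⟩, rfl⟩
      refine W.trans (hc n y hy hr) (W.ls ?_ (hasTerm_of_gen (Or.inr rfl))
        (hasTerm_loc (Or.inr hm)))
      rintro e (he | rfl)
      · exact Or.inl he
      · show T _ ∨ DD _ _
        rw [El.gen_map]
        exact Or.inr hm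

end Free

/-- (G1) The disks on the positions of a tree form a contractible subcategory.
Recipe: (G0) with `J = treeJ` and `T r = DD {variables of J.below r}`, `attach` (the slice over
the disk on `h` has the terminal object `cls _ (η (Pos.src (top _)))`, `face_cls`), `trans`, `union`
give `WT L (T 0) (DD vars)`; `T 0` has a terminal object, so `ls` and `cancel` conclude. -/
theorem WSys.tree (W : WSys D L) (B : Tr) (T' : El (FrT D B) → Prop) (h : DD (vars _ _) ≤ T')
    (h' : T' (El.gen B)) : W.WT L _ (DD (vars _ _)) T' := by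
  let J := treeJ D.toSig B
  let T : ℕ → El (FrT D B) → Prop := fun r =>
    DD fun n t => ∃ x, t = (η D _).app n x ∧ J.below r n x
  have hmono : Monotone T := fun r r' hr e he =>
    DD_mono (fun n t ⟨x, h1, h2⟩ => ⟨x, h1, J.below_mono hr _ _ h2⟩) he
  have hstep : ∀ r, W.WT L _ (T r) (T (r + 1)) := by
    intro r
    refine W.congr (W.attach J r (T r) ?_ ?_ ?_) (fun _ => Iff.rfl) fun e => ?_
    · intro e he
      refine DD_le_EE (fun _ _ h => ⟨h.src, h.tgt⟩) ?_ he
      rintro n t ⟨x, rfl, hx⟩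
      exact J.closed_below r n x hx
    · intro n x h hp hr
      simp only [T]
      rw [loc_DD]
      refine hasTerm_of_face (dσ n) (disk_map_inj _) _ ?_ ?_
      · refine ⟨n, (η D _).app n (top (n + 1)).src, ⟨Pos.src h, ?_, ?_⟩, ?_⟩
        · rw [ext_η_app]
          exact ((cls (n + 1) _).app_src n (top (n + 1))).trans (by rw [cls_top]; rfl)
        · exact hr ▸ (J.pair_src _ _ _ hp).mem
        · rw [dσ, cls_comp]
      · rintro e ⟨k, s, ⟨y, hy1, hy2⟩, rfl⟩
        refine cls_closed (X := (FrT D (disk (n + 1))).G)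
          (S := fun _ t => OK D.toSig (Ctx.ofGS D.Op (posG (disk (n + 1))))
          (fun k y => ∃ x, (dσ n).app k x = y) t.1) (fun _ _ h => ⟨h.src, h.tgt⟩) ?_
        obtain ⟨p, rfl, hp2⟩ := ext_eq_var _ (congrArg Subtype.val hy1)
        have hn := J.pair_new _ _ _ hp
        rcases pos_disk_succ p with e | e | hq
        · cases e
          rw [cls_top] at hp2
          cases hp2
          rcases hy2 with a | a
          · exact absurd a hn.2.2.2
          · have := J.pair_st _ _ _ hp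
            omega
        · cases e
          rw [cls_tgt_top] at hp2
          have e1 : x = y := by
            have := (J.pair_tgt _ _ _ hp).symm.trans hp2
            simpa using this
          subst e1
          rcases hy2 with a | a
          · exact absurd a hn.2.1
          · omega
        · refine OK.ofGS_var (posG (disk (n + 1))) ?_ k p hq
          rintro m _ ⟨z, rfl⟩
          exact ⟨⟨_, (dσ n).app_src m z⟩, ⟨_, (dσ n).app_tgt m z⟩⟩
    · intro n y hy
      exact absurd hy (treeJ_noI _ _ n y)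
    · simp only [T]
      rw [← DD_or]
      refine DD_congr (fun n t => ⟨?_, ?_⟩) e
      · rintro (⟨x, h1, h2⟩ | ⟨x, h1, h2, h3⟩)
        · exact ⟨x, h1, J.below_mono (Nat.le_succ _) _ _ h2⟩
        · exact ⟨x, Subtype.ext h1, Or.inr ⟨trivial, by omega⟩⟩
      · rintro ⟨x, rfl, h2⟩
        by_cases h3 : J.below r n x
        · exact Or.inl ⟨x, rfl, h3⟩
        · refine Or.inr ⟨x, rfl, fun a => h3 (Or.inl a), ?_⟩
          rcases h2 with a | a
          · exact absurd (Or.inl a) h3
          · have : ¬J.st n x < r := fun b => h3 (Or.inr ⟨trivial, b⟩)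
            omega
  have h1 : W.WT L _ (T 0) (DD (vars _ _)) := by
    refine W.congr (W.chain T hmono hstep) (fun _ => Iff.rfl) fun e => ⟨?_, ?_⟩
    · rintro ⟨r, he⟩
      exact DD_mono (fun n t ⟨x, h1, _⟩ => h1 ▸ vars_η _ n x) he
    · rintro ⟨n, t, ht, rfl⟩
      obtain ⟨x, rfl⟩ := vars_iff.1 ht
      exact ⟨J.st n x + 1, n, _, ⟨x, rfl, Or.inr ⟨trivial, Nat.lt_succ_self _⟩⟩, rfl⟩
  refine W.cancel h h1 (W.ls (fun e he => h e ?_) ?_ (hasTerm_of_gen h'))
  · exact DD_mono (fun n t ⟨x, h1, _⟩ => h1 ▸ vars_η _ n x) he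
  · refine hasTerm_of_face (cls 0 (Y := posG B) (Pos.v0 B)) (disk_map_inj _) _ ?_ ?_
    · exact ⟨0, (η D _).app 0 (Pos.v0 B), ⟨_, rfl, Or.inl rfl⟩, by rw [cls_comp]⟩
    · rintro e ⟨k, s, ⟨y, rfl, hy2⟩, rfl⟩
      refine cls_closed (X := (FrT D B).G) (S := fun _ t => OK D.toSig (Ctx.ofGS D.Op (posG B))
        (fun k y => ∃ x, (cls 0 (Y := posG B) (Pos.v0 B)).app k x = y) t.1)
        (fun _ _ h => ⟨h.src, h.tgt⟩) ?_
      rcases hy2 with a | a
      · cases a
        exact .var0 (Δ := Ctx.ofGS D.Op (posG B)) _ ⟨top 0, rfl⟩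
      · exact absurd a.2 (Nat.not_lt_zero _)

/-- Spheres.  Induction on `j`: the boundary of `disk (j+1)` is the source face together with the
disk on `tgt top`; `gl` (with `𝒰` everything, level `min j L`) reduces the inclusion of the source
face in the boundary to the induction hypothesis, `ls` treats the source face in the whole disk,
and `cancel'` (for `j < L`) or `cancel` (for `L ≤ j`) concludes. -/
theorem WSys.sphere (W : WSys D L) (j : ℕ) :
    W.WT (min j L) (FrT D (disk j)) (DD fun n t => vars _ _ n t ∧ n < j) (DD (vars _ _)) := by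
  induction j with
  | zero =>
    rw [Nat.zero_min]
    exact W.zero _ _ _ fun e he => DD_mono (fun _ _ h => h.1) he
  | succ j ih =>
    let Sσ : El (FrT D (disk (j + 1))) → Prop :=
      DD fun n t => ∃ q, t = (η D _).app n ((dσ j).app n q)
    have hlt : ∀ n (q : Pos.{u} (disk j) n), n < j + 1 := fun n q => by
      have := q.le_dim
      simp only [dim_disk] at this
      omega
    have hle : Sσ ≤ DD fun n t => vars _ _ n t ∧ n < j + 1 := fun e he =>
      DD_mono (fun n t ⟨q, h⟩ => ⟨h ▸ vars_η _ n _, hlt n q⟩) he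
    have hle' : (DD (X := FrT D (disk (j + 1))) fun n t => vars _ _ n t ∧ n < j + 1) ≤
        DD (vars _ _) := fun e he => DD_mono (fun _ _ h => h.1) he
    have h1 : W.WT (min j L) _ Sσ (DD fun n t => vars _ _ n t ∧ n < j + 1) := by
      refine W.gl _ (min_le_right _ _) hle (fun e he => reflects_self he) ?_
      rintro v ⟨n, t, ⟨ht, hn⟩, rfl⟩
      obtain ⟨p, rfl⟩ := vars_iff.1 ht
      rcases pos_disk_succ p with e | e | ⟨q, rfl⟩
      · cases e
        omega
      · cases e
        simp only [Sσ]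
        rw [loc_DD, loc_DD]
        have hτ : ∀ k q, (ext (Y := FrT D (disk (j + 1)))
            (cls j ((η D _).app j (top (j + 1)).tgt))).map.app k ((η D _).app k q) =
            (η D _).app k ((dτ j).app k q) := fun k q => by
          rw [ext_η_app, dτ, ← cls_comp]; rfl
        refine W.congr ih (DD_congr fun k s => ⟨?_, ?_⟩) (DD_congr fun k s => ⟨?_, ?_⟩)
        · rintro ⟨hs, hk⟩
          obtain ⟨q, rfl⟩ := vars_iff.1 hs
          have hf := cls_face (Y := posG.{u} (disk (j + 1))) (top (j + 1)).tgt k q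
          rcases Face.of_tgt (X := posG.{u} (disk (j + 1))) (x := top (j + 1)) hf with e | e
          · have := congrArg Sigma.fst e
            simp only at this
            omega
          · obtain ⟨q', hq'⟩ := face_cls (Y := posG.{u} (disk (j + 1))) _ e
            exact ⟨q', (hτ k q).trans (congrArg _ hq'.symm)⟩
        · rintro ⟨q', hq'⟩
          obtain ⟨q, rfl, -⟩ := ext_eq_var _ (congrArg Subtype.val hq')
          refine ⟨vars_η _ _ _, ?_⟩
          by_contra hk
          have := hlt k q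
          obtain rfl : k = j := by omega
          have e := congrArg Subtype.val ((hτ k q).symm.trans hq')
          simp only [η_val, Tm.var.injEq] at e
          rw [pos_disk_top q, pos_disk_top q', dσ, dτ, cls_top, cls_top] at e
          exact Pos.src_ne_tgt _ e.symm
        · intro hs
          obtain ⟨q, rfl⟩ := vars_iff.1 hs
          exact ⟨(hτ k q).symm ▸ vars_η _ _ _, hlt k q⟩
        · rintro ⟨⟨y, hy⟩, -⟩
          obtain ⟨q, rfl, -⟩ := ext_eq_var _ hy
          exact vars_η _ _ _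
      · have hv : Sσ (dk n ((η D _).app n ((dσ j).app n q))) := ⟨n, _, ⟨q, rfl⟩, rfl⟩
        exact W.mono (W.ls (fun e he => hle _ he) (hasTerm_loc hv) (hasTerm_loc (hle _ hv)))
          (min_le_right _ _)
    have h2 : W.WT L _ Sσ (DD (vars _ _)) := by
      refine W.ls (hle.trans hle') ?_ (hasTerm_of_gen ⟨j + 1, _, vars_η _ _ _, (dk_gen _).symm⟩)
      refine hasTerm_of_face (dσ j) (disk_map_inj _) _ ?_ ?_
      · refine ⟨j, (η D _).app j (top (j + 1)).src, ⟨top j, by rw [dσ, cls_top]⟩, ?_⟩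
        rw [dσ, cls_comp]
      · rintro e ⟨k, s, ⟨q, rfl⟩, rfl⟩
        refine cls_closed (X := (FrT D (disk (j + 1))).G)
          (S := fun _ t => OK D.toSig (Ctx.ofGS D.Op (posG (disk (j + 1))))
          (fun k y => ∃ x, (dσ j).app k x = y) t.1) (fun _ _ h => ⟨h.src, h.tgt⟩) ?_
        refine OK.ofGS_var (posG (disk (j + 1))) ?_ k _ ⟨q, rfl⟩
        rintro m _ ⟨z, rfl⟩
        exact ⟨⟨_, (dσ j).app_src m z⟩, ⟨_, (dσ j).app_tgt m z⟩⟩
    by_cases hj : j < L
    · rw [min_eq_left hj.le] at h1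
      rw [min_eq_left (Nat.succ_le_of_lt hj)]
      exact W.cancel' hle' h1 (W.mono h2 hj)
    · rw [min_eq_right (not_lt.1 hj)] at h1
      rw [min_eq_right (by omega)]
      exact W.cancel hle' h1 h2

/-- Claim A for the sets of cells satisfying a height bound `α` (`none`: no bound) -/
def WSys.ClaimA (W : WSys D L) (α : Option ℕ) : Prop :=
  ∀ (B : Tr) (S : CSet (FrT D B)), PreCl S →
    (∀ a, α = some a → ∀ n t, S n t → Hgt D.toSig _ a ⟨n, t.1⟩) →
    W.WT L _ (DD fun n t => S n t ∧ vars _ _ n t) (EE S)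

/-- (ii) over a tree.  Recipe: let `N` be the disks on the variables of `S'` not in `S`.
`W.exc` (no map from such a disk to an object of `EE S`; Claim A for `S` and for the preimages
`S.pb (ext (cls ..))`, which are `PreCl` and satisfy the same height bound by `Hgt.of_subst`;
`loc_DD`, `loc_EE`, `Tm.subst_eq_var`), then `reflR` for the compound cells of `S' \ S`. -/
theorem WSys.layer_tree (W : WSys D L) {α : Option ℕ} (hA : W.ClaimA α) (B : Tr)
    (S S' : CSet (FrT D B)) (hS : PreCl S) (hSS : S ≤ S')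
    (hα : ∀ a, α = some a → ∀ n t, S n t → Hgt D.toSig _ a ⟨n, t.1⟩)
    (harg : ∀ A n (γ : D.Op A n) hγ τ, S' (n + 1) (fop γ hγ τ) → ¬S (n + 1) (fop γ hγ τ) →
      ∀ k p, S k (τ.app k p)) :
    W.WT L _ (DD fun n t => S' n t ∧ vars _ _ n t)
      fun e => EE S e ∨ DD (fun n t => S' n t ∧ ¬S n t) e := by
  let N : El (FrT D B) → Prop := DD fun n t => S' n t ∧ ¬S n t ∧ vars _ _ n t
  have h1 : W.WT L _ (fun e => DD (fun n t => S n t ∧ vars _ _ n t) e ∨ N e)
      fun e => EE S e ∨ N e := by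
    refine W.exc N (fun e he => DD_le_EE hS.1 (fun _ _ h => h.1) he) ?_ (hA B S hS hα) ?_
    · rintro e e' ⟨n, t, ⟨-, ht, x, hx⟩, rfl⟩ he'
      refine ⟨fun f => ht ?_⟩
      obtain ⟨p, -, hp⟩ := ext_eq_var e'.2 ((congrArg Subtype.val f.cell_spec).trans hx)
      have : e'.2.app n p = t := Subtype.ext (hp.trans hx.symm)
      exact this ▸ he' n p
    · rintro v ⟨n, t, ⟨-, -, ht⟩, rfl⟩
      rw [loc_DD, loc_EE]
      refine W.congr (hA (disk n) _ (hS.pb _) fun a ha k s hs => hgt_of_ext _ s (hα a ha k _ hs))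
        (DD_congr fun k s => and_congr_right fun _ => ⟨?_, ?_⟩) fun _ => Iff.rfl
      · intro hs
        obtain ⟨q, rfl⟩ := vars_iff.1 hs
        rw [ext_η_app]
        exact cls_closed (vars_closed _) ht k q
      · rintro ⟨y, hy⟩
        obtain ⟨q, rfl, -⟩ := ext_eq_var _ hy
        exact vars_η _ _ _
  have h2 := W.reflR S (fun n t => S' n t ∧ ¬S n t ∧ ¬vars _ _ n t) N
    (fun n t ht => by
      obtain ⟨A, m, γ, hγ, τ, e⟩ := exists_fop t ht.2.2
      refine ⟨A, m, γ, hγ, τ, e, ?_⟩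
      cases e
      exact harg A m γ hγ τ ht.1 ht.2.1)
    (by
      rintro e (he | ⟨n, t, ht, rfl⟩) k p hc
      · exact hc.2.1 (he k p)
      · exact hc.2.2 (cls_closed (vars_closed _) ht.2.2 k p))
  refine W.congr (W.trans h1 h2) (fun e => ?_) fun e => ?_
  · simp only [N]
    rw [← DD_or]
    refine DD_congr (fun n t => ⟨?_, ?_⟩) e
    · rintro (h | h)
      · exact ⟨hSS n t h.1, h.2⟩
      · exact ⟨h.1, h.2.2⟩
    · intro h
      by_cases h' : S n t
      · exact Or.inl ⟨h', h.2⟩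
      · exact Or.inr ⟨h.1, h', h.2⟩
  · simp only [N]
    rw [or_assoc, ← DD_or]
    refine or_congr_right (DD_congr (fun n t => ⟨?_, ?_⟩) e)
    · rintro (h | h)
      · exact ⟨h.1, h.2.1⟩
      · exact ⟨h.1, h.2.1⟩
    · intro h
      by_cases h' : vars _ _ n t
      · exact Or.inl ⟨h.1, h.2, h'⟩
      · exact Or.inr ⟨h.1, h.2, h'⟩

/-- (B') layers.  Recipe: `gl` with `𝒰 = EE S'`; over `u = (B, σ)` apply `layer_tree` to the
preimages of `S`, `S'` (all variables of `B` lie in the preimage of `S'`), `tree` and `cancel`. -/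
theorem WSys.layer (W : WSys D L) {α : Option ℕ} (hA : W.ClaimA α) {Δ : Ctx D.Op}
    {T0 : VSet Δ.Var} (S S' : CSet (Fr D Δ T0)) (hS : PreCl S) (hS' : PreCl S') (hSS : S ≤ S')
    (hα : ∀ a, α = some a → ∀ n t, S n t → Hgt D.toSig _ a ⟨n, t.1⟩)
    (harg : ∀ A n (γ : D.Op A n) hγ τ, S' (n + 1) (fop γ hγ τ) → ¬S (n + 1) (fop γ hγ τ) →
      ∀ k p, S k (τ.app k p)) :
    W.WT L _ (fun e => EE S e ∨ DD (fun n t => S' n t ∧ ¬S n t) e) (EE S') := by
  have hle : ∀ e, (EE S e ∨ DD (fun n t => S' n t ∧ ¬S n t) e) → EE S' e := by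
    rintro e (he | he)
    · exact EE_mono hSS he
    · exact DD_le_EE hS'.1 (fun _ _ h => h.1) he
  refine W.gl (EE S') le_rfl hle (fun e he => reflects_self he) fun v hv => ?_
  have hv' : ∀ n x, S'.pb (ext v.2) n ((η D _).app n x) := fun n x => by
    show S' n _
    rw [ext_η_app]
    exact hv n x
  have h1 := W.layer_tree hA v.1 (S.pb (ext v.2)) (S'.pb (ext v.2)) (hS.pb _)
    (fun n t h => hSS n _ h) (fun a ha k s hs => hgt_of_ext _ s (hα a ha k _ hs))
    (fun A n γ hγ τ h h' k p => by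
      have a : S' (n + 1) ((ext v.2).map.app _ (fop γ hγ τ)) := h
      have b : ¬S (n + 1) ((ext v.2).map.app _ (fop γ hγ τ)) := h'
      rw [map_fop] at a b
      exact harg A n γ hγ _ a b k p)
  have h2 := W.tree v.1 (EE (S'.pb (ext v.2)))
    (fun e he => DD_le_EE (hS'.pb _).1 (fun n t ht => by
      obtain ⟨x, rfl⟩ := vars_iff.1 ht
      exact hv' n x) he) hv'
  have h3 : W.WT L _ (DD (vars _ _)) (loc v fun e => EE S e ∨ DD (fun n t => S' n t ∧ ¬S n t) e) := by
    refine W.congr h1 (DD_congr fun n t => ⟨fun h => h.2, fun h => ⟨?_, h⟩⟩) fun e => ?_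
    · obtain ⟨x, rfl⟩ := vars_iff.1 h
      exact hv' n x
    · have := congrFun (loc_DD v fun n t => S' n t ∧ ¬S n t) e
      exact or_congr_right (Iff.of_eq this.symm)
  exact W.cancel (fun e he => hle _ he) h3 h2

/-- Induction on `a` (`S ∩ Hgt a ⊆ S` is a layer: `layer_tree` then `layer`); the unbounded case
is a directed union (`OK.hgt`, trees have finitely many positions, `W.union`; the first step
`DD (S ∩ vars) ⊆ DD (S ∩ vars) ∪ EE (S ∩ Hgt a)` follows from `exc` with
`N = DD (S ∩ vars \ Hgt a)`, i.e. it is `layer_tree (some a)` without compound cells). -/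
theorem WSys.claimA (W : WSys D L) (α : Option ℕ) : W.ClaimA α := by
  have hsome : ∀ a, W.ClaimA (some a) := by
    intro a
    induction a with
    | zero =>
      intro B S _ hα
      refine W.congr (W.refl L _ (EE S)) (fun e => ⟨fun he => ?_, ?_⟩) fun _ => Iff.rfl
      · exact (hα 0 rfl _ _ (he 0 (Pos.v0 _))).elim
      · rintro ⟨n, t, ht, -⟩
        exact (hα 0 rfl _ _ ht.1).elim
    | succ a ih =>
      intro B S hS hα
      have harg : ∀ A n (γ : D.Op A n) hγ τ, S (n + 1) (fop γ hγ τ) →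
          ¬(S (n + 1) (fop γ hγ τ) ∧ Hgt D.toSig _ a ⟨n + 1, (fop γ hγ τ).1⟩) →
          ∀ k p, S k (τ.app k p) ∧ Hgt D.toSig _ a ⟨k, (τ.app k p).1⟩ :=
        fun A n γ hγ τ h _ k p => ⟨hS.2 A n γ hγ τ h k p, hgt_arg (hα _ rfl _ _ h) k p⟩
      have hb : ∀ b, some a = some b → ∀ n (t : (FrT D B).G.cell n),
          (S n t ∧ Hgt D.toSig _ a ⟨n, t.1⟩) → Hgt D.toSig _ b ⟨n, t.1⟩ := fun b hb n t h => by
        cases hb
        exact h.2
      exact W.trans (W.layer_tree ih B _ S (hS.hgt a) (fun _ _ h => h.1) hb harg)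
        (W.layer ih _ S (hS.hgt a) hS (fun _ _ h => h.1) hb harg)
  cases α with
  | some a => exact hsome a
  | none =>
    intro B S hS _
    let F : ℕ → El (FrT D B) → Prop := fun a e => DD (fun n t => S n t ∧ vars _ _ n t) e ∨
      EE (fun n t => S n t ∧ Hgt D.toSig _ a ⟨n, t.1⟩) e
    have hF : Monotone F := fun a b hab e he =>
      he.imp id (EE_mono fun n t h => ⟨h.1, h.2.mono hab⟩)
    refine W.congr (W.union F hF fun a => ?_) (fun _ => Iff.rfl) fun e => ⟨?_, fun he => ?_⟩
    · refine W.congr (W.layer_tree (hsome a) B (fun n t => S n t ∧ Hgt D.toSig _ a ⟨n, t.1⟩)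
        (fun n t => (S n t ∧ Hgt D.toSig _ a ⟨n, t.1⟩) ∨ (S n t ∧ vars _ _ n t)) (hS.hgt a)
        (fun _ _ h => Or.inl h) (fun b hb n t h => by cases hb; exact h.2) ?_)
        (DD_congr fun n t => ⟨?_, fun h => ⟨Or.inr h, h.2⟩⟩) fun e => ⟨?_, ?_⟩
      · rintro A n γ hγ τ (h | h) h'
        · exact absurd h h'
        · exact absurd h.2 (fop_not_var γ hγ τ)
      · rintro ⟨h | h, h'⟩
        · exact ⟨h.1, h'⟩
        · exact h
      · rintro (h | h)
        · exact Or.inr h
        · exact Or.inl (DD_mono (fun n t h => h.1.resolve_left h.2) h)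
      · rintro (⟨n, t, ht, rfl⟩ | h)
        · by_cases h' : S n t ∧ Hgt D.toSig _ a ⟨n, t.1⟩
          · exact Or.inl (DD_le_EE (hS.hgt a).1 (fun _ _ h => h) ⟨n, t, h', rfl⟩)
          · exact Or.inr ⟨n, t, ⟨Or.inr ht, h'⟩, rfl⟩
        · exact Or.inl h
    · rintro ⟨a, h | h⟩
      · exact DD_le_EE hS.1 (fun _ _ h => h.1) h
      · exact EE_mono (fun _ _ h => h.1) h
    · obtain ⟨a, ha⟩ := e.exists_bound (fun a n t => Hgt D.toSig _ a ⟨n, t.1⟩)
        (fun _ _ h _ _ h' => h'.mono h) fun k p => (e.2.app k p).2.hgt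
      exact ⟨a, Or.inr fun k p => ⟨he k p, ha k p⟩⟩

/-- **Lemma L.**  Recipe: let `S r = OK (J.below r)`.  It suffices (`union`, `J.exists_below`,
finiteness of trees) to treat `EE (S r) ⊆ EE (S (r+1))`.  (1) `attach`: for a pair the slice is
`EE` of the terms over `disk (n+1)` avoiding `top` and `tgt top`, with terminal object
`cls _ (η (src top))` (terms over the source face: `OK.reflect`, `frRen_bij`/`Tm.ren_inj` for the
injective renaming `dσ n`); for a single cell `y` of dimension `n ≥ L` the slice is `EE S'` with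
`S'` the terms over `disk n` avoiding `top`, and `claimA none`, `sphere`, `ls`/`tree`, `trans`,
`cancel` give the required equivalence.  (2) `layer` from `S r` to `S r ∪ new variables`.
(3) With `S' a = S r ∪ new variables ∪ (S (r+1) ∩ Hgt a)`, each `EE (S' a) ⊆ EE (S' (a+1))` is
`reflR` (with `N = ⊥`) followed by `layer`; then `union`. -/
theorem WSys.lemmaL (W : WSys D L) {Δ : Ctx D.Op} {U U' : VSet Δ.Var}
    (J : JExt D.toSig Δ U U') (hJ : J.IDim L) :
    W.WT L (Fr D Δ U') (fun e => ∀ k p, OK D.toSig Δ U (e.2.app k p).1) ⊤ := by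
  let S : ℕ → CSet (Fr D Δ U') := fun r _ t => OK D.toSig Δ (J.below r) t.1
  have hS : ∀ r, PreCl (S r) := fun r => preCl_OK _
  have hSm : ∀ r r', r ≤ r' → ∀ n t, S r n t → S r' n t := fun r r' h n t ht =>
    ht.mono (J.below_mono h)
  have hnone : ∀ (R : CSet (Fr D Δ U')) (a : ℕ), (none : Option ℕ) = some a → ∀ n t, R n t →
      Hgt D.toSig _ a ⟨n, t.1⟩ := fun _ _ h => by cases h
  have hstep : ∀ r, W.WT L _ (EE (S r)) (EE (S (r + 1))) := by
    intro r
    have hnew : ∀ n x, ¬U n x → J.st n x = r → ¬OK D.toSig Δ (J.below r) (.var x) := by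
      intro n x h1 h2 h3
      rcases h3.mem with h | h
      · exact h1 h
      · omega
    let New : CSet (Fr D Δ U') := fun n t => ∃ x, t.1 = .var x ∧ ¬U n x ∧ J.st n x = r
    have h1 : W.WT L _ (EE (S r)) fun e => EE (S r) e ∨ DD New e := by
      refine W.attach J r (EE (S r)) le_rfl (fun n x h hp hr => ?_) fun n y hy hr => ?_
      · rw [loc_EE]
        have hn := J.pair_new _ _ _ hp
        refine hasTerm_of_face (dσ n) (disk_map_inj _) _ (fun k q => ?_) fun e he k p => ?_
        · show S r k ((ext _).map.app k ((η D _).app k ((dσ n).app k q)))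
          rw [ext_η_app, cls_dσ]
          exact cls_closed (hS r).1 (hr ▸ J.pair_src _ _ _ hp) k q
        · have h2 : OK D.toSig Δ (J.below r) _ := he k p
          rw [ext_val] at h2
          refine (OK.reflect_subst (BP.of_glob (glob_of_map _) ⊤) (e.2.app k p).2 h2).mono ?_
          intro m z hz
          rcases pos_disk_succ z with e | e | hq
          · cases e
            rw [cls_top] at hz
            exact absurd hz (hnew _ _ hn.2.2.2 ((J.pair_st _ _ _ hp).trans hr))
          · cases e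
            rw [cls_tgt_top] at hz
            have hz' : OK D.toSig Δ (J.below r) (Δ.tgt h) := hz
            rw [J.pair_tgt _ _ _ hp] at hz'
            exact absurd hz' (hnew _ _ hn.2.1 hr)
          · exact hq
      · rw [loc_EE]
        set R : CSet (FrT D (disk n)) := (S r).pb (ext (cls n (fv y (J.closed' _ y hy.1)))) with hR
        have hRc : PreCl R := (hS r).pb _
        have hRv : ∀ k (p : Pos.{u} (disk n) k), R k ((η D _).app k p) ↔ k < n := by
          intro k p
          show S r k ((ext _).map.app k _) ↔ _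
          rw [ext_η_app]
          constructor
          · intro h
            by_contra hk
            have := p.le_dim
            simp only [dim_disk] at this
            obtain rfl : k = n := by omega
            rw [pos_disk_top p, cls_top] at h
            exact hnew _ _ hy.2.1 hr h
          · intro hk
            obtain ⟨n, rfl⟩ : ∃ m, n = m + 1 := ⟨n - 1, by omega⟩
            have hb := hy.bd
            rw [hr] at hb
            exact cls_proper (t := fv y (J.closed' _ y hy.1)) (hS r).1 hb.1 hb.2.1 hk p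
        have a1 : W.WT L _ (DD fun k t => vars _ _ k t ∧ k < n) (EE R) := by
          refine W.congr (W.claimA none (disk n) R hRc fun _ h => by cases h)
            (DD_congr fun k t => ⟨?_, ?_⟩) fun _ => Iff.rfl
          · rintro ⟨h1, h2⟩
            obtain ⟨p, rfl⟩ := vars_iff.1 h2
            exact ⟨h2, (hRv k p).1 h1⟩
          · rintro ⟨h2, h1⟩
            obtain ⟨p, rfl⟩ := vars_iff.1 h2
            exact ⟨(hRv k p).2 h1, h2⟩
        have a2 := W.sphere n
        rw [min_eq_right (hJ n y hy)] at a2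
        refine W.cancel (fun _ h => Or.inl h) a1 (W.trans a2 (W.tree _ _ ?_ (Or.inr rfl)))
        rintro e ⟨k, t, ht, rfl⟩
        obtain ⟨p, rfl⟩ := vars_iff.1 ht
        by_cases hk : k < n
        · exact Or.inl (cls_closed hRc.1 ((hRv k p).2 hk))
        · have := p.le_dim
          simp only [dim_disk] at this
          obtain rfl : k = n := by omega
          rw [pos_disk_top p]
          exact Or.inr (dk_gen k)
    have hN : PreCl fun n t => S r n t ∨ New n t := by
      refine ⟨?_, ?_⟩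
      · rintro n ⟨t, ht⟩ (h | ⟨x, hx, h1, h2⟩)
        · exact ⟨Or.inl h.src, Or.inl h.tgt⟩
        simp only at hx
        subst hx
        rcases J.cases_new ht.mem h1 with hy | ⟨h, hp⟩ | ⟨y, hy⟩
        · have hb := hy.bd
          rw [h2] at hb
          exact ⟨Or.inl hb.1, Or.inl hb.2.1⟩
        · have hb := J.pair_bd hp
          rw [h2] at hb
          exact ⟨Or.inl hb.1, Or.inl hb.2.1⟩
        · have e := (J.pair_st _ _ _ hy).symm.trans h2
          exact ⟨Or.inl (e ▸ J.pair_src _ _ _ hy),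
            Or.inr ⟨y, J.pair_tgt _ _ _ hy, (J.pair_new _ _ _ hy).2.1, e⟩⟩
      · rintro A n γ hγ τ (h | ⟨x, hx, -⟩) k p
        · exact Or.inl ((hS r).2 A n γ hγ τ h k p)
        · cases hx
    let S' : ℕ → CSet (Fr D Δ U') := fun a n t =>
      (S r n t ∨ New n t) ∨ (S (r + 1) n t ∧ Hgt D.toSig Δ a ⟨n, t.1⟩)
    have hS' : ∀ a, PreCl (S' a) := fun a => hN.or ((hS (r + 1)).hgt a)
    have hS'm : ∀ a b, a ≤ b → ∀ n t, S' a n t → S' b n t := fun a b hab n t h =>
      h.imp id fun h => ⟨h.1, h.2.mono hab⟩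
    have h2 : W.WT L _ (fun e => EE (S r) e ∨ DD New e) (EE (S' 0)) := by
      refine W.congr (W.layer (W.claimA none) (S r) _ (hS r) hN (fun _ _ h => Or.inl h)
        (hnone _) ?_) (fun e => or_congr_right (DD_congr (fun n t => ⟨?_, ?_⟩) e))
        (EE_congr fun n t => ⟨Or.inl, fun h => h.resolve_right fun h => h.2⟩)
      · rintro A n γ hγ τ (h | ⟨x, hx, -⟩) h'
        · exact absurd h h'
        · cases hx
      · exact fun h => h.1.resolve_left h.2
      · rintro ⟨x, hx, h1, h2⟩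
        refine ⟨Or.inr ⟨x, hx, h1, h2⟩, fun h => hnew n x h1 h2 ?_⟩
        exact hx ▸ h
    have h3 : ∀ a, W.WT L _ (EE (S' a)) (EE (S' (a + 1))) := by
      intro a
      have harg : ∀ A n (γ : D.Op A n) hγ τ, S' (a + 1) (n + 1) (fop γ hγ τ) →
          ¬S' a (n + 1) (fop γ hγ τ) → ∀ k p, S' a k (τ.app k p) := by
        rintro A n γ hγ τ (h | h) h' k p
        · exact absurd (Or.inl h) h'
        · exact Or.inr ⟨(hS _).2 A n γ hγ τ h.1 k p, hgt_arg h.2 k p⟩
      have b1 := W.reflR (S' a) (fun n t => S' (a + 1) n t ∧ ¬S' a n t) (fun _ => False)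
        (fun n t ht => by
          have hv : ¬t.1.IsVar := by
            rintro ⟨x, hx⟩
            rcases ht.1 with h | h
            · exact ht.2 (Or.inl h)
            have h' : OK D.toSig Δ (J.below (r + 1)) (.var x) := hx ▸ h.1
            by_cases hb : J.below r n x
            · refine ht.2 (Or.inl (Or.inl ?_))
              show OK _ _ _ t.1
              rw [hx]
              exact J.closed_below r n x hb
            · refine ht.2 (Or.inl (Or.inr ⟨x, hx, fun a => hb (Or.inl a), ?_⟩))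
              rcases h'.mem with c | c
              · exact absurd (Or.inl c) hb
              · have : ¬J.st n x < r := fun b => hb (Or.inr ⟨c.1, b⟩)
                omega
          obtain ⟨A, m, γ, hγ, τ, e⟩ := exists_fop t hv
          refine ⟨A, m, γ, hγ, τ, e, ?_⟩
          cases e
          exact harg A m γ hγ τ ht.1 ht.2)
        (by
          rintro e (he | he) k p hc
          · exact hc.2 (he k p)
          · exact he)
      exact W.trans (W.congr b1 (fun e => or_iff_left id) fun e => or_congr_left (or_iff_left id))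
        (W.layer (W.claimA none) (S' a) (S' (a + 1)) (hS' a) (hS' _) (hS'm _ _ (Nat.le_succ a))
          (hnone _) harg)
    refine W.trans h1 (W.trans h2 (W.congr
      (W.chain (fun a => EE (S' a)) (fun a b hab e he => EE_mono (hS'm a b hab) he) h3)
      (fun _ => Iff.rfl) fun e => ⟨?_, fun he => ?_⟩))
    · rintro ⟨a, he⟩
      refine EE_mono ?_ he
      rintro n t ((h | ⟨x, hx, -, h2⟩) | h)
      · exact hSm _ _ (Nat.le_succ r) n t h
      · show OK _ _ _ t.1
        have hx' : U' n x := (hx ▸ t.2 : OK D.toSig Δ U' (.var x)).mem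
        rw [hx, ← h2]
        exact J.ok_below hx'
      · exact h.1
    · obtain ⟨a, ha⟩ := e.exists_bound (fun a n t => Hgt D.toSig _ a ⟨n, t.1⟩)
        (fun _ _ h _ _ h' => h'.mono h) fun k p => (e.2.app k p).2.hgt
      exact ⟨a, fun k p => Or.inr ⟨he k p, ha k p⟩⟩
  refine W.congr (W.chain (fun r => EE (S r)) (fun a b hab e he => EE_mono (hSm a b hab) he) hstep)
    (fun e => ⟨fun he k p => (he k p).mono ?_, fun he k p => (he k p).mono fun _ _ h => Or.inl h⟩)
    fun e => ⟨fun _ => trivial, fun _ => ?_⟩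
  · rintro m z (h | h)
    · exact h
    · exact absurd h.2 (Nat.not_lt_zero _)
  · exact e.exists_bound S hSm fun k p => J.exists_below (e.2.app k p).2

end Crest.Agent.R248
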