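import Crest.Agent.R248.PiCat
import Crest.Agent.R248.LemmaL

/-!
# Row 248: Lemma L in several variables.
-/

set_option autoImplicit false

namespace Crest.Agent.R248

open Crest.GeometryTopology.Coherator Tr

universe u

variable {D : Coh.{u}} {L : ℕ} {ι : Type}

/-- the nerve with one slot singled out -/
@[reducible] noncomputable def nerveAt (r : ι) (X : Alg D.toSig)
    (X₂ : {l // l ≠ r} → Alg D.toSig) : Psh (piCat D.toThy ι) where
  obj a := GMap (posG (a.tr r)) X.G × ∀ l : {l // l ≠ r}, GMap (posG (a.tr l.1)) (X₂ l).G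
  map f σ := ((f r).comp (ext σ.1).map, fun l => (f l.1).comp (ext (σ.2 l)).map)
  map_id _ σ := Prod.ext (η_ext σ.1) (funext fun l => η_ext (σ.2 l))
  map_comp f g σ := Prod.ext (by simp only [← ext_comp]; rfl)
    (funext fun l => by simp only [← ext_comp]; rfl)

/-- functoriality of `nerveAt` -/
@[reducible] noncomputable def nerveAtMap (r : ι) {X X' : Alg D.toSig}
    {X₂ X₂' : {l // l ≠ r} → Alg D.toSig} (φ : AHom X X') (φ₂ : ∀ l, AHom (X₂ l) (X₂' l)) :
    PMap (nerveAt r X X₂) (nerveAt r X' X₂') where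
  app _ σ := (σ.1.comp φ.map, fun l => (σ.2 l).comp (φ₂ l).map)
  nat f σ := Prod.ext (by simp only [← ext_comp]; rfl)
    (funext fun l => by simp only [← ext_comp]; rfl)

theorem exists_fam (r : ι) {β : ι → Sort*} (a : β r) (b : ∀ l : {l // l ≠ r}, β l.1) :
    ∃ f : ∀ l, β l, f r = a ∧ ∀ l : {l // l ≠ r}, f l.1 = b l := by
  classical
  exact ⟨fun l => if h : l = r then h ▸ a else b ⟨l, h⟩, by simp, fun l => by simp [l.2]⟩

theorem fam_ext (r : ι) {β : ι → Sort*} {f g : ∀ l, β l} (h : f r = g r)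
    (h' : ∀ l : {l // l ≠ r}, f l.1 = g l.1) : f = g := by
  funext l
  by_cases e : l = r
  · exact e ▸ h
  · exact h' ⟨l, e⟩

theorem PJ.mono {ℓ : ℕ} (hP : PJ D.toThy L) (h : ℓ ≤ L) : PJ D.toThy ℓ :=
  fun Δ U U' J hJ => (hP Δ U U' J hJ).mono h

section Glue

variable {K : Diag D.Op (piCat D.toThy ι)} {ok : K.CellSet} {r : ι} {X : Alg D.toSig}
  {X₂ : {l // l ≠ r} → Alg D.toSig}

/-- gluing over a family of algebras over `(X, X₂)` -/
theorem gl_at (hP : PJ D.toThy L) (hK : Diag.WF (D := D.toThy) K ok) {I : Type u}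
    (Y : I → Alg D.toSig) (Y₂ : I → {l // l ≠ r} → Alg D.toSig) (π : ∀ i, AHom (Y i) X)
    (π₂ : ∀ i l, AHom (Y₂ i l) (X₂ l)) {V V' : VSet (DV K.Cell (nerveAt r X X₂))}
    (cl : Closed D.toSig (K.ten (nerveAt r X X₂)) V)
    (cl' : Closed D.toSig (K.ten (nerveAt r X X₂)) V')
    (sub : ∀ n v, V n v → V' n v) (hok : ∀ n v, V' n v → ok _ n v.2.1)
    (refl : ∀ n v, V' n v → ¬V n v → ∃ (i : I) (a : (nerveAt r (Y i) (Y₂ i)).obj v.1),
      (nerveAtMap r (π i) (π₂ i)).app _ a = v.2.2 ∧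
      (∀ j (b : (nerveAt r (Y j) (Y₂ j)).obj v.1), (nerveAtMap r (π j) (π₂ j)).app _ b = v.2.2 →
        ∃! f : AHom (Y i) (Y j) × ∀ l, AHom (Y₂ i l) (Y₂ j l),
          (f.1.comp (π j) = π i ∧ ∀ l, (f.2 l).comp (π₂ j l) = π₂ i l) ∧
            (nerveAtMap r f.1 f.2).app _ a = b) ∧
      WI D.toThy L (K.ten (nerveAt r (Y i) (Y₂ i)))
        (fun n v => V n (DV.map (nerveAtMap r (π i) (π₂ i)) n v))
        fun n v => V' n (DV.map (nerveAtMap r (π i) (π₂ i)) n v)) :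
    WI D.toThy L (K.ten (nerveAt r X X₂)) V V' := by
  let Z : Option I → Alg D.toSig := fun o => o.elim X Y
  let Z₂ : Option I → {l // l ≠ r} → Alg D.toSig := fun o => o.elim X₂ Y₂
  let ρ : ∀ o, AHom (Z o) X := fun o => match o with
    | none => AHom.id X
    | some i => π i
  let ρ₂ : ∀ o l, AHom (Z₂ o l) (X₂ l) := fun o => match o with
    | none => fun l => AHom.id (X₂ l)
    | some i => π₂ i
  let 𝓘 : SCat.{u} :=
    { Obj := Option I
      Hom := fun i j => {f : AHom (Z i) (Z j) × ∀ l, AHom (Z₂ i l) (Z₂ j l) //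
        f.1.comp (ρ j) = ρ i ∧ ∀ l, (f.2 l).comp (ρ₂ j l) = ρ₂ i l}
      id := fun i => ⟨(AHom.id _, fun _ => AHom.id _), rfl, fun _ => rfl⟩
      comp := fun f g => ⟨(f.1.1.comp g.1.1, fun l => (f.1.2 l).comp (g.1.2 l)),
        by rw [AHom.comp_assoc, g.2.1, f.2.1], fun l => by rw [AHom.comp_assoc, g.2.2, f.2.2]⟩
      id_comp := fun _ => rfl
      comp_id := fun _ => rfl
      assoc := fun _ _ _ => rfl }
  refine Diag.gl hP hK 𝓘 (fun o => nerveAt r (Z o) (Z₂ o)) (fun f => nerveAtMap r f.1.1 f.1.2)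
    (fun _ _ _ => rfl) (fun _ _ _ _ _ _ _ => rfl) none (fun o => nerveAtMap r (ρ o) (ρ₂ o))
    (fun i j f c x => ?_) (fun _ _ => rfl) cl cl' sub hok fun n v h h' => ?_
  · exact Prod.ext (congrArg (fun φ : AHom (Z i) X => x.1.comp φ.map) f.2.1)
      (funext fun l => congrArg (fun φ : AHom (Z₂ i l) (X₂ l) => (x.2 l).comp φ.map) (f.2.2 l))
  · obtain ⟨i, a, h1, h2, h3⟩ := refl n v h h'
    refine ⟨some i, a, h1, fun j b hb => ?_, h3⟩
    cases j with
    | none =>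
      exact ⟨⟨(π i, π₂ i), rfl, fun _ => rfl⟩, h1.trans hb.symm,
        fun g _ => Subtype.ext (Prod.ext g.2.1 (funext g.2.2))⟩
    | some j =>
      obtain ⟨f, ⟨hf, hf'⟩, hu⟩ := h2 j b hb
      exact ⟨⟨f, hf⟩, hf', fun g hg => Subtype.ext (hu g.1 ⟨g.2, hg⟩)⟩

/-- gluing in the slot `r` -/
theorem gl_slot (hP : PJ D.toThy L) (hK : Diag.WF (D := D.toThy) K ok) (𝒰 : El X → Prop)
    {V V' : VSet (DV K.Cell (nerveAt r X X₂))}
    (cl : Closed D.toSig (K.ten (nerveAt r X X₂)) V)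
    (cl' : Closed D.toSig (K.ten (nerveAt r X X₂)) V')
    (sub : ∀ n v, V n v → V' n v) (hok : ∀ n v, V' n v → ok _ n v.2.1)
    (refl : ∀ n v, V' n v → Reflects 𝒰 ⟨v.1.tr r, v.2.2.1⟩)
    (hl : ∀ u, 𝒰 u → WI D.toThy L (K.ten (nerveAt r (FrT D.toThy u.1) X₂))
      (fun n v => V n (DV.map (nerveAtMap r (ext u.2) fun _ => AHom.id _) n v))
      fun n v => V' n (DV.map (nerveAtMap r (ext u.2) fun _ => AHom.id _) n v)) :
    WI D.toThy L (K.ten (nerveAt r X X₂)) V V' := by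
  refine gl_at hP hK (I := {u // 𝒰 u}) (fun u => FrT D.toThy u.1.1) (fun _ => X₂)
    (fun u => ext u.1.2) (fun _ _ => AHom.id _) cl cl' sub hok fun n v h _ => ?_
  obtain ⟨u, hu, a, ha⟩ := refl n v h
  refine ⟨⟨u, hu⟩, (a.1, v.2.2.2), Prod.ext a.2 rfl, fun u' b hb => ?_, hl u hu⟩
  obtain ⟨g, hg, hg'⟩ := ha u'.1 u'.2 ⟨b.1, congrArg Prod.fst hb⟩
  refine ⟨(ext g.1, fun _ => AHom.id _), ⟨⟨?_, fun _ => rfl⟩,
    Prod.ext (congrArg Subtype.val hg) (congrArg Prod.snd hb).symm⟩, ?_⟩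
  · show (ext g.1).comp _ = _
    rw [ext_comp, g.2]
  · rintro ⟨φ, φ₂⟩ ⟨⟨h1, h2⟩, h3⟩
    have := hg' ⟨(η D.toThy _).comp φ.map,
      (congrArg (fun ψ : AHom (FrT D.toThy u.1) X => (η D.toThy _).comp ψ.map) h1).trans
        (η_ext _)⟩ (Subtype.ext (by
      show a.1.comp (ext _).map = _
      rw [← eq_ext φ]
      exact congrArg Prod.fst h3))
    exact Prod.ext ((eq_ext φ).trans (congrArg (fun g : Arr u u'.1 => ext g.1) this)) (funext h2)

variable (K ok r)

/-- the variables whose arity lies in `T` in the slot `r` and in `T₂` elsewhere -/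
abbrev vsT (T₂ : ∀ c₂ : TObj.{u} {l // l ≠ r}, (nerve (D := D.toThy) X₂).obj c₂ → Prop)
    (T : El X → Prop) : VSet (DV K.Cell (nerveAt r X X₂)) :=
  K.vs ok fun c σ => T ⟨c.tr r, σ.1⟩ ∧ T₂ ⟨fun l => c.tr l.1⟩ σ.2

variable {K ok r}
variable {T₂ : ∀ c₂ : TObj.{u} {l // l ≠ r}, (nerve (D := D.toThy) X₂).obj c₂ → Prop}

theorem vsT_mono {T T' : El X → Prop} (h : T ≤ T') (n : ℕ) (v : DV K.Cell (nerveAt r X X₂) n)
    (hv : vsT K ok r T₂ T n v) : vsT K ok r T₂ T' n v := ⟨hv.1, h _ hv.2.1, hv.2.2⟩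

theorem pterm_at {T : El X → Prop} (hT : HasTerm T) {c₂ : TObj.{u} {l // l ≠ r}}
    {g : (nerve (D := D.toThy) X₂).obj c₂} (hg : T₂ c₂ g) :
    PTerm (G := nerveAt r X fun l => FrT D.toThy (c₂.tr l)) fun c σ =>
      T ⟨c.tr r, σ.1⟩ ∧ T₂ ⟨fun l => c.tr l.1⟩ fun l => (σ.2 l).comp (ext (g l)).map := by
  obtain ⟨⟨b, τ⟩, ht, hu⟩ := hT
  obtain ⟨c0, rfl, h2⟩ := exists_fam r (β := fun _ => Tr) b c₂.tr
  obtain ⟨tr₂⟩ := c₂
  obtain rfl : (fun l : {l // l ≠ r} => c0 l.1) = tr₂ := funext h2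
  refine ⟨⟨c0⟩, (τ, fun l => η D.toThy _), ⟨ht, by simpa only [η_ext] using hg⟩, fun c x hx => ?_⟩
  obtain ⟨f0, hf0⟩ := hu _ hx.1
  obtain ⟨f, h3, h4⟩ := exists_fam r
    (β := fun l => GMap (posG (c.tr l)) (FrT D.toThy (c0 l)).G) f0.1 x.2
  refine ⟨f, Prod.ext ?_ (funext fun l => ?_), fun f' hf' => fam_ext r ?_ fun l => ?_⟩
  · show (f r).comp _ = _
    rw [h3]
    exact f0.2
  · show (f l.1).comp (ext (η D.toThy _)).map = _
    rw [ext_η, h4]
    rfl
  · rw [h3]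
    exact congrArg Subtype.val (hf0 ⟨f' r, congrArg Prod.fst hf'⟩)
  · have : (f' l.1).comp (ext (η D.toThy _)).map = _ := congrFun (congrArg Prod.snd hf') l
    rw [ext_η] at this
    rw [h4]
    exact this

theorem wi_ls (hP : PJ D.toThy L) (hK : Diag.WF (D := D.toThy) K ok) (hls : K.LS D.toThy L ok)
    {T T' : El X → Prop} (h : T ≤ T') (hT : HasTerm T) (hT' : HasTerm T') :
    WI D.toThy L (K.ten (nerveAt r X X₂)) (vsT K ok r T₂ T) (vsT K ok r T₂ T') := by
  refine WI.closure_iff.2 (gl_at hP hK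
    (I := Σ c₂ : TObj.{u} {l // l ≠ r}, (nerve (D := D.toThy) X₂).obj c₂) (fun _ => X)
    (fun i l => FrT D.toThy (i.1.tr l)) (fun _ => AHom.id _) (fun i l => ext (i.2 l))
    (closed_closure _) (closed_closure _) (fun n v hv => hv.mono (vsT_mono h))
    (fun n v hv => hv.mem.1) fun n v hv _ => ?_)
  refine ⟨⟨⟨fun l => v.1.tr l.1⟩, v.2.2.2⟩, (v.2.2.1, fun l => η D.toThy _),
    Prod.ext rfl (funext fun l => η_ext _), fun j b hb => ?_, ?_⟩
  · refine ⟨(AHom.id _, fun l => ext (b.2 l)), ⟨⟨rfl, fun l => ?_⟩,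
      Prod.ext (congrArg Prod.fst hb).symm (funext fun l => η_ext _)⟩, ?_⟩
    · show (ext (b.2 l)).comp _ = _
      rw [ext_comp]
      exact congrArg ext (congrFun (congrArg Prod.snd hb) l)
    · rintro ⟨φ, φ₂⟩ ⟨⟨h1, -⟩, h3⟩
      exact Prod.ext h1 (funext fun l =>
        (eq_ext (φ₂ l)).trans (congrArg ext (congrFun (congrArg Prod.snd h3) l)))
  · exact Diag.wi_pb _ (hls _ _ _ (fun _ _ a => ⟨h _ a.1, a.2⟩) (pterm_at hT hv.mem.2.2)
      (pterm_at hT' hv.mem.2.2))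

theorem wi_exc (hP : PJ D.toThy L) (hK : Diag.WF (D := D.toThy) K ok) (hls : K.LS D.toThy L ok)
    {T T' : El X → Prop} (N : El X → Prop) (h : T ≤ T')
    (hN : ∀ e e', N e → T' e' → IsEmpty (Arr e e'))
    (h1 : WI D.toThy L (K.ten (nerveAt r X X₂)) (vsT K ok r T₂ T) (vsT K ok r T₂ T'))
    (h2 : ∀ u, N u → WI D.toThy L (K.ten (nerveAt r (FrT D.toThy u.1) X₂))
      (vsT K ok r T₂ (loc u T)) (vsT K ok r T₂ (loc u T'))) :
    WI D.toThy L (K.ten (nerveAt r X X₂)) (vsT K ok r T₂ fun e => T e ∨ N e)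
      (vsT K ok r T₂ fun e => T' e ∨ N e) := by
  let cl : (El X → Prop) → VSet (DV K.Cell (nerveAt r X X₂)) := fun S _ v =>
    OK D.toSig (K.ten (nerveAt r X X₂)) (vsT K ok r T₂ S) (.var v)
  have hc : ∀ S, Closed D.toSig (K.ten (nerveAt r X X₂)) (cl S) := fun S => closed_closure _
  have hm : ∀ {S S'}, S ≤ S' → ∀ n v, cl S n v → cl S' n v := fun h n v hv =>
    hv.mono (vsT_mono h)
  have hi : ∀ n v, cl T' n v → cl (fun e => T e ∨ N e) n v → cl T n v := fun n v a b =>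
    (a.inter b).mono fun k w hw => ⟨hw.1.1, hw.2.2.1.resolve_right
      (fun hn => (hN _ _ hn hw.1.2.1).elim (Arr.id _)), hw.1.2.2⟩
  have hs : ∀ n v, cl T' n v ∨ cl (fun e => T e ∨ N e) n v → cl (fun e => T' e ∨ N e) n v :=
    fun n v a => a.elim (hm (fun _ => Or.inl) n v) (hm (fun e a => a.imp_left (h e)) n v)
  refine WI.closure_iff.2 ((WI.pushout hP (hc T) (hc T') (hc _) (WI.closure_iff.1 h1)
    (hm fun _ => Or.inl) hi).trans (gl_slot hP hK (fun e => T' e ∨ N e) ((hc _).union (hc _))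
      (hc _) hs (fun n v hv => hv.mem.1) (fun n v hv => reflects_self hv.mem.2.1) ?_))
  rintro u (hu | hu)
  · refine WI.of_eqv (fun n v hv => hs _ _ hv.mem) fun n v hv => Or.inl ?_
    exact OK.ren (T' := vsT K ok r T₂ T') (Diag.bp (D := D.toThy) K _ _) (fun k w hw =>
      ⟨hw.mem.mem.1, hw.mem.mem.2.1.resolve_right
        (fun hn => (hN _ _ hn hu).elim ⟨w.2.2.1, rfl⟩), hw.mem.mem.2.2⟩) hv
  · have hp := fun S => hK.closed_pb (nerveAtMap r (ext u.2) fun l => AHom.id (X₂ l)) (hc S)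
      fun n v hv => hv.mem.1
    refine WI.cancel (fun n v hv => hs _ _ hv.mem) (WI.pushout hP (hp T) (hp T') (hp _)
      (Diag.wi_pb _ (h2 u hu)) (fun n v => hm (fun _ => Or.inl) n _) fun n v => hi n _) ?_
    exact Diag.wi_pb _ (wi_ls (T := loc u fun e => T e ∨ N e) (T' := loc u fun e => T' e ∨ N e)
      hP hK hls (fun e a => a.imp_left (h _)) (hasTerm_loc (Or.inr hu)) (hasTerm_loc (Or.inr hu)))

end Glue

/-- The system of equivalences in the slot `r`, the other slots being restricted by `T₂`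
(a predicate on the elements of `nerve X₂` over `piCat D {l // l ≠ r}`):
`WT ℓ X T T' := T ≤ T' ∧ WI D ℓ (K.ten (nerveAt r X X₂)) (vsT T) (vsT T')` with
`vsT T := K.vs ok fun c σ => T ⟨c.tr r, σ.1⟩ ∧ T₂ ⟨fun l => c.tr l.1⟩ σ.2`.

Recipe.  `refl, zero, mono, trans, cancel, cancel', union` are the lemmas of `WI` (WI.lean).
* `gl`: apply `Diag.gl` at level `ℓ` (`PJ` is monotone in the level by `W.mono`) to the closures
  `V = fun _ v => OK .. (vsT T) (.var v)`, `V'` (`closed_closure`, `WI.closure_iff`), with `𝓘` the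
  category whose objects are `Option {u : El X // 𝒰 u}`, sending `none` to `(X, id)` and `some u`
  to `(FrT D u.1, ext u.2)`, and whose maps are the homomorphisms over `X` (a subtype of `AHom`;
  no case analysis is needed for the laws); `H o = nerveAt r (Y o) X₂`.  The reflection of a
  variable with arity `(c, σ)` is `some u` for the reflection `u` of `⟨c.tr r, σ.1⟩`; homomorphisms
  `FrT D u.1 → Y o` correspond to globular maps by `ext`/`eq_ext`.  The local hypothesis is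
  converted by `Diag.wi_pb`.
* `ls`: apply `Diag.gl` with `𝓘` the category with objects
  `Option (Σ c₂ : TObj {l // l ≠ r}, {g : (nerve X₂).obj c₂ // T₂ c₂ g})`, sending `none` to the
  family `X₂` and `some (c₂, g)` to `fun l => FrT D (c₂.tr l)`, maps being families of
  homomorphisms over `X₂`, `H o = nerveAt r X (Y o)`.  A variable with arity `(c, σ)` reflects to
  `some (⟨fun l => c.tr l.1⟩, σ.2)` through `(σ.1, η)`.  Locally use `hls`: if `(b, τ)` is terminal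
  in `T`, choose `c0` with `c0.tr r = b` and `c0.tr l = c₂.tr l` (`Equiv.piSplitAt` or
  `Function.update`; generalise and `subst`), then `(c0, (τ, η))` is terminal (`PTerm`); maps of
  `piCat` out of `c` are determined by the component at `r` and the other components.
* `exc`: let `A, B, C` be the closures for `T`, `T'`, `T ∪ N`.  `B ∩ C ⊆ A` (`OK.inter`; `N` and
  `T'` are disjoint because `Arr.id`), so `WI.pushout` gives `C ⊆ B ∪ C`.  For `B ∪ C ⊆` closure of
  `T' ∪ N` use `Diag.gl` as in `gl` with `𝒰 = T' ∪ N` (every object reflects to itself): over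
  `u ∈ T'` both slices have the same well-formed variables (no map from `N` to `T'`), over `u ∈ N`
  use `WI.pushout` for the slices, the rule `ls` (`hasTerm_loc`) and `WI.cancel`. -/
theorem exists_wsys (hP : PJ D.toThy L) (K : Diag D.Op (piCat D.toThy ι)) (ok : K.CellSet)
    (hK : Diag.WF (D := D.toThy) K ok) (hls : K.LS D.toThy L ok) (r : ι)
    (X₂ : {l // l ≠ r} → Alg D.toSig)
    (T₂ : ∀ c₂ : TObj.{u} {l // l ≠ r}, (nerve (D := D.toThy) X₂).obj c₂ → Prop) :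
    ∃ S : WSys D.toThy L, ∀ ℓ X T T', S.WT ℓ X T T' →
      WI D.toThy ℓ (K.ten (nerveAt r X X₂))
        (K.vs ok fun c σ => T ⟨c.tr r, σ.1⟩ ∧ T₂ ⟨fun l => c.tr l.1⟩ σ.2)
        (K.vs ok fun c σ => T' ⟨c.tr r, σ.1⟩ ∧ T₂ ⟨fun l => c.tr l.1⟩ σ.2) := by
  refine ⟨{
    WT := fun ℓ X T T' => T ≤ T' ∧
      WI D.toThy ℓ (K.ten (nerveAt r X X₂)) (vsT K ok r T₂ T) (vsT K ok r T₂ T')
    refl := fun ℓ X T => ⟨le_rfl, WI.refl _ _⟩
    zero := fun X T T' h => ⟨h, WI.zero fun n v hv => vsT_mono h n v hv.mem⟩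
    mono := fun h hl => ⟨h.1, h.2.mono hl⟩
    trans := fun h h' => ⟨h.1.trans h'.1, h.2.trans h'.2⟩
    cancel := fun h h1 h2 => ⟨h, WI.cancel (fun n v hv => vsT_mono h n v hv.mem) h1.2 h2.2⟩
    cancel' := fun h h1 h2 => ⟨h, WI.cancel' (fun n v hv => vsT_mono h n v hv.mem) h1.2 h2.2⟩
    union := fun S hS h => ⟨fun e he => ⟨0, (h 0).1 e he⟩,
      (WI.union (fun k => vsT K ok r T₂ (S k)) (fun _ _ hk => vsT_mono (hS hk))
        fun k => (h k).2).congr (fun _ _ a => a.mem) (fun _ _ a => a.mem)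
        (fun _ _ a => a.mem.elim fun k a => ⟨a.1, ⟨k, a.2.1⟩, a.2.2⟩)
        fun _ _ a => a.mem.2.1.elim fun k b => ⟨k, a.mem.1, b, a.mem.2.2⟩⟩
    gl := fun 𝒰 hl h h1 h2 => ⟨h, WI.closure_iff.2 (gl_slot (hP.mono hl) hK 𝒰 (closed_closure _)
      (closed_closure _) (fun n v hv => hv.mono (vsT_mono h)) (fun n v hv => hv.mem.1)
      (fun n v hv => h1 _ hv.mem.2.1) fun u hu => Diag.wi_pb _ (h2 u hu).2)⟩
    ls := fun h h1 h2 => ⟨h, wi_ls hP hK hls h h1 h2⟩
    exc := fun N h hN h1 h2 => ⟨fun e a => a.imp_left (h e),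
      wi_exc hP hK hls N h hN h1.2 fun u hu => (h2 u hu).2⟩ }, fun _ _ _ _ h => h.2⟩

/-- **Lemma L in several variables.**  Recipe: for a finite set `A` of slots let
`T A σ := ∀ l ∉ A, σ l` lands in `OK (U l)`.  By `Finset` induction show `WI (T ∅) (T A)`; the step
`T A ⊆ T (insert r A)` is `WSys.lemmaL` for the system `exists_wsys` at `r` with
`T₂ σ := ∀ l ∉ A, ..`, transported along the isomorphism `nerve X ≅ nerveAt r (X r) (X ∘ val)`
by `Diag.wi_iso`. -/
theorem lemmaL_multi [Finite ι] (hP : PJ D.toThy L) (K : Diag D.Op (piCat D.toThy ι))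
    (ok : K.CellSet) (hK : Diag.WF (D := D.toThy) K ok) (hls : K.LS D.toThy L ok)
    (Δ : ι → Ctx D.Op) (U U' : ∀ l, VSet (Δ l).Var) (J : ∀ l, JExt D.toSig (Δ l) (U l) (U' l))
    (hJ : ∀ l, (J l).IDim L) :
    WI D.toThy L (K.ten (nerve fun l => Fr D.toThy (Δ l) (U' l)))
      (K.vs ok fun _ σ => ∀ l k p, OK D.toSig (Δ l) (U l) ((σ l).app k p).1) (K.vs ok ⊤) := by
  classical
  have _ := Fintype.ofFinite ι
  let TA : Finset ι → ∀ c, (nerve fun l => Fr D.toThy (Δ l) (U' l)).obj c → Prop :=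
    fun A _ σ => ∀ l, l ∉ A → ∀ k p, OK D.toSig (Δ l) (U l) ((σ l).app k p).1
  have key : ∀ A, WI D.toThy L (K.ten (nerve fun l => Fr D.toThy (Δ l) (U' l)))
      (K.vs ok (TA ∅)) (K.vs ok (TA A)) := by
    intro A
    induction A using Finset.induction_on with
    | empty => exact WI.refl _ _
    | insert r A hr ih =>
      refine ih.trans ?_
      obtain ⟨S, hS⟩ := exists_wsys hP K ok hK hls r (fun l => Fr D.toThy (Δ l.1) (U' l.1))
        fun _ g => ∀ l : {l // l ≠ r}, l.1 ∉ A → ∀ k p, OK D.toSig (Δ l.1) (U l.1) ((g l).app k p).1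
      let φ : PMap (nerve fun l => Fr D.toThy (Δ l) (U' l))
          (nerveAt r (Fr D.toThy (Δ r) (U' r)) fun l => Fr D.toThy (Δ l.1) (U' l.1)) :=
        ⟨fun _ σ => (σ r, fun l => σ l.1), fun _ _ => rfl⟩
      have hφ : ∀ c, Function.Bijective (φ.app c) := fun c =>
        ⟨fun σ σ' e => fam_ext r (congrArg Prod.fst e) (congrFun (congrArg Prod.snd e)), fun x => by
          obtain ⟨f, h1, h2⟩ := exists_fam r
            (β := fun l => GMap (posG (c.tr l)) (Fr D.toThy (Δ l) (U' l)).G) x.1 x.2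
          exact ⟨f, Prod.ext h1 (funext h2)⟩⟩
      refine ((Diag.wi_iso hK φ hφ fun _ _ a => ⟨trivial, a.2⟩).2
        (hS _ _ _ _ (S.lemmaL (J r) (hJ r)))).congr
        (fun _ _ a => ⟨a.mem.1, a.mem.2 r hr, fun l => a.mem.2 l.1⟩)
        (fun _ _ a => ⟨a.mem.1, fun l hl => ?_⟩) (fun _ _ a => ⟨a.mem.1, fun l hl => ?_⟩)
        fun _ _ a => ⟨a.mem.1, trivial, fun l hl => a.mem.2 l.1 (by simp [l.2, hl])⟩
      · by_cases e : l = r
        · subst e
          exact a.mem.2.1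
        · exact a.mem.2.2 ⟨l, e⟩ hl
      · rw [Finset.mem_insert, not_or] at hl
        exact a.mem.2.2 ⟨l, hl.1⟩ hl.2
  exact (key Finset.univ).congr (fun _ _ a => ⟨a.mem.1, fun l _ => a.mem.2 l⟩)
    (fun _ _ a => ⟨a.mem.1, fun l => a.mem.2 l (Finset.notMem_empty l)⟩)
    (fun _ _ a => ⟨a.mem.1, trivial⟩)
    fun _ _ a => ⟨a.mem.1, fun l hl => absurd (Finset.mem_univ l) hl⟩

/-- A functor which inverts the first-vertex maps inverts all maps.
Recipe: let `I = ⟨fun _ => disk 1⟩`, `s = vtxHom I`, `t` the target vertex, `u : I ⟶ ptObj` a unit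
(`step_refl`, `cls 1`), so `s u = id = t u` (`disk_ext`).  `W.of_comp_right'` gives
`W (L+1) (R u)`, `W.of_comp_left` gives `W L (R t)`.  For any family of vertices `v` of `B` choose
edges `e : I ⟶ B` from the first vertices to `v` (`D.full`); then `R e` is in `W L` by
`W.of_comp_right`, hence so is the vertex map `t e`.  For `f : a ⟶ b` the composite
`vtxHom a ≫ f` is such a vertex map; conclude by `W.of_comp_right`. -/
theorem local_of_vertex (R : AFun D.toSig (piCat D.toThy ι))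
    (h : ∀ B, W L (R.map (vtxHom D.toThy B)).map) (a b : TObj.{u} ι)
    (f : (piCat D.toThy ι).Hom a b) : W L (R.map f).map := by
  let I : TObj.{u} ι := ⟨fun _ => disk 1⟩
  let t : (piCat D.toThy ι).Hom (ptObj ι) I :=
    fun _ => cls 0 ((η D.toThy (posG (disk 1))).app 0 (Pos.tgt (top 1)))
  have hs : ∀ (B : TObj.{u} ι) (e : ∀ l, (FrT D.toThy (B.tr l)).G.cell 1)
      (v : ∀ l, (FrT D.toThy (B.tr l)).G.cell 0), (∀ l, (FrT D.toThy (B.tr l)).G.src 0 (e l) = v l) →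
      (piCat D.toThy ι).comp (vtxHom D.toThy I) (c := B) (fun l => cls 1 (e l)) =
        fun l => cls 0 (v l) := fun B e v hv => funext fun l =>
    (cls_comp _ _).trans (congrArg (cls 0) ((ext_η_app _ _ _).trans
      (((cls 1 (e l)).app_src 0 (top 1)).trans (by rw [cls_top, hv]))))
  have ht : ∀ (B : TObj.{u} ι) (e : ∀ l, (FrT D.toThy (B.tr l)).G.cell 1)
      (v : ∀ l, (FrT D.toThy (B.tr l)).G.cell 0), (∀ l, (FrT D.toThy (B.tr l)).G.tgt 0 (e l) = v l) →
      (piCat D.toThy ι).comp t (c := B) (fun l => cls 1 (e l)) =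
        fun l => cls 0 (v l) := fun B e v hv => funext fun l =>
    (cls_comp _ _).trans (congrArg (cls 0) ((ext_η_app _ _ _).trans
      (((cls 1 (e l)).app_tgt 0 (top 1)).trans (by rw [cls_top, hv]))))
  have hc : ∀ {a b c : TObj.{u} ι} (f : (piCat D.toThy ι).Hom a b) (g : (piCat D.toThy ι).Hom b c),
      (R.map f).map.comp (R.map g).map = (R.map ((piCat D.toThy ι).comp f g)).map :=
    fun f g => by rw [R.map_comp]; rfl
  have wt : W L (R.map t).map := by
    obtain ⟨e, e1, e2⟩ :=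
      step_refl (FrT D.toThy (disk 0)) ((η D.toThy (posG (disk 0))).app 0 (top 0))
    have i0 : (fun _ => cls 0 ((η D.toThy (posG (disk 0))).app 0 (top 0))) =
        (piCat D.toThy ι).id (ptObj ι) := funext fun _ => (eq_cls _).symm
    have wu : W (L + 1) (R.map (a := I) (b := ptObj ι) fun _ => cls 1 e).map := by
      refine W.of_comp_right' (h I) ?_
      rw [hc, (hs (ptObj ι) (fun _ => e) _ fun _ => e1).trans i0, R.map_id]
      exact W_id _ _
    refine W.of_comp_left ?_ wu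
    rw [hc, (ht (ptObj ι) (fun _ => e) _ fun _ => e2).trans i0, R.map_id]
    exact W_id _ _
  have wv : ∀ (B : TObj.{u} ι) (v : ∀ l, (FrT D.toThy (B.tr l)).G.cell 0),
      W L (R.map (a := ptObj ι) (b := B) fun l => cls 0 (v l)).map := by
    intro B v
    choose e e1 e2 using fun l => (D.full (B.tr l) 2).succ (n := 0) (by omega)
      (u := (η D.toThy (posG (B.tr l))).app 0 (Pos.v0 _)) (v := v l) trivial
    have we : W L (R.map (a := I) (b := B) fun l => cls 1 (e l)).map := by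
      refine W.of_comp_right (h I) ?_
      rw [hc, hs B e _ e1]
      exact h B
    have := W.comp wt we
    rwa [hc, ht B e v e2] at this
  refine W.of_comp_right (h a) ?_
  rw [hc]
  have e : (piCat D.toThy ι).comp (vtxHom D.toThy a) f =
      fun l => cls 0 ((ext (f l)).map.app 0 ((η D.toThy (posG (a.tr l))).app 0 (Pos.v0 _))) :=
    funext fun l => cls_comp _ _
  rw [e]
  exact wv b _

end Crest.Agent.R248
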