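import Crest.Agent.R248.TreeJ
import Crest.Agent.R248.Homotopy

/-!
# Row 248: the step for pairs of dimension zero, given truncated path objects.

-/

set_option autoImplicit false

namespace Crest.Agent.R248

open Crest.GeometryTopology.Coherator Tr

universe u

/-- functorial truncated path objects -/
structure CylObj (D : Coh.{u}) (L : ℕ) where
  P : Alg D.toSig → Alg D.toSig
  map : ∀ {Y Y' : Alg D.toSig}, AHom Y Y' → AHom (P Y) (P Y')
  p0 : ∀ Y, AHom (P Y) Y
  p1 : ∀ Y, AHom (P Y) Y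
  nat0 : ∀ {Y Y' : Alg D.toSig} (f : AHom Y Y'), (map f).comp (p0 Y') = (p0 Y).comp f
  nat1 : ∀ {Y Y' : Alg D.toSig} (f : AHom Y Y'), (map f).comp (p1 Y') = (p1 Y).comp f
  ilift0 : ∀ Y j, j ≤ L + 1 → ILift (p0 Y).map j
  W1 : ∀ Y, W (L + 2) (p1 Y).map
  jlift : ∀ Y, JLift (pairA (p0 Y) (p1 Y)).map 0

/-- `W` for an inclusion of free algebras can be checked on the skeleta -/
theorem W_of_skel (D : Coh.{u}) {Δ : Ctx D.Op} {U M V V' : VSet Δ.Var} {N L : ℕ} (hL : L ≤ N + 1)
    (hV : ∀ n x, V n x ↔ U n x ∧ n ≤ N) (hV' : ∀ n x, V' n x ↔ M n x ∧ n ≤ N)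
    (h : ∀ n x, OK D.toSig Δ U (.var x) → M n x) (h' : ∀ n x, OK D.toSig Δ V (.var x) → V' n x)
    (hw : W L (frIncl (D := D.toThy) h').map) : W L (frIncl (D := D.toThy) h).map := by
  let a : AHom (Fr D.toThy Δ V) (Fr D.toThy Δ U) := frIncl fun n x hx => ((hV n x).1 hx.mem).1
  let b : AHom (Fr D.toThy Δ V') (Fr D.toThy Δ M) := frIncl fun n x hx => ((hV' n x).1 hx.mem).1
  have ha : ∀ n, n ≤ N → ∀ t : (Fr D.toThy Δ U).G.cell n, ∃ t', a.map.app n t' = t :=
    fun n hn t => ⟨⟨t.1, (t.2.dim_vars D.dim_le hn).mono fun k x hx => (hV k x).2 hx⟩, rfl⟩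
  have hb : ∀ n, n ≤ N → ∀ t : (Fr D.toThy Δ M).G.cell n, ∃ t', b.map.app n t' = t :=
    fun n hn t => ⟨⟨t.1, (t.2.dim_vars D.dim_le hn).mono fun k x hx => (hV' k x).2 hx⟩, rfl⟩
  intro n hn
  cases n with
  | zero =>
    refine WLift.of_zero fun y => ?_
    obtain ⟨y, rfl⟩ := hb 0 (Nat.zero_le _) y
    obtain ⟨x, hx⟩ := (hw 0 hn).zero y
    exact ⟨a.map.app 0 x, step_map b.map hx⟩
  | succ n =>
    refine WLift.of_succ fun u v huv y hs ht => ?_
    obtain ⟨u, rfl⟩ := ha n (by omega) u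
    obtain ⟨v, rfl⟩ := ha n (by omega) v
    obtain ⟨y, rfl⟩ := hb (n + 1) (by omega) y
    obtain ⟨x, h1, h2, h3⟩ := (hw _ hn).succ ((frG_par u v).2
      ((frG_par (a.map.app n u) (a.map.app n v)).1 huv)) y
      (Subtype.ext (congrArg Subtype.val hs :)) (Subtype.ext (congrArg Subtype.val ht :))
    exact ⟨a.map.app _ x, by rw [← a.map.app_src, h1], by rw [← a.map.app_tgt, h2],
      step_map b.map h3⟩

/-- the core of the argument: an extension by pairs of dimension `(0,1)` of a set of variables of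
dimension `≤ L + 1` -/
theorem PJ_core (D : Coh.{u}) (L : ℕ) (K : CylObj D L) {Δ : Ctx D.Op} {U U' : VSet Δ.Var}
    (J : JExt D.toSig Δ U U') (hI : J.NoI) (h0 : ∀ n x h, J.pair n x h → n = 0)
    (hU : ∀ n x, U n x → n ≤ L + 1) (hW : W L (frIncl (D := D.toThy) J.sub').map) :
    W (L + 1) (frIncl (D := D.toThy) J.sub').map := by
  have w0 : ∀ Y, W (L + 2) (K.p0 Y).map := fun Y n hn => (K.ilift0 Y n (by omega)).wlift
  obtain ⟨c, hc⟩ := fr_cofibrant (K.p0 (Fr D.toThy Δ U)) (AHom.id _)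
    fun n x hx => K.ilift0 _ n (hU n x hx.mem)
  have wc : W (L + 1) c.map := by
    refine W.of_comp_left (g := (K.p0 _).map) ?_ (w0 _)
    rw [← AHom.comp_map, hc]
    exact W_id _ _
  have wφ : W (L + 1) (c.comp (K.p1 _)).map := W.comp wc ((K.W1 _).mono (by omega))
  obtain ⟨r, hr, -⟩ := J.lifting (toUnitA (Fr D.toThy Δ U)) (c.comp (K.p1 _)) (toUnitA _)
    (AHom.ext (GMap.ext' fun _ _ => rfl)) (fun n x hx => absurd hx (hI n x))
    fun n _ _ _ => jlift_unit _ n
  obtain ⟨H, -, hH⟩ := J.lifting (pairA (K.p0 (Fr D.toThy Δ U')) (K.p1 _))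
    (c.comp (K.map (frIncl J.sub'))) (pairA (AHom.id _) (r.comp (frIncl J.sub')))
    (AHom.ext (GMap.ext' fun n t => Prod.ext
      (by
        have e1 := congrArg (fun φ : AHom _ _ => φ.map.app n (c.map.app n t))
          (K.nat0 (frIncl (D := D.toThy) J.sub'))
        have e2 := congrArg (fun φ : AHom _ _ => φ.map.app n t) hc
        exact e1.trans (congrArg ((frIncl (D := D.toThy) J.sub').map.app n) e2))
      (by
        have e1 := congrArg (fun φ : AHom _ _ => φ.map.app n (c.map.app n t))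
          (K.nat1 (frIncl (D := D.toThy) J.sub'))
        have e2 := congrArg (fun φ : AHom _ _ => φ.map.app n t) hr
        exact e1.trans (congrArg ((frIncl (D := D.toThy) J.sub').map.app n) e2.symm))))
    (fun n x hx => absurd hx (hI n x)) fun n x h hp => by
      obtain rfl := h0 n x h hp
      exact K.jlift _
  have e0 : H.map.comp (K.p0 _).map = GMap.id _ := GMap.ext' fun n t =>
    congrArg (fun φ : AHom _ (prodAlg _ _) => (φ.map.app n t).1) hH
  have e1 : H.map.comp (K.p1 _).map = r.map.comp (frIncl (D := D.toThy) J.sub').map :=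
    GMap.ext' fun n t => congrArg (fun φ : AHom _ (prodAlg _ _) => (φ.map.app n t).2) hH
  have wH : W (L + 1) H.map := by
    refine W.of_comp_left (g := (K.p0 _).map) ?_ (w0 _)
    rw [e0]
    exact W_id _ _
  have wri : W (L + 1) (r.map.comp (frIncl (D := D.toThy) J.sub').map) := by
    rw [← e1]
    exact W.comp wH ((K.W1 _).mono (by omega))
  have wr : W (L + 1) r.map := by
    refine W.of_comp_right' hW ?_
    rw [← AHom.comp_map, hr]
    exact wφ
  exact W.of_comp_right wr wri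

namespace JExt

variable {Γ : Sig.{u}} {Δ : Ctx Γ.Op} {U U' : VSet Δ.Var} (J : JExt Γ Δ U U')

/-- the components of the pairs of dimension `(0,1)` -/
def P0 : VSet Δ.Var
  | 0, x => ∃ h, J.pair 0 x h
  | 1, h => ∃ x, J.pair 0 x h
  | _ + 2, _ => False

/-- the base together with the pairs of dimension `(0,1)` -/
def mid : VSet Δ.Var := fun n x => U n x ∨ J.P0 n x

theorem mid_sub (n : ℕ) (x : Δ.Var n) (h : J.mid n x) : U' n x := by
  rcases h with h | h
  · exact J.sub n x h
  match n, x, h with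
  | 0, _, h => exact h.elim fun _ h => (J.pair_new _ _ _ h).1
  | 1, _, h => exact h.elim fun _ h => (J.pair_new _ _ _ h).2.2.1
  | _ + 2, _, h => exact h.elim

theorem mid_pair (n : ℕ) (x : Δ.Var n) (h : Δ.Var (n + 1)) (hp : J.pair n x h)
    (a : J.mid n x ∨ J.mid _ h) : n = 0 := by
  cases n with
  | zero => rfl
  | succ n =>
    rcases a with (a | a) | a | a
    · exact absurd a (J.pair_new _ _ _ hp).2.1
    · cases n with
      | zero => exact a.elim fun _ a => absurd hp (J.pair_not _ _ _ _ a)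
      | succ n => exact a.elim
    · exact absurd a (J.pair_new _ _ _ hp).2.2.2
    · exact a.elim

theorem mid_zero {x : Δ.Var 0} {h : Δ.Var 1} (hp : J.pair 0 x h) : J.mid 0 x ∧ J.mid 1 h :=
  ⟨.inr ⟨h, hp⟩, .inr ⟨x, hp⟩⟩

theorem mid_sat (n : ℕ) (x : Δ.Var n) (h : Δ.Var (n + 1)) (hp : J.pair n x h) :
    J.mid n x ↔ J.mid _ h := by
  constructor
  · intro a
    obtain rfl := J.mid_pair n x h hp (.inl a)
    exact (J.mid_zero hp).2
  · intro a
    obtain rfl := J.mid_pair n x h hp (.inr a)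
    exact (J.mid_zero hp).1

theorem mid_closed (hI : J.NoI) : Closed Γ Δ J.mid := by
  rintro n x (h | h)
  · exact (J.closed n x h).mono fun _ _ a => .inl a
  match n, x, h with
  | 0, x, h => exact .var0 x (.inr h)
  | 1, h, hp =>
    obtain ⟨x, hp⟩ := hp
    refine .varS h (.inr ⟨x, hp⟩) ?_ ?_ trivial
    · have a := J.pair_src _ _ _ hp
      obtain ⟨y, hy⟩ := OK.zero_var (Δ.src h)
      rw [hy] at a ⊢
      refine .var0 y ?_
      by_cases b : U 0 y
      · exact .inl b
      rcases J.cases_new (J.below_sub _ _ a.mem) b with c | c | c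
      · exact absurd c (hI _ _)
      · exact .inr c
      · exact c.elim
    · rw [J.pair_tgt _ _ _ hp]
      exact .var0 x (J.mid_zero hp).1
  | _ + 2, _, h => exact h.elim

end JExt

/-- Recipe.  Let `J : JExt Δ U U'` with `NoI`.  (0) `M := U ∪ {pairs of dimension (0,1)}` is closed
and pair-saturated (`0`-dimensional terms are variables, `OK.zero_var`); `J.upper M` is `NoI`,
`Pos1`, so `M ⊆ U'` is in `W (L+1)` by `h1`; by `W.comp` it remains to treat `U ⊆ M`
(`J.shrink`).  (1) Skeleton: with `U₀ = U ∩ {dim ≤ L}`, `M₀ = U₀ ∪ pairs` (closed by `OK.dim_vars`)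
`W (L+1)` for `i : A = Fr U₀ → B = Fr M₀` implies it for `Fr U → Fr M` (spheres and cells of
dimension `≤ L` come from `A`, `B` by `OK.dim_vars`; note `M₀` contains the `1`-cells of pairs
also when `L = 0`).  (2) `c : A → P A` with `c p0 = id` (`fr_cofibrant`, `ilift0`),
`φ := c p1`; `W (L+1) c` by `W.of_comp_left` (`p0 ∈ W (L+2)` by `ILift.wlift`), so
`W (L+1) φ`.  (3) `r : B → A` with `i r = φ` (`JExt.lifting` against `toUnitA`, `jlift_unit`).
(4) `H : B → P B` with `i H = c (map i)` and `H (p0, p1) = (id, r i)` (`JExt.lifting` against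
`pairA p0 p1`, `jlift`).  Then `W (L+1) H` (`W.of_comp_left`), `W (L+1) (r i)`; `W L i` by `h0`,
so `W (L+1) r` by `W.of_comp_right'`, and `W (L+1) i` by `W.of_comp_right`. -/
theorem PJ_succ (D : Coh.{u}) (L : ℕ) (K : CylObj D L) (h0 : PJ D.toThy L)
    (h1 : PJ1 D.toThy (L + 1)) : PJ D.toThy (L + 1) := by
  intro Δ U U' J hI
  -- the upper part
  let J1 := J.upper J.mid (fun _ _ a => .inl a) J.mid_sub (J.mid_closed hI) J.mid_sat
  have w1 : W (L + 1) (frIncl (D := D.toThy) J1.sub').map :=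
    h1 Δ _ _ J1 (fun n x hx => hI n x (J.upper_icell hx).1) fun n x h hp => by
      cases n with
      | zero => exact absurd (J.mid_zero hp.1).1 hp.2
      | succ n => omega
  -- the skeleton of the lower part
  let J0 := J.shrink (fun n x => U n x ∧ n ≤ L + 1) (fun n x => J.mid n x ∧ n ≤ L + 1)
    (fun n x => ⟨fun a => ⟨a.1, .inl a.1, a.2⟩, fun a => ⟨a.1, a.2.2⟩⟩)
    (fun n x a => J.mid_sub n x a.1)
    (fun n x a => (J.mid_closed hI n x a.1).dim_vars D.dim_le a.2)
    (fun n x h hp => ⟨fun a => by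
        obtain rfl := J.mid_pair n x h hp (.inl a.1)
        exact ⟨(J.mid_zero hp).2, by omega⟩,
      fun a => ⟨(J.mid_sat n x h hp).2 a.1, by omega⟩⟩)
  have i0 : J0.NoI := fun n x hx => hI n x (J.shrink_icell hx).1
  have w0 : W (L + 1) (frIncl (D := D.toThy) J0.sub').map :=
    PJ_core D L K J0 i0 (fun n x h hp => J.mid_pair n x h hp.1 (.inl hp.2.1)) (fun _ _ a => a.2)
      (h0 Δ _ _ J0 i0)
  have w2 : W (L + 1) (frIncl (D := D.toThy) (T := U) (T' := J.mid)
      fun _ _ a => .inl a.mem).map :=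
    W_of_skel D (N := L + 1) (by omega) (fun _ _ => Iff.rfl) (fun _ _ => Iff.rfl) _ _ w0
  exact W.comp (Z := Fr D.toThy Δ U') w2 w1

end Crest.Agent.R248
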