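import Crest.Agent.R248.Whisker
import Crest.Agent.R248.CylStep

/-!
# Row 248: truncated cylinder (path) objects.

SKELETON (task "R248 Cyl.lean"): keep the names and statements; auxiliary lemmas are free.
-/

set_option autoImplicit false

namespace Crest.Agent.R248

open Crest.GeometryTopology.Coherator Tr

universe u

/-- the transport terms of dimension `< r` are well formed over the boundary cylinder and `y0 top`,
and parallel to `y1 top` -/
def GoodT (D : Coh.{u}) (T : CylT D.Op) (r : ℕ) : Prop :=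
  T 0 = .var (.y0 (top 0)) ∧ ∀ j, j < r →
    OK D.toSig (cylCtx T (posG (disk j))) (cylB j _) (T j) ∧
      RPar D.toSig (cylCtx T (posG (disk j))) j (T j) (.var (.y1 (top j)))

namespace Cy

section Basics

variable {D : Coh.{u}} {T : CylT D.Op} {G G' G'' : GS.{u}}

theorem map_map (f : GMap G G') (g : GMap G' G'') : ∀ n (v : CV G n),
    CV.map g n (CV.map f n v) = CV.map (f.comp g) n v
  | _, .y0 _ => rfl
  | _, .y1 _ => rfl
  | _, .w _ => rfl

theorem map_id : ∀ n (v : CV G n), CV.map (GMap.id G) n v = v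
  | _, .y0 _ => rfl
  | _, .y1 _ => rfl
  | _, .w _ => rfl

theorem ren_map_map {O : OpFam.{u}} (f : GMap G G') (g : GMap G' G'') {n : ℕ}
    (t : Tm O (CV G) n) : (t.ren (CV.map f)).ren (CV.map g) = t.ren (CV.map (f.comp g)) := by
  simp only [Tm.ren, Tm.subst_subst, Tm.subst_var, map_map]

theorem ren_map_id {O : OpFam.{u}} {n : ℕ} (t : Tm O (CV G) n) :
    t.ren (CV.map (GMap.id G)) = t := by
  simp only [Tm.ren, map_id, Tm.subst_id]

theorem cls_top_id (n : ℕ) : cls n (Y := posG.{u} (disk n)) (top n) = GMap.id _ :=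
  disk_ext (cls_top _ _)

theorem bp_map (T : CylT D.Op) (f : GMap G G') (S : VSet (CV G)) :
    BP D.toSig (cylCtx T G) (cylCtx T G') S fun n x => .var (CV.map f n x) := by
  intro n x _
  match n, x with
  | _, .y0 x => exact ⟨congrArg (fun z => Tm.var (CV.y0 z)) (f.app_src _ x).symm,
      congrArg (fun z => Tm.var (CV.y0 z)) (f.app_tgt _ x).symm⟩
  | _, .y1 x => exact ⟨congrArg (fun z => Tm.var (CV.y1 z)) (f.app_src _ x).symm,
      congrArg (fun z => Tm.var (CV.y1 z)) (f.app_tgt _ x).symm⟩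
  | n, .w x =>
    refine ⟨?_, rfl⟩
    show (T n).ren (CV.map (cls n (f.app n x))) = ((T n).ren (CV.map (cls n x))).ren (CV.map f)
    rw [ren_map_map, cls_comp]

theorem cylB_map (f : GMap G G') (N : ℕ) : ∀ n (v : CV G n), cylB N G n v →
    cylB N G' n (CV.map f n v)
  | _, .y0 _, h => h
  | _, .y1 _, h => h
  | _, .w _, h => h

theorem cylV_map (f : GMap G G') (N : ℕ) : ∀ n (v : CV G n), cylV N G n v →
    cylV N G' n (CV.map f n v)
  | _, .y0 _, h => h
  | _, .y1 _, h => h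
  | _, .w _, h => h

theorem cylB_mono {N N' : ℕ} (h : N ≤ N') : ∀ n (v : CV G n), cylB N G n v → cylB N' G n v
  | _, .y0 _, _ => trivial
  | _, .y1 _, h' => lt_of_lt_of_le h' h
  | _, .w _, h' => lt_of_lt_of_le h' h

theorem cylB_V {N N' : ℕ} (h : N ≤ N') : ∀ n (v : CV G n), cylB N G n v → cylV N' G n v
  | _, .y0 _, _ => trivial
  | _, .y1 _, _ => trivial
  | _, .w _, h' => lt_of_lt_of_le h' h

theorem ok_y0 {S : VSet (CV G)} (hS : ∀ n x, S n (.y0 x)) (n : ℕ) (x : G.cell n) :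
    OK D.toSig (cylCtx T G) S (.var (.y0 x)) :=
  OK.ren (Δ := Ctx.ofGS D.Op G) (Δ' := cylCtx T G) (r := fun _ y => CV.y0 y)
    (fun _ _ _ => ⟨rfl, rfl⟩) (fun _ _ _ => hS _ _) (OK.ofGS_top G n x)

theorem ok_y1 {S : VSet (CV G)} (N : ℕ) (hS : ∀ n x, n < N → S n (.y1 x)) (n : ℕ) (x : G.cell n)
    (hn : n < N) : OK D.toSig (cylCtx T G) S (.var (.y1 x)) :=
  OK.ren (Δ := Ctx.ofGS D.Op G) (Δ' := cylCtx T G) (r := fun _ y => CV.y1 y)
    (T := fun k _ => k < N)
    (fun _ _ _ => ⟨rfl, rfl⟩) (fun _ _ h => hS _ _ h.mem)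
    (OK.ofGS_var G (fun _ _ h => ⟨by omega, by omega⟩) n x hn)

theorem ok_T {r j : ℕ} (hT : GoodT D T r) (hj : j < r) (x : G.cell j) :
    OK D.toSig (cylCtx T G) (cylB j G) ((T j).ren (CV.map (cls j x))) :=
  OK.ren (bp_map T _ _) (fun _ _ h => cylB_map _ _ _ _ h.mem) (hT.2 j hj).1

theorem par_T {r j : ℕ} (hT : GoodT D T r) (hj : j < r) (x : G.cell j) :
    RPar D.toSig (cylCtx T G) j ((T j).ren (CV.map (cls j x))) (.var (.y1 x)) := by
  have := RPar.subst (bp_map T (cls j x) ⊤) ((hT.2 j hj).1.mono fun _ _ _ => trivial)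
    (ok_y1 (j + 1) (fun _ _ _ => trivial) j _ (Nat.lt_succ_self j)) (hT.2 j hj).2
  have e : CV.map (cls j x) j (CV.y1 (top j)) = CV.y1 x := congrArg CV.y1 (cls_top j x)
  rwa [Tm.subst_var, e] at this

theorem closed_B {r N : ℕ} (hT : GoodT D T r) (hN : N ≤ r) :
    Closed D.toSig (cylCtx T G) (cylB N G)
  | _, .y0 x, _ => ok_y0 (fun _ _ => trivial) _ x
  | _, .y1 x, h => ok_y1 N (fun _ _ h => h) _ x h
  | _, .w x, h => .varS (Δ := cylCtx T G) _ h
      ((ok_T hT (lt_of_lt_of_le h hN) x).mono (cylB_mono (le_of_lt h)))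
      (ok_y1 N (fun _ _ h => h) _ x h) (par_T hT (lt_of_lt_of_le h hN) x)

theorem closed_V {r N : ℕ} (hT : GoodT D T r) (hN : N ≤ r) :
    Closed D.toSig (cylCtx T G) (cylV N G)
  | _, .y0 x, _ => ok_y0 (fun _ _ => trivial) _ x
  | n, .y1 x, _ => ok_y1 (n + 1) (fun _ _ _ => trivial) _ x (Nat.lt_succ_self _)
  | k + 1, .w x, h => .varS (Δ := cylCtx T G) _ h
      ((ok_T hT (lt_of_lt_of_le h hN) x).mono (cylB_V (le_of_lt h)))
      (ok_y1 (k + 1) (fun _ _ _ => trivial) _ x (Nat.lt_succ_self _))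
      (par_T hT (lt_of_lt_of_le h hN) x)

def stC : ∀ n, CV G n → ℕ
  | _, .y0 _ => 0
  | n, .y1 _ => n
  | _, .w (n := k) _ => k

inductive CPair (N : ℕ) : ∀ n, CV G n → CV G (n + 1) → Prop
  | mk {n : ℕ} (x : G.cell n) : 1 ≤ n → n < N → CPair N n (.y1 x) (.w x)

theorem CPair.cases' {N : ℕ} : ∀ n (x : CV G n), cylB N G n x → ¬cylB 1 G n x →
    (∃ h, CPair N n x h) ∨ IsJc (CPair N) n x
  | _, .y0 _, _, h => absurd trivial h
  | _, .y1 x, h, h' => Or.inl ⟨_, .mk x (not_lt.mp h') h⟩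
  | _, .w x, h, h' => Or.inr ⟨_, .mk x (not_lt.mp h') h⟩

def jext {N : ℕ} (hN : 1 ≤ N) (hT : GoodT D T N) (G : GS.{u}) :
    JExt D.toSig (cylCtx T G) (cylB 1 G) (cylB N G) where
  st := stC
  pair := CPair N
  sub := cylB_mono hN
  closed := closed_B hT hN
  pair_uniq n x h h' a b := by cases a; cases b; rfl
  pair_new n x h a := by
    cases a with
    | mk x h1 h2 => exact ⟨h2, not_lt.mpr h1, h2, not_lt.mpr h1⟩
  pair_st n x h a := by cases a; rfl
  pair_not n x h k a b := by cases a; cases b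
  pair_tgt n x h a := by cases a; rfl
  pair_src n x h a := by
    cases a with
    | mk x h1 h2 =>
      refine (ok_T hT h2 x).mono fun k y hy => ?_
      match k, y, hy with
      | _, .y0 _, _ => exact Or.inl trivial
      | _, .y1 _, hy => exact Or.inr ⟨lt_trans hy h2, hy⟩
      | _, .w _, hy => exact Or.inr ⟨lt_trans hy h2, hy⟩
  pair_par n x h a := by
    cases a with
    | mk x h1 h2 => exact par_T hT h2 x
  icell n x h0 h1 h2 h3 := ((CPair.cases' n x h0 h1).elim h2 h3).elim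

end Basics

end Cy

/-- Recipe: `cylB 1 ⊆ cylB N` is a `JExt` with `NoI`, `Pos1` (pairs `(y1 x, w x)` for
`1 ≤ dim x < N`, stage `dim x`; well-formedness of `T j` is transported along the renaming
`CV.map (cls j x)` by `OK.ren`, `RPar.subst`; the renaming is `BP` because
`(cls _ y).comp f = cls _ (f y)`), then `conn_wh`, `h1`, `Conn.of_W`. -/
theorem conn_cylB (D : Coh.{u}) (L : ℕ) (h1 : PJ1 D.toThy (L + 1)) (T : CylT D.Op) (N : ℕ)
    (hN : 1 ≤ N) (hT : GoodT D T N) (A : Tr) :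
    Conn (L + 2) (Fr D.toThy (cylCtx T (posG A)) (cylB N _)).G :=
  Conn.of_W (h1 _ _ _ (Cy.jext hN hT (posG A))
    (fun n x h => (Cy.CPair.cases' n x h.1 h.2.1).elim h.2.2.1 h.2.2.2)
    (fun n x h a => by cases a; assumption)) (conn_wh D L h1 T hT.1 A)

/-- Recipe: induction on `r ≤ L + 2`, starting from `T j = var (y0 (top j))`; given `T` good below
`r ≥ 1`, fill the sphere `(y1 (src top), y1 (tgt top))` of dimension `r` by `conn_cylB` and update
`T r` (`Function.update`); on the variable sets `cylB j`, `j ≤ r`, the old and the new context have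
the same boundaries, so `OK` and `RPar` transfer by the identity renaming (`OK.ren`). -/
theorem exists_goodT (D : Coh.{u}) (L : ℕ) (h1 : PJ1 D.toThy (L + 1)) :
    ∃ T : CylT D.Op, GoodT D T (L + 2) := by
  have key : ∀ r, r + 1 ≤ L + 2 → ∃ T : CylT D.Op, GoodT D T (r + 1) := by
    intro r
    induction r with
    | zero =>
      refine fun _ => ⟨fun j => .var (.y0 (top j)), rfl, fun j hj => ?_⟩
      obtain rfl : j = 0 := by omega
      exact ⟨Cy.ok_y0 (fun _ _ => trivial) _ _, trivial⟩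
    | succ r ih =>
      intro hr
      obtain ⟨T, hT⟩ := ih (by omega)
      have hc := conn_cylB D L h1 T (r + 1) (by omega) hT (disk (r + 1))
      have o : ∀ x : Pos.{u} (disk (r + 1)) r, OK D.toSig (cylCtx T (posG (disk (r + 1))))
          (cylB (r + 1) _) (.var (.y1 x)) := fun x =>
        Cy.ok_y1 (G := posG (disk (r + 1))) (r + 1) (fun _ _ h => h) r x (Nat.lt_succ_self r)
      obtain ⟨z, hz1, hz2⟩ := hc.succ (n := r) (by omega)
        (u := ⟨_, o (Pos.src (top (r + 1)))⟩) (v := ⟨_, o (Pos.tgt (top (r + 1)))⟩) (by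
          cases r with
          | zero => trivial
          | succ r =>
            exact ⟨Subtype.ext (congrArg (fun z => Tm.var (CV.y1 z)) (Pos.src_src _)),
              Subtype.ext (congrArg (fun z => Tm.var (CV.y1 z)) (Pos.tgt_tgt _))⟩)
      let T' : CylT D.Op := Function.update T (r + 1) z.1
      have e1 : ∀ j, j < r + 1 → T' j = T j := fun j hj => Function.update_of_ne (by omega) _ _
      have e2 : T' (r + 1) = z.1 := Function.update_self _ _ _
      have bp : ∀ G : GS.{u}, BP D.toSig (cylCtx T G) (cylCtx T' G) (cylV (r + 1) G)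
          fun _ x => .var x := by
        intro G n x hx
        match n, x, hx with
        | _, .y0 x, _ => exact ⟨rfl, rfl⟩
        | _, .y1 x, _ => exact ⟨rfl, rfl⟩
        | n, .w x, hx =>
          refine ⟨?_, rfl⟩
          show (T' n).ren _ = _
          rw [e1 n hx.mem, Tm.subst_id]
          rfl
      have h0 : ∀ j, j < r + 1 + 1 → OK D.toSig (cylCtx T (posG (disk j))) (cylB j _) (T' j) ∧
          RPar D.toSig (cylCtx T (posG (disk j))) j (T' j) (.var (.y1 (top j))) := by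
        intro j hj
        by_cases e : j = r + 1
        · subst e
          rw [e2]
          exact ⟨z.2, congrArg Subtype.val hz1, congrArg Subtype.val hz2⟩
        · rw [e1 j (by omega)]
          exact hT.2 j (by omega)
      refine ⟨T', (e1 0 (by omega)).trans hT.1, fun j hj => ⟨?_, ?_⟩⟩
      · have := OK.ren (Δ := cylCtx T (posG (disk j))) (Δ' := cylCtx T' (posG (disk j)))
          (T' := cylB j _) (r := fun _ x => x)
          (fun n x hx => bp _ n x (hx.mono (Cy.cylB_V (by omega)))) (fun _ _ h => h.mem)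
          (h0 j hj).1
        rwa [Tm.ren, Tm.subst_id] at this
      · have := RPar.subst (bp _) ((h0 j hj).1.mono (Cy.cylB_V (by omega)))
          (Cy.ok_y1 (j + 1) (fun _ _ _ => trivial) j _ (Nat.lt_succ_self j)) (h0 j hj).2
        rwa [Tm.subst_id, Tm.subst_id] at this
  exact key (L + 1) le_rfl

namespace Cy

/-- cells of a globular set with one more cell of dimension `n + 1` -/
inductive XC (X : GS.{u}) (n : ℕ) : ℕ → Type u
  | old {k : ℕ} (x : X.cell k) : XC X n k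
  | new : XC X n (n + 1)

def XC.src {X : GS.{u}} {n : ℕ} (a : X.cell n) : ∀ k, XC X n (k + 1) → XC X n k
  | _, .old x => .old (X.src _ x)
  | _, .new => .old a

def XC.tgt {X : GS.{u}} {n : ℕ} (b : X.cell n) : ∀ k, XC X n (k + 1) → XC X n k
  | _, .old x => .old (X.tgt _ x)
  | _, .new => .old b

/-- attach a new cell along a parallel pair -/
@[reducible] def XP (X : GS.{u}) {n : ℕ} (a b : X.cell n) (h : X.AreParallel n a b) : GS.{u} where
  cell := XC X n
  src := XC.src a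
  tgt := XC.tgt b
  src_src k x := by
    cases x with
    | old x => exact congrArg XC.old (X.src_src _ x)
    | new => exact congrArg XC.old h.1
  tgt_tgt k x := by
    cases x with
    | old x => exact congrArg XC.old (X.tgt_tgt _ x)
    | new => exact congrArg XC.old h.2

def oldMap (X : GS.{u}) {n : ℕ} (a b : X.cell n) (h : X.AreParallel n a b) :
    GMap X (XP X a b h) := ⟨fun _ x => .old x, fun _ _ => rfl, fun _ _ => rfl⟩

section Path

variable {D : Coh.{u}} (T : CylT D.Op) (N : ℕ)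

/-- the truncated cylinder on a globular set -/
abbrev C (G : GS.{u}) : Alg D.toSig := Fr D.toThy (cylCtx T G) (cylV N G)

def Cm {G G' : GS.{u}} (f : GMap G G') : AHom (C T N G) (C T N G') :=
  frRen (CV.map f) (bp_map T f _) fun _ _ h => cylV_map f N _ _ h.mem

theorem Cm_comp {G G' G'' : GS.{u}} (f : GMap G G') (g : GMap G' G'') :
    (Cm T N f).comp (Cm T N g) = Cm T N (f.comp g) :=
  AHom.ext (GMap.ext' fun _ t => Subtype.ext (ren_map_map f g t.1))

theorem Cm_id (G : GS.{u}) : Cm T N (GMap.id G) = AHom.id _ :=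
  AHom.ext (GMap.ext' fun _ t => Subtype.ext (ren_map_id t.1))

theorem Cm_comp' {G G' G'' : GS.{u}} {Y : Alg D.toSig} (f : GMap G G') (g : GMap G' G'')
    (c : AHom (C T N G'') Y) :
    (Cm T N f).comp ((Cm T N g).comp c) = (Cm T N (f.comp g)).comp c := by
  rw [← Cm_comp]; rfl

/-- the globular set of cylinders -/
@[reducible] def PG (Y : Alg D.toSig) : GS.{u} where
  cell n := AHom (C T N (posG (disk n))) Y
  src n c := (Cm T N (dσ n)).comp c
  tgt n c := (Cm T N (dτ n)).comp c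
  src_src n c := by rw [Cm_comp', Cm_comp', dσ_dσ]
  tgt_tgt n c := by rw [Cm_comp', Cm_comp', dτ_dσ]

def PGm {Y Y' : Alg D.toSig} (f : AHom Y Y') : GMap (PG T N Y) (PG T N Y') :=
  ⟨fun _ c => c.comp f, fun _ _ => rfl, fun _ _ => rfl⟩

def c0 {G : GS.{u}} {n : ℕ} (x : G.cell n) : (C T N G).G.cell n :=
  fv (.y0 x) (ok_y0 (fun _ _ => trivial) n x)

def c1 {G : GS.{u}} {n : ℕ} (x : G.cell n) : (C T N G).G.cell n :=
  fv (.y1 x) (ok_y1 (n + 1) (fun _ _ _ => trivial) n x (Nat.lt_succ_self n))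

def π0 (Y : Alg D.toSig) : GMap (PG T N Y) Y.G where
  app n c := c.map.app n (c0 T N (top n))
  app_src n c := by
    rw [← c.map.app_src]
    exact congrArg (c.map.app n) (Subtype.ext (congrArg (fun z => Tm.var (CV.y0 z)) (cls_top n _)))
  app_tgt n c := by
    rw [← c.map.app_tgt]
    exact congrArg (c.map.app n) (Subtype.ext (congrArg (fun z => Tm.var (CV.y0 z)) (cls_top n _)))

def π1 (Y : Alg D.toSig) : GMap (PG T N Y) Y.G where
  app n c := c.map.app n (c1 T N (top n))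
  app_src n c := by
    rw [← c.map.app_src]
    exact congrArg (c.map.app n) (Subtype.ext (congrArg (fun z => Tm.var (CV.y1 z)) (cls_top n _)))
  app_tgt n c := by
    rw [← c.map.app_tgt]
    exact congrArg (c.map.app n) (Subtype.ext (congrArg (fun z => Tm.var (CV.y1 z)) (cls_top n _)))

/-- the universal family of cylinders -/
def un (G : GS.{u}) : GMap G (PG T N (C T N G)) where
  app n x := Cm T N (cls n x)
  app_src n x := by
    show _ = (Cm T N (dσ n)).comp _
    rw [Cm_comp, dσ_cls]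
  app_tgt n x := by
    show _ = (Cm T N (dτ n)).comp _
    rw [Cm_comp, dτ_cls]

theorem cls_PG {Y : Alg D.toSig} {n : ℕ} (c : (PG T N Y).cell n) (k : ℕ)
    (p : Pos.{u} (disk n) k) :
    (cls n c).app k p = (Cm T N (cls k (Y := posG (disk n)) p)).comp c := by
  have : cls n c = (un T N (posG (disk n))).comp (PGm T N c) := disk_ext (by
    rw [cls_top]
    show c = (Cm T N (cls n (top n))).comp c
    rw [cls_top_id, Cm_id]
    rfl)
  rw [this]
  rfl

/-- an assignment extending the tautological one along `j` -/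
structure Ext {Y : Alg D.toSig} {G : GS.{u}} (j : GMap (PG T N Y) G) (ρ : Asg (CV G) Y.G) :
    Prop where
  y0 : ∀ k c, ρ k (.y0 (j.app k c)) ((π0 T N Y).app k c)
  y1 : ∀ k c, ρ k (.y1 (j.app k c)) ((π1 T N Y).app k c)
  w : ∀ k (c : (PG T N Y).cell k) y, c.asg _ (.w (top k)) y → ρ _ (.w (j.app k c)) y

variable {T N}

theorem Ext.transport {Y : Alg D.toSig} {G : GS.{u}} {j : GMap (PG T N Y) G}
    {ρ : Asg (CV G) Y.G} (h : Ext T N j ρ) {r : ℕ} (hT : GoodT D T r) (hN : N ≤ r) {n : ℕ}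
    (c : (PG T N Y).cell n) : ∀ k v y, c.asg k v y → ρ k (CV.map (cls n (j.app n c)) k v) y := by
  have e : ∀ k p, (cls n (j.app n c)).app k p
      = j.app k ((Cm T N (cls k (Y := posG (disk n)) p)).comp c) := by
    intro k p
    rw [← cls_comp, GMap.comp_app, cls_PG]
  rintro k v _ ⟨hv, rfl⟩
  match k, v, hv with
  | k, .y0 p, hv =>
    show ρ k (.y0 ((cls n (j.app n c)).app k p)) _
    rw [e]
    convert h.y0 k _ using 1
    exact congrArg (c.map.app k)
      (Subtype.ext (congrArg (fun z => Tm.var (CV.y0 z)) (cls_top k _).symm))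
  | k, .y1 p, hv =>
    show ρ k (.y1 ((cls n (j.app n c)).app k p)) _
    rw [e]
    convert h.y1 k _ using 1
    exact congrArg (c.map.app k)
      (Subtype.ext (congrArg (fun z => Tm.var (CV.y1 z)) (cls_top k _).symm))
  | k + 1, .w p, hv =>
    show ρ _ (.w ((cls n (j.app n c)).app k p)) _
    rw [e]
    refine h.w k _ _ ⟨closed_V hT hN _ _ hv.mem, ?_⟩
    exact congrArg (c.map.app _)
      (Subtype.ext (congrArg (fun z => Tm.var (CV.w z)) (cls_top k _)))

theorem Ext.law_w {Y : Alg D.toSig} {G : GS.{u}} {j : GMap (PG T N Y) G}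
    {ρ : Asg (CV G) Y.G} (h : Ext T N j ρ) {r : ℕ} (hT : GoodT D T r) (hN : N ≤ r) {k : ℕ}
    (c : (PG T N Y).cell k) (y : Y.G.cell (k + 1)) (hy : c.asg _ (.w (top k)) y) :
    Eval Y.str.op ρ ((T k).ren (CV.map (cls k (j.app k c)))) (Y.G.src k y) ∧
      Eval Y.str.op ρ (.var (.y1 (j.app k c))) (Y.G.tgt k y) := by
  obtain ⟨h1, h2⟩ := c.asg_valid.law _ _ _ hy
  constructor
  · replace h1 : Eval Y.str.op c.asg ((T k).ren (CV.map (cls k (top k)))) (Y.G.src k y) := h1
    rw [cls_top_id, ren_map_id] at h1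
    exact h1.subst fun n x y hx => .var (h.transport hT hN c n x y hx)
  · obtain ⟨_, e⟩ := Eval.var_iff.1 h2
    exact .var (e ▸ h.y1 k c)

theorem Ext.lift_eq {Y : Alg D.toSig} {G : GS.{u}} {j : GMap (PG T N Y) G}
    {ρ : Asg (CV G) Y.G} (h : Ext T N j ρ) {r : ℕ} (hT : GoodT D T r) (hN : N ≤ r)
    (hρ : Valid (cylCtx T G) Y.str ρ)
    (ht : ∀ n x, OK D.toSig (cylCtx T G) (cylV N G) (.var x) → ∃ y, ρ n x y) {n : ℕ}
    (c : (PG T N Y).cell n) : (Cm T N (cls n (j.app n c))).comp (lift hρ ht) = c :=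
  fr_ext fun k v hv => R248.lift_eq hρ ht (.var (h.transport hT hN c k v _ ⟨hv, rfl⟩))

/-- the tautological assignment -/
def ρ0 (T : CylT D.Op) (N : ℕ) (Y : Alg D.toSig) : Asg (CV (PG T N Y)) Y.G
  | k, .y0 c, y => (π0 T N Y).app k c = y
  | k, .y1 c, y => (π1 T N Y).app k c = y
  | _, .w c, y => c.asg _ (.w (top _)) y

theorem exists_counit {r : ℕ} (hT : GoodT D T r) (hN : N ≤ r) (Y : Alg D.toSig) :
    ∃ ε : AHom (C T N (PG T N Y)) Y, ∀ n (c : (PG T N Y).cell n),
      (Cm T N (cls n c)).comp ε = c := by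
  have hE : Ext T N (GMap.id _) (ρ0 T N Y) := ⟨fun _ _ => rfl, fun _ _ => rfl, fun _ _ _ h => h⟩
  have hρ : Valid (cylCtx T (PG T N Y)) Y.str (ρ0 T N Y) := by
    constructor
    · intro n x y y' h h'
      match n, x, y, y', h, h' with
      | _, .y0 _, _, _, h, h' => exact h.symm.trans h'
      | _, .y1 _, _, _, h, h' => exact h.symm.trans h'
      | _, .w c, _, _, h, h' => exact c.asg_valid.func _ _ _ _ h h'
    · intro n x y h
      match n, x, y, h with
      | n, .y0 c, _, h =>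
        exact ⟨.var (h ▸ (π0 T N Y).app_src n c), .var (h ▸ (π0 T N Y).app_tgt n c)⟩
      | n, .y1 c, _, h =>
        exact ⟨.var (h ▸ (π1 T N Y).app_src n c), .var (h ▸ (π1 T N Y).app_tgt n c)⟩
      | _, .w c, y, h => exact hE.law_w hT hN c y h
  have ht : ∀ n x, OK D.toSig (cylCtx T (PG T N Y)) (cylV N _) (.var x) →
      ∃ y, ρ0 T N Y n x y := by
    intro n x hx
    match n, x, hx with
    | _, .y0 _, _ => exact ⟨_, rfl⟩
    | _, .y1 _, _ => exact ⟨_, rfl⟩
    | _, .w c, hx => exact ⟨_, closed_V hT hN _ _ hx.mem, rfl⟩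
  exact ⟨lift hρ ht, fun n c => hE.lift_eq hT hN hρ ht c⟩

section New

variable {Y : Alg D.toSig} {n : ℕ} {a b : (PG T N Y).cell n} (hab : (PG T N Y).AreParallel n a b)

/-- the assignment with prescribed values at the new cell -/
def ρP (R0 R1 : Y.G.cell (n + 1) → Prop) (Rw : Y.G.cell (n + 2) → Prop) :
    Asg (CV (XP (PG T N Y) a b hab)) Y.G
  | k, .y0 (.old c), y => (π0 T N Y).app k c = y
  | _, .y0 .new, y => R0 y
  | k, .y1 (.old c), y => (π1 T N Y).app k c = y
  | _, .y1 .new, y => R1 y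
  | _, .w (.old c), y => c.asg _ (.w (top _)) y
  | _, .w .new, y => Rw y

theorem ρP_ext (R0 R1 : Y.G.cell (n + 1) → Prop) (Rw : Y.G.cell (n + 2) → Prop) :
    Ext T N (oldMap _ a b hab) (ρP hab R0 R1 Rw) :=
  ⟨fun _ _ => rfl, fun _ _ => rfl, fun _ _ _ h => h⟩

/-- the transport term at the new cell -/
abbrev tNew : Tm D.Op (CV (XP (PG T N Y) a b hab)) (n + 1) :=
  (T (n + 1)).ren (CV.map (cls (n + 1) (Y := XP (PG T N Y) a b hab) XC.new))

theorem ρP_valid {r : ℕ} (hT : GoodT D T r) (hN : N ≤ r) {R0 R1 : Y.G.cell (n + 1) → Prop}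
    {Rw : Y.G.cell (n + 2) → Prop} (f0 : ∀ y y', R0 y → R0 y' → y = y')
    (f1 : ∀ y y', R1 y → R1 y' → y = y') (fw : ∀ y y', Rw y → Rw y' → y = y')
    (l0 : ∀ y, R0 y → Y.G.src n y = (π0 T N Y).app n a ∧ Y.G.tgt n y = (π0 T N Y).app n b)
    (l1 : ∀ y, R1 y → Y.G.src n y = (π1 T N Y).app n a ∧ Y.G.tgt n y = (π1 T N Y).app n b)
    (lw : ∀ y, Rw y → Eval Y.str.op (ρP hab R0 R1 Rw) (tNew hab) (Y.G.src _ y) ∧
      R1 (Y.G.tgt _ y)) :
    Valid (cylCtx T (XP (PG T N Y) a b hab)) Y.str (ρP hab R0 R1 Rw) := by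
  constructor
  · intro k x y y' h h'
    match k, x, y, y', h, h' with
    | _, .y0 (.old _), _, _, h, h' => exact h.symm.trans h'
    | _, .y0 .new, _, _, h, h' => exact f0 _ _ h h'
    | _, .y1 (.old _), _, _, h, h' => exact h.symm.trans h'
    | _, .y1 .new, _, _, h, h' => exact f1 _ _ h h'
    | _, .w (.old c), _, _, h, h' => exact c.asg_valid.func _ _ _ _ h h'
    | _, .w .new, _, _, h, h' => exact fw _ _ h h'
  · intro k x y h
    match k, x, y, h with
    | k, .y0 (.old c), _, h =>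
      exact ⟨.var (h ▸ (π0 T N Y).app_src k c), .var (h ▸ (π0 T N Y).app_tgt k c)⟩
    | _, .y0 .new, y, h => exact ⟨.var (l0 y h).1.symm, .var (l0 y h).2.symm⟩
    | k, .y1 (.old c), _, h =>
      exact ⟨.var (h ▸ (π1 T N Y).app_src k c), .var (h ▸ (π1 T N Y).app_tgt k c)⟩
    | _, .y1 .new, y, h => exact ⟨.var (l1 y h).1.symm, .var (l1 y h).2.symm⟩
    | _, .w (.old c), y, h => exact (ρP_ext hab R0 R1 Rw).law_w hT hN c y h
    | _, .w .new, y, h => exact ⟨(lw y h).1, .var (lw y h).2⟩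

/-- `z` is the value of the transport term on the boundary cylinder and `y0` -/
def Val (y0 z : Y.G.cell (n + 1)) : Prop :=
  Eval Y.str.op (ρP hab (fun y => y0 = y) (fun _ => False) (fun _ => False)) (tNew hab) z

theorem ρP_valid0 {r : ℕ} (hT : GoodT D T r) (hN : N ≤ r) {y0 : Y.G.cell (n + 1)}
    (hs : Y.G.src n y0 = (π0 T N Y).app n a) (ht : Y.G.tgt n y0 = (π0 T N Y).app n b) :
    Valid (cylCtx T (XP (PG T N Y) a b hab)) Y.str
      (ρP hab (fun y => y0 = y) (fun _ => False) (fun _ => False)) :=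
  ρP_valid hab hT hN (fun _ _ h h' => h.symm.trans h') (fun _ _ h => h.elim) (fun _ _ h => h.elim)
    (fun _ h => h ▸ ⟨hs, ht⟩) (fun _ h => h.elim) (fun _ h => h.elim)

theorem ρP_total0 {r : ℕ} (hT : GoodT D T r) (hN : N ≤ r) (hn : n + 1 ≤ N)
    (y0 : Y.G.cell (n + 1)) : ∀ k x,
      OK D.toSig (cylCtx T (XP (PG T N Y) a b hab)) (cylB (n + 1) _) (.var x) →
      ∃ y, ρP hab (fun y => y0 = y) (fun _ => False) (fun _ => False) k x y := by
  intro k x hx
  match k, x, hx with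
  | _, .y0 (.old _), _ => exact ⟨_, rfl⟩
  | _, .y0 .new, _ => exact ⟨_, rfl⟩
  | _, .y1 (.old _), _ => exact ⟨_, rfl⟩
  | _, .y1 .new, hx => exact absurd hx.mem (lt_irrefl _)
  | _, .w (.old c), hx => exact ⟨_, closed_V hT hN _ _ (lt_of_lt_of_le hx.mem hn), rfl⟩
  | _, .w .new, hx => exact absurd hx.mem (lt_irrefl _)

theorem exists_val {r : ℕ} (hT : GoodT D T r) (hN : N ≤ r) (hn : n + 1 ≤ N) (hr : n + 1 < r)
    {y0 : Y.G.cell (n + 1)}
    (hs : Y.G.src n y0 = (π0 T N Y).app n a) (ht : Y.G.tgt n y0 = (π0 T N Y).app n b) :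
    ∃ z, Val hab y0 z ∧ Y.G.src n z = (π1 T N Y).app n a ∧ Y.G.tgt n z = (π1 T N Y).app n b := by
  have hv := ρP_valid0 hab hT hN hs ht
  obtain ⟨z, hz⟩ := hv.total Y.total (ρP_total0 hab hT hN hn y0)
    (ok_T (G := XP (PG T N Y) a b hab) hT hr XC.new)
  obtain ⟨h1, h2⟩ := hv.bdry hz
  obtain ⟨e1, e2⟩ := par_T (G := XP (PG T N Y) a b hab) hT hr XC.new
  rw [e1] at h1
  rw [e2] at h2
  exact ⟨z, hz, (Eval.var_iff.1 h1).symm, (Eval.var_iff.1 h2).symm⟩

theorem fill {r : ℕ} (hT : GoodT D T r) (hN : N ≤ r) {y0 y1 : Y.G.cell (n + 1)}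
    (hs : Y.G.src n y0 = (π0 T N Y).app n a) (ht : Y.G.tgt n y0 = (π0 T N Y).app n b)
    (hs' : Y.G.src n y1 = (π1 T N Y).app n a) (ht' : Y.G.tgt n y1 = (π1 T N Y).app n b)
    (hw : n + 1 < N → ∃ z, Val hab y0 z ∧ Y.G.Step (n + 1) z y1) :
    ∃ c : (PG T N Y).cell (n + 1), (PG T N Y).src n c = a ∧ (PG T N Y).tgt n c = b ∧
      (π0 T N Y).app _ c = y0 ∧ (π1 T N Y).app _ c = y1 := by
  have hw' : ∀ h : n + 1 < N, ∃ w, Val hab y0 (Y.G.src _ w) ∧ Y.G.tgt _ w = y1 := fun h => by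
    obtain ⟨z, hz, w, rfl, h2⟩ := hw h
    exact ⟨w, hz, h2⟩
  choose W hW1 hW2 using hw'
  have hρ : Valid (cylCtx T (XP (PG T N Y) a b hab)) Y.str
      (ρP hab (fun y => y0 = y) (fun y => y1 = y) (fun y => ∃ h, W h = y)) := by
    refine ρP_valid hab hT hN (fun _ _ h h' => h.symm.trans h') (fun _ _ h h' => h.symm.trans h')
      (fun _ _ ⟨_, h⟩ ⟨_, h'⟩ => h.symm.trans h') (fun _ h => h ▸ ⟨hs, ht⟩)
      (fun _ h => h ▸ ⟨hs', ht'⟩) ?_
    rintro _ ⟨h, rfl⟩
    refine ⟨(hW1 h).mono (fun _ _ _ _ _ h => h) fun k x y hx => ?_, (hW2 h).symm⟩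
    match k, x, y, hx with
    | _, .y0 (.old _), _, hx => exact hx
    | _, .y0 .new, _, hx => exact hx
    | _, .y1 (.old _), _, hx => exact hx
    | _, .y1 .new, _, hx => exact hx.elim
    | _, .w (.old c), _, hx => exact hx
    | _, .w .new, _, hx => exact hx.elim
  have htot : ∀ k x, OK D.toSig (cylCtx T (XP (PG T N Y) a b hab)) (cylV N _) (.var x) →
      ∃ y, ρP hab (fun y => y0 = y) (fun y => y1 = y) (fun y => ∃ h, W h = y) k x y := by
    intro k x hx
    match k, x, hx with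
    | _, .y0 (.old _), _ => exact ⟨_, rfl⟩
    | _, .y0 .new, _ => exact ⟨_, rfl⟩
    | _, .y1 (.old _), _ => exact ⟨_, rfl⟩
    | _, .y1 .new, _ => exact ⟨_, rfl⟩
    | _, .w (.old c), hx => exact ⟨_, closed_V hT hN _ _ hx.mem, rfl⟩
    | _, .w .new, hx => exact ⟨_, hx.mem, rfl⟩
  refine ⟨(Cm T N (cls (n + 1) (Y := XP (PG T N Y) a b hab) XC.new)).comp (lift hρ htot),
    ?_, ?_, ?_, ?_⟩
  · show (Cm T N (dσ n)).comp _ = a
    rw [Cm_comp', dσ_cls]
    exact (ρP_ext hab _ _ _).lift_eq hT hN hρ htot a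
  · show (Cm T N (dτ n)).comp _ = b
    rw [Cm_comp', dτ_cls]
    exact (ρP_ext hab _ _ _).lift_eq hT hN hρ htot b
  · refine R248.lift_eq hρ htot (.var ?_)
    show ρP hab _ _ _ _ (.y0 ((cls (n + 1) (Y := XP (PG T N Y) a b hab) XC.new).app _ (top _))) _
    rw [cls_top]
    rfl
  · refine R248.lift_eq hρ htot (.var ?_)
    show ρP hab _ _ _ _ (.y1 ((cls (n + 1) (Y := XP (PG T N Y) a b hab) XC.new).app _ (top _))) _
    rw [cls_top]
    rfl

end New

/-- the assignment on the cylinder of a point given by an edge -/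
inductive R0 {Y : GS.{u}} (e : Y.cell 1) : Asg (CV (posG.{u} (disk 0))) Y
  | y0 (p : Pos (disk 0) 0) : R0 e 0 (.y0 p) (Y.src 0 e)
  | y1 (p : Pos (disk 0) 0) : R0 e 0 (.y1 p) (Y.tgt 0 e)
  | w (p : Pos (disk 0) 0) : R0 e 1 (.w p) e

theorem cyl0 {r : ℕ} (hT : GoodT D T r) (hN : N ≤ r) (h1 : 1 ≤ N) {Y : Alg D.toSig}
    (e : Y.G.cell 1) : ∃ c : (PG T N Y).cell 0, (π0 T N Y).app 0 c = Y.G.src 0 e ∧
      (π1 T N Y).app 0 c = Y.G.tgt 0 e ∧ c.asg 1 (.w (top 0)) e := by
  have hρ : Valid (cylCtx T (posG (disk 0))) Y.str (R0 e) := by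
    constructor
    · intro n x y y' h h'
      cases h <;> cases h' <;> rfl
    · intro n x y h
      cases h with
      | w p =>
        rw [Wh.src_w hT.1]
        exact ⟨.var (.y0 p), .var (.y1 p)⟩
  have ht : ∀ n x, OK D.toSig (cylCtx T (posG (disk 0))) (cylV N _) (.var x) →
      ∃ y, R0 e n x y := by
    intro n x _
    match n, x with
    | _, .y0 (.vtx i) => exact ⟨_, .y0 _⟩
    | _, .y0 (.br l _) => exact l.elim0
    | _, .y1 (.vtx i) => exact ⟨_, .y1 _⟩
    | _, .y1 (.br l _) => exact l.elim0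
    | _, .w (.vtx i) => exact ⟨_, .w _⟩
    | _, .w (.br l _) => exact l.elim0
  exact ⟨lift hρ ht, lift_eq hρ ht (.var (.y0 _)), lift_eq hρ ht (.var (.y1 _)),
    closed_V (G := posG (disk 0)) hT hN 1 (CV.w (top 0)) h1, lift_eq hρ ht (.var (.w _))⟩

variable (T N) in
/-- both ends -/
def π (Y : Alg D.toSig) : GMap (PG T N Y) (prodG Y.G Y.G) := pairG (π0 T N Y) (π1 T N Y)

theorem ilift_π {r : ℕ} (hT : GoodT D T r) (hN : N < r) {Y : Alg D.toSig} {n : ℕ}
    (hY : n + 1 < N → Conn (n + 3) Y.G) : ILift (π T N Y) (n + 1) := by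
  refine ILift.of_succ fun a b hab y hs ht => ?_
  obtain ⟨c, h1, h2, h3, h4⟩ := fill hab hT hN.le (y0 := y.1) (y1 := y.2) (congrArg Prod.fst hs)
    (congrArg Prod.fst ht) (congrArg Prod.snd hs) (congrArg Prod.snd ht) fun h => by
      obtain ⟨z, hz, z1, z2⟩ := exists_val hab hT hN.le h.le (by omega) (y0 := y.1)
        (congrArg Prod.fst hs) (congrArg Prod.fst ht)
      exact ⟨z, hz, (hY h).succ (by omega)
        ⟨z1.trans (congrArg Prod.snd hs).symm, z2.trans (congrArg Prod.snd ht).symm⟩⟩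
  exact ⟨c, h1, h2, Prod.ext h3 h4⟩

theorem tfib_π {r : ℕ} (hT : GoodT D T r) (hN : N < r) (h1 : 1 ≤ N) {Y : Alg D.toSig}
    (hY : ∀ k, Conn k Y.G) : TFib (π T N Y)
  | 0 => ILift.of_zero fun y => by
    obtain ⟨e, e1, e2⟩ := (hY 2).succ (n := 0) (u := y.1) (v := y.2) (by omega) trivial
    obtain ⟨c, c1, c2, -⟩ := cyl0 hT hN.le h1 e
    exact ⟨c, Prod.ext (c1.trans e1) (c2.trans e2)⟩
  | _ + 1 => ilift_π hT hN fun _ => hY _

theorem ilift_π0 {r : ℕ} (hT : GoodT D T r) (hN : N < r) (h1 : 1 ≤ N) (Y : Alg D.toSig) :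
    ∀ j, j ≤ N → ILift (π0 T N Y) j
  | 0, _ => ILift.of_zero fun y => by
    obtain ⟨e, e1, -⟩ := step_refl Y y
    obtain ⟨c, c1, -⟩ := cyl0 hT hN.le h1 e
    exact ⟨c, c1.trans e1⟩
  | n + 1, hn => ILift.of_succ fun a b hab y hs ht => by
    obtain ⟨z, hz, z1, z2⟩ := exists_val hab hT hN.le hn (by omega) hs ht
    obtain ⟨c, h1, h2, h3, -⟩ := fill hab hT hN.le hs ht z1 z2 fun _ => ⟨z, hz, step_refl Y z⟩
    exact ⟨c, h1, h2, h3⟩

theorem exists_diag {r : ℕ} (hT : GoodT D T r) (hN : N < r) (h1 : 1 ≤ N) (Y : Alg D.toSig) :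
    ∃ d : GMap Y.G (PG T N Y), d.comp (π0 T N Y) = GMap.id _ ∧ d.comp (π1 T N Y) = GMap.id _ := by
  let F : ∀ n, Alg D.toSig := fun n => FrT D.toThy (disk n)
  let s : ∀ n, AHom (F n) (F (n + 1)) := fun n => frMap D.toThy (dσ n)
  let t : ∀ n, AHom (F n) (F (n + 1)) := fun n => frMap D.toThy (dτ n)
  let tp : ∀ n, (F n).G.cell n := fun n => (η D.toThy (posG (disk n))).app n (top n)
  have ss : ∀ n, (s n).comp (s (n + 1)) = (s n).comp (t (n + 1)) := fun n =>
    (frMap_ext _ _).trans ((congrArg (fun f => ext (f.comp (η D.toThy _))) (dσ_dσ n)).trans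
      (frMap_ext (dσ n) ((dτ (n + 1)).comp (η D.toThy _))).symm)
  have tt : ∀ n, (t n).comp (s (n + 1)) = (t n).comp (t (n + 1)) := fun n =>
    (frMap_ext _ _).trans ((congrArg (fun f => ext (f.comp (η D.toThy _))) (dτ_dσ n)).trans
      (frMap_ext (dτ n) ((dτ (n + 1)).comp (η D.toThy _))).symm)
  have stp : ∀ n, (s n).map.app n (tp n) = (F (n + 1)).G.src n (tp (n + 1)) := fun n =>
    (ext_η_app _ _ _).trans (Subtype.ext (congrArg Tm.var (cls_top n _)))
  have ttp : ∀ n, (t n).map.app n (tp n) = (F (n + 1)).G.tgt n (tp (n + 1)) := fun n =>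
    (ext_η_app _ _ _).trans (Subtype.ext (congrArg Tm.var (cls_top n _)))
  let P : ∀ n, (PG T N (F n)).cell n → Prop := fun n c => (π T N (F n)).app n c = (tp n, tp n) ∧
    (PG T N (F (n + 1))).AreParallel n (c.comp (s n)) (c.comp (t n))
  obtain ⟨a0, ha0⟩ := (tfib_π hT hN h1 (D.full (disk 0)) 0).zero (tp 0, tp 0)
  have step : ∀ n (c : (PG T N (F n)).cell n), P n c → ∃ c' : (PG T N (F (n + 1))).cell (n + 1),
      ((PG T N _).src n c' = c.comp (s n) ∧ (PG T N _).tgt n c' = c.comp (t n)) ∧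
        P (n + 1) c' := by
    rintro n c ⟨hc1, hc2⟩
    have e0 : (π0 T N (F n)).app n c = tp n := congrArg Prod.fst hc1
    have e1 : (π1 T N (F n)).app n c = tp n := congrArg Prod.snd hc1
    obtain ⟨c', k1, k2, k3⟩ := (tfib_π hT hN h1 (D.full (disk (n + 1))) (n + 1)).succ hc2
      (tp (n + 1), tp (n + 1))
      (Prod.ext ((stp n).symm.trans (congrArg _ e0.symm)) ((stp n).symm.trans (congrArg _ e1.symm)))
      (Prod.ext ((ttp n).symm.trans (congrArg _ e0.symm)) ((ttp n).symm.trans (congrArg _ e1.symm)))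
    refine ⟨c', ⟨k1, k2⟩, k3, ?_, ?_⟩
    · show ((PG T N _).src n c').comp (s (n + 1)) = ((PG T N _).src n c').comp (t (n + 1))
      rw [k1]
      exact congrArg c.comp (ss n)
    · show ((PG T N _).tgt n c').comp (s (n + 1)) = ((PG T N _).tgt n c').comp (t (n + 1))
      rw [k2]
      exact congrArg c.comp (tt n)
  choose G hG using step
  let c : ∀ n, {c : (PG T N (F n)).cell n // P n c} :=
    fun n => Nat.rec ⟨a0, ha0, trivial⟩ (fun n c => ⟨G n c.1 c.2, (hG n c.1 c.2).2⟩) n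
  have hs : ∀ n, (PG T N _).src n (c (n + 1)).1 = (c n).1.comp (s n) :=
    fun n => (hG n (c n).1 (c n).2).1.1
  have ht : ∀ n, (PG T N _).tgt n (c (n + 1)).1 = (c n).1.comp (t n) :=
    fun n => (hG n (c n).1 (c n).2).1.2
  refine ⟨⟨fun n y => (c n).1.comp (ext (cls n y)), fun n y => ?_, fun n y => ?_⟩, ?_, ?_⟩
  · show _ = ((PG T N _).src n (c (n + 1)).1).comp (ext (cls (n + 1) y))
    rw [hs, ← dσ_cls, ← frMap_ext]
    rfl
  · show _ = ((PG T N _).tgt n (c (n + 1)).1).comp (ext (cls (n + 1) y))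
    rw [ht, ← dτ_cls, ← frMap_ext]
    rfl
  · refine GMap.ext' fun n y => ?_
    show (ext (cls n y)).map.app n ((π0 T N (F n)).app n (c n).1) = y
    rw [show (π0 T N (F n)).app n (c n).1 = tp n from congrArg Prod.fst (c n).2.1]
    exact (ext_η_app _ _ _).trans (cls_top n y)
  · refine GMap.ext' fun n y => ?_
    show (ext (cls n y)).map.app n ((π1 T N (F n)).app n (c n).1) = y
    rw [show (π1 T N (F n)).app n (c n).1 = tp n from congrArg Prod.snd (c n).2.1]
    exact (ext_η_app _ _ _).trans (cls_top n y)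

theorem jlift_π {L : ℕ} (h1 : PJ1 D.toThy (L + 1)) (hT : GoodT D T (L + 2)) (Y : Alg D.toSig) :
    JLift (π T (L + 1) Y) 0 := by
  rintro a ⟨u0, u1⟩ hw
  have hu0 : Y.G.src 0 u0 = (π0 T (L + 1) Y).app 0 a := congrArg Prod.fst hw
  have hu1 : Y.G.src 0 u1 = (π1 T (L + 1) Y).app 0 a := congrArg Prod.snd hw
  have okw : OK D.toSig (cylCtx T (posG (disk 0))) (cylV (L + 1) _) (.var (.w (top 0))) :=
    closed_V (G := posG (disk 0)) (N := L + 1) hT (by omega) 1 (CV.w (top 0)) (Nat.succ_pos L)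
  let w0 : (homG Y.G ((π0 T (L + 1) Y).app 0 a) ((π1 T (L + 1) Y).app 0 a)).cell 0 :=
    ⟨a.map.app 1 (fv _ okw), (a.map.app_src 0 _).symm.trans
      (congrArg (a.map.app 0) (Subtype.ext (Wh.src_w hT.1 (G := posG (disk 0)) (top 0)))),
      (a.map.app_tgt 0 _).symm⟩
  let e0 : (homG Y.G ((π0 T (L + 1) Y).app 0 a) (Y.G.tgt 0 u0)).cell 0 := ⟨u0, hu0, rfl⟩
  let e1 : (homG Y.G ((π1 T (L + 1) Y).app 0 a) (Y.G.tgt 0 u1)).cell 0 := ⟨u1, hu1, rfl⟩
  obtain ⟨w', hw'⟩ := (W.comp (Z := homAlg Y _ _) (W_wl 1 Y e0 (Y.G.tgt 0 u1))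
    (W_wl 1 Y (inv Y w0) (Y.G.tgt 0 u1)) 0 Nat.zero_lt_one).zero e1
  obtain ⟨b, b0, b1, bw⟩ := cyl0 (N := L + 1) hT (by omega) (by omega) w'.1
  have hb0 : Y.G.tgt 0 u0 = (π0 T (L + 1) Y).app 0 b := (b0.trans w'.2.1).symm
  have hb1 : Y.G.tgt 0 u1 = (π1 T (L + 1) Y).app 0 b := (b1.trans w'.2.2).symm
  have hab : (PG T (L + 1) Y).AreParallel 0 a b := trivial
  obtain ⟨c, k1, -, k3, k4⟩ := fill hab hT (by omega) hu0 hb0 hu1 hb1 fun hL => by
    obtain ⟨z, hz, -, -⟩ := exists_val hab hT (by omega) (by omega) (by omega) hu0 hb0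
    refine ⟨z, hz, step_trans Y ?_ (((homGraph Y.G).step_iff _ _).1 hw')⟩
    let B := Fr D.toThy (cylCtx T (posG (disk 1))) (cylB 1 _)
    have hB : Conn (L + 2) B.G := conn_wh D L h1 T hT.1 (disk 1)
    have hv := ρP_valid0 hab hT (by omega) hu0 hb0
    have ht := ρP_total0 hab hT (by omega) (by omega) u0
    let κ := cls 1 (Y := XP (PG T (L + 1) Y) a b hab) XC.new
    let φ : AHom B Y := (frRen (CV.map κ) (bp_map T κ _)
      fun _ _ h => cylB_map κ 1 _ _ h.mem).comp (lift hv ht)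
    have cl : Closed D.toSig (cylCtx T (posG (disk 1))) (cylB 1 _) := closed_B hT (by omega)
    have κs : κ.app 0 (Pos.src (top 1)) = XC.old a :=
      (κ.app_src 0 (top 1)).trans (congrArg _ (cls_top 1 _))
    have κt : κ.app 0 (Pos.tgt (top 1)) = XC.old b :=
      (κ.app_tgt 0 (top 1)).trans (congrArg _ (cls_top 1 _))
    let v0 : Pos.{u} (disk 1) 0 → B.G.cell 0 := fun p => fv (.y0 p) (cl _ (CV.y0 p) trivial)
    let v1 : Pos.{u} (disk 1) 0 → B.G.cell 0 := fun p =>
      fv (.y1 p) (cl _ (CV.y1 p) Nat.zero_lt_one)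
    let ew : ∀ p, (homG B.G (v0 p) (v1 p)).cell 0 := fun p =>
      ⟨fv (.w p) (cl _ (CV.w p) Nat.zero_lt_one),
        Subtype.ext (Wh.src_w hT.1 (G := posG (disk 1)) p), rfl⟩
    let eu : (homG B.G (v0 (Pos.src (top 1))) (v0 (Pos.tgt (top 1)))).cell 0 :=
      ⟨fv (.y0 (top 1)) (cl _ (CV.y0 (top 1)) trivial), rfl, rfl⟩
    have f0 : φ.map.app 1 (ew (Pos.src (top 1))).1 = w0.1 := lift_eq hv ht (.var (by
      show ρP hab _ _ _ _ (.w (κ.app 0 (Pos.src (top 1)))) _
      rw [κs]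
      exact ⟨okw, rfl⟩))
    have f1 : φ.map.app 1 (ew (Pos.tgt (top 1))).1 = w'.1 := lift_eq hv ht (.var (by
      show ρP hab _ _ _ _ (.w (κ.app 0 (Pos.tgt (top 1)))) _
      rw [κt]
      exact bw))
    have fu : φ.map.app 1 eu.1 = e0.1 := lift_eq hv ht (.var (by
      show ρP hab _ _ _ _ (.y0 (κ.app 1 (top 1))) _
      rw [show κ.app 1 (top 1) = XC.new from cls_top 1 _]
      rfl))
    have f2 := wl_nat φ (wl_nat φ f1 fu) (inv_nat φ f0)
    let t1 : B.G.cell 1 := ⟨T 1, (hT.2 1 (by omega)).1⟩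
    have f3 : φ.map.app 1 t1 = z := lift_eq hv ht hz
    have hp := (hT.2 1 (by omega)).2
    let t2 := (wl B (inv B (ew (Pos.src (top 1)))) _).app 0
      ((wl B eu _).app 0 (ew (Pos.tgt (top 1))))
    have := step_map φ.map (hB.succ (n := 1) (by omega) (u := t1) (v := t2.1)
      ⟨(Subtype.ext hp.1 : B.G.src 0 t1 = v1 (Pos.src (top 1))).trans t2.2.1.symm,
        (Subtype.ext hp.2 : B.G.tgt 0 t1 = v1 (Pos.tgt (top 1))).trans t2.2.2.symm⟩)
    rw [f3, f2] at this
    exact this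
  exact ⟨c, k1, Prod.ext k3 k4⟩

variable (T N) in
def fam : NatFam.{u, u + 1, u} D where
  Obj := Alg D.toSig
  Hom := AHom
  Φ := PG T N
  Φm := PGm T N
  Ψ Y := prodAlg Y Y
  π := π T N

noncomputable def rep {L : ℕ} (h1 : PJ1 D.toThy (L + 1)) (hT : GoodT D T (L + 2)) :
    (fam T (L + 1)).Rep where
  rep A := C T (L + 1) (posG A)
  un A := un T (L + 1) (posG A)
  ex A Y σ := by
    obtain ⟨ε, hε⟩ := exists_counit (N := L + 1) hT (by omega) Y
    refine ⟨(Cm T _ σ).comp ε, GMap.ext' fun n p => ?_⟩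
    show (Cm T _ (cls n p)).comp ((Cm T _ σ).comp ε) = σ.app n p
    rw [Cm_comp', cls_comp]
    exact hε _ _
  uniq A Y h h' e := by
    have e' : ∀ n (p : Pos.{u} A n), (Cm T _ (cls n (Y := posG A) p)).comp h
        = (Cm T _ (cls n (Y := posG A) p)).comp h' := fun n p =>
      congrArg (fun φ : GMap (posG A) _ => φ.app n p) e
    have key : ∀ n (p : Pos.{u} A n) k (v : CV (posG (disk n)) k) (v' : CV (posG A) k)
        (_ : cylV (L + 1) _ k v) (_ : CV.map (cls n (Y := posG A) p) k v = v') hv',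
        (AHom.map h).app k (fv v' hv') = (AHom.map h').app k (fv v' hv') := by
      rintro n p k v _ hv rfl hv'
      exact congrArg (fun φ : AHom _ Y => φ.map.app k (fv v (closed_V hT (by omega) _ v hv)))
        (e' n p)
    have : h = h' := fr_ext fun k v hv => by
      match k, v, hv with
      | k, .y0 p, hv => exact key k p k (.y0 (top k)) _ trivial (congrArg CV.y0 (cls_top _ _)) hv
      | k, .y1 p, hv => exact key k p k (.y1 (top k)) _ trivial (congrArg CV.y1 (cls_top _ _)) hv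
      | k + 1, .w p, hv =>
        exact key k p _ (.w (top k)) _ hv.mem (congrArg CV.w (cls_top _ _)) hv
    rw [this]
  comp _ _ _ h k := ⟨AHom.comp h k, rfl⟩
  Ψm f := pairA ((fstA _ _).comp f) ((sndA _ _).comp f)
  π_nat _ _ _ := rfl
  lift A n hA := ilift_π hT (Nat.lt_succ_self _) fun hn => by
    have hc := conn_cylB D L h1 T (L + 1) (by omega)
      ⟨hT.1, fun j hj => hT.2 j (by omega)⟩ A
    refine (hc.mono (by omega)).retract (frIncl fun k v hv => ?_).map
      (frIncl fun k v hv => cylB_V le_rfl k v hv.mem).map fun _ _ => rfl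
    match k, v, hv with
    | _, .y0 _, _ => trivial
    | _, .y1 p, _ => exact lt_of_le_of_lt (p.le_dim.trans hA) hn
    | _, .w _, hv => exact hv.mem

end Path

end Cy

/-- Recipe.  Take `T` from `exists_goodT` and `C G := Fr D (cylCtx T G) (cylV (L+1) G)` (closed
variable set), functorial in `G` by `frRen (CV.map f)`.  The globular set `PG Y` has `n`-cells
`AHom (C (posG (disk n))) Y`, with source and target given by precomposition with `C (dσ n)`,
`C (dτ n)` (`dσ_dσ`, `dτ_dσ`); `π : PG Y → prodG Y Y` evaluates at `y0 top`, `y1 top`.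
Key lemma (gluing): for a globular set `G`, a face-closed set `S` of cells of `G` and cylinders
`σ x : (PG Y).cell n` for `x ∈ S` compatible with boundaries, the assignment
`y0 x ↦ σ x (y0 top)`, `y1 x ↦ σ x (y1 top)`, `w x ↦ σ x (w top)` is `Valid` (use `AHom.eval`,
`Eval.subst`, `disk_ext`, `cls_comp`), and can be extended by new values on the top cell.
* algebra structure: `NatFam.exists_str_of_rep` with objects the algebras `Y`, `Ψ Y = prodAlg Y Y`,
  `rep A = C (posG A)`, `un A` given by `p ↦ C (cls _ p)`.  For the field `lift` (`A.dim ≤ n+1`): if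
  `n + 1 ≤ L` the variable sets `cylV (L+1)` and `cylB (L+1)` agree on `posG A` (`Pos.le_dim`), so
  `rep A` is `Conn (L+2)` by `conn_cylB` and the connecting `(n+2)`-cell exists; if `n + 1 > L`
  there is no connecting cell to choose.
* `ilift0`: evaluate `T j` (good for `j ≤ L+1`) to get `y1`, and take a unit (`step_refl`) for `w`.
* `W1`: `π` is a trivial fibration when `Y` is `Conn k` for all `k`; choose by recursion on `n`
  (as in `exists_compat`) cylinders `c n : AHom (C (posG (disk n))) (FrT D (disk n))` over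
  `(top, top)` compatible with faces; `d y := (c n).comp (ext (cls n y))` is a globular map
  `Y → PG Y` with `d p0 = id = d p1`.  Then `W (L+1) d` by `W.of_comp_left` and `W (L+2) p1` by
  `W.of_comp_right'`.
* `jlift`: given `w : y0 → y1`, `u0 : y0 → z0`, `u1 : y1 → z1`, the division lemma (`W_wl 1` twice,
  `W.comp`) gives `w' : z0 → z1` with `wl (inv w) (wl u0 w') ∼ u1`; if `1 ≤ L` the value of `T 1` is
  homotopic to this composite, by `conn_cylB` for `cylB 1` on `disk 1` and naturality (`wl_nat`,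
  `inv_nat`, `step_map`, `step_trans`); if `L = 0` no connecting `2`-cell is needed. -/
theorem exists_cylObj (D : Coh.{u}) (L : ℕ) (h1 : PJ1 D.toThy (L + 1)) :
    Nonempty (CylObj D L) := by
  obtain ⟨T, hT⟩ := exists_goodT D L h1
  obtain ⟨R, hR1, hR2, hR3⟩ := NatFam.exists_str_of_rep (Cy.rep h1 hT)
  let P : Alg D.toSig → Alg D.toSig := fun Y => ⟨Cy.PG T (L + 1) Y, R Y, (hR1 Y).1, (hR1 Y).2⟩
  let q : ∀ Y, AHom (P Y) (prodAlg Y Y) := fun Y => ⟨Cy.π T (L + 1) Y, hR3 Y⟩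
  have i0 : ∀ Y j, j ≤ L + 1 → ILift ((q Y).comp (fstA Y Y)).map j := fun Y =>
    Cy.ilift_π0 hT (Nat.lt_succ_self _) (by omega) Y
  refine ⟨⟨P, fun f => ⟨Cy.PGm T _ f, hR2 _ _ f⟩, fun Y => (q Y).comp (fstA Y Y),
    fun Y => (q Y).comp (sndA Y Y), fun _ => rfl, fun _ => rfl, i0, fun Y => ?_,
    fun Y => Cy.jlift_π h1 hT Y⟩⟩
  obtain ⟨d, d0, d1⟩ := Cy.exists_diag (N := L + 1) hT (Nat.lt_succ_self _) (by omega) Y
  have w0 : W (L + 2) (Cy.π0 T (L + 1) Y) := fun n hn => (i0 Y n (by omega)).wlift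
  have wd : W (L + 1) d := W.of_comp_left (d0 ▸ W_id Y _) w0
  refine W.of_comp_right' (Y := P Y) (f := d) wd ?_
  exact (show d.comp ((q Y).comp (sndA Y Y)).map = GMap.id _ from d1) ▸ W_id Y _

end Crest.Agent.R248
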