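import Crest.Agent.R248.GL

/-!
# Row 248: cellular diagrams of free algebras, weighted colimits, the gluing lemma for diagrams,
homotopically constant diagrams and two-coloured cofibrant replacements.
-/

set_option autoImplicit false

namespace Crest.Agent.R248

open Crest.GeometryTopology.Coherator

universe u

/-- presheaves of types -/
structure Psh (𝒞 : SCat.{u}) where
  obj : 𝒞.Obj → Type u
  map : ∀ {a b : 𝒞.Obj}, 𝒞.Hom a b → obj b → obj a
  map_id : ∀ a x, map (𝒞.id a) x = x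
  map_comp : ∀ {a b c : 𝒞.Obj} (f : 𝒞.Hom a b) (g : 𝒞.Hom b c) x,
    map (𝒞.comp f g) x = map f (map g x)

/-- representable presheaves -/
@[reducible] def SCat.y (𝒞 : SCat.{u}) (c : 𝒞.Obj) : Psh 𝒞 where
  obj a := 𝒞.Hom a c
  map f g := 𝒞.comp f g
  map_id _ g := 𝒞.id_comp g
  map_comp f g h := 𝒞.assoc f g h

/-- maps of presheaves -/
structure PMap {𝒞 : SCat.{u}} (G H : Psh 𝒞) where
  app : ∀ c, G.obj c → H.obj c
  nat : ∀ {a b : 𝒞.Obj} (f : 𝒞.Hom a b) x, app a (G.map f x) = H.map f (app b x)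

/-- the map from a representable classifying an element -/
@[reducible] def Psh.yon {𝒞 : SCat.{u}} (G : Psh 𝒞) {c : 𝒞.Obj} (g : G.obj c) : PMap (𝒞.y c) G where
  app _ f := G.map f g
  nat f h := G.map_comp f h g

/-- variables of a weighted colimit -/
abbrev DV {𝒞 : SCat.{u}} (Cell : 𝒞.Obj → Vars.{u}) (G : Psh 𝒞) : Vars.{u} :=
  fun n => Σ c, Cell c n × G.obj c

def DV.map {𝒞 : SCat.{u}} {Cell : 𝒞.Obj → Vars.{u}} {G H : Psh 𝒞} (φ : PMap G H) (n : ℕ)
    (v : DV Cell G n) : DV Cell H n := ⟨v.1, v.2.1, φ.app _ v.2.2⟩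

/-- raw cellular diagrams: cells with an arity and boundaries over the arity -/
structure Diag (O : OpFam.{u}) (𝒞 : SCat.{u}) where
  Cell : 𝒞.Obj → Vars.{u}
  src : ∀ {c : 𝒞.Obj} {n : ℕ}, Cell c (n + 1) → Tm O (DV Cell (𝒞.y c)) n
  tgt : ∀ {c : 𝒞.Obj} {n : ℕ}, Cell c (n + 1) → Tm O (DV Cell (𝒞.y c)) n

namespace Diag

section Raw

variable {O : OpFam.{u}} {𝒞 : SCat.{u}} (K : Diag O 𝒞)

/-- the context of the colimit of `K` weighted by `G` -/
@[reducible] def ten (G : Psh 𝒞) : Ctx O where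
  Var := DV K.Cell G
  src v := (K.src v.2.1).ren (DV.map (G.yon v.2.2))
  tgt v := (K.tgt v.2.1).ren (DV.map (G.yon v.2.2))

theorem src_map {G H : Psh 𝒞} (φ : PMap G H) {n : ℕ} (v : DV K.Cell G (n + 1)) :
    (K.ten H).src (DV.map φ _ v) = ((K.ten G).src v).ren (DV.map φ) := by
  simp only [Tm.ren, Tm.subst_subst, Tm.subst_var, DV.map, φ.nat]

theorem tgt_map {G H : Psh 𝒞} (φ : PMap G H) {n : ℕ} (v : DV K.Cell G (n + 1)) :
    (K.ten H).tgt (DV.map φ _ v) = ((K.ten G).tgt v).ren (DV.map φ) := by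
  simp only [Tm.ren, Tm.subst_subst, Tm.subst_var, DV.map, φ.nat]

/-- sets of cells -/
abbrev CellSet := ∀ c n, K.Cell c n → Prop

/-- variables with an allowed cell and an allowed arity -/
def vs (ok : K.CellSet) {G : Psh 𝒞} (T : ∀ c, G.obj c → Prop) : VSet (DV K.Cell G) :=
  fun n v => ok v.1 n v.2.1 ∧ T v.1 v.2.2

/-- the generic variable of a cell -/
abbrev gv {c : 𝒞.Obj} {n : ℕ} (κ : K.Cell c n) : DV K.Cell (𝒞.y c) n := ⟨c, κ, 𝒞.id c⟩

theorem map_yon_gv {G : Psh 𝒞} {n : ℕ} (v : DV K.Cell G n) :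
    DV.map (G.yon v.2.2) n (K.gv v.2.1) = v := by
  obtain ⟨c, κ, g⟩ := v
  simp only [DV.map, G.map_id]

theorem src_gv {c : 𝒞.Obj} {n : ℕ} (κ : K.Cell c (n + 1)) :
    (K.ten (𝒞.y c)).src (K.gv κ) = K.src κ := by
  simp only [Tm.ren, DV.map, 𝒞.comp_id]
  exact Tm.subst_id _

theorem tgt_gv {c : 𝒞.Obj} {n : ℕ} (κ : K.Cell c (n + 1)) :
    (K.ten (𝒞.y c)).tgt (K.gv κ) = K.tgt κ := by
  simp only [Tm.ren, DV.map, 𝒞.comp_id]
  exact Tm.subst_id _

end Raw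

variable {D : Thy.{u}} {𝒞 : SCat.{u}} (K : Diag D.Op 𝒞)

theorem bp {G H : Psh 𝒞} (φ : PMap G H) (T : VSet (DV K.Cell G)) :
    BP D.toSig (K.ten G) (K.ten H) T fun n v => .var (DV.map φ n v) :=
  fun _ v _ => ⟨K.src_map φ v, K.tgt_map φ v⟩

/-- the allowed cells are well formed over their arity -/
def WF (ok : K.CellSet) : Prop :=
  ∀ c n κ, ok c n κ → OK D.toSig (K.ten (𝒞.y c)) (K.vs ok ⊤) (.var (K.gv κ))

variable {K}

theorem WF.closed {ok : K.CellSet} (h : K.WF ok) (G : Psh 𝒞) :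
    Closed D.toSig (K.ten G) (K.vs ok ⊤) := by
  intro n v hv
  have := OK.ren (T' := K.vs ok ⊤) (K.bp (G.yon v.2.2) _) (fun _ _ h => ⟨h.mem.1, trivial⟩)
    (h _ _ _ hv.1)
  rwa [Tm.ren, Tm.subst_var, K.map_yon_gv] at this

theorem WF.reflect {ok : K.CellSet} (h : K.WF ok) {G H : Psh 𝒞} (φ : PMap G H)
    {V : VSet (DV K.Cell H)} {n : ℕ} {v : DV K.Cell G n} (hv : ok _ _ v.2.1)
    (h' : OK D.toSig (K.ten H) V (.var (DV.map φ n v))) :
    OK D.toSig (K.ten G) (fun k x => OK D.toSig (K.ten H) V (.var (DV.map φ k x))) (.var v) :=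
  (OK.reflect (K.bp φ _) (h.closed G n v ⟨hv, trivial⟩) h').mono fun _ _ h => h.2

theorem WF.closed_pb {ok : K.CellSet} (h : K.WF ok) {G H : Psh 𝒞} (φ : PMap G H)
    {V : VSet (DV K.Cell H)} (hV : Closed D.toSig (K.ten H) V) (hok : ∀ n v, V n v → ok _ n v.2.1) :
    Closed D.toSig (K.ten G) fun n v => V n (DV.map φ n v) :=
  fun _ _ hv => (h.reflect φ (hok _ _ hv) (hV _ _ hv)).mono fun _ _ h => h.mem

variable (K) in
/-- the homomorphism induced by a map of presheaves -/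
def tmap {G H : Psh 𝒞} (φ : PMap G H) {V : VSet (DV K.Cell G)} {V' : VSet (DV K.Cell H)}
    (h : ∀ n v, OK D.toSig (K.ten G) V (.var v) → V' n (DV.map φ n v)) :
    AHom (Fr D (K.ten G) V) (Fr D (K.ten H) V') := frRen (DV.map φ) (K.bp φ V) h

variable (K) in
/-- the weighted colimit -/
abbrev col (ok : K.CellSet) (G : Psh 𝒞) : Alg D.toSig := Fr D (K.ten G) (K.vs ok ⊤)

variable (K) in
/-- functoriality of the weighted colimit -/
def cmap (ok : K.CellSet) {G H : Psh 𝒞} (φ : PMap G H) : AHom (K.col ok G) (K.col ok H) :=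
  K.tmap φ fun _ _ h => ⟨h.mem.1, trivial⟩

/-- maps out of a weighted colimit -/
theorem exists_desc {ok : K.CellSet} (hK : K.WF ok) (G : Psh 𝒞) {E : Alg D.toSig}
    (a : ∀ c, G.obj c → AHom (K.col ok (𝒞.y c)) E)
    (ha : ∀ b c (f : 𝒞.Hom b c) g, a b (G.map f g) = (K.cmap ok ((𝒞.y c).yon f)).comp (a c g)) :
    ∃ α : AHom (K.col ok G) E, ∀ c g, (K.cmap ok (G.yon g)).comp α = a c g := by
  let ρ : Asg (DV K.Cell G) E.G := fun n v z => (a v.1 v.2.2).asg n (K.gv v.2.1) z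
  have key : ∀ c (g : G.obj c) n v z, (a c g).asg n v z → ρ n (DV.map (G.yon g) n v) z := by
    rintro c g n ⟨b, κ, f⟩ _ ⟨hv, rfl⟩
    refine ⟨hK _ _ _ hv.mem.1, (AHom.app_eq (ha b c f g) _ _).trans ?_⟩
    exact congrArg ((a c g).map.app n) (Subtype.ext (congrArg Tm.var (K.map_yon_gv ⟨b, κ, f⟩)))
  have hv : Valid (K.ten G) E.str ρ := by
    refine ⟨fun n v => (a v.1 v.2.2).asg_valid.func _ _, fun n v z hz => ?_⟩
    have := (a v.1 v.2.2).asg_valid.law n _ z hz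
    rw [K.src_gv, K.tgt_gv] at this
    exact this.imp (Eval.ren (key _ _)) (Eval.ren (key _ _))
  have ht : ∀ n v, OK D.toSig (K.ten G) (K.vs ok ⊤) (.var v) → ∃ z, ρ n v z :=
    fun n v h => ⟨_, hK _ _ _ h.mem.1, rfl⟩
  exact ⟨lift hv ht, fun c g => fr_ext fun n v h => lift_eq hv ht (.var (key c g n v _ ⟨h, rfl⟩))⟩

theorem col_ext {ok : K.CellSet} (hK : K.WF ok) {G : Psh 𝒞} {E : Alg D.toSig}
    {α β : AHom (K.col ok G) E}
    (h : ∀ c g, (K.cmap ok (G.yon g)).comp α = (K.cmap ok (G.yon (c := c) g)).comp β) : α = β :=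
  fr_ext fun n v hv => by
    have := AHom.app_eq (h v.1 v.2.2) n (fv (K.gv v.2.1) (hK _ _ _ hv.mem.1))
    have e : (K.cmap ok (G.yon v.2.2)).map.app n (fv (K.gv v.2.1) (hK _ _ _ hv.mem.1)) = fv v hv :=
      Subtype.ext (congrArg Tm.var (K.map_yon_gv v))
    rw [← e]
    exact this

end Diag

section WDiag

variable {D : Coh.{u}} {L : ℕ} {𝒞 : SCat.{u}} {K : Diag D.Op 𝒞} {ok : K.CellSet}

/-- slices of closures of full subcategories -/
theorem Diag.wi_pb {G H : Psh 𝒞} (φ : PMap G H) {T T' : ∀ c, H.obj c → Prop}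
    (h : WI D.toThy L (K.ten G) (K.vs ok fun c x => T c (φ.app c x))
      (K.vs ok fun c x => T' c (φ.app c x))) :
    WI D.toThy L (K.ten G)
      (fun n v => OK D.toSig (K.ten H) (K.vs ok T) (.var (DV.map φ n v)))
      fun n v => OK D.toSig (K.ten H) (K.vs ok T') (.var (DV.map φ n v)) :=
  h.congr (fun _ _ h => h.mem.mem)
    (fun _ _ h => OK.ren (T' := K.vs ok T) (Diag.bp (D := D.toThy) K φ _) (fun _ _ h => h.mem) h)
    (fun _ _ h => OK.ren (T' := K.vs ok T') (Diag.bp (D := D.toThy) K φ _) (fun _ _ h => h.mem) h)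
    fun _ _ h => h.mem.mem

/-- transfer along an isomorphism of presheaves -/
theorem Diag.wi_iso (hK : Diag.WF (D := D.toThy) K ok) {G H : Psh 𝒞} (φ : PMap G H)
    (hφ : ∀ c, Function.Bijective (φ.app c)) {T T' : ∀ c, H.obj c → Prop}
    (hT : ∀ c x, T c x → T' c x) :
    WI D.toThy L (K.ten G) (K.vs ok fun c x => T c (φ.app c x))
      (K.vs ok fun c x => T' c (φ.app c x)) ↔ WI D.toThy L (K.ten H) (K.vs ok T) (K.vs ok T') := by
  have hs : ∀ (S : ∀ c, H.obj c → Prop) n x', OK D.toSig (K.ten H) (K.vs ok S) (.var x') →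
      ∃ x, OK D.toSig (K.ten G) (K.vs ok fun c x => S c (φ.app c x)) (.var x) ∧
        DV.map φ n x = x' := by
    rintro S n ⟨c, κ, x'⟩ h
    obtain ⟨x, rfl⟩ := (hφ c).2 x'
    exact ⟨⟨c, κ, x⟩, (hK.reflect φ (v := ⟨c, κ, x⟩) h.mem.1 h).mono fun _ _ h => h.mem, rfl⟩
  refine WI.of_ren (DV.map φ) (Diag.bp (D := D.toThy) K φ _) (fun _ _ h => ⟨h.mem.1, hT _ _ h.mem.2⟩)
    (fun _ _ h => ⟨h.mem.1, hT _ _ h.mem.2⟩) (fun _ _ h => h.mem) (fun _ _ h => h.mem) ?_ (hs T)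
    (hs T')
  rintro n ⟨c, κ, x⟩ ⟨c', κ', x'⟩ - - h
  simp only [DV.map, Sigma.mk.injEq] at h
  obtain ⟨rfl, h⟩ := h
  simp only [heq_eq_eq, Prod.mk.injEq] at h
  rw [h.1, (hφ c).1 h.2]

/-- **Gluing lemma** for diagrams. -/
theorem Diag.gl (hP : PJ D.toThy L) (hK : Diag.WF (D := D.toThy) K ok) (𝓘 : SCat.{u})
    (H : 𝓘.Obj → Psh 𝒞) (Hm : ∀ {i j : 𝓘.Obj}, 𝓘.Hom i j → PMap (H i) (H j))
    (Hid : ∀ i c x, (Hm (𝓘.id i)).app c x = x)
    (Hcomp : ∀ i j k (f : 𝓘.Hom i j) (g : 𝓘.Hom j k) c x,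
      (Hm (𝓘.comp f g)).app c x = (Hm g).app c ((Hm f).app c x))
    (o : 𝓘.Obj) (π : ∀ i, PMap (H i) (H o))
    (hπ : ∀ i j (f : 𝓘.Hom i j) c x, (π j).app c ((Hm f).app c x) = (π i).app c x)
    (hπo : ∀ c x, (π o).app c x = x) {V V' : VSet (DV K.Cell (H o))}
    (cl : Closed D.toSig (K.ten (H o)) V) (cl' : Closed D.toSig (K.ten (H o)) V')
    (sub : ∀ n v, V n v → V' n v) (hok : ∀ n v, V' n v → ok _ n v.2.1)
    (refl : ∀ n v, V' n v → ¬V n v → ∃ (i : 𝓘.Obj) (a : (H i).obj v.1), (π i).app _ a = v.2.2 ∧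
      (∀ j (b : (H j).obj v.1), (π j).app _ b = v.2.2 → ∃! f : 𝓘.Hom i j, (Hm f).app _ a = b) ∧
      WI D.toThy L (K.ten (H i)) (fun n v => V n (DV.map (π i) n v))
        fun n v => V' n (DV.map (π i) n v)) :
    WI D.toThy L (K.ten (H o)) V V' := by
  let F : FCtx D.Op 𝓘 :=
    { Δ := fun i => K.ten (H i)
      ren := fun f => DV.map (Hm f)
      ren_id := fun i n v => by simp only [DV.map, Hid]
      ren_comp := fun f g n v => by simp only [DV.map, Hcomp]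
      src_ren := fun f _ v => K.src_map (Hm f) v
      tgt_ren := fun f _ v => K.tgt_map (Hm f) v }
  have e : ∀ i j (f : 𝓘.Hom i j) n (v : DV K.Cell (H i) n),
      DV.map (π j) n (DV.map (Hm f) n v) = DV.map (π i) n v := fun i j f n v => by
    simp only [DV.map, hπ]
  choose ar a ha hu hw using fun n (γ : {v : DV K.Cell (H o) n // V' n v ∧ ¬V n v}) =>
    refl n γ.1 γ.2.1 γ.2.2
  have eg : ∀ n γ, DV.map (π (ar n γ)) n ⟨γ.1.1, γ.1.2.1, a n γ⟩ = γ.1 := fun n γ => by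
    simp only [DV.map, ha]
  let C : Cells (D := D.toThy) F (fun i n v => V n (DV.map (π i) n v))
      fun i n v => V' n (DV.map (π i) n v) :=
    { Gen := fun n => {v : DV K.Cell (H o) n // V' n v ∧ ¬V n v}
      ar := fun γ => ar _ γ
      gv := fun γ => ⟨γ.1.1, γ.1.2.1, a _ γ⟩
      mem := fun n γ => by
        show V' n (DV.map _ _ _)
        rw [eg]; exact γ.2.1
      new := fun n γ c φ => by
        show ¬V n (DV.map _ _ (DV.map _ _ _))
        rw [e, eg]; exact γ.2.2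
      ex := fun j n v h h' => by
        obtain ⟨f, hf, -⟩ := hu n ⟨_, h, h'⟩ j v.2.2 rfl
        exact ⟨⟨_, h, h'⟩, f, congrArg (fun b => (⟨v.1, v.2.1, b⟩ : DV K.Cell (H j) n)) hf⟩
      uniq := fun j n γ γ' φ φ' h => by
        have h1 := congrArg (DV.map (π j) n) h
        erw [e, e, eg, eg] at h1
        obtain rfl : γ = γ' := Subtype.ext h1
        have h2 : (Hm φ).app _ (a n γ) = (Hm φ').app _ (a n γ) := by
          simpa only [F, DV.map, Sigma.mk.injEq, heq_eq_eq, Prod.mk.injEq, true_and] using h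
        obtain ⟨f, -, hf⟩ := hu n γ j ((Hm φ).app _ (a n γ)) (by rw [hπ, ha])
        rw [hf φ rfl, hf φ' h2.symm] }
  have := gluing hP (F := F) (fun i j f n v h => by
      show V n (DV.map _ _ (DV.map _ _ _))
      rw [e]; exact h) (fun i j f n v h => by
      show V' n (DV.map _ _ (DV.map _ _ _))
      rw [e]; exact h)
    (fun i => hK.closed_pb (π i) cl fun n v h => hok n v (sub n v h))
    (fun i => hK.closed_pb (π i) cl' hok) (fun i n v h => sub _ _ h) C (fun n γ => hw n γ) o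
  have e' : ∀ n (v : DV K.Cell (H o) n), DV.map (π o) n v = v := fun n v => by
    simp only [DV.map, hπo]
  simpa only [e'] using this

/-- a full subcategory of the category of elements has a terminal object -/
def PTerm {𝒞 : SCat.{u}} {G : Psh 𝒞} (T : ∀ c, G.obj c → Prop) : Prop :=
  ∃ c0 x0, T c0 x0 ∧ ∀ c x, T c x → ∃! f : 𝒞.Hom c c0, G.map f x0 = x

/-- homotopically constant diagrams -/
def Diag.LS (D : Thy.{u}) (L : ℕ) {𝒞 : SCat.{u}} (K : Diag D.Op 𝒞) (ok : K.CellSet) : Prop :=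
  ∀ (G : Psh 𝒞) (T T' : ∀ c, G.obj c → Prop), (∀ c x, T c x → T' c x) → PTerm T → PTerm T' →
    WI D L (K.ten G) (K.vs ok T) (K.vs ok T')

/-- a saturated cofibrant replacement of a functor -/
structure Diag.Repl {D : Thy.{u}} {𝒞 : SCat.{u}} (K : Diag D.Op 𝒞) (ok : K.CellSet)
    (R : AFun D.toSig 𝒞) where
  wf : K.WF ok
  p : ∀ c, AHom (K.col ok (𝒞.y c)) (R.obj c)
  nat : ∀ a b (f : 𝒞.Hom a b), (K.cmap ok ((𝒞.y b).yon f)).comp (p b) = (p a).comp (R.map f)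
  sat : ∀ c (T : ∀ b, 𝒞.Hom b c → Prop), T c (𝒞.id c) →
    TFib ((frIncl (T := K.vs ok (G := 𝒞.y c) T) fun _ _ h => ⟨h.mem.1, trivial⟩).comp (p c)).map

theorem Diag.Repl.tfib {D : Thy.{u}} {𝒞 : SCat.{u}} {K : Diag D.Op 𝒞} {ok : K.CellSet}
    {R : AFun D.toSig 𝒞} (P : K.Repl ok R) (c : 𝒞.Obj) : TFib (P.p c).map := P.sat c ⊤ trivial

theorem Diag.term_bij (hK : Diag.WF (D := D.toThy) K ok) {G : Psh 𝒞} {T : ∀ c, G.obj c → Prop}
    {c0 : 𝒞.Obj} {x0 : G.obj c0} (h : ∀ c x, T c x → ∃! f : 𝒞.Hom c c0, G.map f x0 = x) (n : ℕ) :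
    Function.Bijective ((Diag.tmap (D := D.toThy) K (G.yon x0)
      (V := K.vs ok fun c f => T c (G.map f x0)) (V' := K.vs ok T) fun _ _ h => h.mem).map.app n) := by
  refine frRen_bij _ _ _ ?_ ?_ n
  · rintro n ⟨c, κ, f⟩ ⟨c', κ', f'⟩ h1 - e
    simp only [DV.map, Sigma.mk.injEq] at e
    obtain ⟨rfl, e⟩ := e
    simp only [heq_eq_eq, Prod.mk.injEq] at e
    obtain ⟨g, -, hg⟩ := h c _ h1.mem.2
    rw [e.1, hg f rfl, hg f' e.2.symm]
  · rintro n ⟨c, κ, x⟩ hx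
    obtain ⟨f, rfl, -⟩ := h c x hx.mem.2
    exact ⟨⟨c, κ, f⟩, (hK.reflect (G.yon x0) (v := ⟨c, κ, f⟩) hx.mem.1 hx).mono fun _ _ h => h.mem,
      rfl⟩

theorem Diag.Repl.ls {R : AFun D.toSig 𝒞} (P : Diag.Repl (D := D.toThy) K ok R)
    (hR : ∀ a b (f : 𝒞.Hom a b), W L (R.map f).map) : K.LS D.toThy L ok := by
  rintro G T T' hT ⟨c0, x0, h0, u0⟩ ⟨c1, x1, h1, u1⟩
  obtain ⟨f, hf, -⟩ := u1 c0 x0 (hT _ _ h0)
  have b0 := Diag.term_bij P.wf u0
  have b1 := Diag.term_bij P.wf u1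
  let r : AHom (Fr D.toThy (K.ten (𝒞.y c0)) (K.vs ok fun c g => T c (G.map g x0)))
      (Fr D.toThy (K.ten (𝒞.y c1)) (K.vs ok fun c g => T' c (G.map g x1))) :=
    Diag.tmap (D := D.toThy) K ((𝒞.y c1).yon f) fun _ v h => ⟨h.mem.1, by
      show T' _ (G.map (𝒞.comp v.2.2 f) x1)
      rw [G.map_comp, hf]; exact hT _ _ h.mem.2⟩
  have t0 := P.sat c0 (fun c g => T c (G.map g x0)) (by rw [G.map_id]; exact h0)
  have t1 := P.sat c1 (fun c g => T' c (G.map g x1)) (by rw [G.map_id]; exact h1)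
  have hr : W L r.map := by
    refine W.of_comp_left ?_ (t1.W (L + 1))
    have := W.comp (Z := R.obj c1) (t0.W L) (hR _ _ f)
    rw [← AHom.comp_map, AHom.comp_assoc, ← P.nat] at this
    exact this
  refine ⟨fun _ _ h => ⟨h.mem.1, hT _ _ h.mem.2⟩, W.of_comp_right
    (W_of_bij (Y := Fr D.toThy (K.ten G) (K.vs ok T)) b0 L) ?_⟩
  have := W.comp (Z := Fr D.toThy (K.ten G) (K.vs ok T')) hr
    (W_of_bij (Y := Fr D.toThy (K.ten G) (K.vs ok T')) b1 L)
  rw [← AHom.comp_map] at this ⊢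
  convert this using 2
  refine fr_ext fun n v _ => Subtype.ext (congrArg Tm.var ?_)
  simp only [DV.map, G.map_comp, hf]

end WDiag

/-! ## Two-coloured cofibrant replacements -/

section Colored

variable {D : Thy.{u}} {𝒞 : SCat.{u}}

/-- the product of a category with the arrow category -/
@[reducible] def SCat.arr (𝒞 : SCat.{u}) : SCat.{u} where
  Obj := 𝒞.Obj × Bool
  Hom a b := {_f : 𝒞.Hom a.1 b.1 // a.2 ≤ b.2}
  id a := ⟨𝒞.id a.1, le_rfl⟩
  comp f g := ⟨𝒞.comp f.1 g.1, f.2.trans g.2⟩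
  id_comp f := Subtype.ext (𝒞.id_comp f.1)
  comp_id f := Subtype.ext (𝒞.comp_id f.1)
  assoc f g h := Subtype.ext (𝒞.assoc f.1 g.1 h.1)

variable (R0 R1 : AFun D.toSig 𝒞) (θ : ∀ c, AHom (R0.obj c) (R1.obj c))
  (hθ : ∀ a b (f : 𝒞.Hom a b), (R0.map f).comp (θ b) = (θ a).comp (R1.map f))

@[reducible] def arrObj : 𝒞.Obj × Bool → Alg D.toSig
  | (c, false) => R0.obj c
  | (c, true) => R1.obj c

def arrMap : ∀ {a b : 𝒞.Obj × Bool}, 𝒞.arr.Hom a b → AHom (arrObj R0 R1 a) (arrObj R0 R1 b)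
  | (_, false), (_, false), f => R0.map f.1
  | (_, false), (b, true), f => (R0.map f.1).comp (θ b)
  | (_, true), (_, true), f => R1.map f.1
  | (_, true), (_, false), f => absurd f.2 (show ¬true ≤ false by decide)

/-- a natural transformation as a functor on the product with the arrow category -/
@[reducible] def arrFun : AFun D.toSig 𝒞.arr where
  obj := arrObj R0 R1
  map := arrMap R0 R1 θ
  map_id
    | (a, false) => R0.map_id a
    | (a, true) => R1.map_id a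
  map_comp {a b c} f g := match a, b, c, f, g with
    | (_, false), (_, false), (_, false), f, g => R0.map_comp f.1 g.1
    | (_, false), (_, false), (_, true), f, g => congrArg (·.comp (θ _)) (R0.map_comp f.1 g.1)
    | (_, false), (_, true), (_, true), f, g => by
      show (R0.map (𝒞.comp f.1 g.1)).comp (θ _) = ((R0.map f.1).comp (θ _)).comp (R1.map g.1)
      rw [R0.map_comp, AHom.comp_assoc, hθ]; rfl
    | (_, true), (_, true), (_, true), f, g => R1.map_comp f.1 g.1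
    | (_, true), (_, false), _, f, _ => absurd f.2 (show ¬true ≤ false by decide)
    | _, (_, true), (_, false), _, g => absurd g.2 (show ¬true ≤ false by decide)

/-- the empty functorial context -/
@[reducible] def FCtx.empty (O : OpFam.{u}) (𝒞 : SCat.{u}) : FCtx O 𝒞 where
  Δ _ := Ctx.empty O
  ren _ _ x := x
  ren_id _ _ _ := rfl
  ren_comp _ _ _ _ := rfl
  src_ren _ _ x := x.elim
  tgt_ren _ _ x := x.elim

/-- the small object argument from the empty diagram -/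
@[reducible] noncomputable def soa0 {𝒞 : SCat.{u}} (R : AFun D.toSig 𝒞) : SOAIn D 𝒞 where
  F := FCtx.empty D.Op 𝒞
  V _ := ⊥
  stable _ _ _ _ x := x.elim
  closed _ _ x := x.elim
  R := R
  f _ := frEmptyTo _ _
  nat _ _ _ := fr_ext fun _ x => x.elim
  L := 0

section

variable (R : AFun D.toSig 𝒞.arr)

/-- cells of both colours -/
abbrev colCell : 𝒞.Obj → Vars.{u} := fun c n => Σ ε : Bool, (soa0 R).C false (c, ε) n

def colTr (c : 𝒞.Obj × Bool) (n : ℕ) : (soa0 R).Var c n → DV (colCell R) (𝒞.y c.1) n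
  | .inl x => x.elim
  | .inr ⟨c', κ, φ⟩ => ⟨c'.1, ⟨c'.2, κ⟩, φ.1⟩

/-- the two-coloured diagram -/
@[reducible] noncomputable def colDiag : Diag D.Op 𝒞 where
  Cell := colCell R
  src κ := ((soa0 R).bs κ.2).ren (colTr R _)
  tgt κ := ((soa0 R).bt κ.2).ren (colTr R _)

/-- cells of colour at most `ε` -/
def colOk (ε : Bool) : (colDiag R).CellSet := fun c n κ => κ.1 ≤ ε ∧ (soa0 R).ok (c, κ.1) n κ.2

theorem colTr_nren {a b : 𝒞.Obj × Bool} (φ : 𝒞.arr.Hom a b) (n : ℕ) : ∀ v : (soa0 R).Var a n,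
    colTr R b n ((soa0 R).nren φ n v) = DV.map ((𝒞.y b.1).yon φ.1) n (colTr R a n v)
  | .inl x => x.elim
  | .inr ⟨_, _, _⟩ => rfl

theorem colTr_bp (c : 𝒞.Obj × Bool) (T : VSet ((soa0 R).Var c)) :
    BP D.toSig ((soa0 R).Δ c) ((colDiag R).ten (𝒞.y c.1)) T fun n v => .var (colTr R c n v) := by
  rintro n (x | ⟨c', κ, φ⟩) -
  · exact x.elim
  · constructor
    · show (((soa0 R).bs κ).ren _).ren _ = (((soa0 R).bs κ).ren _).ren _
      simp only [Tm.ren, Tm.subst_subst, Tm.subst_var, colTr_nren]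
      rfl
    · show (((soa0 R).bt κ).ren _).ren _ = (((soa0 R).bt κ).ren _).ren _
      simp only [Tm.ren, Tm.subst_subst, Tm.subst_var, colTr_nren]
      rfl

theorem colTr_mem (c : 𝒞.Obj × Bool) (n : ℕ) : ∀ v, (soa0 R).U' c n v →
    colOk R c.2 _ n (colTr R c n v).2.1
  | .inl x, _ => x.elim
  | .inr ⟨_, _, φ⟩, h => ⟨φ.2, h⟩

/-- comparison of the two descriptions of the variables -/
noncomputable def colIso (c : 𝒞.Obj × Bool) (T : ∀ b, 𝒞.Hom b c.1 → Prop) :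
    AHom (Fr D ((soa0 R).Δ c) fun n v => (soa0 R).U' c n v ∧ T _ (colTr R c n v).2.2)
      (Fr D ((colDiag R).ten (𝒞.y c.1)) ((colDiag R).vs (colOk R c.2) (G := 𝒞.y c.1) T)) :=
  frRen (colTr R c) (colTr_bp R c _) fun n v h => ⟨colTr_mem R c n v h.mem.1, h.mem.2⟩

theorem colIso_bij (c : 𝒞.Obj × Bool) (T : ∀ b, 𝒞.Hom b c.1 → Prop) (n : ℕ) :
    Function.Bijective ((colIso R c T).map.app n) := by
  refine frRen_bij _ _ _ ?_ ?_ n
  · rintro n (x | ⟨⟨c1, ε1⟩, κ, φ⟩) (x' | ⟨⟨c2, ε2⟩, κ', φ'⟩) - - e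
    · exact x.elim
    · exact x.elim
    · exact x'.elim
    · simp only [colTr, Sigma.mk.injEq] at e
      obtain ⟨rfl, e⟩ := e
      simp only [heq_eq_eq, Prod.mk.injEq, Sigma.mk.injEq] at e
      obtain ⟨⟨rfl, e1⟩, e2⟩ := e
      rw [eq_of_heq e1, Subtype.ext e2]
  · rintro n ⟨c', ⟨ε, κ⟩, f⟩ h
    refine ⟨.inr ⟨(c', ε), κ, ⟨f, h.mem.1.1⟩⟩, ?_, rfl⟩
    exact (OK.reflect (colTr_bp R c _) ((soa0 R).closed' c n (.inr ⟨(c', ε), κ, ⟨f, h.mem.1.1⟩⟩)
      h.mem.1.2) h).mono fun _ _ h => ⟨h.1, h.2.mem.2⟩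

theorem colOk_wf (ε : Bool) : (colDiag R).WF (colOk R ε) := by
  rintro c n ⟨ε', κ⟩ h
  exact OK.ren (T' := (colDiag R).vs (colOk R ε) ⊤) (colTr_bp R (c, ε) _)
    (fun n v h => ⟨colTr_mem R (c, ε) n v h.mem, trivial⟩)
    ((soa0 R).closed' (c, ε) n (.inr ⟨(c, ε'), κ, ⟨𝒞.id c, h.1⟩⟩) h.2)

theorem exists_colP : ∃ p : ∀ c : 𝒞.Obj × Bool,
    AHom ((colDiag R).col (colOk R c.2) (𝒞.y c.1)) (R.obj c),
    ∀ c, (colIso R c ⊤).comp (p c) = (frIncl fun _ _ h => h.mem.1).comp ((soa0 R).p c) := by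
  choose g h1 h2 using fun c => (colIso R c ⊤).exists_inv (colIso_bij R c ⊤)
  exact ⟨fun c => (g c).comp ((frIncl fun _ _ h => h.mem.1).comp ((soa0 R).p c)), fun c => by
    rw [← AHom.comp_assoc, h1]; rfl⟩

end

theorem ILift.of_bij_comp {X Y Z : GS.{u}} {e : GMap X Y} {f : GMap Y Z}
    (he : ∀ n, Function.Bijective (e.app n)) {n : ℕ} (h : ILift (e.comp f) n) : ILift f n := by
  intro s z hz
  obtain ⟨s', rfl⟩ := ((TFib.of_bij he).surj n).1 s
  obtain ⟨x, rfl, rfl⟩ := h s' z (by rw [hz, sphere_comp])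
  exact ⟨e.app n x, bdry_map _ _ _, rfl⟩

theorem AHom.cancel_bij {Γ : Sig.{u}} {X Y Z : Alg Γ} {e : AHom X Y}
    (he : ∀ n, Function.Bijective (e.map.app n)) {f g : AHom Y Z} (h : e.comp f = e.comp g) :
    f = g := AHom.ext' fun n y => by
  obtain ⟨x, rfl⟩ := (he n).2 y
  exact AHom.app_eq h n x

/-- a cofibrant replacement of a natural transformation as an inclusion of cellular diagrams -/
structure Colored (R0 R1 : AFun D.toSig 𝒞) (θ : ∀ c, AHom (R0.obj c) (R1.obj c)) where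
  K : Diag D.Op 𝒞
  ok0 : K.CellSet
  ok1 : K.CellSet
  le : ∀ c n κ, ok0 c n κ → ok1 c n κ
  P0 : K.Repl ok0 R0
  P1 : K.Repl ok1 R1
  comm : ∀ c, (frIncl fun _ _ h => ⟨le _ _ _ h.mem.1, trivial⟩).comp (P1.p c) = (P0.p c).comp (θ c)

include hθ in
theorem exists_colored : Nonempty (Colored R0 R1 θ) := by
  let R := arrFun R0 R1 θ hθ
  obtain ⟨p, hp⟩ := exists_colP R
  have nat : ∀ a b (φ : 𝒞.arr.Hom a b), ((colDiag R).tmap ((𝒞.y b.1).yon φ.1)
      (V := (colDiag R).vs (colOk R a.2) ⊤) (V' := (colDiag R).vs (colOk R b.2) ⊤)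
      fun _ _ h => ⟨⟨h.mem.1.1.trans φ.2, h.mem.1.2⟩, trivial⟩).comp (p b) =
      (p a).comp (R.map φ) := by
    intro a b φ
    refine AHom.cancel_bij (colIso_bij R a ⊤) ?_
    rw [← AHom.comp_assoc (colIso R a ⊤) (p a), hp, AHom.comp_assoc, ← (soa0 R).p_nat]
    refine fr_ext fun n v hv => ?_
    have h1 : OK D.toSig ((soa0 R).Δ b)
        (fun n v => (soa0 R).U' b n v ∧ (⊤ : ∀ c, 𝒞.Hom c b.1 → Prop) _ (colTr R b n v).2.2)
        (.var ((soa0 R).nren φ n v)) :=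
      (((soa0 R).vs_stable _).ok φ (hv.mono fun _ _ h => h.1)).mono fun _ _ h => ⟨h, trivial⟩
    refine Eq.trans ?_ (AHom.app_eq (hp b) n (fv _ h1))
    exact congrArg ((p b).map.app n) (Subtype.ext (congrArg Tm.var (colTr_nren R φ n v).symm))
  have sat : ∀ (c : 𝒞.Obj × Bool) (T : ∀ b, 𝒞.Hom b c.1 → Prop), T c.1 (𝒞.id c.1) →
      TFib ((frIncl (T := (colDiag R).vs (colOk R c.2) (G := 𝒞.y c.1) T)
        fun _ _ h => ⟨h.mem.1, trivial⟩).comp (p c)).map := by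
    intro c T hT n
    refine ILift.of_bij_comp (colIso_bij R c T) ?_
    have := (soa0 R).ilift_sat c (fun n v => (soa0 R).U' c n v ∧ T _ (colTr R c n v).2.2)
      (fun _ _ h => h.mem.1) (fun _ _ h => ⟨h, hT⟩) n (Nat.zero_le n)
    rw [← AHom.comp_map]
    convert this using 2
    exact fr_ext fun n v hv => AHom.app_eq (hp c) n (fv v (hv.mono fun _ _ h => ⟨h.1, trivial⟩))
  refine ⟨⟨colDiag R, colOk R false, colOk R true, fun _ _ _ h => ⟨le_top, h.2⟩,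
    ⟨colOk_wf R false, fun c => p (c, false), fun a b f => nat (a, false) (b, false) ⟨f, le_rfl⟩,
      fun c => sat (c, false)⟩,
    ⟨colOk_wf R true, fun c => p (c, true), fun a b f => nat (a, true) (b, true) ⟨f, le_rfl⟩,
      fun c => sat (c, true)⟩, fun c => ?_⟩⟩
  have := nat (c, false) (c, true) ⟨𝒞.id c, show false ≤ true by decide⟩
  refine Eq.trans ?_ (this.trans ?_)
  · congr 1
    refine fr_ext fun n v _ => Subtype.ext (congrArg Tm.var ?_)
    simp only [DV.map, 𝒞.comp_id]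
  · show (p (c, false)).comp ((R0.map (𝒞.id c)).comp (θ c)) = _
    rw [R0.map_id]; rfl

end Colored

end Crest.Agent.R248
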