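import Crest.Agent.R248.SOA

/-!
# Row 248: factorisations, lifting properties, pushouts, natural lifting and the gluing lemma.
-/

set_option autoImplicit false

namespace Crest.Agent.R248

open Crest.GeometryTopology.Coherator

universe u

/-! ## Pointwise factorisation -/

/-- a constant functor on the point -/
@[reducible] def AFun.single {Γ : Sig.{u}} (Q : Alg Γ) : AFun Γ SCat.pt where
  obj _ := Q
  map _ := AHom.id Q
  map_id _ := rfl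
  map_comp _ _ := rfl

theorem exists_factor {D : Thy.{u}} (L : ℕ) {Δ : Ctx D.Op} {V : VSet Δ.Var}
    (hV : Closed D.toSig Δ V) {Q : Alg D.toSig} (f : AHom (Fr D Δ V) Q) :
    ∃ (Δ' : Ctx D.Op) (U U' : VSet Δ'.Var) (J : JExt D.toSig Δ' U U')
      (e : AHom (Fr D Δ V) (Fr D Δ' U)) (p : AHom (Fr D Δ' U') Q), J.IDim L ∧
      (∀ n, Function.Bijective (e.map.app n)) ∧ (e.comp (frIncl J.sub')).comp p = f ∧
      Fib L p.map := by
  let I : SOAIn D SCat.pt :=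
    { F := FCtx.single Δ
      V := fun _ => V
      stable := fun _ _ _ _ _ h => h
      closed := fun _ => hV
      R := AFun.single Q
      f := fun _ => f
      nat := fun _ _ _ => fr_ext fun _ _ _ => rfl
      L := L }
  exact ⟨_, _, _, I.J ⟨⟩, I.e ⟨⟩, I.p ⟨⟩, I.J_idim _, I.e_bij _, I.p_fac _, I.fib _⟩

/-- the empty context -/
@[reducible] def Ctx.empty (O : OpFam.{u}) : Ctx O := ⟨fun _ => PEmpty, PEmpty.elim, PEmpty.elim⟩

theorem exists_cofib (D : Thy.{u}) (Y : Alg D.toSig) : ∃ (Δ : Ctx D.Op) (U : VSet Δ.Var)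
    (_ : Closed D.toSig Δ U) (q : AHom (Fr D Δ U) Y), TFib q.map := by
  obtain ⟨Δ', U, U', J, -, p, -, -, -, hp⟩ := exists_factor 0 (Δ := Ctx.empty D.Op) (V := ⊥)
    (fun _ _ h => h.elim) (frEmptyTo _ Y)
  exact ⟨Δ', U', J.closed', p, hp.zero⟩

/-! ## Lifting properties -/

/-- left lifting property against fibrations of level `L` -/
def LLP (D : Thy.{u}) (L : ℕ) {X Y : Alg D.toSig} (i : AHom X Y) : Prop :=
  ∀ (E B : Alg D.toSig) (p : AHom E B), Fib L p.map → ∀ (f : AHom X E) (g : AHom Y B),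
    f.comp p = i.comp g → ∃ l : AHom Y E, i.comp l = f ∧ l.comp p = g

theorem JExt.llp {D : Thy.{u}} {L : ℕ} {Δ : Ctx D.Op} {U U' : VSet Δ.Var}
    (J : JExt D.toSig Δ U U') (hJ : J.IDim L) : LLP D L (frIncl J.sub') :=
  fun _ _ p hp f g h => J.lifting p f g h (fun n x hx => hp.2 n (hJ n x hx))
    fun n _ _ _ => hp.jlift n

/-- inclusions of closed sets lift against trivial fibrations -/
theorem closed_lift {D : Thy.{u}} {Δ : Ctx D.Op} {U U' : VSet Δ.Var} (hU : Closed D.toSig Δ U)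
    (hU' : Closed D.toSig Δ U') (h : ∀ n x, OK D.toSig Δ U (.var x) → U' n x)
    {E B : Alg D.toSig} (p : AHom E B) (hp : TFib p.map) (f : AHom (Fr D Δ U) E)
    (g : AHom (Fr D Δ U') B) (hfg : f.comp p = (frIncl h).comp g) :
    ∃ l : AHom (Fr D Δ U') E, (frIncl h).comp l = f ∧ l.comp p = g :=
  (JExt.ofClosed hU hU' fun n x hx => h n x (hU n x hx)).lifting p f g hfg (fun n _ _ => hp n)
    fun _ _ _ h => h.elim

section

variable {D : Coh.{u}} {L : ℕ} {Δ : Ctx D.Op} {U U' : VSet Δ.Var}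

theorem WI.llp (hP : PJ D.toThy L) (hU : Closed D.toSig Δ U) (hU' : Closed D.toSig Δ U')
    (h : WI D.toThy L Δ U U') : LLP D.toThy L (frIncl h.1) := by
  obtain ⟨Δ', V, V', J, e, p, hJ, he, hfac, hp⟩ := exists_factor L hU (frIncl h.1)
  have hw : W L (e.comp (frIncl J.sub')).map :=
    W.comp (Z := Fr D.toThy Δ' V') (W_of_bij (Y := Fr D.toThy Δ' V) he L) (J.W_of_idim hP hJ).2
  have htf : TFib p.map := hp.tfib (W.of_comp_right hw (by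
    rw [← AHom.comp_map, hfac]; exact h.2))
  obtain ⟨s, hs1, hs2⟩ := closed_lift hU hU' h.1 p htf (e.comp (frIncl J.sub')) (AHom.id _) hfac
  obtain ⟨e', he1, he2⟩ := e.exists_inv he
  intro E B q hq f g hfg
  obtain ⟨l, hl1, hl2⟩ := J.llp hJ E B q hq (e'.comp f) (p.comp g) (by
    rw [AHom.comp_assoc, hfg, ← hfac, ← AHom.comp_assoc, ← AHom.comp_assoc, ← AHom.comp_assoc, he2]
    rfl)
  refine ⟨s.comp l, ?_, ?_⟩
  · rw [← AHom.comp_assoc, hs1, AHom.comp_assoc, hl1, ← AHom.comp_assoc, he1]; rfl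
  · rw [AHom.comp_assoc, hl2, ← AHom.comp_assoc, hs2]; rfl

theorem LLP.wi (hP : PJ D.toThy L) (hU : Closed D.toSig Δ U)
    {h : ∀ n x, OK D.toSig Δ U (.var x) → U' n x} (hl : LLP D.toThy L (frIncl h)) :
    WI D.toThy L Δ U U' := by
  obtain ⟨Δ', V, V', J, e, p, hJ, he, hfac, hp⟩ := exists_factor L hU (frIncl h)
  have hw : W L (e.comp (frIncl J.sub')).map :=
    W.comp (Z := Fr D.toThy Δ' V') (W_of_bij (Y := Fr D.toThy Δ' V) he L) (J.W_of_idim hP hJ).2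
  obtain ⟨s, hs1, hs2⟩ := hl _ _ p hp (e.comp (frIncl J.sub')) (AHom.id _) hfac
  exact ⟨h, hw.retract (GMap.id _) (GMap.id _) s.map p.map rfl (congrArg AHom.map hs2)
    (congrArg AHom.map hs1).symm (congrArg AHom.map hfac)⟩

/-- gluing two homomorphisms out of free algebras on closed sets -/
theorem exists_glue {D : Thy.{u}} {Δ : Ctx D.Op} {B C : VSet Δ.Var} (hB : Closed D.toSig Δ B)
    (hC : Closed D.toSig Δ C) {E : Alg D.toSig} (f : AHom (Fr D Δ B) E) (g : AHom (Fr D Δ C) E)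
    (hfg : ∀ n x hb hc, f.map.app n (fv x hb) = g.map.app n (fv x hc)) :
    ∃ k : AHom (Fr D Δ fun n x => B n x ∨ C n x) E,
      (frIncl fun _ _ h => Or.inl h.mem).comp k = f ∧
      (frIncl fun _ _ h => Or.inr h.mem).comp k = g := by
  have hv : Valid Δ E.str fun n x y => f.asg n x y ∨ g.asg n x y := by
    constructor
    · rintro n x y y' (h | h) (h' | h')
      · exact f.asg_valid.func _ _ _ _ h h'
      · obtain ⟨hb, rfl⟩ := h; obtain ⟨hc, rfl⟩ := h'; exact hfg _ _ _ _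
      · obtain ⟨hb, rfl⟩ := h'; obtain ⟨hc, rfl⟩ := h; exact (hfg _ _ _ _).symm
      · exact g.asg_valid.func _ _ _ _ h h'
    · rintro n x y (h | h)
      · exact (f.asg_valid.law n x y h).imp
          (Eval.mono (fun _ _ _ _ _ h => h) fun _ _ _ h => Or.inl h)
          (Eval.mono (fun _ _ _ _ _ h => h) fun _ _ _ h => Or.inl h)
      · exact (g.asg_valid.law n x y h).imp
          (Eval.mono (fun _ _ _ _ _ h => h) fun _ _ _ h => Or.inr h)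
          (Eval.mono (fun _ _ _ _ _ h => h) fun _ _ _ h => Or.inr h)
  have ht : ∀ n x, OK D.toSig Δ (fun n x => B n x ∨ C n x) (.var x) →
      ∃ y, f.asg n x y ∨ g.asg n x y := fun n x h => h.mem.elim
    (fun h => ⟨_, Or.inl ⟨hB n x h, rfl⟩⟩) fun h => ⟨_, Or.inr ⟨hC n x h, rfl⟩⟩
  exact ⟨lift hv ht, fr_ext fun n x hx => lift_eq hv ht (.var (Or.inl ⟨hx, rfl⟩)),
    fr_ext fun n x hx => lift_eq hv ht (.var (Or.inr ⟨hx, rfl⟩))⟩

/-- **Pushouts** of inclusions in `W L`. -/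
theorem WI.pushout (hP : PJ D.toThy L) {A B C : VSet Δ.Var} (hA : Closed D.toSig Δ A)
    (hB : Closed D.toSig Δ B) (hC : Closed D.toSig Δ C) (h : WI D.toThy L Δ A B)
    (hAC : ∀ n x, A n x → C n x) (hBC : ∀ n x, B n x → C n x → A n x) :
    WI D.toThy L Δ C fun n x => B n x ∨ C n x := by
  refine LLP.wi hP hC (h := fun _ _ h => Or.inr h.mem) fun E B' p hp f g hfg => ?_
  obtain ⟨l, hl1, hl2⟩ := h.llp hP hA hB E B' p hp
    ((frIncl fun n x hx => hAC n x hx.mem).comp f)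
    ((frIncl fun _ _ h => Or.inl h.mem).comp g) (by rw [AHom.comp_assoc, hfg]; rfl)
  obtain ⟨k, hk1, hk2⟩ := exists_glue hB hC l f fun n x hb hc =>
    AHom.app_eq hl1 n (fv x (hA n x (hBC n x hb.mem hc.mem)))
  refine ⟨k, hk2, fr_ext fun n x hx => ?_⟩
  rcases hx.mem with h' | h'
  · exact (congrArg (p.map.app n) (AHom.app_eq hk1 n (fv x (hB n x h')))).trans
      (AHom.app_eq hl2 n (fv x (hB n x h')))
  · exact (congrArg (p.map.app n) (AHom.app_eq hk2 n (fv x (hC n x h')))).trans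
      (AHom.app_eq hfg n (fv x (hC n x h')))

end

/-! ## Natural lifting -/

section NatLift

variable {D : Thy.{u}} {𝒞 : SCat.{u}} {F : FCtx D.Op 𝒞}

/-- the new variables form a sum of representable functors -/
structure Cells (F : FCtx D.Op 𝒞) (V V' : ∀ c, VSet (F.Δ c).Var) where
  Gen : ℕ → Type u
  ar : ∀ {n}, Gen n → 𝒞.Obj
  gv : ∀ {n} (γ : Gen n), (F.Δ (ar γ)).Var n
  mem : ∀ n (γ : Gen n), V' _ n (gv γ)
  new : ∀ n (γ : Gen n) c (φ : 𝒞.Hom (ar γ) c), ¬V c n (F.ren φ n (gv γ))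
  ex : ∀ c n x, V' c n x → ¬V c n x → ∃ (γ : Gen n) (φ : 𝒞.Hom (ar γ) c), F.ren φ n (gv γ) = x
  uniq : ∀ c n (γ γ' : Gen n) (φ : 𝒞.Hom (ar γ) c) (φ' : 𝒞.Hom (ar γ') c),
    F.ren φ n (gv γ) = F.ren φ' n (gv γ') →
      (⟨γ, φ⟩ : Σ γ : Gen n, 𝒞.Hom (ar γ) c) = ⟨γ', φ'⟩

/-- a natural lifting problem -/
structure NatProb (F : FCtx D.Op 𝒞) (V V' : ∀ c, VSet (F.Δ c).Var) where
  hV : F.Stable V
  hV' : F.Stable V'
  cl : ∀ c, Closed D.toSig (F.Δ c) (V c)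
  cl' : ∀ c, Closed D.toSig (F.Δ c) (V' c)
  sub : ∀ c n x, OK D.toSig (F.Δ c) (V c) (.var x) → V' c n x
  P : AFun D.toSig 𝒞
  Q : AFun D.toSig 𝒞
  p : ∀ c, AHom (P.obj c) (Q.obj c)
  p_nat : ∀ a b (φ : 𝒞.Hom a b), (P.map φ).comp (p b) = (p a).comp (Q.map φ)
  a : ∀ c, AHom (Fr D (F.Δ c) (V c)) (P.obj c)
  a_nat : ∀ b c (φ : 𝒞.Hom b c), ((FCtx.alg V hV).map φ).comp (a c) = (a b).comp (P.map φ)
  g : ∀ c, AHom (Fr D (F.Δ c) (V' c)) (Q.obj c)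
  g_nat : ∀ b c (φ : 𝒞.Hom b c), ((FCtx.alg V' hV').map φ).comp (g c) = (g b).comp (Q.map φ)
  sq : ∀ c, (a c).comp (p c) = (frIncl (sub c)).comp (g c)

namespace NatProb

variable {V V' : ∀ c, VSet (F.Δ c).Var} (N : NatProb F V V') (C : Cells F V V')

/-- partial choices of lifts of the generators -/
abbrev Ch := ∀ n (γ : C.Gen n), (N.P.obj (C.ar γ)).G.cell n → Prop

variable {C}

def asg (ℓ : N.Ch C) (c : 𝒞.Obj) : Asg (F.Δ c).Var (N.P.obj c).G := fun n x y =>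
  (N.a c).asg n x y ∨ ∃ (γ : C.Gen n) (φ : 𝒞.Hom (C.ar γ) c) (y0 : _), ℓ n γ y0 ∧
    F.ren φ n (C.gv γ) = x ∧ (N.P.map φ).map.app n y0 = y

structure Inv (ℓ : N.Ch C) : Prop where
  func : ∀ n γ y y', ℓ n γ y → ℓ n γ y' → y = y'
  law : ∀ n (γ : C.Gen (n + 1)) y, ℓ _ γ y →
    Eval (N.P.obj _).str.op (N.asg ℓ _) ((F.Δ _).src (C.gv γ)) ((N.P.obj _).G.src n y) ∧
    Eval (N.P.obj _).str.op (N.asg ℓ _) ((F.Δ _).tgt (C.gv γ)) ((N.P.obj _).G.tgt n y)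
  above : ∀ n γ y, ℓ n γ y → (N.g _).asg n (C.gv γ) ((N.p _).map.app n y)

variable {N}

theorem asg_mono {ℓ ℓ' : N.Ch C} (h : ∀ n γ y, ℓ n γ y → ℓ' n γ y) (c : 𝒞.Obj) (n x y)
    (hx : N.asg ℓ c n x y) : N.asg ℓ' c n x y :=
  hx.imp id fun ⟨γ, φ, y0, a, b⟩ => ⟨γ, φ, y0, h _ _ _ a, b⟩

theorem ev_mono {ℓ ℓ' : N.Ch C} (h : ∀ n γ y, ℓ n γ y → ℓ' n γ y) {c : 𝒞.Obj} {n : ℕ}
    {t : Tm D.Op (F.Δ c).Var n} {y} (e : Eval (N.P.obj c).str.op (N.asg ℓ c) t y) :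
    Eval (N.P.obj c).str.op (N.asg ℓ' c) t y := e.mono (fun _ _ _ _ _ h => h) (asg_mono h c)

theorem asg_ren (ℓ : N.Ch C) {b c : 𝒞.Obj} (φ : 𝒞.Hom b c) (n x y) (h : N.asg ℓ b n x y) :
    N.asg ℓ c n (F.ren φ n x) ((N.P.map φ).map.app n y) := by
  rcases h with ⟨hx, rfl⟩ | ⟨γ, ψ, y0, h1, rfl, rfl⟩
  · exact Or.inl ⟨N.hV.ok φ hx, AHom.app_eq (N.a_nat b c φ) n (fv x hx)⟩
  · exact Or.inr ⟨γ, 𝒞.comp ψ φ, y0, h1, F.ren_comp _ _ _ _, by rw [N.P.map_comp]; rfl⟩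

theorem ev_ren (ℓ : N.Ch C) {b c : 𝒞.Obj} (φ : 𝒞.Hom b c) {n : ℕ} {t : Tm D.Op (F.Δ b).Var n} {y}
    (h : Eval (N.P.obj b).str.op (N.asg ℓ b) t y) :
    Eval (N.P.obj c).str.op (N.asg ℓ c) (t.ren (F.ren φ)) ((N.P.map φ).map.app n y) :=
  Eval.ren (ρ := fun n v y => N.asg ℓ c n (F.ren φ n v) y) (r := F.ren φ) (fun _ _ _ h => h)
    (h.map (N.P.map φ).map (N.P.map φ).hom (asg_ren ℓ φ))

theorem Inv.valid {ℓ : N.Ch C} (h : N.Inv ℓ) (c : 𝒞.Obj) :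
    Valid (F.Δ c) (N.P.obj c).str (N.asg ℓ c) := by
  constructor
  · rintro n x y y' (h1 | ⟨γ, φ, y0, h1, rfl, rfl⟩) (h2 | ⟨γ', φ', y0', h2, e, rfl⟩)
    · exact (N.a c).asg_valid.func _ _ _ _ h1 h2
    · exact absurd (e ▸ h1.1.mem) (C.new n γ' c φ')
    · exact absurd h2.1.mem (C.new n γ c φ)
    · cases C.uniq c n γ' γ φ' φ e
      rw [h.func _ _ _ _ h1 h2]
  · rintro n x y (h1 | ⟨γ, φ, y0, h1, rfl, rfl⟩)
    · exact ((N.a c).asg_valid.law n x y h1).imp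
        (Eval.mono (fun _ _ _ _ _ h => h) fun _ _ _ h => Or.inl h)
        (Eval.mono (fun _ _ _ _ _ h => h) fun _ _ _ h => Or.inl h)
    · rw [F.src_ren, F.tgt_ren, ← (N.P.map φ).map.app_src, ← (N.P.map φ).map.app_tgt]
      exact (h.law n γ y0 h1).imp (ev_ren ℓ φ) (ev_ren ℓ φ)

theorem Inv.asg_above {ℓ : N.Ch C} (h : N.Inv ℓ) (c : 𝒞.Obj) (n x y) (hx : N.asg ℓ c n x y) :
    (N.g c).asg n x ((N.p c).map.app n y) := by
  rcases hx with ⟨hx, rfl⟩ | ⟨γ, φ, y0, h1, rfl, rfl⟩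
  · exact ⟨hx.mono' (N.sub c), (AHom.app_eq (N.sq c) n (fv x hx)).symm⟩
  · obtain ⟨h2, h3⟩ := h.above n γ y0 h1
    refine ⟨N.hV'.ok φ h2, (AHom.app_eq (N.g_nat _ c φ) n (fv _ h2)).trans ?_⟩
    refine Eq.trans ?_ (AHom.app_eq (N.p_nat _ c φ) n y0).symm
    exact congrArg ((N.Q.map φ).map.app n) h3

theorem step (hI : ∀ n (γ : C.Gen n), ILift (N.p (C.ar γ)).map n) (α : ℕ) (ℓ : N.Ch C)
    (h : N.Inv ℓ) (hd : ∀ n γ, Hgt D.toSig _ α ⟨n, .var (C.gv γ)⟩ → ∃ y, ℓ n γ y) :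
    ∃ ℓ' : N.Ch C, (N.Inv ℓ' ∧ ∀ n γ, Hgt D.toSig _ (α + 1) ⟨n, .var (C.gv γ)⟩ → ∃ y, ℓ' n γ y) ∧
      ∀ n γ y, ℓ n γ y → ℓ' n γ y := by
  have ev : ∀ c {n : ℕ} {t : Tm D.Op (F.Δ c).Var n}, OK D.toSig _ (V' c) t →
      Hgt D.toSig _ α ⟨n, t⟩ → ∃ y, Eval (N.P.obj c).str.op (N.asg ℓ c) t y := by
    intro c n t ht hα
    refine (h.valid c).total (N.P.obj c).total (fun k x hx => ?_) (ht.of_hgt hα)
    by_cases hV : V c k x
    · exact ⟨_, Or.inl ⟨N.cl c k x hV, rfl⟩⟩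
    · obtain ⟨γ, φ, rfl⟩ := C.ex c k x hx.mem.1 hV
      obtain ⟨y, hy⟩ := hd k γ (Hgt.of_subst (F.bp φ _) (a := ⟨k, .var (C.gv γ)⟩)
        (N.cl' _ _ _ (C.mem k γ)) hx.mem.2)
      exact ⟨_, Or.inr ⟨γ, φ, y, hy, rfl, rfl⟩⟩
  have evp : ∀ c {n : ℕ} {t : Tm D.Op (F.Δ c).Var n} {y} (ht : OK D.toSig _ (V' c) t),
      Eval (N.P.obj c).str.op (N.asg ℓ c) t y →
      (N.g c).map.app n ⟨t, ht⟩ = (N.p c).map.app n y := fun c _ _ _ ht e =>
    (N.g c).asg_valid.uniq ((N.g c).eval ⟨_, ht⟩)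
      (Eval.map (N.p c).map (N.p c).hom (h.asg_above c) e)
  have key : ∀ n (γ : C.Gen n), Hgt D.toSig _ (α + 1) ⟨n, .var (C.gv γ)⟩ →
      ∃ y : (N.P.obj (C.ar γ)).G.cell n, (N.g _).asg n (C.gv γ) ((N.p _).map.app n y) ∧
        ∀ m (e : n = m + 1), Eval (N.P.obj _).str.op (N.asg ℓ _)
          ((F.Δ (C.ar γ)).src (e ▸ C.gv γ)) ((N.P.obj _).G.src m (e ▸ y)) ∧
        Eval (N.P.obj _).str.op (N.asg ℓ _)
          ((F.Δ (C.ar γ)).tgt (e ▸ C.gv γ)) ((N.P.obj _).G.tgt m (e ▸ y)) := by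
    intro n γ hγ
    have hx := N.cl' _ _ _ (C.mem n γ)
    cases n with
    | zero =>
      obtain ⟨y, hy⟩ := (hI 0 γ).zero ((N.g _).map.app 0 (fv _ hx))
      exact ⟨y, ⟨hx, hy.symm⟩, fun m e => by omega⟩
    | succ n =>
      obtain ⟨s, hs⟩ := ev _ hx.src (hγ _ (.src _))
      obtain ⟨t, ht⟩ := ev _ hx.tgt (hγ _ (.tgt _))
      obtain ⟨y, h1, h2, h3⟩ := (hI _ γ).succ ((h.valid _).par hx.par hs ht)
        ((N.g _).map.app _ (fv _ hx)) (by rw [← (N.g _).map.app_src]; exact evp _ hx.src hs)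
        (by rw [← (N.g _).map.app_tgt]; exact evp _ hx.tgt ht)
      refine ⟨y, ⟨hx, h3.symm⟩, fun m e => ?_⟩
      cases e
      exact ⟨h1 ▸ hs, h2 ▸ ht⟩
  choose fi hfi using key
  let ℓ' : N.Ch C := fun n γ y => ℓ n γ y ∨ ((¬∃ y, ℓ n γ y) ∧ ∃ hγ, y = fi n γ hγ)
  have sub : ∀ n γ y, ℓ n γ y → ℓ' n γ y := fun _ _ _ h => Or.inl h
  refine ⟨ℓ', ⟨⟨?_, ?_, ?_⟩, fun n γ hγ => ?_⟩, sub⟩
  · rintro n γ y y' (h1 | ⟨h1, hγ, rfl⟩) (h2 | ⟨h2, hγ', rfl⟩)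
    · exact h.func _ _ _ _ h1 h2
    · exact absurd ⟨_, h1⟩ h2
    · exact absurd ⟨_, h2⟩ h1
    · rfl
  · rintro n γ y (h1 | ⟨-, hγ, rfl⟩)
    · exact (h.law n γ y h1).imp (ev_mono sub) (ev_mono sub)
    · exact ((hfi _ γ hγ).2 n rfl).imp (ev_mono sub) (ev_mono sub)
  · rintro n γ y (h1 | ⟨-, hγ, rfl⟩)
    · exact h.above n γ y h1
    · exact (hfi n γ hγ).1
  · by_cases h1 : ∃ y, ℓ n γ y
    · exact h1.imp fun _ h => Or.inl h
    · exact ⟨_, Or.inr ⟨h1, hγ, rfl⟩⟩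

variable (N C) in
/-- **Natural lifting.** -/
theorem exists_lift (hI : ∀ n (γ : C.Gen n), ILift (N.p (C.ar γ)).map n) :
    ∃ l : ∀ c, AHom (Fr D (F.Δ c) (V' c)) (N.P.obj c),
      (∀ c, (frIncl (N.sub c)).comp (l c) = N.a c ∧ (l c).comp (N.p c) = N.g c) ∧
      ∀ b c (φ : 𝒞.Hom b c), ((FCtx.alg V' N.hV').map φ).comp (l c) = (l b).comp (N.P.map φ) := by
  obtain ⟨G, -, hG⟩ := exists_chain (fun α (ℓ : N.Ch C) => N.Inv ℓ ∧
      ∀ n γ, Hgt D.toSig _ α ⟨n, .var (C.gv γ)⟩ → ∃ y, ℓ n γ y)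
    (fun ℓ ℓ' => ∀ n γ y, ℓ n γ y → ℓ' n γ y) (fun _ _ _ => False)
    ⟨⟨fun _ _ _ _ h => h.elim, fun _ _ _ h => h.elim, fun _ _ _ h => h.elim⟩,
      fun _ _ h => h.elim⟩ fun α ℓ h => step hI α ℓ h.1 h.2
  have mono : ∀ r r', r ≤ r' → ∀ n γ y, G r n γ y → G r' n γ y := by
    intro r r' h
    induction h with
    | refl => exact fun _ _ _ h => h
    | step _ ih => exact fun n γ y h => (hG _).2 n γ y (ih n γ y h)
  let ℓ : N.Ch C := fun n γ y => ∃ r, G r n γ y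
  have hℓ : N.Inv ℓ := by
    refine ⟨?_, ?_, ?_⟩
    · rintro n γ y y' ⟨r, h⟩ ⟨r', h'⟩
      exact (hG (r + r')).1.1.func _ _ _ _ (mono _ _ (by omega) _ _ _ h)
        (mono _ _ (by omega) _ _ _ h')
    · rintro n γ y ⟨r, h⟩
      exact ((hG r).1.1.law n γ y h).imp (ev_mono fun _ _ _ h => ⟨r, h⟩)
        (ev_mono fun _ _ _ h => ⟨r, h⟩)
    · rintro n γ y ⟨r, h⟩
      exact (hG r).1.1.above n γ y h
  have ht : ∀ c n x, OK D.toSig (F.Δ c) (V' c) (.var x) → ∃ y, N.asg ℓ c n x y := by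
    intro c n x hx
    by_cases hV : V c n x
    · exact ⟨_, Or.inl ⟨N.cl c n x hV, rfl⟩⟩
    · obtain ⟨γ, φ, rfl⟩ := C.ex c n x hx.mem hV
      obtain ⟨α, hα⟩ := (N.cl' _ _ _ (C.mem n γ)).hgt
      obtain ⟨y, hy⟩ := (hG α).1.2 n γ hα
      exact ⟨_, Or.inr ⟨γ, φ, y, ⟨α, hy⟩, rfl, rfl⟩⟩
  refine ⟨fun c => lift (hℓ.valid c) (ht c), fun c => ⟨fr_ext fun n x hx => ?_,
    fr_ext fun n x hx => ?_⟩, fun b c φ => fr_ext fun n x hx => ?_⟩
  · exact lift_eq (hℓ.valid c) (ht c) (.var (Or.inl ⟨hx, rfl⟩))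
  · obtain ⟨_, e⟩ := hℓ.asg_above c _ _ _ (lift_var (hℓ.valid c) (ht c) x hx)
    exact e.symm
  · exact lift_eq (hℓ.valid c) (ht c)
      (.var (asg_ren ℓ φ _ _ _ (lift_var (hℓ.valid b) (ht b) x hx)))

end NatProb

end NatLift

/-- **Gluing lemma** for functorial contexts. -/
theorem gluing {D : Coh.{u}} {L : ℕ} (hP : PJ D.toThy L) {𝒞 : SCat.{u}} {F : FCtx D.Op 𝒞}
    {V V' : ∀ c, VSet (F.Δ c).Var} (hV : FCtx.Stable (D := D.toThy) F V)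
    (hV' : FCtx.Stable (D := D.toThy) F V')
    (cl : ∀ c, Closed D.toSig (F.Δ c) (V c)) (cl' : ∀ c, Closed D.toSig (F.Δ c) (V' c))
    (sub : ∀ c n x, V c n x → V' c n x) (C : Cells (D := D.toThy) F V V')
    (h : ∀ n (γ : C.Gen n), WI D.toThy L (F.Δ (C.ar γ)) (V _) (V' _)) (c : 𝒞.Obj) :
    WI D.toThy L (F.Δ c) (V c) (V' c) := by
  let I : SOAIn D.toThy 𝒞 :=
    { F := F
      V := V
      stable := hV
      closed := cl
      R := FCtx.alg V' hV'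
      f := fun c => frIncl fun n x hx => sub c n x hx.mem
      nat := fun _ _ _ => rfl
      L := L }
  have hw : ∀ c, W L ((I.e c).comp (frIncl (I.J c).sub')).map := fun c =>
    W.comp (Z := Fr D.toThy (I.Δ c) (I.U' c))
      (W_of_bij (Y := Fr D.toThy (I.Δ c) (I.U c)) (I.e_bij c) L)
      ((I.J c).W_of_idim hP (I.J_idim c)).2
  let N : NatProb (D := D.toThy) F V V' :=
    { hV := hV
      hV' := hV'
      cl := cl
      cl' := cl'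
      sub := fun c n x hx => sub c n x hx.mem
      P := FCtx.alg (F := I.F') I.U' (I.vs_stable _)
      Q := FCtx.alg V' hV'
      p := I.p
      p_nat := fun _ _ φ => I.p_nat φ
      a := fun c => (I.e c).comp (frIncl (I.J c).sub')
      a_nat := fun _ _ _ => fr_ext fun _ _ _ => rfl
      g := fun _ => AHom.id _
      g_nat := fun _ _ _ => rfl
      sq := I.p_fac }
  obtain ⟨l, hl, -⟩ := N.exists_lift C fun n γ => (I.fib _).tfib (W.of_comp_right (hw _) (by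
    rw [← AHom.comp_map, I.p_fac]; exact (h n γ).2)) n
  exact ⟨N.sub c, (hw c).retract (GMap.id _) (GMap.id _) (l c).map (I.p c).map rfl
    (congrArg AHom.map (hl c).2) (congrArg AHom.map (hl c).1).symm
    (congrArg AHom.map (I.p_fac c))⟩

end Crest.Agent.R248
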