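import Crest.Agent.R248.SigEmb

/-!
# Row 248: interpreting a coherator in a tower of theories.
-/

set_option autoImplicit false

namespace Crest.Agent.R248

open Crest.GeometryTopology.Coherator

universe u

/-- a tower of theories acting on the algebras of `D`, each stage filling the spheres of the
previous one over the fillers in `D` -/
structure ThyTower (D : Coh.{u}) where
  Γ : ℕ → Thy.{u}
  e : ∀ s, SigEmb (Γ s).toSig (Γ (s + 1)).toSig
  dst : ∀ (s : ℕ) (W : Alg D.toSig), Str (Γ s).toSig W.G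
  total : ∀ s W, (dst s W).Total
  act : ∀ s W, (dst s W).Act
  nat : ∀ (s : ℕ) {W W' : Alg D.toSig} (f : AHom W W'), IsHom (dst s W).op (dst s W').op f.map
  compat : ∀ s W, IsHom (dst s W).op ((dst (s + 1) W).res (e s)).op (GMap.id _)
  fill : ∀ s (A : Tr) (n : ℕ), RLift
    (ext (D := Γ s) (Y := (FrT (Γ (s + 1)) A).res (e s)) (η (Γ (s + 1)) (posG A))).map
    (ext (D := Γ s) (Y := ⟨_, dst s (FrT D.toThy A), total _ _, act _ _⟩) (η D.toThy (posG A))).map
    (ext (D := Γ (s + 1)) (Y := ⟨_, dst (s + 1) (FrT D.toThy A), total _ _, act _ _⟩)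
      (η D.toThy (posG A))).map (n + 1)

/-- a globular set with compatible structures for all stages -/
structure ThyTower.Seq {D : Coh.{u}} (T : ThyTower D) (G : GS.{u}) where
  str : ∀ s, Str (T.Γ s).toSig G
  total : ∀ s, (str s).Total
  act : ∀ s, (str s).Act
  compat : ∀ s, IsHom (str s).op ((str (s + 1)).res (T.e s)).op (GMap.id _)

/-- dependent chain construction -/
theorem exists_dchain {α : ℕ → Sort*} (P : ∀ r, α r → Prop) (le : ∀ r, α r → α (r + 1) → Prop)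
    (a0 : α 0) (h0 : P 0 a0) (hs : ∀ r a, P r a → ∃ b, P (r + 1) b ∧ le r a b) :
    ∃ f : ∀ r, α r, ∀ r, P r (f r) ∧ le r (f r) (f (r + 1)) := by
  choose g hg using hs
  let F : (r : ℕ) → {a // P r a} := fun r =>
    Nat.rec (motive := fun r => {a // P r a}) ⟨a0, h0⟩ (fun r a => ⟨g r a.1 a.2, (hg r a.1 a.2).1⟩) r
  exact ⟨fun r => (F r).1, fun r => ⟨(F r).2, (hg r (F r).1 (F r).2).2⟩⟩

namespace ThyTower

variable {D : Coh.{u}} (T : ThyTower D)

/-- an algebra of `D` as an algebra of stage `s` -/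
abbrev dstA (s : ℕ) (W : Alg D.toSig) : Alg (T.Γ s).toSig :=
  ⟨W.G, T.dst s W, T.total _ _, T.act _ _⟩

/-- the algebra of stage `s` of a compatible sequence -/
abbrev Seq.alg {T : ThyTower D} {G : GS.{u}} (X : T.Seq G) (s : ℕ) : Alg (T.Γ s).toSig :=
  ⟨G, X.str s, X.total s, X.act s⟩

/-- natural partial interpretations of the symbols of index `< s` in algebras of stage `s` -/
structure Part (s : ℕ) (P : ∀ X : Alg (T.Γ s).toSig, Str D.toSig X.G) : Prop where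
  dom : ∀ X A n (γ : D.Op A n) τ, (∃ y, (P X).op A n γ τ y) ↔ D.ok γ ∧ n < s
  nat : ∀ X X' (f : AHom X X'), IsHom (P X).op (P X').op f.map
  above : ∀ W, IsHom (P (T.dstA s W)).op W.str.op (GMap.id _)

theorem Part.step (s : ℕ) (P : ∀ X : Alg (T.Γ s).toSig, Str D.toSig X.G) (h : T.Part s P) :
    ∃ P' : ∀ X : Alg (T.Γ (s + 1)).toSig, Str D.toSig X.G, T.Part (s + 1) P' ∧
      ∀ X, IsHom (P (X.res (T.e s))).op (P' X).op (GMap.id _) := by
  have key : ∀ A (γ : D.Op A s) (hγ : D.ok γ), ∃ z : (FrT (T.Γ (s + 1)) A).G.cell (s + 1),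
      (∀ (X : Alg (T.Γ (s + 1)).toSig) (τ : GMap (posG A) X.G),
        Eval (P (X.res (T.e s))).op (gr τ.app) (D.src γ) (X.G.src s ((ext τ).map.app _ z)) ∧
        Eval (P (X.res (T.e s))).op (gr τ.app) (D.tgt γ) (X.G.tgt s ((ext τ).map.app _ z))) ∧
      ∀ (W : Alg D.toSig) (τ : GMap (posG A) W.G),
        W.str.op A s γ τ ((ext (Y := T.dstA (s + 1) W) τ).map.app _ z) := by
    intro A γ hγ
    have v := Valid.ofGS (P (FrT (T.Γ s) A)) (η (T.Γ s) (posG A))
    have tot : ∀ {t : Tm D.Op (Pos A) s}, OK D.toSig (Ctx.ofGS D.Op (posG A)) ⊤ t →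
        ∃ y, Eval (P (FrT (T.Γ s) A)).op (gr (η (T.Γ s) (posG A)).app) t y := fun ht =>
      Valid.total_dim D.dim_le v (N := s) (fun A k γ h1 h2 τ => (h.dom _ A k γ τ).2 ⟨h1, h2⟩)
        (fun _ _ _ => ⟨_, rfl⟩) ht le_rfl
    obtain ⟨a, ha⟩ := tot (D.wf.src hγ)
    obtain ⟨b, hb⟩ := tot (D.wf.tgt hγ)
    have tr : ∀ {t : Tm D.Op (Pos A) s} {y}, Eval (P (FrT (T.Γ s) A)).op
        (gr (η (T.Γ s) (posG A)).app) t y → ∀ {X : Alg (T.Γ s).toSig} (τ : GMap (posG A) X.G),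
        Eval (P X).op (gr τ.app) t ((ext τ).map.app _ y) := fun ht _ τ =>
      ht.map (ext τ).map (h.nat _ _ _) fun n x _ e => e ▸ (ext_η_app τ n x).symm
    have v' := Valid.ofGS (FrT D.toThy A).str (η D.toThy (posG A))
    obtain ⟨l1, l2⟩ := (FrT D.toThy A).str.law _ _ _ _ _ (fop_op γ hγ (η D.toThy (posG A)))
    have ab : ∀ A' n γ τ y, (P (T.dstA s (FrT D.toThy A))).op A' n γ τ y →
        (FrT D.toThy A).str.op A' n γ τ y := h.above _
    obtain ⟨z, hz, hz'⟩ := T.fill s A s ⟨(a, b), v.par (D.wf.par hγ) ha hb⟩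
      (fop γ hγ (η D.toThy (posG A))) ((bdry_eq_iff _ _).2
        ⟨v'.uniq l1 ((tr ha (X := T.dstA s (FrT D.toThy A)) _).mono ab fun _ _ _ e => e),
          v'.uniq l2 ((tr hb (X := T.dstA s (FrT D.toThy A)) _).mono ab fun _ _ _ e => e)⟩)
    obtain ⟨z1, z2⟩ := (bdry_eq_iff _ _).1 hz
    refine ⟨z, fun X τ => ?_, fun W τ => ?_⟩
    · have e : ext (D := T.Γ s) (Y := X.res (T.e s)) τ =
          (ext (D := T.Γ s) (Y := (FrT (T.Γ (s + 1)) A).res (T.e s))
            (η (T.Γ (s + 1)) (posG A))).comp ((ext τ).res (T.e s)) := by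
        rw [ext_comp]
        exact congrArg _ (η_ext τ).symm
      have h1 := tr ha (X := X.res (T.e s)) τ
      have h2 := tr hb (X := X.res (T.e s)) τ
      rw [e] at h1 h2
      rw [← (ext τ).map.app_src, ← (ext τ).map.app_tgt, z1, z2]
      exact ⟨h1, h2⟩
    · have e : ext (D := T.Γ (s + 1)) (Y := T.dstA (s + 1) W) τ =
          (ext (D := T.Γ (s + 1)) (Y := T.dstA (s + 1) (FrT D.toThy A))
            (η D.toThy (posG A))).comp ⟨(ext τ).map, T.nat (s + 1) (ext τ)⟩ := by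
        rw [ext_comp]
        exact congrArg _ (η_ext τ).symm
      rw [e]
      exact (op_iff_ext hγ τ _).2 (congrArg ((ext τ).map.app _) hz'.symm)
  choose Z hZ1 hZ2 using key
  have lt : ∀ X A n γ τ y, (P X).op A n γ τ y → n < s := fun X A n γ τ y hy =>
    ((h.dom X A n γ τ).1 ⟨y, hy⟩).2
  let P' : ∀ X : Alg (T.Γ (s + 1)).toSig, Str D.toSig X.G := fun X =>
    { op := fun A n γ τ y => (P (X.res (T.e s))).op A n γ τ y ∨
        ∃ (e : n = s) (hγ : D.ok (e ▸ γ)),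
          (ext τ).map.app _ (Z A (e ▸ γ) hγ) = (e ▸ y : X.G.cell (s + 1))
      func := by
        rintro A n γ τ y y' (hy | ⟨rfl, hγ, hy⟩) (hy' | ⟨e, hγ', hy'⟩)
        · exact (P (X.res (T.e s))).func _ _ _ _ _ _ hy hy'
        · exact absurd (lt _ _ _ _ _ _ hy) (by omega)
        · exact absurd (lt _ _ _ _ _ _ hy') (by omega)
        · exact hy.symm.trans hy'
      law := by
        rintro A n γ τ y (hy | ⟨rfl, hγ, hy⟩)
        · obtain ⟨h1, h2⟩ := (P (X.res (T.e s))).law _ _ _ _ _ hy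
          exact ⟨h1.mono (fun _ _ _ _ _ h => Or.inl h) fun _ _ _ h => h,
            h2.mono (fun _ _ _ _ _ h => Or.inl h) fun _ _ _ h => h⟩
        · obtain rfl : _ = y := hy
          obtain ⟨h1, h2⟩ := hZ1 A γ hγ X τ
          exact ⟨h1.mono (fun _ _ _ _ _ h => Or.inl h) fun _ _ _ h => h,
            h2.mono (fun _ _ _ _ _ h => Or.inl h) fun _ _ _ h => h⟩ }
  refine ⟨P', ⟨fun X A n γ τ => ⟨?_, ?_⟩, ?_, ?_⟩, fun X _ _ _ _ _ hy => Or.inl hy⟩
  · rintro ⟨y, hy | ⟨rfl, hγ, -⟩⟩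
    · exact ⟨((h.dom (X.res (T.e s)) A n γ τ).1 ⟨y, hy⟩).1,
        (lt _ _ _ _ _ _ hy).trans (Nat.lt_succ_self _)⟩
    · exact ⟨hγ, Nat.lt_succ_self _⟩
  · rintro ⟨h1, h2⟩
    by_cases e : n = s
    · subst e
      exact ⟨_, Or.inr ⟨rfl, h1, rfl⟩⟩
    · obtain ⟨y, hy⟩ := (h.dom (X.res (T.e s)) A n γ τ).2 ⟨h1, by omega⟩
      exact ⟨y, Or.inl hy⟩
  · rintro X X' f A n γ τ y (hy | ⟨rfl, hγ, hy⟩)
    · exact Or.inl (h.nat _ _ (f.res (T.e s)) _ _ _ _ _ hy)
    · obtain rfl : _ = y := hy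
      refine Or.inr ⟨rfl, hγ, ?_⟩
      rw [← ext_comp]
      rfl
  · rintro W A n γ τ y (hy | ⟨rfl, hγ, hy⟩)
    · obtain ⟨y', hy'⟩ := (h.dom (T.dstA s W) A n γ τ).2
        ((h.dom ((T.dstA (s + 1) W).res (T.e s)) A n γ τ).1 ⟨y, hy⟩)
      have h1 := h.nat (T.dstA s W) ((T.dstA (s + 1) W).res (T.e s)) ⟨_, T.compat s W⟩
        _ _ _ _ _ hy'
      obtain rfl : y' = y := (P ((T.dstA (s + 1) W).res (T.e s))).func _ _ _ _ _ _ h1 hy
      exact h.above W _ _ _ _ _ hy'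
    · obtain rfl : _ = y := hy
      exact hZ2 A γ hγ W τ

end ThyTower

/-- Recipe.  By recursion on `s` (a dependent version of `exists_chain`: `Nat.rec` into a subtype
after `choose`) construct partial structures `P s X : Str D.toSig X.G` for all
`X : Alg (T.Γ s).toSig` such that: `P s X` is defined exactly on the active symbols of index `< s`
(total there, `Act`); it is natural in homomorphisms `X → X'`;
`IsHom (P s (X'.res e)).op (P (s+1) X').op id`; and `IsHom (P s (dst s W)).op W.str.op id`.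
Step: for an active `γ : D.Op A s` evaluate `D.src γ`, `D.tgt γ` in `P s (FrT (Γ s) A)` at `η`
(`Valid.total_dim`, `Valid.ofGS`, `Valid.par`); their images in `FrT D A` are the boundary of
`fop γ _ (η ..)` (naturality and the last property, `Valid.uniq`), so `T.fill` gives
`z γ : (FrT (Γ (s+1)) A).G.cell (s+1)`; put
`P (s+1) X := P s (X.res e) ∪ {(γ, τ, (ext τ) (z γ))}`.  The law at `τ` follows by transporting the
evaluation along `ext τ : FrT (Γ s) A → X.res e`, which equals `(ext η).comp ((ext τ).res e)`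
(`frG_ext`); the last property follows from `op_iff_ext` and naturality of `dst`.
Finally `R G X := ⋃ s, P s ⟨G, X.str s, ..⟩`, an increasing union by naturality along
`X.compat`. -/
theorem ThyTower.exists_interp {D : Coh.{u}} (T : ThyTower D) :
    ∃ R : ∀ G : GS.{u}, T.Seq G → Str D.toSig G, (∀ G X, (R G X).Total ∧ (R G X).Act) ∧
      (∀ G G' (X : T.Seq G) (X' : T.Seq G') (f : GMap G G'),
        (∀ s, IsHom (X.str s).op (X'.str s).op f) → IsHom (R G X).op (R G' X').op f) ∧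
      ∀ G (X : T.Seq G) (W : Alg D.toSig) (q : GMap G W.G),
        (∀ s, IsHom (X.str s).op (T.dst s W).op q) → IsHom (R G X).op W.str.op q := by
  obtain ⟨P, hP⟩ := exists_dchain (α := fun s => ∀ X : Alg (T.Γ s).toSig, Str D.toSig X.G)
    T.Part (fun s P P' => ∀ X, IsHom (P (X.res (T.e s))).op (P' X).op (GMap.id _))
    (fun _ => ⟨fun _ _ _ _ _ => False, fun _ _ _ _ _ _ h => h.elim, fun _ _ _ _ _ h => h.elim⟩)
    ⟨fun _ _ _ _ _ => ⟨fun ⟨_, h⟩ => h.elim, fun h => absurd h.2 (Nat.not_lt_zero _)⟩,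
      fun _ _ _ _ _ _ _ _ h => h.elim, fun _ _ _ _ _ _ h => h.elim⟩ (ThyTower.Part.step T)
  have mono : ∀ {G : GS.{u}} (X : T.Seq G) r r', r ≤ r' → ∀ A n γ τ y,
      (P r (X.alg r)).op A n γ τ y → (P r' (X.alg r')).op A n γ τ y := by
    intro G X r r' h
    induction h with
    | refl => exact fun _ _ _ _ _ h => h
    | @step k _ ih =>
      exact fun A n γ τ y h => (hP k).2 (X.alg (k + 1)) _ _ _ _ _
        ((hP k).1.nat (X.alg k) ((X.alg (k + 1)).res (T.e k)) ⟨_, X.compat k⟩ _ _ _ _ _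
          (ih _ _ _ _ _ h))
  let R : ∀ G : GS.{u}, T.Seq G → Str D.toSig G := fun G X =>
    { op := fun A n γ τ y => ∃ r, (P r (X.alg r)).op A n γ τ y
      func := by
        rintro A n γ τ y y' ⟨r, h⟩ ⟨r', h'⟩
        exact (P (r + r') (X.alg _)).func _ _ _ _ _ _ (mono X r _ (by omega) _ _ _ _ _ h)
          (mono X r' _ (by omega) _ _ _ _ _ h')
      law := by
        rintro A n γ τ y ⟨r, h⟩
        obtain ⟨h1, h2⟩ := (P r (X.alg r)).law _ _ _ _ _ h
        exact ⟨h1.mono (fun _ _ _ _ _ h => ⟨r, h⟩) fun _ _ _ h => h,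
          h2.mono (fun _ _ _ _ _ h => ⟨r, h⟩) fun _ _ _ h => h⟩ }
  refine ⟨R, fun G X => ⟨fun A n γ hγ τ => ?_, ?_⟩, ?_, ?_⟩
  · obtain ⟨y, hy⟩ := ((hP (n + 1)).1.dom (X.alg _) A n γ τ).2 ⟨hγ, Nat.lt_succ_self _⟩
    exact ⟨y, _, hy⟩
  · rintro A n γ τ y ⟨r, h⟩
    exact (((hP r).1.dom (X.alg r) A n γ τ).1 ⟨y, h⟩).1
  · rintro G G' X X' f hf A n γ τ y ⟨r, h⟩
    exact ⟨r, (hP r).1.nat (X.alg r) (X'.alg r) ⟨f, hf r⟩ _ _ _ _ _ h⟩
  · rintro G X W q hq A n γ τ y ⟨r, h⟩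
    exact (hP r).1.above W _ _ _ _ _
      ((hP r).1.nat (X.alg r) (T.dstA r W) ⟨q, hq r⟩ _ _ _ _ _ h)

end Crest.Agent.R248
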