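import Crest.Agent.R248.WSys

/-!
# Row 248: auxiliary facts for Lemma L (arrows out of disks, faces of disks, terminal objects).
-/

set_option autoImplicit false

namespace Crest.Agent.R248

open Crest.GeometryTopology.Coherator Tr

universe u

variable {D : Thy.{u}} {L : ℕ}

theorem WSys.congr (W : WSys D L) {ℓ : ℕ} {X : Alg D.toSig} {T T' U U' : El X → Prop}
    (h : W.WT ℓ X T T') (h1 : ∀ e, T e ↔ U e) (h2 : ∀ e, T' e ↔ U' e) : W.WT ℓ X U U' := by
  obtain rfl : T = U := funext fun e => propext (h1 e)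
  obtain rfl : T' = U' := funext fun e => propext (h2 e)
  exact h

/-- a chain of equivalences -/
theorem WSys.chain (W : WSys D L) {ℓ : ℕ} {X : Alg D.toSig} (S : ℕ → El X → Prop)
    (hS : Monotone S) (h : ∀ r, W.WT ℓ X (S r) (S (r + 1))) :
    W.WT ℓ X (S 0) fun e => ∃ r, S r e := by
  refine W.union S hS fun r => ?_
  induction r with
  | zero => exact W.refl _ _ _
  | succ r ih => exact W.trans ih (h r)

/-! ### disks -/

theorem laux_disk_inj {n m : ℕ} (h : disk n = disk m) : n = m := by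
  have := congrArg Tr.dim h
  simpa using this

/-- the diagram given by one cell -/
abbrev dk {X : Alg D.toSig} (n : ℕ) (t : X.G.cell n) : El X := ⟨disk n, cls n t⟩

theorem El.map_eq_dk {X X' : Alg D.toSig} (φ : AHom X X') (e : El X) {n : ℕ} {t : X'.G.cell n} :
    e.map φ = dk n t ↔ ∃ s, e = dk n s ∧ φ.map.app n s = t := by
  constructor
  · obtain ⟨B, σ⟩ := e
    intro h
    obtain ⟨rfl, h2⟩ := Sigma.mk.inj h
    have h3 : σ.comp φ.map = cls n t := eq_of_heq h2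
    refine ⟨σ.app n (top n), by rw [dk, ← eq_cls σ], ?_⟩
    have := congrArg (fun f : GMap _ X'.G => f.app n (top n)) h3
    simpa using this
  · rintro ⟨s, rfl, rfl⟩
    simp only [El.map, dk, cls_comp]

theorem dk_gen (n : ℕ) : dk (X := FrT D (disk n)) n ((η D _).app n (top n)) = El.gen (disk n) := by
  rw [dk, El.gen, ← eq_cls (η D (posG (disk n)))]

/-- an arrow out of a disk -/
noncomputable def Arr.ofCell {X : Alg D.toSig} {n : ℕ} {t : X.G.cell n} (e : El X)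
    (f : (FrT D e.1).G.cell n) (h : (ext e.2).map.app n f = t) : Arr (dk n t) e :=
  ⟨cls n f, by rw [cls_comp, h]⟩

/-- the term underlying an arrow out of a disk -/
def Arr.cell {X : Alg D.toSig} {n : ℕ} {t : X.G.cell n} {e : El X} (a : Arr (dk n t) e) :
    (FrT D e.1).G.cell n := a.1.app n (top n)

theorem Arr.cell_spec {X : Alg D.toSig} {n : ℕ} {t : X.G.cell n} {e : El X} (a : Arr (dk n t) e) :
    (ext e.2).map.app n a.cell = t := by
  have := congrArg (fun f : GMap _ X.G => f.app n (top n)) a.2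
  exact this.trans (cls_top n t)

theorem Arr.cell_ext {X : Alg D.toSig} {n : ℕ} {t : X.G.cell n} {e : El X} {a b : Arr (dk n t) e}
    (h : a.cell = b.cell) : a = b := Subtype.ext (disk_ext h)

@[simp] theorem Arr.ofCell_cell {X : Alg D.toSig} {n : ℕ} {t : X.G.cell n} (e : El X)
    (f : (FrT D e.1).G.cell n) (h : (ext e.2).map.app n f = t) : (Arr.ofCell e f h).cell = f :=
  cls_top n f

theorem Arr.comp_cell {X : Alg D.toSig} {n : ℕ} {t : X.G.cell n} {e e' : El X}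
    (a : Arr (dk n t) e) (g : Arr e e') : (a.comp g).cell = (ext g.1).map.app n a.cell := rfl

theorem pos_disk_cases : ∀ (n k : ℕ) (p q : Pos.{u} (disk n) k), p = q ∨
    ∃ r : Pos.{u} (disk n) (k + 1), (p = r.src ∧ q = r.tgt) ∨ (p = r.tgt ∧ q = r.src)
  | 0, _, .vtx i, .vtx j => Or.inl (by rw [Subsingleton.elim (α := Fin 1) i j])
  | 0, _, .br l _, _ => l.elim0
  | n + 1, _, .vtx i, .vtx j => by
    fin_cases i <;> fin_cases j
    · exact Or.inl rfl
    · exact Or.inr ⟨.br 0 (Pos.v0 (disk n)), Or.inl ⟨rfl, rfl⟩⟩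
    · exact Or.inr ⟨.br 0 (Pos.v0 (disk n)), Or.inr ⟨rfl, rfl⟩⟩
    · exact Or.inl rfl
  | n + 1, _, .br l p, .br l' q => by
    obtain rfl : l = 0 := Subsingleton.elim (α := Fin 1) _ _
    obtain rfl : l' = 0 := Subsingleton.elim (α := Fin 1) _ _
    rcases pos_disk_cases n _ p q with h | ⟨r, h | h⟩
    · exact Or.inl (by rw [h])
    · exact Or.inr ⟨.br 0 r, Or.inl ⟨by rw [h.1]; rfl, by rw [h.2]; rfl⟩⟩
    · exact Or.inr ⟨.br 0 r, Or.inr ⟨by rw [h.1]; rfl, by rw [h.2]; rfl⟩⟩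

theorem disk_map_inj {n : ℕ} {A : Tr} (i : GMap (posG.{u} (disk n)) (posG A)) (k : ℕ) :
    Function.Injective (i.app k) := by
  intro p q h
  rcases pos_disk_cases n k p q with h' | ⟨r, ⟨rfl, rfl⟩ | ⟨rfl, rfl⟩⟩
  · exact h'
  · exact absurd (((i.app_src k r).symm.trans h).trans (i.app_tgt k r)) (Pos.src_ne_tgt _)
  · exact absurd (((i.app_src k r).symm.trans h.symm).trans (i.app_tgt k r)) (Pos.src_ne_tgt _)

/-- the positions of `disk (n+1)`: the top cell, its target, and the source face -/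
theorem pos_disk_succ {n k : ℕ} (p : Pos.{u} (disk (n + 1)) k) :
    (⟨k, p⟩ : Σ k, Pos.{u} (disk (n + 1)) k) = ⟨n + 1, top (n + 1)⟩ ∨
    (⟨k, p⟩ : Σ k, Pos.{u} (disk (n + 1)) k) = ⟨n, (top (n + 1)).tgt⟩ ∨
    ∃ q, (dσ n).app k q = p := by
  have h := face_top (n + 1) k p
  rcases h.cases_top with h | h | h
  · exact Or.inl h
  · exact Or.inr (Or.inr (face_cls (Y := posG (disk (n + 1))) _ h))
  · rcases h.of_tgt with h | h
    · exact Or.inr (Or.inl h)
    · exact Or.inr (Or.inr (face_cls (Y := posG (disk (n + 1))) _ h))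

theorem Face.closed {X : GS.{u}} {S : ∀ n, X.cell n → Prop}
    (hS : ∀ n t, S (n + 1) t → S n (X.src n t) ∧ S n (X.tgt n t)) {a b : Σ n, X.cell n}
    (h : Face X a b) (ha : S a.1 a.2) : S b.1 b.2 := by
  induction h with
  | refl => exact ha
  | src x _ ih => exact (hS _ x ih).1
  | tgt x _ ih => exact (hS _ x ih).2

theorem cls_closed {X : GS.{u}} {S : ∀ n, X.cell n → Prop}
    (hS : ∀ n t, S (n + 1) t → S n (X.src n t) ∧ S n (X.tgt n t)) {n : ℕ} {t : X.cell n}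
    (ht : S n t) (k : ℕ) (p : Pos.{u} (disk n) k) : S k ((cls n t).app k p) :=
  (cls_face t k p).closed hS ht

/-- proper faces of a disk lie in every closed set containing the source and the target -/
theorem cls_proper {X : GS.{u}} {S : ∀ n, X.cell n → Prop}
    (hS : ∀ n t, S (n + 1) t → S n (X.src n t) ∧ S n (X.tgt n t)) {n : ℕ} {t : X.cell (n + 1)}
    (h1 : S n (X.src n t)) (h2 : S n (X.tgt n t)) {k : ℕ} (hk : k < n + 1)
    (p : Pos.{u} (disk (n + 1)) k) : S k ((cls (n + 1) t).app k p) := by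
  rcases (cls_face t k p).cases_top with h | h | h
  · have := congrArg Sigma.fst h
    simp only at this
    omega
  · exact h.closed hS h1
  · exact h.closed hS h2

theorem cls_dσ {X : GS.{u}} {n : ℕ} (t : X.cell (n + 1)) (k : ℕ) (q : Pos.{u} (disk n) k) :
    (cls (n + 1) t).app k ((dσ n).app k q) = (cls n (X.src n t)).app k q := by
  rw [← dσ_cls]; rfl

theorem cls_tgt_top {X : GS.{u}} {n : ℕ} (t : X.cell (n + 1)) :
    (cls (n + 1) t).app n (top (n + 1)).tgt = X.tgt n t :=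
  ((cls (n + 1) t).app_tgt n (top (n + 1))).trans (by rw [cls_top])

/-! ### terms -/

section Terms

variable {Δ Δ' : Ctx D.Op} {T : VSet Δ.Var} {T' : VSet Δ'.Var}

theorem map_fop (φ : AHom (Fr D Δ T) (Fr D Δ' T')) {A : Tr} {n : ℕ} (γ : D.Op A n) (hγ : D.ok γ)
    (τ : GMap (posG A) (Fr D Δ T).G) :
    φ.map.app _ (fop γ hγ τ) = fop γ hγ (τ.comp φ.map) :=
  Subtype.ext (φ.app_fop γ hγ τ)

theorem fop_inj {A : Tr} {n : ℕ} {γ : D.Op A n} {hγ : D.ok γ}
    {τ τ' : GMap (posG A) (Fr D Δ T).G} (h : fop γ hγ τ = fop γ hγ τ') : τ = τ' := by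
  have := (Tm.op_inj (congrArg Subtype.val h)).2
  exact GMap.ext' fun k p => Subtype.ext (congrFun (congrFun this k) p)

theorem fop_not_var {A : Tr} {n : ℕ} (γ : D.Op A n) (hγ : D.ok γ)
    (τ : GMap (posG A) (Fr D Δ T).G) : ¬(fop γ hγ τ).1.IsVar := by
  rintro ⟨x, hx⟩
  cases hx

theorem exists_fop {n : ℕ} (t : (Fr D Δ T).G.cell n) (h : ¬t.1.IsVar) :
    ∃ (A : Tr) (m : ℕ) (γ : D.Op A m) (hγ : D.ok γ) (τ : GMap (posG A) (Fr D Δ T).G),
      (⟨n, t⟩ : Σ n, (Fr D Δ T).G.cell n) = ⟨m + 1, fop γ hγ τ⟩ := by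
  obtain ⟨t, ht⟩ := t
  cases t with
  | var x => exact absurd ⟨x, rfl⟩ h
  | op γ σ => exact ⟨_, _, γ, ht.op_inv.1, mapOfGlob σ ht.op_inv.2.1 ht.op_inv.2.2, rfl⟩

/-- a term sent to a variable is a variable -/
theorem ext_eq_var {G : GS.{u}} (σ : GMap G (Fr D Δ T).G) {n : ℕ} {s : (FrG D G).G.cell n}
    {x : Δ.Var n} (h : ((ext σ).map.app n s).1 = .var x) :
    ∃ p, s = (η D G).app n p ∧ (σ.app n p).1 = .var x := by
  rw [ext_val] at h
  obtain ⟨p, h1, h2⟩ := Tm.subst_eq_var h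
  exact ⟨p, Subtype.ext h1, h2⟩

/-- a term sent to a compound term -/
theorem ext_eq_fop {G : GS.{u}} (σ : GMap G (Fr D Δ T).G) {A : Tr} {n : ℕ} {γ : D.Op A n}
    {hγ : D.ok γ} {τ : GMap (posG A) (Fr D Δ T).G} {s : (FrG D G).G.cell (n + 1)}
    (h : (ext σ).map.app _ s = fop γ hγ τ) :
    (∃ p, σ.app _ p = fop γ hγ τ) ∨
      ∃ ρ : GMap (posG A) (FrG D G).G, s = fop γ hγ ρ ∧ ρ.comp (ext σ).map = τ := by
  by_cases hs : s.1.IsVar
  · obtain ⟨p, hp⟩ := hs
    have : s = (η D G).app _ p := Subtype.ext hp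
    subst this
    rw [ext_η_app] at h
    exact Or.inl ⟨p, h⟩
  · have h' := congrArg Subtype.val h
    rw [ext_val] at h'
    rcases Tm.subst_eq_op h' with ⟨x, hx, -⟩ | ⟨ρ, hρ, -⟩
    · exact absurd ⟨x, hx⟩ hs
    · obtain ⟨s, hs'⟩ := s
      simp only at hρ
      subst hρ
      refine Or.inr ⟨mapOfGlob ρ hs'.op_inv.2.1 hs'.op_inv.2.2, rfl, ?_⟩
      have e : (⟨Tm.op γ ρ, hs'⟩ : (FrG D G).G.cell (n + 1)) =
          fop γ hγ (mapOfGlob ρ hs'.op_inv.2.1 hs'.op_inv.2.2) := rfl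
      rw [e, map_fop] at h
      exact fop_inj h

theorem OK.reflect_subst {Γ : Sig.{u}} {Δ Δ' : Ctx Γ.Op} {T : VSet Δ.Var} {T' : VSet Δ'.Var}
    {θ : ∀ n, Δ.Var n → Tm Γ.Op Δ'.Var n} (hθ : BP Γ Δ Δ' T θ)
    {n : ℕ} {t : Tm Γ.Op Δ.Var n} (h : OK Γ Δ T t) (h' : OK Γ Δ' T' (t.subst θ)) :
    OK Γ Δ (fun k x => OK Γ Δ' T' (θ k x)) t := by
  induction h with
  | var0 x hx => exact .var0 x h'
  | varS x hx h1 h2 h3 ih1 ih2 =>
    obtain ⟨e1, e2⟩ := hθ _ x (.varS x hx h1 h2 h3)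
    have a := h'.src
    have b := h'.tgt
    rw [Tm.subst_var] at a b
    rw [e1] at a
    rw [e2] at b
    exact .varS x h' (ih1 a) (ih2 b) h3
  | op γ σ h1 h2 h3 h4 h5 h6 ih1 ih2 ih3 =>
    refine .op γ σ h1 (fun k p => ih1 k p (h'.op_inv.2.1 k p)) h3 (ih2 ?_) (ih3 ?_) h6
    · have := h'.src
      simpa only [Tm.subst_op, rsrc_op, Tm.subst_subst] using this
    · have := h'.tgt
      simpa only [Tm.subst_op, rtgt_op, Tm.subst_subst] using this

/-- heights are reflected by the extension of a diagram -/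
theorem hgt_of_ext {B : Tr} (σ : GMap (posG B) (Fr D Δ T).G) {a n : ℕ} (s : (FrT D B).G.cell n)
    (h : Hgt D.toSig Δ a ⟨n, ((ext σ).map.app n s).1⟩) : Hgt D.toSig _ a ⟨n, s.1⟩ := by
  rw [ext_val] at h
  exact Hgt.of_subst (BP.of_glob (glob_of_map σ) ⊤) (a := ⟨n, s.1⟩) s.2 h

end Terms

/-- a subcategory of diagrams lying over a face, containing the face, has a terminal object -/
theorem hasTerm_of_face {A B : Tr} (i : GMap (posG.{u} A) (posG B))
    (hi : ∀ k, Function.Injective (i.app k)) (F : El (FrT D B) → Prop)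
    (h0 : F ⟨A, i.comp (η D _)⟩)
    (hF : ∀ e, F e → ∀ k p, OK D.toSig (Ctx.ofGS D.Op (posG B)) (fun k y => ∃ x, i.app k x = y)
      (e.2.app k p).1) : HasTerm F := by
  have hθ : BP D.toSig (Ctx.ofGS D.Op (posG A)) (Ctx.ofGS D.Op (posG B)) ⊤
      fun n x => .var (i.app n x) := fun n x _ =>
    ⟨congrArg Tm.var (i.app_src n x).symm, congrArg Tm.var (i.app_tgt n x).symm⟩
  have hb := frRen_bij (D := D) (Δ := Ctx.ofGS D.Op (posG A)) (Δ' := Ctx.ofGS D.Op (posG B))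
    (T := ⊤) (T' := fun k y => ∃ x, i.app k x = y) i.app hθ
    (fun n x _ => ⟨x, rfl⟩) (fun n x y _ _ h => hi n h)
    (fun n x' h => h.mem.elim fun x hx => ⟨x, OK.ofGS_top (posG A) n x, hx⟩)
  set φ : AHom (FrT D A) (FrT D B) := ext (i.comp (η D _)) with hφ
  have hval : ∀ n (s : (FrT D A).G.cell n), (φ.map.app n s).1 = s.1.ren i.app := fun n s => by
    rw [hφ, ext_val]; rfl
  have hinj : ∀ n, Function.Injective (φ.map.app n) := fun n s s' h => by
    refine (hb n).1 (Subtype.ext ?_)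
    rw [frRen_val, frRen_val, ← hval, ← hval, h]
  refine ⟨_, h0, fun e he => ?_⟩
  have hs : ∀ k p, ∃ s, φ.map.app k s = e.2.app k p := fun k p => by
    obtain ⟨s, hs⟩ := (hb k).2 ⟨(e.2.app k p).1, hF e he k p⟩
    exact ⟨s, Subtype.ext ((hval k s).trans (congrArg Subtype.val hs))⟩
  choose g hg using hs
  refine ⟨⟨⟨g, fun k p => hinj k ?_, fun k p => hinj k ?_⟩, GMap.ext' hg⟩, fun g' => ?_⟩
  · rw [hg, φ.map.app_src, hg, e.2.app_src]
  · rw [hg, φ.map.app_tgt, hg, e.2.app_tgt]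
  · refine Subtype.ext (GMap.ext' fun k p => hinj k ?_)
    have := congrArg (fun f : GMap _ (FrT D B).G => f.app k p) g'.2
    exact this.trans (hg k p).symm

/-- the cells of one diagram have a common bound -/
theorem El.exists_bound {X : Alg D.toSig} (e : El X) (P : ℕ → ∀ n, X.G.cell n → Prop)
    (hP : ∀ r r', r ≤ r' → ∀ n t, P r n t → P r' n t) (h : ∀ k p, ∃ r, P r k (e.2.app k p)) :
    ∃ r, ∀ k p, P r k (e.2.app k p) := by
  choose f hf using h
  obtain ⟨r, hr⟩ := (Set.finite_range fun a : Σ k, Pos.{u} e.1 k => f a.1 a.2).bddAbove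
  exact ⟨r, fun k p => hP _ _ (hr ⟨⟨k, p⟩, rfl⟩) _ _ (hf k p)⟩

end Crest.Agent.R248
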