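import Crest.Agent.R248.JExt

/-!
# Row 248, file 4: full contractibility of trees, natural algebra structures.
-/

set_option autoImplicit false

namespace Crest.Agent.R248

open Crest.GeometryTopology.Coherator

universe u v w

/-! ## Truncation of trees and full contractibility -/

def Tr.trunc : ℕ → Tr → Tr
  | 0, _ => Tr.pt
  | k + 1, .node m ch => .node m fun l => Tr.trunc k (ch l)

theorem Tr.dim_trunc : ∀ (k : ℕ) (A : Tr), (Tr.trunc k A).dim ≤ k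
  | 0, _ => by simp [Tr.trunc]
  | k + 1, .node _ ch => Tr.dim_le_succ _ k fun l => Tr.dim_trunc k (ch l)

def truncPos : (k : ℕ) → (A : Tr) → (n : ℕ) → Pos.{u} (Tr.trunc k A) n → Pos.{u} A n
  | 0, A, 0, _ => Pos.v0 A
  | 0, _, _ + 1, .br l _ => l.elim0
  | _ + 1, .node _ _, _, .vtx i => .vtx i
  | k + 1, .node _ ch, _, .br l p => .br l (truncPos k (ch l) _ p)

theorem truncPos_src : ∀ (k : ℕ) (A : Tr) (n : ℕ) (p : Pos.{u} (Tr.trunc k A) (n + 1)),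
    truncPos k A n p.src = (truncPos k A (n + 1) p).src
  | 0, _, _, .br l _ => l.elim0
  | _ + 1, .node _ _, 0, .br _ _ => rfl
  | k + 1, .node _ ch, n + 1, .br l p => congrArg (Pos.br l) (truncPos_src k (ch l) n p)

theorem truncPos_tgt : ∀ (k : ℕ) (A : Tr) (n : ℕ) (p : Pos.{u} (Tr.trunc k A) (n + 1)),
    truncPos k A n p.tgt = (truncPos k A (n + 1) p).tgt
  | 0, _, _, .br l _ => l.elim0
  | _ + 1, .node _ _, 0, .br _ _ => rfl
  | k + 1, .node _ ch, n + 1, .br l p => congrArg (Pos.br l) (truncPos_tgt k (ch l) n p)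

theorem truncPos_inj : ∀ (k : ℕ) (A : Tr) (n : ℕ), Function.Injective (truncPos.{u} k A n)
  | 0, _, 0, .vtx i, .vtx j, _ => congrArg Pos.vtx (Subsingleton.elim (α := Fin 1) i j)
  | 0, _, _ + 1, .br l _, _, _ => l.elim0
  | _ + 1, .node _ _, 0, .vtx i, .vtx j, h => by
    simp only [truncPos, Pos.vtx.injEq] at h; rw [h]
  | k + 1, .node _ ch, n + 1, .br l p, .br l' p', h => by
    simp only [truncPos, Pos.br.injEq] at h
    obtain ⟨rfl, h⟩ := h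
    rw [truncPos_inj k (ch l) n (eq_of_heq h)]

theorem truncPos_surj : ∀ (k : ℕ) (A : Tr) (n : ℕ), n < k → Function.Surjective (truncPos.{u} k A n)
  | _ + 1, .node _ _, _, _, .vtx i => ⟨.vtx i, rfl⟩
  | k + 1, .node _ ch, _, h, .br l p => by
    obtain ⟨q, hq⟩ := truncPos_surj k (ch l) _ (Nat.lt_of_succ_lt_succ h) p
    exact ⟨.br l q, congrArg (Pos.br l) hq⟩

/-- **Full contractibility**: every sphere in the free algebra on a tree has a filler. -/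
theorem Coh.full (D : Coh.{u}) (A : Tr) (L : ℕ) : Conn L (FrT D.toThy A).G := by
  intro n _ s
  cases n with
  | zero => exact ⟨(η D.toThy (posG A)).app 0 (Pos.v0 A), rfl⟩
  | succ n =>
    obtain ⟨⟨f, g⟩, hfg⟩ := s
    let A' := Tr.trunc (n + 1) A
    let T : VSet (posG.{u} A).cell := fun k x => ∃ y, truncPos (n + 1) A k y = x
    have hθ : BP D.toSig (Ctx.ofGS D.Op (posG A')) (Ctx.ofGS D.Op (posG A)) ⊤
        fun k x => .var (truncPos (n + 1) A k x) := fun k x _ =>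
      ⟨congrArg Tm.var (truncPos_src _ _ _ x).symm, congrArg Tm.var (truncPos_tgt _ _ _ x).symm⟩
    let φ : AHom (FrT D.toThy A') (Fr D.toThy (Ctx.ofGS D.Op (posG A)) T) :=
      frRen _ hθ fun k x _ => ⟨x, rfl⟩
    have hφ := frRen_bij (T' := T) _ hθ (fun k x _ => ⟨x, rfl⟩)
      (fun k x y _ _ h => truncPos_inj _ _ _ h)
      (fun k x h => by obtain ⟨y, hy⟩ := h.mem; exact ⟨y, OK.ofGS_top _ _ _, hy⟩)
    have hT : ∀ t : (FrT D.toThy A).G.cell n, OK D.toSig (Ctx.ofGS D.Op (posG A)) T t.1 :=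
      fun t => (t.2.dim_vars D.dim_le le_rfl).mono fun k x hx =>
        truncPos_surj _ _ _ (Nat.lt_succ_of_le hx.2) x
    obtain ⟨s, hs⟩ := ((TFib.of_bij hφ).surj (n + 1)).1
      ⟨(⟨f.1, hT f⟩, ⟨g.1, hT g⟩), (frG_par _ _).2 ((frG_par f g).1 hfg)⟩
    obtain ⟨z, hz1, hz2⟩ := D.fill A' n (Tr.dim_trunc _ _) _ _ s.2
    have e := congrArg Subtype.val hs
    let ψ : AHom (Fr D.toThy (Ctx.ofGS D.Op (posG A)) T) (FrT D.toThy A) :=
      frIncl fun _ _ _ => trivial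
    refine ⟨(φ.comp ψ).map.app _ z, (bdry_eq_iff _ _).2 ⟨?_, ?_⟩⟩
    · rw [← (φ.comp ψ).map.app_src, hz1]
      exact Subtype.ext (congrArg Subtype.val (congrArg Prod.fst e) :)
    · rw [← (φ.comp ψ).map.app_tgt, hz2]
      exact Subtype.ext (congrArg Subtype.val (congrArg Prod.snd e) :)

/-! ## Natural algebra structures -/

set_option linter.checkUnivs false in
/-- a family of globular sets over algebras, with a class of maps -/
structure NatFam (D : Coh.{u}) where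
  Obj : Type v
  Hom : Obj → Obj → Type w
  Φ : Obj → GS.{u}
  Φm : ∀ {a b : Obj}, Hom a b → GMap (Φ a) (Φ b)
  Ψ : Obj → Alg D.toSig
  π : ∀ a, GMap (Φ a) (Ψ a).G

namespace NatFam

variable {D : Coh.{u}} (N : NatFam.{u, v, w} D)

/-- raw families of operations -/
abbrev Fam (A : Tr) (n : ℕ) := ∀ a : N.Obj, GMap (posG A) (N.Φ a) → (N.Φ a).cell n

/-- a class of natural operations closed under composition in which the generating symbols can be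
interpreted -/
structure Good (G : ∀ A n, N.Fam A n → Prop) : Prop where
  nat : ∀ A n θ, G A n θ → ∀ a b (h : N.Hom a b) σ,
    (N.Φm h).app n (θ a σ) = θ b (σ.comp (N.Φm h))
  var : ∀ A n (p : Pos A n), G A n fun _ σ => σ.app n p
  comp : ∀ A A' n (θ : N.Fam A' n)
    (τ : ∀ a, GMap (posG A) (N.Φ a) → GMap (posG A') (N.Φ a)), G A' n θ →
    (∀ k p, G A k fun a σ => (τ a σ).app k p) → G A n fun a σ => θ a (τ a σ)
  fill : ∀ A n (γ : D.Op A n), D.ok γ → ∀ f g : N.Fam A n, G A n f → G A n g →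
    (∀ a σ, (N.Φ a).AreParallel n (f a σ) (g a σ)) →
    (∀ a σ, Eval (N.Ψ a).str.op (gr (σ.comp (N.π a)).app) (D.src γ) ((N.π a).app n (f a σ))) →
    (∀ a σ, Eval (N.Ψ a).str.op (gr (σ.comp (N.π a)).app) (D.tgt γ) ((N.π a).app n (g a σ))) →
    ∃ z : N.Fam A (n + 1), G A (n + 1) z ∧ ∀ a σ, (N.Φ a).src n (z a σ) = f a σ ∧
      (N.Φ a).tgt n (z a σ) = g a σ ∧
      (N.Ψ a).str.op A n γ (σ.comp (N.π a)) ((N.π a).app _ (z a σ))

/-- partial interpretations of the symbols of index `< r` -/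
structure Interp (G : ∀ A n, N.Fam A n → Prop) (r : ℕ)
    (I : ∀ A n, D.Op A n → N.Fam A (n + 1) → Prop) : Prop where
  func : ∀ A n γ z z', I A n γ z → I A n γ z' → z = z'
  dom : ∀ A n γ, (D.ok γ ∧ n < r) ↔ ∃ z, I A n γ z
  good : ∀ A n γ z, I A n γ z → G A _ z
  law : ∀ A n γ z, I A n γ z → ∀ a σ,
    Eval (fun A n γ τ y => ∃ z, I A n γ z ∧ z a τ = y) (gr σ.app) (D.src γ)
      ((N.Φ a).src n (z a σ)) ∧
    Eval (fun A n γ τ y => ∃ z, I A n γ z ∧ z a τ = y) (gr σ.app) (D.tgt γ)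
      ((N.Φ a).tgt n (z a σ))
  above : ∀ A n γ z, I A n γ z → ∀ a σ,
    (N.Ψ a).str.op A n γ (σ.comp (N.π a)) ((N.π a).app _ (z a σ))

variable {N}

/-- the partial structure defined by an interpretation -/
def Interp.str {G : ∀ A n, N.Fam A n → Prop} {r : ℕ}
    {I : ∀ A n, D.Op A n → N.Fam A (n + 1) → Prop} (h : N.Interp G r I) (a : N.Obj) :
    Str D.toSig (N.Φ a) where
  op A n γ τ y := ∃ z, I A n γ z ∧ z a τ = y
  func := by
    rintro A n γ τ _ _ ⟨z, hz, rfl⟩ ⟨z', hz', rfl⟩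
    rw [h.func _ _ _ _ _ hz hz']
  law := by
    rintro A n γ τ _ ⟨z, hz, rfl⟩
    exact h.law _ _ _ _ hz a τ

theorem Interp.term {G : ∀ A n, N.Fam A n → Prop} (hG : N.Good G) {r : ℕ}
    {I : ∀ A n, D.Op A n → N.Fam A (n + 1) → Prop} (h : N.Interp G r I) {A : Tr} {n : ℕ}
    {t : Tm D.Op (Ctx.ofGS D.Op (posG A)).Var n}
    (ht : OK D.toSig (Ctx.ofGS D.Op (posG A)) ⊤ t) (hn : n ≤ r) :
    ∃ f : N.Fam A n, G A n f ∧ ∀ a σ, Eval (h.str a).op (gr σ.app) t (f a σ) := by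
  induction ht with
  | var0 x _ => exact ⟨_, hG.var A _ x, fun _ _ => .var rfl⟩
  | varS x _ _ _ _ _ _ => exact ⟨_, hG.var A _ x, fun _ _ => .var rfl⟩
  | @op A' n γ θ h1 _ h3 _ _ _ ih _ _ =>
    choose f hf1 hf2 using fun k p => ih k p (p.le_dim.trans ((D.dim_le _ _ γ h1).trans hn))
    have hτ : ∀ a (σ : GMap (posG A) (N.Φ a)), ∃ τ : GMap (posG A') (N.Φ a),
        ∀ k p, τ.app k p = f k p a σ := by
      intro a σ
      obtain ⟨τ, hτ⟩ := (Valid.ofGS (h.str a) σ).exists_map h3 fun k p => ⟨_, hf2 k p a σ⟩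
      exact ⟨τ, fun k p => (Valid.ofGS (h.str a) σ).uniq (hτ k p) (hf2 k p a σ)⟩
    choose τ hτ using hτ
    obtain ⟨z, hz⟩ := (h.dom _ _ γ).1 ⟨h1, hn⟩
    refine ⟨fun a σ => z a (τ a σ), hG.comp _ _ _ z τ (h.good _ _ _ _ hz) fun k p => ?_,
      fun a σ => .op (τ a σ) (fun k p => hτ a σ k p ▸ hf2 k p a σ) ⟨z, hz, rfl⟩⟩
    simpa only [hτ] using hf1 k p

theorem Interp.isHom_π {G : ∀ A n, N.Fam A n → Prop} {r : ℕ}
    {I : ∀ A n, D.Op A n → N.Fam A (n + 1) → Prop} (h : N.Interp G r I) (a : N.Obj) :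
    IsHom (h.str a).op (N.Ψ a).str.op (N.π a) := by
  rintro A n γ τ _ ⟨z, hz, rfl⟩
  exact h.above _ _ _ _ hz a τ

theorem Interp.step {G : ∀ A n, N.Fam A n → Prop} (hG : N.Good G) (r : ℕ)
    (I : ∀ A n, D.Op A n → N.Fam A (n + 1) → Prop) (h : N.Interp G r I) :
    ∃ I', N.Interp G (r + 1) I' ∧ ∀ A n γ z, I A n γ z → I' A n γ z := by
  have key : ∀ A (γ : D.Op A r), D.ok γ → ∃ z : N.Fam A (r + 1), G A _ z ∧ ∀ a σ,
      Eval (h.str a).op (gr σ.app) (D.src γ) ((N.Φ a).src r (z a σ)) ∧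
      Eval (h.str a).op (gr σ.app) (D.tgt γ) ((N.Φ a).tgt r (z a σ)) ∧
      (N.Ψ a).str.op A r γ (σ.comp (N.π a)) ((N.π a).app _ (z a σ)) := by
    intro A γ hγ
    obtain ⟨f, hf1, hf2⟩ := h.term hG (D.wf.src hγ) le_rfl
    obtain ⟨g, hg1, hg2⟩ := h.term hG (D.wf.tgt hγ) le_rfl
    obtain ⟨z, hz1, hz2⟩ := hG.fill A r γ hγ f g hf1 hg1
      (fun a σ => (Valid.ofGS (h.str a) σ).par (D.wf.par hγ) (hf2 a σ) (hg2 a σ))
      (fun a σ => (hf2 a σ).map (N.π a) (h.isHom_π a) fun _ _ _ e => congrArg _ e)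
      (fun a σ => (hg2 a σ).map (N.π a) (h.isHom_π a) fun _ _ _ e => congrArg _ e)
    refine ⟨z, hz1, fun a σ => ?_⟩
    obtain ⟨e1, e2, e3⟩ := hz2 a σ
    exact ⟨e1 ▸ hf2 a σ, e2 ▸ hg2 a σ, e3⟩
  choose Z hZ1 hZ2 using key
  let I' : ∀ A n, D.Op A n → N.Fam A (n + 1) → Prop := fun A n γ z =>
    I A n γ z ∨ ∃ (e : n = r) (hγ : D.ok (e ▸ γ)), (e ▸ z : N.Fam A (r + 1)) = Z A (e ▸ γ) hγ
  have lt : ∀ A n γ z, I A n γ z → n < r := fun A n γ z hz => ((h.dom A n γ).2 ⟨z, hz⟩).2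
  have em : ∀ a {X : Vars.{u}} {ρ : Asg X (N.Φ a)} {n : ℕ} {t : Tm D.Op X n} {y},
      Eval (h.str a).op ρ t y → Eval (fun A n γ τ y => ∃ z, I' A n γ z ∧ z a τ = y) ρ t y :=
    fun a _ _ _ _ _ e => e.mono (fun _ _ _ _ _ ⟨z, hz, e⟩ => ⟨z, Or.inl hz, e⟩) fun _ _ _ h => h
  refine ⟨I', ⟨?_, ?_, ?_, ?_, ?_⟩, fun _ _ _ _ h => Or.inl h⟩
  · rintro A n γ z z' (hz | ⟨rfl, hγ, hz⟩) (hz' | ⟨e, hγ', hz'⟩)
    · exact h.func _ _ _ _ _ hz hz'
    · exact absurd (lt _ _ _ _ hz) (by omega)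
    · exact absurd (lt _ _ _ _ hz') (by omega)
    · exact hz.trans hz'.symm
  · intro A n γ
    constructor
    · rintro ⟨h1, h2⟩
      by_cases e : n = r
      · subst e
        exact ⟨_, Or.inr ⟨rfl, h1, rfl⟩⟩
      · obtain ⟨z, hz⟩ := (h.dom A n γ).1 ⟨h1, by omega⟩
        exact ⟨z, Or.inl hz⟩
    · rintro ⟨z, hz | ⟨rfl, hγ, -⟩⟩
      · exact ⟨((h.dom A n γ).2 ⟨z, hz⟩).1, by have := lt _ _ _ _ hz; omega⟩
      · exact ⟨hγ, Nat.lt_succ_self _⟩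
  · rintro A n γ z (hz | ⟨rfl, hγ, hz⟩)
    · exact h.good _ _ _ _ hz
    · obtain rfl : z = _ := hz
      exact hZ1 A γ hγ
  · rintro A n γ z (hz | ⟨rfl, hγ, hz⟩) a σ
    · exact ⟨em a (h.law _ _ _ _ hz a σ).1, em a (h.law _ _ _ _ hz a σ).2⟩
    · obtain rfl : z = _ := hz
      exact ⟨em a (hZ2 A γ hγ a σ).1, em a (hZ2 A γ hγ a σ).2.1⟩
  · rintro A n γ z (hz | ⟨rfl, hγ, hz⟩) a σ
    · exact h.above _ _ _ _ hz a σ
    · obtain rfl : z = _ := hz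
      exact (hZ2 A γ hγ a σ).2.2

/-- **(G1)** a natural total algebra structure on the family -/
theorem exists_str {G : ∀ A n, N.Fam A n → Prop} (hG : N.Good G) :
    ∃ R : ∀ a, Str D.toSig (N.Φ a), (∀ a, (R a).Total ∧ (R a).Act) ∧
      (∀ a b (h : N.Hom a b), IsHom (R a).op (R b).op (N.Φm h)) ∧
      ∀ a, IsHom (R a).op (N.Ψ a).str.op (N.π a) := by
  obtain ⟨F, -, hF⟩ := exists_chain (fun r I => N.Interp G r I)
    (fun I I' => ∀ A n γ z, I A n γ z → I' A n γ z) (fun _ _ _ _ => False)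
    ⟨fun _ _ _ _ _ h => h.elim, fun _ _ _ => ⟨fun h => absurd h.2 (Nat.not_lt_zero _),
      fun ⟨_, h⟩ => h.elim⟩, fun _ _ _ _ h => h.elim, fun _ _ _ _ h => h.elim,
      fun _ _ _ _ h => h.elim⟩ (Interp.step hG)
  have mono : ∀ r r', r ≤ r' → ∀ A n γ z, F r A n γ z → F r' A n γ z := by
    intro r r' h
    induction h with
    | refl => exact fun _ _ _ _ h => h
    | step _ ih => exact fun A n γ z h => (hF _).2 _ _ _ _ (ih _ _ _ _ h)
  let R : ∀ a, Str D.toSig (N.Φ a) := fun a =>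
    { op := fun A n γ τ y => ∃ r z, F r A n γ z ∧ z a τ = y
      func := by
        rintro A n γ τ _ _ ⟨r, z, hz, rfl⟩ ⟨r', z', hz', rfl⟩
        rw [(hF (r + r')).1.func _ _ _ _ _ (mono _ _ (by omega) _ _ _ _ hz)
          (mono _ _ (by omega) _ _ _ _ hz')]
      law := by
        rintro A n γ τ _ ⟨r, z, hz, rfl⟩
        obtain ⟨h1, h2⟩ := (hF r).1.law _ _ _ _ hz a τ
        exact ⟨h1.mono (fun _ _ _ _ _ h => ⟨r, h⟩) fun _ _ _ h => h,
          h2.mono (fun _ _ _ _ _ h => ⟨r, h⟩) fun _ _ _ h => h⟩ }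
  refine ⟨R, fun a => ⟨fun A n γ hγ τ => ?_, ?_⟩, ?_, ?_⟩
  · obtain ⟨z, hz⟩ := ((hF (n + 1)).1.dom A n γ).1 ⟨hγ, Nat.lt_succ_self _⟩
    exact ⟨_, _, z, hz, rfl⟩
  · rintro A n γ τ _ ⟨r, z, hz, rfl⟩
    exact (((hF r).1.dom A n γ).2 ⟨z, hz⟩).1
  · rintro a b h A n γ τ _ ⟨r, z, hz, rfl⟩
    exact ⟨r, z, hz, (hG.nat _ _ _ ((hF r).1.good _ _ _ _ hz) a b h τ).symm⟩
  · rintro a A n γ τ _ ⟨r, z, hz, rfl⟩
    exact (hF r).1.above _ _ _ _ hz a τ

variable (N) in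
/-- representability data -/
structure Rep where
  rep : Tr → N.Obj
  un : ∀ A, GMap (posG A) (N.Φ (rep A))
  ex : ∀ A a (σ : GMap (posG A) (N.Φ a)), ∃ h : N.Hom (rep A) a, (un A).comp (N.Φm h) = σ
  uniq : ∀ A a (h h' : N.Hom (rep A) a), (un A).comp (N.Φm h) = (un A).comp (N.Φm h') →
    N.Φm h = N.Φm h'
  comp : ∀ a b c (h : N.Hom a b) (k : N.Hom b c), ∃ hk : N.Hom a c,
    N.Φm hk = (N.Φm h).comp (N.Φm k)
  Ψm : ∀ {a b : N.Obj}, N.Hom a b → AHom (N.Ψ a) (N.Ψ b)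
  π_nat : ∀ a b (h : N.Hom a b), (N.Φm h).comp (N.π b) = (N.π a).comp (Ψm h).map
  lift : ∀ A n, A.dim ≤ n + 1 → ILift (N.π (rep A)) (n + 1)

/-- **(G2)** the representable case -/
theorem exists_str_of_rep (P : N.Rep) :
    ∃ R : ∀ a, Str D.toSig (N.Φ a), (∀ a, (R a).Total ∧ (R a).Act) ∧
      (∀ a b (h : N.Hom a b), IsHom (R a).op (R b).op (N.Φm h)) ∧
      ∀ a, IsHom (R a).op (N.Ψ a).str.op (N.π a) := by
  choose H hH using P.ex
  refine exists_str (G := fun A n θ => ∀ a b (h : N.Hom a b) σ,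
    (N.Φm h).app n (θ a σ) = θ b (σ.comp (N.Φm h))) ⟨fun _ _ _ h => h, fun _ _ _ _ _ _ _ => rfl,
      fun A A' n θ τ h1 h2 a b h σ => ?_, fun A n γ hγ f g hf hg hp hs ht => ?_⟩
  · rw [h1]
    congr 1
    exact GMap.ext' fun k p => h2 k p a b h σ
  · obtain ⟨y, hy⟩ := (N.Ψ _).total A n γ hγ ((P.un A).comp (N.π _))
    obtain ⟨l1, l2⟩ := (N.Ψ _).str.law _ _ _ _ _ hy
    have v := Valid.ofGS (N.Ψ _).str ((P.un A).comp (N.π _))
    obtain ⟨c, c1, c2, c3⟩ := (P.lift A n (D.dim_le _ _ γ hγ)).succ (hp _ (P.un A)) y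
      (v.uniq l1 (hs _ _)) (v.uniq l2 (ht _ _))
    refine ⟨fun a σ => (N.Φm (H A a σ)).app _ c, fun a b h σ => ?_, fun a σ => ⟨?_, ?_, ?_⟩⟩
    · obtain ⟨hk, e⟩ := P.comp _ _ _ (H A a σ) h
      have := P.uniq A b hk (H A b (σ.comp (N.Φm h))) (by
        rw [e, ← GMap.comp_assoc, hH, hH])
      simp only
      rw [← this, e]
      rfl
    · rw [← (N.Φm _).app_src, c1, hf, hH]
    · rw [← (N.Φm _).app_tgt, c2, hg, hH]
    · have := (P.Ψm (H A a σ)).hom _ _ _ _ _ hy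
      rw [GMap.comp_assoc, ← P.π_nat, ← GMap.comp_assoc, hH, ← c3, ← GMap.comp_app,
        ← P.π_nat] at this
      exact this

end NatFam

end Crest.Agent.R248
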