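import Crest.Agent.R248.Stage

/-!
# Row 248: the action of the next stage on the algebras of the coherator.
-/

set_option autoImplicit false

namespace Crest.Agent.R248

open Crest.GeometryTopology.Coherator Tr

universe u

section RL

variable {X X' Y : GS.{u}} {k : GMap X X'} {p : GMap X Y} {p' : GMap X' Y}

/-- relative lifting in positive dimension is detected on hom globular sets -/
theorem RLift.of_hom {n : ℕ}
    (h : ∀ x x' : X.cell 0, ∃ (a a' : X'.cell 0) (b b' : Y.cell 0) (h1 : k.app 0 x = a)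
      (h2 : k.app 0 x' = a') (h3 : p.app 0 x = b) (h4 : p.app 0 x' = b') (h5 : p'.app 0 a = b)
      (h6 : p'.app 0 a' = b'), RLift (homMap k x x' a a' h1 h2) (homMap p x x' b b' h3 h4)
        (homMap p' a a' b b' h5 h6) n) : RLift k p p' (n + 1) := by
  cases n with
  | zero =>
    rintro ⟨⟨x, x'⟩, hx⟩ y hy
    obtain ⟨e1, e2⟩ := (bdry_eq_iff _ _).1 hy
    obtain ⟨a, a', b, b', rfl, rfl, rfl, rfl, h5, h6, H⟩ := h x x'
    obtain ⟨z, -, hz⟩ := H PUnit.unit ⟨y, e1, e2⟩ rfl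
    exact ⟨z.1, (bdry_eq_iff _ _).2 z.2, congrArg Subtype.val hz⟩
  | succ n =>
    rintro ⟨⟨u, v⟩, huv⟩ y hy
    obtain ⟨e1, e2⟩ := (bdry_eq_iff _ _).1 hy
    replace e1 : Y.src _ y = p.app _ u := e1
    replace e2 : Y.tgt _ y = p.app _ v := e2
    obtain ⟨a, a', b, b', rfl, rfl, rfl, rfl, h5, h6, H⟩ := h (s0 X _ u) (t0 X _ u)
    obtain ⟨z, hz1, hz⟩ := H ⟨(⟨u, rfl, rfl⟩, ⟨v, (par_s0 huv).1.symm, (par_s0 huv).2.symm⟩),
        ((homGraph X).par_iff _ _).2 huv⟩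
      ⟨y, by show s0 Y (n + 1) (Y.src _ y) = _; rw [e1, s0_map], by
        show t0 Y (n + 1) (Y.tgt _ y) = _; rw [e2, t0_map, (par_s0 huv).2]⟩
      ((bdry_eq_iff _ _).2 ⟨Subtype.ext e1, Subtype.ext e2⟩)
    obtain ⟨e3, e4⟩ := (bdry_eq_iff _ _).1 hz1
    exact ⟨z.1, (bdry_eq_iff _ _).2 ⟨congrArg Subtype.val e3, congrArg Subtype.val e4⟩,
      congrArg Subtype.val hz⟩

/-- relative lifting through a pair of trivial fibrations -/
theorem RLift.of_repl {C0 C1 : GS.{u}} (p0 : GMap C0 X) (p1 : GMap C1 Y) (ι : GMap C0 C1)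
    (a : GMap C1 X') (h0 : TFib p0) (h1 : TFib p1) (e1 : ι.comp p1 = p0.comp p)
    (e2 : ι.comp a = p0.comp k) (e3 : a.comp p' = p1) (n : ℕ) : RLift k p p' n := by
  intro s y hy
  obtain ⟨t, rfl⟩ := (h0.surj n).1 s
  obtain ⟨z, hz, rfl⟩ := h1 n (ι.sphere n t) y (by rw [hy, ← sphere_comp, ← sphere_comp, e1])
  exact ⟨a.app n z, by rw [bdry_map, hz, ← sphere_comp, ← sphere_comp, e2], by
    rw [← e3]; rfl⟩

end RL

variable {D : Coh.{u}} {T : Stage D}

namespace Stage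

/-- action data given by the operations of the coherator -/
def ActD.Std {K : T.Col} {W : Alg D.toSig} (α : ActD K (T.F.alg W)) : Prop :=
  ∀ m x i j B (σ : (Sus.nv (D := D.toThy) T.S (T.F.alg W) x).obj B),
    (Diag.cmap (D := D.toThy) (K m i j).K (K m i j).ok1 (Psh.yon _ σ)).comp (α m x i j) =
      ((K m i j).P1.p B).comp (T.F.evH (D := D.toThy) (Θ := D.toThy) T.S σ i j)

theorem exists_std (K : T.Col) (W : Alg D.toSig) : ∃ α : ActD K (T.F.alg W), α.Std := by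
  choose α hα using fun (m : ℕ) (x : Fin (m + 1) → (T.F.alg W).G.cell 0) (i j : Fin (m + 1)) =>
    Diag.exists_desc (K m i j).P1.wf (Sus.nv (D := D.toThy) T.S (T.F.alg W) x)
      (fun B σ => ((K m i j).P1.p B).comp (T.F.evH (D := D.toThy) (Θ := D.toThy) T.S σ i j))
      fun b c f g => by
        rw [Fgt.evH_map, ← AHom.comp_assoc, ← (K m i j).P1.nat, AHom.comp_assoc]
  exact ⟨α, hα⟩

theorem ActD.Std.ext {K : T.Col} {W : Alg D.toSig} {α : ActD K (T.F.alg W)} (h : α.Std) :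
    α.Ext := fun m x i j B σ => by
  rw [h, ← AHom.comp_assoc, Colored.incl_p, AHom.comp_assoc, θ_evH]

theorem ActD.Std.comm {K : T.Col} {W W' : Alg D.toSig} {α : ActD K (T.F.alg W)}
    {α' : ActD K (T.F.alg W')} (h : α.Std) (h' : α'.Std) (f : AHom W W') :
    α.Comm α' (T.F.map f) := fun m x x' hx i j =>
  Diag.col_ext (K m i j).P1.wf fun B σ => by
    rw [← AHom.comp_assoc, Diag.cmap_yon, h', ← AHom.comp_assoc, h, AHom.comp_assoc,
      Fgt.evH_comp]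

end Stage

open Stage in
theorem Step.exists_fgt (P : Step T) : ∃ F' : Fgt D.toSig P.Γ'.toSig,
    (∀ W, (F'.st W).res P.e = T.F.st W) ∧ ∀ (A : Tr) (n : ℕ), RLift
      (ext (D := T.Γ) (Y := (FrT P.Γ' A).res P.e) (η P.Γ' (posG A))).map
      (ext (D := T.Γ) (Y := T.F.alg (FrT D.toThy A)) (η D.toThy (posG A))).map
      (ext (D := P.Γ') (Y := F'.alg (FrT D.toThy A)) (η D.toThy (posG A))).map (n + 1) := by
  choose α hα using exists_std P.K
  let F' : Fgt D.toSig P.Γ'.toSig := ⟨fun W => P.bld (T.F.alg W) (α W) (hα W).ext, fun f =>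
    (P.bld_hom _ _ _ _ _ _ (T.F.map f)).2 ((hα _).comm (hα _) f)⟩
  have hres : ∀ W, (F'.st W).res P.e = T.F.st W := fun W => P.bld_res _ _ _
  refine ⟨F', hres, ?_⟩
  rintro ⟨m, ch⟩ n
  let B : TObj.{u} (Fin m) := ⟨ch⟩
  have hv : ∀ x : (FrT T.Γ (.node m ch)).G.cell 0, ∃ i, x = Fgt.vx T.Γ B i := by
    rintro ⟨t, ht⟩
    obtain ⟨v, rfl⟩ := OK.zero_var t
    cases v with
    | vtx i => exact ⟨i, rfl⟩
  refine RLift.of_hom fun x x' => ?_
  obtain ⟨i, rfl⟩ := hv x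
  obtain ⟨j, rfl⟩ := hv x'
  refine ⟨Fgt.vx P.Γ' B i, Fgt.vx P.Γ' B j, Fgt.vx D.toThy B i, Fgt.vx D.toThy B j,
    ext_η_app _ _ _, ext_η_app _ _ _, ext_η_app _ _ _, ext_η_app _ _ _, ext_η_app _ _ _,
    ext_η_app _ _ _, ?_⟩
  obtain ⟨β, hβ, eβ⟩ := P.bld_surj (FrT P.Γ' (.node m ch))
  let p' := ext (D := P.Γ') (Y := F'.alg (FrT D.toThy (.node m ch))) (η D.toThy _)
  let φ : AHom ((FrT P.Γ' (.node m ch)).res P.e) (T.F.alg (FrT D.toThy (.node m ch))) :=
    ⟨p'.map, by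
      show IsHom _ (T.F.st _).str.op _
      rw [← hres]; exact (p'.res P.e).hom⟩
  have hφ : β.Comm (α _) φ := (P.bld_hom _ _ _ hβ _ (hα _).ext φ).1 (by rw [eβ]; exact p'.hom)
  let u' := Sus.gen (D := D.toThy) T.S (X := (FrT P.Γ' (.node m ch)).res P.e) (B := B) (η P.Γ' _)
  have hx : ∀ i, φ.map.app 0 (Fgt.vx P.Γ' B i) = Fgt.vx D.toThy B i := fun i => ext_η_app _ _ _
  have eu : (Sus.nvMap (D := D.toThy) T.S φ _ _ hx).app B u' =
      T.F.un (D := D.toThy) (Θ := D.toThy) T.S B :=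
    T.S.asm_inj (by rw [Sus.asm_nvMap, Sus.asm_gen, Fgt.asm_un]; exact η_ext _)
  have e3 := congrArg (Diag.cmap (D := D.toThy) (P.K m i j).K (P.K m i j).ok1
    (Psh.yon _ u')).comp (hφ m _ _ hx i j)
  rw [← AHom.comp_assoc, Diag.cmap_yon, eu, hα, Fgt.evH_un, ← AHom.comp_assoc] at e3
  refine RLift.of_repl ((P.K m i j).P0.p B).map ((P.K m i j).P1.p B).map ((P.K m i j).incl _).map
    ((Diag.cmap (D := D.toThy) (P.K m i j).K (P.K m i j).ok1 (Psh.yon _ u')).comp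
      (β m _ i j)).map ((P.K m i j).P0.tfib B) ((P.K m i j).P1.tfib B) ?_ ?_
    (congrArg AHom.map e3).symm n
  · refine (congrArg AHom.map ((P.K m i j).incl_p B)).trans ?_
    refine congrArg ((P.K m i j).P0.p B).map.comp (GMap.ext' fun n z => Subtype.ext ?_)
    exact (T.evO_val _ i j n z).trans (by rw [Fgt.asm_un]; rfl)
  · refine (congrArg AHom.map (hβ m _ i j B u')).trans ?_
    refine congrArg ((P.K m i j).P0.p B).map.comp (GMap.ext' fun n z => Subtype.ext ?_)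
    exact (T.evO_val _ i j n z).trans (by rw [Sus.asm_gen]; rfl)

end Crest.Agent.R248
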