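import Crest.Agent.R248.Stage

/-!
# Row 248: the first stage (graphs of algebras) and its path objects.
-/

set_option autoImplicit false

namespace Crest.Agent.R248

open Crest.GeometryTopology.Coherator Tr

universe u

theorem exists_path_alg (D : Thy.{u}) (L : ℕ) (X : Alg D.toSig) :
    ∃ (Y Z : Alg D.toSig) (q : AHom Y X) (d : AHom Y Z) (p0 p1 : AHom Z Y), TFib q.map ∧
      d.comp p0 = AHom.id Y ∧ d.comp p1 = AHom.id Y ∧ Fib L (pairG p0.map p1.map) ∧ Pres L d := by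
  obtain ⟨Δ, U, hU, q, hq⟩ := exists_cofib D X
  obtain ⟨Δ', V, V', J, e, p, hJ, he, hfac, hp⟩ :=
    exists_factor L hU (pairA (AHom.id (Fr D Δ U)) (AHom.id (Fr D Δ U)))
  obtain ⟨e', h1, h2⟩ := e.exists_inv he
  refine ⟨_, _, q, e.comp (frIncl J.sub'), p.comp (fstA _ _), p.comp (sndA _ _), hq,
    congrArg (fun f => AHom.comp f (fstA _ _)) hfac, congrArg (fun f => AHom.comp f (sndA _ _)) hfac,
    hp, Δ', V, V', J, e', AHom.id _, hJ, fun n => Function.bijective_iff_has_inverse.2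
      ⟨e.map.app n, AHom.app_eq h2 n, AHom.app_eq h1 n⟩, fun _ => Function.bijective_id, ?_⟩
  rw [← AHom.comp_assoc, h2]
  rfl

/-! ## The theory of graphs of algebras -/

/-- suspended symbols -/
inductive SusOp (O : OpFam.{u}) : Tr → ℕ → Type u
  | mk {A : Tr} {n : ℕ} (γ : O A n) : SusOp O (susp A) (n + 1)

/-- the suspension of symbols -/
abbrev susF (O : OpFam.{u}) : ∀ A n, O A n → SusOp O (susp A) (n + 1) := fun _ _ => SusOp.mk

/-- the signature of suspended symbols -/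
@[reducible] def susSig (D : Sig.{u}) : Sig.{u} where
  Op := SusOp D.Op
  src := fun | .mk γ => Tm.trS (susF D.Op) (D.src γ)
  tgt := fun | .mk γ => Tm.trS (susF D.Op) (D.tgt γ)
  ok := fun | .mk γ => D.ok γ

@[reducible] def susSus (D : Sig.{u}) : Sus D (susSig D) :=
  ⟨susF D.Op, fun _ _ _ => Iff.rfl, fun _ _ _ => rfl, fun _ _ _ => rfl⟩

theorem susSig_wf (D : Thy.{u}) : (susSig D.toSig).WF := by
  rintro _ _ ⟨γ⟩ hγ
  rename_i A n
  have := ((susSus D.toSig).ok_tr (Δ := Ctx.ofGS _ (posG A)) (Δ' := Ctx.ofGS _ (posG (susp A)))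
    (a := .var (sv0 A)) (b := .var (sv1 A)) (θ := fun _ p => .var (sbr p)) (T' := ⊤)
    (OK.ofGS_top _ _ _) (OK.ofGS_top _ _ _) (fun k p _ => by cases k <;> exact ⟨rfl, rfl⟩)
    (fun k p _ _ _ _ => OK.ofGS_top (posG (susp A)) _ (sbr p)) (D.wf A n γ hγ)).1
  rw [Tm.tr_op] at this
  convert this using 2
  funext k p
  revert k p
  exact susp_cases rfl rfl fun _ _ => rfl

/-- the theory of graphs of algebras -/
@[reducible] def susThy (D : Thy.{u}) : Thy.{u} := ⟨susSig D.toSig, susSig_wf D⟩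

section OfGraph

variable {D : Thy.{u}} {G G' : GS.{u}} (Gr : Graph G) (R : ∀ x y, AStr D.toSig (Gr.H x y))

/-- the operations of a graph of algebras -/
def grOp : OpRel (SusOp D.Op) G
  | _, _, .mk γ, τ, c => ∃ x y σ z, τ = Gr.susp x y σ ∧ c = Gr.ι _ z ∧ (R x y).str.op _ _ γ σ z

theorem grOp_mk {x y : G.cell 0} (A : Tr) (n : ℕ) (γ : D.Op A n) (σ : GMap (posG A) (Gr.H x y))
    (z : (Gr.H x y).cell (n + 1)) (h : (R x y).str.op A n γ σ z) :
    grOp Gr R _ _ (.mk γ) (Gr.susp x y σ) (Gr.ι _ z) := ⟨x, y, σ, z, rfl, rfl, h⟩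

/-- the algebra given by a graph of algebras -/
def ofGraph : AStr (susSig D.toSig) G where
  str :=
    { op := grOp Gr R
      func := by
        rintro _ _ ⟨γ⟩ τ c c' ⟨x, y, σ, z, rfl, rfl, h⟩ ⟨x', y', σ', z', e, rfl, h'⟩
        obtain rfl : x = x' := Carrier.gapp_congr e 0 (sv0 _)
        obtain rfl : y = y' := Carrier.gapp_congr e 0 (sv1 _)
        obtain rfl := Gr.susp_inj e
        rw [(R x y).str.func _ _ _ _ _ _ h h']
      law := by
        rintro _ _ ⟨γ⟩ τ c ⟨x, y, σ, z, rfl, rfl, h⟩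
        obtain ⟨h1, h2⟩ := (R x y).str.law _ _ _ _ _ h
        rw [Gr.srcS, Gr.tgtS]
        exact ⟨Eval.tr Gr (grOp_mk Gr R) (.var rfl) (.var rfl)
            (fun _ _ _ h => .var (congrArg (Gr.ι _) h)) h1,
          Eval.tr Gr (grOp_mk Gr R) (.var rfl) (.var rfl)
            (fun _ _ _ h => .var (congrArg (Gr.ι _) h)) h2⟩ }
  total := by
    rintro _ _ ⟨γ⟩ hγ τ
    obtain ⟨σ, hσ⟩ := Gr.susp_surj τ rfl rfl
    obtain ⟨z, hz⟩ := (R _ _).total _ _ γ hγ σ
    exact ⟨_, _, _, σ, z, hσ.symm, rfl, hz⟩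
  act := by
    rintro _ _ ⟨γ⟩ τ c ⟨x, y, σ, z, -, -, h⟩
    exact (R x y).act _ _ _ _ _ h

/-- comparison of a graph with the hom globular sets -/
def Graph.toHom (x y : G.cell 0) : GMap (Gr.H x y) (homG G x y) where
  app n z := ⟨Gr.ι n z, Gr.s0_ι n z, Gr.t0_ι n z⟩
  app_src n z := Subtype.ext (Gr.srcS n z).symm
  app_tgt n z := Subtype.ext (Gr.tgtS n z).symm

theorem Graph.toHom_bij (x y : G.cell 0) (n : ℕ) : Function.Bijective ((Gr.toHom x y).app n) :=
  ⟨fun _ _ h => Gr.inj n (congrArg Subtype.val h), fun c =>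
    (Gr.surj' n c.1 c.2.1 c.2.2).imp fun _ h => Subtype.ext h⟩

/-- the comparison as a homomorphism -/
def toHomA (x y : G.cell 0) :
    AHom (R x y).alg (Sus.hom (D := D) (susSus D.toSig) (ofGraph Gr R).alg x y) :=
  ⟨Gr.toHom x y, fun _ _ _ σ z h => ⟨x, y, σ, z, susp_ext fun _ _ => rfl, rfl, h⟩⟩

variable {Gr R}

theorem isHom_ofGraph {X : Alg (susSig D.toSig)} {f : GMap G X.G}
    (F : Graph.Over Gr (homGraph X.G) f)
    (hF : ∀ x y, IsHom (R x y).str.op (Sus.hom (D := D) (susSus D.toSig) X _ _).str.op (F.m x y)) :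
    IsHom (ofGraph Gr R).str.op X.str.op f := by
  rintro _ _ ⟨γ⟩ τ c ⟨x, y, σ, z, rfl, rfl, h⟩
  have e : (Gr.susp x y σ).comp f = (homGraph X.G).susp _ _ (σ.comp (F.m x y)) :=
    susp_ext fun n p => (F.comm x y n _).symm
  rw [e, ← F.comm]
  exact hF x y _ _ _ _ _ h

theorem isHom_ofGraph' {Gr' : Graph G'} {R' : ∀ x y, AStr D.toSig (Gr'.H x y)} {f : GMap G G'}
    (F : Graph.Over Gr Gr' f) (hF : ∀ x y, IsHom (R x y).str.op (R' _ _).str.op (F.m x y)) :
    IsHom (ofGraph Gr R).str.op (ofGraph Gr' R').str.op f :=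
  isHom_ofGraph (X := (ofGraph Gr' R').alg)
    ⟨fun x y => (F.m x y).comp (Gr'.toHom _ _), F.comm⟩
    fun x y => (AHom.comp (X := (R x y).alg) ⟨F.m x y, hF x y⟩ (toHomA Gr' R' _ _)).hom

end OfGraph

/-! ## Assembling globular sets -/

section Asm

variable (X0 : Type u) (H : X0 → X0 → GS.{u})

def asmCell : ℕ → Type u
  | 0 => X0
  | n + 1 => Σ x y, (H x y).cell n

/-- the globular set with given objects and hom globular sets -/
@[reducible] def AsmG : GS.{u} where
  cell := asmCell X0 H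
  src
    | 0, c => c.1
    | n + 1, c => ⟨c.1, c.2.1, (H _ _).src n c.2.2⟩
  tgt
    | 0, c => c.2.1
    | n + 1, c => ⟨c.1, c.2.1, (H _ _).tgt n c.2.2⟩
  src_src
    | 0, _ => rfl
    | n + 1, c => congrArg (fun z => (⟨c.1, c.2.1, z⟩ : asmCell X0 H (n + 1)))
        ((H _ _).src_src n c.2.2)
  tgt_tgt
    | 0, _ => rfl
    | n + 1, c => congrArg (fun z => (⟨c.1, c.2.1, z⟩ : asmCell X0 H (n + 1)))
        ((H _ _).tgt_tgt n c.2.2)

/-- its graph -/
@[reducible] def asmGraph : Graph (AsmG X0 H) where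
  H := H
  ι _ z := ⟨_, _, z⟩
  src0 _ := rfl
  tgt0 _ := rfl
  srcS _ _ := rfl
  tgtS _ _ := rfl
  inj _ _ _ h := by cases h; rfl
  surj _ c := ⟨_, _, c.2.2, rfl⟩

variable {X0 H}

/-- maps out of an assembled globular set -/
def asmTo {G : GS.{u}} (Gr : Graph G) (f0 : X0 → G.cell 0)
    (f : ∀ x y, GMap (H x y) (Gr.H (f0 x) (f0 y))) : GMap (AsmG X0 H) G where
  app
    | 0, x => f0 x
    | n + 1, c => Gr.ι n ((f _ _).app n c.2.2)
  app_src
    | 0, _ => (Gr.src0 _).symm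
    | n + 1, c => (congrArg (Gr.ι n) ((f _ _).app_src n c.2.2)).trans (Gr.srcS _ _).symm
  app_tgt
    | 0, _ => (Gr.tgt0 _).symm
    | n + 1, c => (congrArg (Gr.ι n) ((f _ _).app_tgt n c.2.2)).trans (Gr.tgtS _ _).symm

def asmOver {G : GS.{u}} (Gr : Graph G) (f0 : X0 → G.cell 0)
    (f : ∀ x y, GMap (H x y) (Gr.H (f0 x) (f0 y))) :
    Graph.Over (asmGraph X0 H) Gr (asmTo Gr f0 f) := ⟨f, fun _ _ _ _ => rfl⟩

/-- maps between assembled globular sets -/
abbrev asmMap {H' : X0 → X0 → GS.{u}} (f : ∀ x y, GMap (H x y) (H' x y)) :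
    GMap (AsmG X0 H) (AsmG X0 H') := asmTo (asmGraph X0 H') id f

theorem asmMap_retr {H' : X0 → X0 → GS.{u}} (f : ∀ x y, GMap (H x y) (H' x y))
    (g : ∀ x y, GMap (H' x y) (H x y)) (h : ∀ x y, (f x y).comp (g x y) = GMap.id _) :
    (asmMap f).comp (asmMap g) = GMap.id _ := GMap.ext' fun n c => by
  cases n with
  | zero => rfl
  | succ n =>
    exact congrArg (fun z => (⟨c.1, c.2.1, z⟩ : asmCell X0 H (n + 1)))
      (Carrier.gapp_congr (h _ _) n c.2.2)

end Asm

theorem Fib.of_bij {L : ℕ} {X X' Y Y' : GS.{u}} {p : GMap X Y} {p' : GMap X' Y'} (hp : Fib L p)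
    (a : GMap X X') (b : GMap Y Y') (ha : ∀ n, Function.Bijective (a.app n))
    (hb : ∀ n, Function.Bijective (b.app n)) (h : a.comp p' = p.comp b) : Fib L p' := by
  obtain ⟨a', h1, h2⟩ := a.exists_inv ha
  have e : p' = a'.comp (p.comp b) := by rw [← h, ← GMap.comp_assoc, h2]; rfl
  rw [e]
  exact ((TFib.of_bij fun n => Function.bijective_iff_has_inverse.2
    ⟨a.app n, Carrier.gapp_congr h2 n, Carrier.gapp_congr h1 n⟩).fib L).comp
    (hp.comp ((TFib.of_bij hb).fib L))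

theorem Pres.of_bij {D : Thy.{u}} {L : ℕ} {X X' Y Y' : Alg D.toSig} {f : AHom X Y} {f' : AHom X' Y'}
    (hf : Pres L f) (a : AHom X X') (b : AHom Y Y') (ha : ∀ n, Function.Bijective (a.map.app n))
    (hb : ∀ n, Function.Bijective (b.map.app n)) (h : a.comp f' = f.comp b) : Pres L f' := by
  obtain ⟨Δ, U, U', J, a', b', hJ, ha', hb', e⟩ := hf
  refine ⟨Δ, U, U', J, a'.comp a, b'.comp b, hJ, fun n => (ha n).comp (ha' n),
    fun n => (hb n).comp (hb' n), ?_⟩
  rw [AHom.comp_assoc, h, ← AHom.comp_assoc, e]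
  rfl

theorem exists_stage0 (D : Coh.{u}) (L : ℕ) : ∃ T : Stage D, T.HasPath L := by
  let T : Stage D := ⟨susThy D.toThy, susSus D.toSig,
    ⟨fun W => ofGraph (D := D.toThy) (homGraph W.G) fun x y => (homAlg W x y).astr,
      fun f => isHom_ofGraph' (homOver f.map) fun x y => (homAHom f x y _ _ rfl rfl).hom⟩⟩
  refine ⟨T, fun X => ?_⟩
  choose Y Z q d p0 p1 hq h0 h1 hf hd using fun x y : X.G.cell 0 =>
    exists_path_alg D.toThy L (Sus.hom (D := D.toThy) T.S X x y)
  let GY := asmGraph (X.G.cell 0) fun x y => (Y x y).G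
  let GZ := asmGraph (X.G.cell 0) fun x y => (Z x y).G
  let Q : PathG L X.G :=
    { Y := AsmG _ fun x y => (Y x y).G
      Z := AsmG _ fun x y => (Z x y).G
      q := asmTo (homGraph X.G) id fun x y => (q x y).map
      d := asmMap fun x y => (d x y).map
      p0 := asmMap fun x y => (p0 x y).map
      p1 := asmMap fun x y => (p1 x y).map
      q_tfib := fun n => by
        cases n with
        | zero => exact ILift.of_zero fun y => ⟨y, rfl⟩
        | succ n => exact ((asmOver _ _ _).ilift_succ n).2 fun x y => hq x y n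
      d_surj := fun z => ⟨z, rfl⟩
      dp0 := asmMap_retr _ _ fun x y => congrArg AHom.map (h0 x y)
      dp1 := asmMap_retr _ _ fun x y => congrArg AHom.map (h1 x y)
      fib := by
        intro z z' y y' e1 e2 e3 e4
        obtain rfl : z = y := e1
        obtain rfl : z' = y' := e2
        exact (hf z z').of_bij (GZ.toHom z z')
          (pairG ((fstG _ _).comp (GY.toHom z z')) ((sndG _ _).comp (GY.toHom z z')))
          (GZ.toHom_bij z z') (fun n => (GY.toHom_bij z z' n).prodMap (GY.toHom_bij z z' n)) rfl }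
  let s : PathA Q X.astr :=
    { RY := ofGraph (D := D.toThy) GY fun x y => (Y x y).astr
      RZ := ofGraph (D := D.toThy) GZ fun x y => (Z x y).astr
      q_hom := isHom_ofGraph (asmOver (homGraph X.G) id fun x y => (q x y).map)
        fun x y => (q x y).hom
      d_hom := isHom_ofGraph' (asmOver GZ id fun x y => (d x y).map) fun x y => (d x y).hom
      p0_hom := isHom_ofGraph' (asmOver GY id fun x y => (p0 x y).map) fun x y => (p0 x y).hom
      p1_hom := isHom_ofGraph' (asmOver GY id fun x y => (p1 x y).map) fun x y => (p1 x y).hom }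
  refine ⟨Q, s, fun y y' z z' e1 e2 => ?_⟩
  obtain rfl : y = z := e1
  obtain rfl : y' = z' := e2
  exact (hd y y').of_bij (toHomA (D := D.toThy) GY (fun x y => (Y x y).astr) y y')
    (toHomA (D := D.toThy) GZ (fun x y => (Z x y).astr) y y') (GY.toHom_bij y y')
    (GZ.toHom_bij y y') rfl

end Crest.Agent.R248
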