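import Crest.Agent.R248.Stage

/-!
# Row 248: path objects make extensions by pairs of positive dimension equivalences on homs.
-/

set_option autoImplicit false

namespace Crest.Agent.R248

open Crest.GeometryTopology.Coherator Tr

universe u

variable {D : Coh.{u}} {L : ℕ}

theorem Pres.W (hP : PJ D.toThy L) {X Y : Alg D.toSig} {f : AHom X Y}
    (h : Pres (D := D.toThy) L f) : W L f.map := by
  obtain ⟨Δ, U, U', J, a, b, hJ, ha, hb, e⟩ := h
  refine W.of_comp_right (W_of_bij ha L) ?_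
  rw [← AHom.comp_map, e]
  exact W.comp (J.W_of_idim hP hJ).2 (W_of_bij hb L)

/-- equivalences on hom globular sets -/
def W1 (L : ℕ) {X Y : GS.{u}} (f : GMap X Y) : Prop :=
  ∀ x x', W L (homMap f x x' _ _ rfl rfl)

theorem W1_iff {X Y : GS.{u}} {f : GMap X Y} : W1 L f ↔ ∀ n, n < L → WLift f (n + 1) :=
  ⟨fun h n hn => ((homOver f).wlift_succ n).2 fun x x' => h x x' n hn,
    fun h x x' n hn => ((homOver f).wlift_succ n).1 (h n hn) x x'⟩

theorem W1.hom {X Y : GS.{u}} {f : GMap X Y} (h : W1 L f) {x x' y y'} (h1 h2) :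
    W L (homMap f x x' y y' h1 h2) := by
  subst h1 h2; exact h x x'

theorem W1.mono {X Y : GS.{u}} {f : GMap X Y} {L' : ℕ} (h : W1 L f) (hl : L' ≤ L) : W1 L' f :=
  fun x x' => (h x x').mono hl

theorem W1.of_comp_left {X Y Z : GS.{u}} {f : GMap X Y} {g : GMap Y Z} (h : W1 L (f.comp g))
    (hg : W1 (L + 1) g) : W1 L f := fun x x' =>
  W.of_comp_left (g := homMap g _ _ _ _ rfl rfl) (h x x') (hg _ _)

section

variable {Θ : Sig.{u}} (H : HomStr D.toSig Θ)
include H

theorem W1.comp {X Y : GS.{u}} {Z : Alg Θ} {f : GMap X Y} {g : GMap Y Z.G} (hf : W1 L f)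
    (hg : W1 L g) : W1 L (f.comp g) := fun x x' =>
  W.comp (Z := (H.st Z _ _).alg) (hf x x') (hg _ _)

theorem TFib.W1 {X : GS.{u}} {Y : Alg Θ} {p : GMap X Y.G} (h : TFib p) (L : ℕ) : W1 L p :=
  fun x x' => TFib.W (Y := (H.st Y _ _).alg)
    (fun n => ((homOver p).ilift_succ n).1 (h (n + 1)) x x') L

theorem jlift_unit_succ (Y : Alg Θ) (n : ℕ) : JLift (toUnit Y.G) (n + 1) := fun a _ _ => by
  obtain ⟨c, hc, -⟩ := step_refl (H.st Y _ _).alg (n := n) ⟨a, rfl, rfl⟩
  exact ⟨c.1, congrArg Subtype.val hc, rfl⟩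

theorem W1.of_retraction {Y Z : Alg Θ} {d : GMap Y.G Z.G} (p : AHom Z Y) (hd : W1 L d)
    (hs : Function.Surjective (d.app 0)) (e : d.comp p.map = GMap.id _) : W1 (L + 1) p.map := by
  intro z z'
  obtain ⟨y, rfl⟩ := hs z
  obtain ⟨y', rfl⟩ := hs z'
  refine W.of_comp_right' (Y := (H.st Z _ _).alg) (Z := (H.st Y _ _).alg)
    (g := ⟨_, H.nat p _ _ _ _ rfl rfl⟩) (hd y y') ?_
  have : W1 (L + 1) (d.comp p.map) := by
    rw [e]; exact TFib.W1 H (TFib.of_bij fun _ => Function.bijective_id) _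
  exact this y y'

end

theorem PathG.jlift {X : GS.{u}} (Q : PathG L X) (n : ℕ) : JLift (pairG Q.p0 Q.p1) (n + 1) := by
  intro a w hw
  have e : ∀ z, Q.p1.app 0 z = Q.p0.app 0 z := fun z => by
    obtain ⟨y, rfl⟩ := Q.d_surj z
    exact (congrArg (fun φ : GMap _ _ => φ.app 0 y) Q.dp1).trans
      (congrArg (fun φ : GMap _ _ => φ.app 0 y) Q.dp0).symm
  have h0 : Q.Y.src _ w.1 = Q.p0.app _ a := congrArg Prod.fst hw
  have h1 : Q.Y.src _ w.2 = Q.p1.app _ a := congrArg Prod.snd hw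
  obtain ⟨c, hc1, hc2⟩ := (Q.fib (s0 _ _ a) (t0 _ _ a) _ _ rfl rfl (e _) (e _)).jlift n
    ⟨a, rfl, rfl⟩
    (⟨w.1, (congrArg (s0 _ _) h0).trans (s0_map _ _ _),
        (t0_src _ _ _).symm.trans ((congrArg (t0 _ _) h0).trans (t0_map _ _ _))⟩,
      ⟨w.2, (congrArg (s0 _ _) h1).trans ((s0_map _ _ _).trans (e _)),
        (t0_src _ _ _).symm.trans ((congrArg (t0 _ _) h1).trans ((t0_map _ _ _).trans (e _)))⟩)
    (Prod.ext (Subtype.ext h0) (Subtype.ext h1))
  exact ⟨c.1, congrArg Subtype.val hc1, Prod.ext (congrArg (fun c => c.1.1) hc2)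
    (congrArg (fun c => c.2.1) hc2)⟩

theorem path_arg {Θ : Thy.{u}} (H : HomStr D.toSig Θ.toSig) {Δ : Ctx Θ.Op} {U U' : VSet Δ.Var}
    (J : JExt Θ.toSig Δ U U') (h1 : J.NoI) (h2 : J.Pos1) (Q : PathG L (Fr Θ Δ U').G)
    (s : PathA Q (Fr Θ Δ U').astr) (hd : ∀ y y', W L (homMap Q.d y y' _ _ rfl rfl)) (n : ℕ)
    (hn : n < L) : WLift (frIncl (D := Θ) J.sub').map (n + 1) := by
  have pos : ∀ {X Y : GS.{u}} {p : GMap X Y}, (∀ n, JLift p (n + 1)) →
      ∀ n x h, J.pair n x h → JLift p n := by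
    intro X Y p hp n x h a
    obtain ⟨n, rfl⟩ := Nat.exists_eq_add_of_le' (h2 n x h a)
    exact hp n
  obtain ⟨σ, hσ⟩ := fr_cofibrant s.qA (AHom.id _) fun n _ _ => Q.q_tfib n
  obtain ⟨r, hr, -⟩ := J.lifting (toUnitA _) (AHom.id _) (toUnitA _) rfl
    (fun n x hx => (h1 n x hx).elim) (pos (jlift_unit_succ H _))
  obtain ⟨h, -, hh⟩ := J.lifting (pairA s.p0A s.p1A) (((frIncl J.sub').comp σ).comp s.dA)
    (pairA σ ((r.comp (frIncl J.sub')).comp σ)) (AHom.ext' fun k x => Prod.ext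
      (congrArg (fun φ : GMap _ _ => φ.app k _) Q.dp0)
      ((congrArg (fun φ : GMap _ _ => φ.app k _) Q.dp1).trans
        (congrArg (fun y => σ.map.app k ((frIncl J.sub').map.app k y))
          (AHom.app_eq hr k x).symm)))
    (fun n x hx => (h1 n x hx).elim) (pos Q.jlift)
  have e0 : h.map.comp Q.p0 = σ.map :=
    GMap.ext' fun k x => congrArg Prod.fst (AHom.app_eq hh k x)
  have e1 : h.map.comp Q.p1 = (r.map.comp (frIncl J.sub').map).comp σ.map :=
    GMap.ext' fun k x => congrArg Prod.snd (AHom.app_eq hh k x)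
  have eq : σ.map.comp Q.q = GMap.id _ := congrArg AHom.map hσ
  have wq := fun L => TFib.W1 H (Y := Fr Θ Δ U') Q.q_tfib L
  have w0 := W1.of_retraction H s.p0A hd Q.d_surj Q.dp0
  have w1 := W1.of_retraction H s.p1A hd Q.d_surj Q.dp1
  have wσ : W1 L σ.map := W1.of_comp_left (by
    rw [eq]; exact TFib.W1 H (Y := Fr Θ Δ U') (TFib.of_bij fun _ => Function.bijective_id) _) (wq _)
  have wh : W1 L h.map := W1.of_comp_left (by rw [e0]; exact wσ) w0
  have w : W1 L ((h.map.comp Q.p1).comp Q.q) :=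
    W1.comp H (Z := Fr Θ Δ U') (W1.comp H (Z := s.RY.alg) wh (w1.mono (Nat.le_succ L))) (wq L)
  rw [e1, GMap.comp_assoc, eq, GMap.comp_id] at w
  intro t y hy
  have hir : (frIncl J.sub').map.comp r.map = GMap.id _ := congrArg AHom.map hr
  obtain ⟨x, hx, hs⟩ := W1_iff.1 w n hn ((frIncl J.sub').map.sphere _ t) y (by
    rw [hy, sphere_comp, ← sphere_comp (frIncl J.sub').map r.map, hir, sphere_id])
  exact ⟨r.map.app _ x, by rw [bdry_map, hx, ← sphere_comp, hir, sphere_id], hs⟩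

/-- the vertices and the first edges of a tree -/
def Pos.Spine {m : ℕ} {ch : Fin m → Tr} : ∀ n, Pos.{u} (.node m ch) n → Prop
  | _, .vtx _ => True
  | _, .br _ p => Pos.IsV0 _ p

/-- the inclusion of the spine -/
def spineMap {m : ℕ} (ch : Fin m → Tr) :
    GMap (posG.{u} (.node m fun _ => disk 0)) (posG (.node m ch)) :=
  (homGraph (posG (.node m ch))).asm Pos.vtx fun l =>
    (cls 0 (Y := posG (ch l)) (Pos.v0 _)).comp (brMap ch l)

theorem pos_pt {P : ∀ n, Pos.{u} (disk 0) n → Prop} (h : P 0 (.vtx 0)) : ∀ n p, P n p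
  | _, .vtx i => by
    obtain rfl : i = 0 := Subsingleton.elim (α := Fin 1) _ _
    exact h
  | _, .br l _ => l.elim0

theorem spine_cases {m : ℕ} {P : ∀ n, Pos.{u} (.node m fun _ => disk 0) n → Prop}
    (h0 : ∀ i, P 0 (.vtx i)) (h1 : ∀ l, P 1 (.br l (.vtx 0))) : ∀ n p, P n p
  | _, .vtx i => h0 i
  | _, .br l p => pos_pt (P := fun n p => P (n + 1) (.br l p)) (h1 l) _ p

theorem Stage.hi_of_path (hP : PJ D.toThy L) {T : Stage D} (h : T.HasPath L) : T.HI L := by
  intro m i j B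
  have hc : Closed T.Γ.toSig (Ctx.ofGS _ (posG (Sus.nd B))) Pos.Spine := fun n p hp => by
    refine OK.ofGS_var (posG (Sus.nd B)) (fun k q hq => ?_) n p hp
    cases q with
    | br l q => cases hq.dim; exact ⟨trivial, trivial⟩
  have hp : ∀ n x k, (treeJ T.Γ.toSig (Sus.nd B)).pair n x k →
      (Pos.Spine n x ↔ Pos.Spine _ k) := by
    intro n x k a
    cases a with
    | vtx l => exact ⟨fun _ => Pos.isV0_v0 _, fun _ => trivial⟩
    | br l a => exact ⟨fun b => absurd b a.not_v0, fun b => by cases b.dim⟩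
  let J := (treeJ T.Γ.toSig (Sus.nd B)).upper Pos.Spine
    (fun n p hp => by cases hp.dim; rw [hp.eq]; trivial) (fun _ _ _ => trivial) hc hp
  obtain ⟨Q, s, hs⟩ := h (FrT T.Γ (Sus.nd B))
  have w : W1 L (frIncl (D := T.Γ) J.sub').map := W1_iff.2 (path_arg T.S.homStr J
    (fun n x hx => treeJ_noI _ _ n x (JExt.upper_icell _ hx).1) (fun n x k a => by
      cases n with
      | zero => cases x; exact absurd trivial a.2
      | succ n => omega) Q s fun y y' => (hs y y' _ _ rfl rfl).W hP)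
  let e : AHom (FrT T.Γ (Sus.nd (ptObj (Fin m))))
      (Fr T.Γ (Ctx.ofGS _ (posG (Sus.nd B))) Pos.Spine) :=
    frRen (spineMap B.tr).app (fun n x _ => ⟨congrArg Tm.var ((spineMap B.tr).app_src n x).symm,
      congrArg Tm.var ((spineMap B.tr).app_tgt n x).symm⟩)
      fun n x _ => spine_cases (P := fun n x => Pos.Spine n ((spineMap B.tr).app n x))
        (fun _ => trivial) (fun _ => Pos.isV0_v0 _) n x
  have he : ∀ n, Function.Bijective (e.map.app n) := by
    refine frRen_bij _ _ _ (fun n x y _ _ => ?_) fun n x hx => ?_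
    · cases x with
      | vtx a => cases y with | vtx b => intro c; cases c; rfl
      | br l x =>
        cases y with
        | br l' y =>
          intro c
          obtain rfl : l = l' := by injection c
          have : ∀ n (p : Pos.{u} (disk 0) n), (⟨n, p⟩ : Σ n, Pos (disk 0) n) = ⟨0, .vtx 0⟩ :=
            pos_pt rfl
          exact congrArg (Pos.br l) (eq_of_heq (Sigma.mk.inj ((this _ x).trans (this _ y).symm)).2)
    · cases x with
      | vtx a => exact ⟨.vtx a, OK.ofGS_top _ _ _, rfl⟩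
      | br l x =>
        have := hx.mem
        cases this.dim
        obtain rfl := this.eq
        exact ⟨.br l (.vtx 0), OK.ofGS_top _ _ _, rfl⟩
  have ee : (Fgt.id T.Γ.toSig).nmap (D := D.toThy) (Θ := T.Γ) T.S (vtxHom D.toThy B) =
      e.comp (frIncl J.sub') := by
    refine frG_ext ((η_ext _).trans (GMap.ext' (spine_cases (fun _ => rfl) fun l => ?_)))
    exact congrArg Subtype.val (ext_η_app (Y := Sus.ch (D := D.toThy) T.S _ _ l)
      ((Fgt.id T.Γ.toSig).un (D := D.toThy) (Θ := T.Γ) T.S B l) 0 (Pos.v0 _))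
  have w' := W1.comp T.S.homStr (Z := FrT T.Γ (Sus.nd B))
    (TFib.W1 T.S.homStr (TFib.of_bij he) L) w
  rw [← AHom.comp_map, ← ee] at w'
  exact w'.hom ((Fgt.id T.Γ.toSig).nmap_vx T.S _ i) ((Fgt.id T.Γ.toSig).nmap_vx T.S _ j)

end Crest.Agent.R248
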