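import Crest.Agent.R248.Stage
import Crest.Agent.R248.Curry

/-!
# Row 248: extending the structure of a path object to the next stage.
-/

set_option autoImplicit false

namespace Crest.Agent.R248

open Crest.GeometryTopology.Coherator Tr

universe u

variable {D : Coh.{u}} {L : ℕ}

theorem nerveMap_bij {D : Thy.{u}} {ι : Type} {X X' : ι → Alg D.toSig} (f : ∀ l, AHom (X l) (X' l))
    (hf : ∀ l n, Function.Bijective ((f l).map.app n)) (c : TObj.{u} ι) :
    Function.Bijective ((nerveMap f).app c) := by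
  choose g h1 h2 using fun l => (f l).exists_inv (hf l)
  refine ⟨fun σ σ' h => funext fun l => GMap.ext' fun n p =>
    (hf l n).1 (congrArg (fun τ => (τ l).app n p) h), fun σ => ⟨fun l => (σ l).comp (g l).map,
      funext fun l => GMap.ext' fun n p => AHom.app_eq (h2 l) n _⟩⟩

theorem lemmaL_pres {ι : Type} [Finite ι] (hP : PJ D.toThy L) (K : Diag D.Op (piCat D.toThy ι))
    (ok : K.CellSet) (hK : Diag.WF (D := D.toThy) K ok) (hls : K.LS D.toThy L ok)
    {X X' : ι → Alg D.toSig} (f : ∀ l, AHom (X l) (X' l))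
    (hf : ∀ l, Pres (D := D.toThy) L (f l)) :
    WI D.toThy L (K.ten (nerve X'))
      (K.vs ok fun c σ => ∃ σ', (nerveMap (D := D.toThy) f).app c σ' = σ) (K.vs ok ⊤) := by
  choose Δ U U' J a b hJ ha hb hab using hf
  refine (Diag.wi_iso hK (nerveMap (D := D.toThy) b) (nerveMap_bij b hb)
    (T := fun c σ => ∃ σ', (nerveMap (D := D.toThy) f).app c σ' = σ) (T' := ⊤)
    fun _ _ _ => trivial).1 ?_
  have e : (fun c (σ : (nerve fun l => Fr D.toThy (Δ l) (U' l)).obj c) =>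
      ∃ σ', (nerveMap (D := D.toThy) f).app c σ' = (nerveMap (D := D.toThy) b).app c σ) =
      fun _ σ => ∀ l k p, OK D.toSig (Δ l) (U l) ((σ l).app k p).1 := by
    funext c σ
    refine propext ⟨?_, fun h => ?_⟩
    · rintro ⟨σ', h⟩ l k p
      obtain ⟨t, ht⟩ := (ha l k).2 ((σ' l).app k p)
      have h1 : (f l).map.app k ((σ' l).app k p) = (b l).map.app k ((σ l).app k p) :=
        congrArg (fun τ => (τ l).app k p) h
      rw [← ht] at h1
      rw [← (hb l k).1 ((AHom.app_eq (hab l) k t).symm.trans h1)]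
      exact t.2
    · refine ⟨fun l => GMap.comp (Y := (Fr D.toThy (Δ l) (U l)).G)
        ⟨fun k p => ⟨((σ l).app k p).1, h l k p⟩,
          fun k p => Subtype.ext (congrArg Subtype.val ((σ l).app_src k p) :),
          fun k p => Subtype.ext (congrArg Subtype.val ((σ l).app_tgt k p) :)⟩ (a l).map,
        funext fun l => GMap.ext' fun k p => AHom.app_eq (hab l) k _⟩
  have := lemmaL_multi hP K ok hK hls Δ U U' J hJ
  rw [← e] at this
  exact this

theorem Diag.vs_range {O : OpFam.{u}} {𝒞 : SCat.{u}} {K : Diag O 𝒞} {ok : K.CellSet}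
    {G H : Psh 𝒞} {φ : PMap G H} {n : ℕ} {v : DV K.Cell H n}
    (h : K.vs ok (fun c x => ∃ x', φ.app c x' = x) n v) :
    ∃ w, K.vs ok (G := G) ⊤ n w ∧ DV.map φ n w = v := by
  obtain ⟨c, κ, x'⟩ := v
  obtain ⟨h, x, hx⟩ := h
  dsimp only at h x hx
  subst hx
  exact ⟨⟨c, κ, x⟩, ⟨h, trivial⟩, rfl⟩

theorem Diag.WF.closed_range {D : Thy.{u}} {𝒞 : SCat.{u}} {K : Diag D.Op 𝒞} {ok : K.CellSet}
    (hK : K.WF ok) {G H : Psh 𝒞} (φ : PMap G H) :
    Closed D.toSig (K.ten H) (K.vs ok fun c x => ∃ x', φ.app c x' = x) := by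
  intro n v h
  obtain ⟨w, hw, rfl⟩ := Diag.vs_range h
  exact OK.ren (T' := K.vs ok fun c x => ∃ x', φ.app c x' = x) (K.bp φ _)
    (fun _ v h => ⟨h.mem.1, v.2.2, rfl⟩) (hK.closed G n w hw)

theorem Colored.lift (hP : PJ D.toThy L) {𝒞 : SCat.{u}} {R0 R1 : AFun D.toSig 𝒞}
    {θ : ∀ c, AHom (R0.obj c) (R1.obj c)} (C : Colored (D := D.toThy) R0 R1 θ) {G H : Psh 𝒞}
    (φ : PMap G H) (hφ : ∀ c, Function.Injective (φ.app c))
    (h0 : WI D.toThy L (C.K.ten H) (C.K.vs C.ok0 fun c x => ∃ x', φ.app c x' = x)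
      (C.K.vs C.ok0 ⊤))
    (h1 : WI D.toThy L (C.K.ten H) (C.K.vs C.ok1 fun c x => ∃ x', φ.app c x' = x)
      (C.K.vs C.ok1 ⊤))
    {E B : Alg D.toSig} (p : AHom E B) (hp : Fib L p.map)
    (b : AHom (Diag.col (D := D.toThy) C.K C.ok0 H) E)
    (c : AHom (Diag.col (D := D.toThy) C.K C.ok1 G) E)
    (g : AHom (Diag.col (D := D.toThy) C.K C.ok1 H) B)
    (hbc : (Diag.cmap (D := D.toThy) C.K C.ok0 φ).comp b = (C.incl G).comp c)
    (hb : b.comp p = (C.incl H).comp g)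
    (hc : c.comp p = (Diag.cmap (D := D.toThy) C.K C.ok1 φ).comp g) :
    ∃ l : AHom (Diag.col (D := D.toThy) C.K C.ok1 H) E, (C.incl H).comp l = b ∧
      (Diag.cmap (D := D.toThy) C.K C.ok1 φ).comp l = c ∧ l.comp p = g := by
  have cA := C.P0.wf.closed_range φ
  have cB := C.P0.wf.closed H
  have cC := C.P1.wf.closed_range φ
  have cT := C.P1.wf.closed H
  have w1 := WI.pushout hP cA cB cC h0 (fun n x h => ⟨C.le _ _ _ h.1, h.2⟩)
    fun n x h h' => ⟨h.1, h'.2⟩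
  have w2 := WI.cancel (fun n x h => h.mem.elim (fun h => ⟨C.le _ _ _ h.1, trivial⟩)
    fun h => ⟨h.1, trivial⟩) w1 h1
  let j : AHom (Diag.col (D := D.toThy) C.K C.ok1 G)
      (Fr D.toThy (C.K.ten H) (C.K.vs C.ok1 fun c x => ∃ x', φ.app c x' = x)) :=
    Diag.tmap (D := D.toThy) C.K φ fun _ v h => ⟨h.mem.1, v.2.2, rfl⟩
  have hj : ∀ n, Function.Bijective (j.map.app n) := by
    refine frRen_bij _ _ _ ?_ ?_
    · rintro n ⟨c, κ, x⟩ ⟨c', κ', x'⟩ - - h
      simp only [DV.map, Sigma.mk.injEq] at h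
      obtain ⟨rfl, h⟩ := h
      simp only [heq_eq_eq, Prod.mk.injEq] at h
      rw [h.1, hφ c h.2]
    · intro n v h
      obtain ⟨w, hw, rfl⟩ := Diag.vs_range h.mem
      exact ⟨w, C.P1.wf.closed G n _ hw, rfl⟩
  obtain ⟨j', hj1, -⟩ := j.exists_inv hj
  have hjc : j.comp (j'.comp c) = c := by rw [← AHom.comp_assoc, hj1]; rfl
  obtain ⟨k, hk1, hk2⟩ := exists_glue cB cC b (j'.comp c) (by
    intro n v h h'
    obtain ⟨w, hw, rfl⟩ := Diag.vs_range h'.mem
    exact (AHom.app_eq hbc n (fv w (C.P0.wf.closed G n _ ⟨h.mem.1, trivial⟩))).trans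
      (AHom.app_eq hjc n (fv w (C.P1.wf.closed G n _ hw))).symm)
  obtain ⟨l, hl1, hl2⟩ := w2.llp hP (fun n x h => h.elim
    (fun h => (cB n x h).mono fun _ _ h => Or.inl h)
    fun h => (cC n x h).mono fun _ _ h => Or.inr h) cT E B p hp k g (fr_ext (by
      intro n v hx
      rcases hx.mem with h | h
      · exact (congrArg (p.map.app n) (AHom.app_eq hk1 n (fv _ (cB n _ h)))).trans
          (AHom.app_eq hb n (fv _ (cB n _ h)))
      · obtain ⟨w, hw, rfl⟩ := Diag.vs_range h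
        have hv := C.P1.wf.closed G n w hw
        exact (congrArg (p.map.app n) ((AHom.app_eq hk2 n (j.map.app n (fv _ hv))).trans
          (AHom.app_eq hjc n (fv _ hv)))).trans (AHom.app_eq hc n (fv _ hv))))
  refine ⟨l, ?_, ?_, hl2⟩
  · rw [← hk1, ← hl1]; rfl
  · rw [← hjc, ← hk2, ← hl1]; rfl

namespace Stage

variable {T : Stage D}

/-- the action of the first colour -/
theorem exists_act0 (K : T.Col) : ∃ β : ∀ (X : Alg T.Γ.toSig) (m : ℕ) (x : Fin (m + 1) → X.G.cell 0)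
    (i j : Fin (m + 1)), AHom
      (Diag.col (D := D.toThy) (K m i j).K (K m i j).ok0 (Sus.nv (D := D.toThy) T.S X x))
      (Sus.hom (D := D.toThy) T.S X (x i) (x j)),
    (∀ X (α : ActD K X), α.Ext ↔ ∀ m x i j, ((K m i j).incl _).comp (α m x i j) = β X m x i j) ∧
    ∀ X Y (φ : AHom X Y) m x x' (h : ∀ i, φ.map.app 0 (x i) = x' i) i j,
      (Diag.cmap (D := D.toThy) (K m i j).K (K m i j).ok0
        (Sus.nvMap (D := D.toThy) T.S φ x x' h)).comp (β Y m x' i j) =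
      (β X m x i j).comp (Sus.homA (D := D.toThy) T.S φ _ _ _ _ (h i) (h j)) := by
  choose β hβ using fun (X : Alg T.Γ.toSig) (m : ℕ) (x : Fin (m + 1) → X.G.cell 0)
      (i j : Fin (m + 1)) =>
    Diag.exists_desc (K m i j).P0.wf (Sus.nv (D := D.toThy) T.S X x)
      (fun B σ => ((K m i j).P0.p B).comp (T.evO σ i j))
      fun b c f g => by
        rw [evO_map, ← AHom.comp_assoc, ← (K m i j).P0.nat, AHom.comp_assoc]
  refine ⟨β, fun X α => ⟨fun h m x i j => Diag.col_ext (K m i j).P0.wf fun B σ => ?_,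
    fun h m x i j B σ => ?_⟩, fun X Y φ m x x' h i j =>
      Diag.col_ext (K m i j).P0.wf fun B σ => ?_⟩
  · rw [hβ, ← h]; rfl
  · rw [← hβ, ← h]; rfl
  · rw [← AHom.comp_assoc, Diag.cmap_yon, hβ, ← AHom.comp_assoc, hβ, AHom.comp_assoc, evO_comp]

end Stage

theorem PathA.cell_res {D : Thy.{u}} {Γ Γ' : Sig.{u}} (S : Sus D.toSig Γ) (e : SigEmb Γ Γ')
    {X : GS.{u}} {Q : PathG L X} {R : AStr Γ X} {R' : AStr Γ' X} {s : PathA Q R} {s' : PathA Q R'}
    (hY : s'.RY.res e = s.RY) (hZ : s'.RZ.res e = s.RZ) (hs : s.Cell S) : s'.Cell (S.comp e) := by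
  obtain ⟨RY, RZ, a, b, c, d⟩ := s
  simp only at hY hZ
  subst hY hZ
  exact hs

theorem pairA_ext {Γ : Sig.{u}} {X Y Z : Alg Γ} {f g : AHom Z (prodAlg X Y)}
    (h1 : f.comp (fstA X Y) = g.comp (fstA X Y)) (h2 : f.comp (sndA X Y) = g.comp (sndA X Y)) :
    f = g := AHom.ext' fun n z => Prod.ext (AHom.app_eq h1 n z) (AHom.app_eq h2 n z)

theorem Diag.cmap_retr {D : Thy.{u}} {𝒞 : SCat.{u}} (K : Diag D.Op 𝒞) (ok : K.CellSet)
    {G H : Psh 𝒞} (φ : PMap G H) (ψ : PMap H G) (h : ∀ c x, ψ.app c (φ.app c x) = x)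
    {E : Alg D.toSig} (a : AHom (K.col ok G) E) :
    (K.cmap ok φ).comp ((K.cmap ok ψ).comp a) = a := by
  rw [← AHom.comp_assoc, Diag.cmap_comp, K.cmap_id ok h]; rfl

open Stage in
theorem Step.path_ext (hP : PJ D.toThy L) {T : Stage D} (hI : T.HI L) (P : Step T) {X : GS.{u}}
    (Q : PathG L X) (R : AStr T.Γ.toSig X) (R' : AStr P.Γ'.toSig X) (hR : R'.res P.e = R)
    (s : PathA Q R) (hs : s.Cell (D := D.toThy) T.S) :
    ∃ s' : PathA Q R', s'.RY.res P.e = s.RY ∧ s'.RZ.res P.e = s.RZ ∧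
      s'.Cell (D := D.toThy) (T.S.comp P.e) := by
  subst hR
  obtain ⟨β, hβ, nβ⟩ := exists_act0 P.K
  obtain ⟨αX, hX, eX⟩ := P.bld_surj R'.alg
  have hX' := (hβ _ αX).1 hX
  choose αY hY1 hY2 using fun (m : ℕ) (y : Fin (m + 1) → Q.Y.cell 0) (i j : Fin (m + 1)) =>
    closed_lift ((P.K m i j).P0.wf.closed (Sus.nv (D := D.toThy) T.S s.RY.alg y))
      ((P.K m i j).P1.wf.closed _) (fun _ _ h => ⟨(P.K m i j).le _ _ _ h.mem.1, trivial⟩)
      (Sus.homA (D := D.toThy) T.S s.qA (y i) (y j) _ _ rfl rfl)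
      (fun n => ((homOver Q.q).ilift_succ n).1 (Q.q_tfib _) _ _) (β s.RY.alg m y i j)
      ((Diag.cmap (D := D.toThy) (P.K m i j).K (P.K m i j).ok1
        (Sus.nvMap (D := D.toThy) T.S s.qA y _ fun _ => rfl)).comp (αX m _ i j))
      (by rw [← nβ _ _ s.qA m y _ fun _ => rfl, ← hX']; rfl)
  have eY : ActD.Ext (K := P.K) (X := s.RY.alg) αY := (hβ _ _).2 hY1
  have hd0 : ∀ n y, Q.p0.app n (Q.d.app n y) = y := Carrier.gapp_congr Q.dp0
  have hd1 : ∀ n y, Q.p1.app n (Q.d.app n y) = y := Carrier.gapp_congr Q.dp1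
  have hz0 : ∀ z, Q.d.app 0 (Q.p0.app 0 z) = z := fun z => by
    obtain ⟨y, rfl⟩ := Q.d_surj z
    rw [hd0]
  have hz1 : ∀ z, Q.p1.app 0 z = Q.p0.app 0 z := fun z => by
    obtain ⟨y, rfl⟩ := Q.d_surj z
    rw [hd0, hd1]
  choose αZ hZ1 hZ2 hZ3 using fun (m : ℕ) (z : Fin (m + 1) → Q.Z.cell 0) (i j : Fin (m + 1)) =>
    (P.K m i j).lift hP
      (Sus.nvMap (D := D.toThy) T.S s.dA (fun k => Q.p0.app 0 (z k)) z fun k => hz0 _)
      (fun c σ σ' h => funext fun l => GMap.ext' fun n p => Subtype.ext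
        ((hd0 _ _).symm.trans ((congrArg (fun τ => Q.p0.app _ ((τ l).app n p).1) h).trans
          (hd0 _ _))))
      (lemmaL_pres hP _ _ (P.K m i j).P0.wf
        ((P.K m i j).P0.ls (local_of_vertex (T.O m i j) (hI m i j))) _ fun l => hs _ _ _ _ _ _)
      (lemmaL_pres hP _ _ (P.K m i j).P1.wf
        ((P.K m i j).P1.ls fun a b f => W.of_conn _ (conn_hom (D.full _ _) _ _)
          (conn_hom (D.full _ _) _ _)) _ fun l => hs _ _ _ _ _ _)
      (pairA (Sus.homA (D := D.toThy) T.S s.p0A (z i) (z j) _ _ rfl rfl)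
        (Sus.homA (D := D.toThy) T.S s.p1A (z i) (z j) _ _ (hz1 _) (hz1 _)))
      (Q.fib _ _ _ _ rfl rfl (hz1 _) (hz1 _)) (β s.RZ.alg m z i j)
      ((αY m _ i j).comp (Sus.homA (D := D.toThy) T.S s.dA _ _ _ _ (hz0 _) (hz0 _)))
      (pairA ((Diag.cmap (D := D.toThy) (P.K m i j).K (P.K m i j).ok1
          (Sus.nvMap (D := D.toThy) T.S s.p0A z _ fun _ => rfl)).comp (αY m _ i j))
        ((Diag.cmap (D := D.toThy) (P.K m i j).K (P.K m i j).ok1
          (Sus.nvMap (D := D.toThy) T.S s.p1A z _ fun _ => hz1 _)).comp (αY m _ i j)))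
      (by rw [nβ, ← hY1]; rfl)
      (pairA_ext ((nβ _ _ s.p0A m z _ (fun _ => rfl) i j).symm.trans (by rw [← hY1]; rfl))
        ((nβ _ _ s.p1A m z _ (fun _ => hz1 _) i j).symm.trans (by rw [← hY1]; rfl)))
      (pairA_ext
        ((AHom.ext' fun n t => Subtype.ext (hd0 _ _)).trans (Diag.cmap_retr _ _ _ _
          (fun c σ => funext fun l => GMap.ext' fun n p => Subtype.ext (hd0 _ _))
          (αY m _ i j)).symm)
        ((AHom.ext' fun n t => Subtype.ext (hd1 _ _)).trans (Diag.cmap_retr _ _ _ _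
          (fun c σ => funext fun l => GMap.ext' fun n p => Subtype.ext (hd1 _ _))
          (αY m _ i j)).symm))
  have eZ : ActD.Ext (K := P.K) (X := s.RZ.alg) αZ := (hβ _ _).2 hZ1
  let s' : PathA Q R' :=
    { RY := P.bld s.RY.alg αY eY
      RZ := P.bld s.RZ.alg αZ eZ
      q_hom := by
        have := (P.bld_hom s.RY.alg _ αY eY αX hX s.qA).2 fun m x x' h i j => by
          obtain rfl : (fun k => Q.q.app 0 (x k)) = x' := funext h
          exact (hY2 m x i j).symm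
        rwa [eX] at this
      d_hom := (P.bld_hom s.RY.alg s.RZ.alg αY eY αZ eZ s.dA).2 fun m x x' h i j => by
        obtain rfl : x = fun k => Q.p0.app 0 (x' k) := funext fun k => by rw [← h k, hd0]
        exact hZ2 m x' i j
      p0_hom := (P.bld_hom s.RZ.alg s.RY.alg αZ eZ αY eY s.p0A).2 fun m x x' h i j => by
        obtain rfl : (fun k => Q.p0.app 0 (x k)) = x' := funext h
        exact (congrArg (fun f => AHom.comp f (fstA _ _)) (hZ3 m x i j)).symm
      p1_hom := (P.bld_hom s.RZ.alg s.RY.alg αZ eZ αY eY s.p1A).2 fun m x x' h i j => by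
        obtain rfl : (fun k => Q.p0.app 0 (x k)) = x' := funext fun k => (hz1 _).symm.trans (h k)
        exact (congrArg (fun f => AHom.comp f (sndA _ _)) (hZ3 m x i j)).symm }
  have e1 : s'.RY.res P.e = s.RY := P.bld_res _ _ _
  have e2 : s'.RZ.res P.e = s.RZ := P.bld_res _ _ _
  exact ⟨s', e1, e2, PathA.cell_res (D := D.toThy) T.S P.e e1 e2 hs⟩

end Crest.Agent.R248
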