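import Crest.Agent.R248.Diag

/-!
# Row 248: families of trees and nerves of families of algebras.
-/

set_option autoImplicit false

namespace Crest.Agent.R248

open Crest.GeometryTopology.Coherator Tr

universe u

/-- families of trees -/
structure TObj (ι : Type) : Type u where
  tr : ι → Tr

/-- the power of the category of trees and homomorphisms of free algebras -/
@[reducible] noncomputable def piCat (D : Thy.{u}) (ι : Type) : SCat.{u} where
  Obj := TObj.{u} ι
  Hom a b := ∀ l, GMap (posG (a.tr l)) (FrT D (b.tr l)).G
  id _ _ := η D _
  comp f g l := (f l).comp (ext (g l)).map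
  id_comp f := funext fun l => η_ext (f l)
  comp_id f := funext fun l => by rw [ext_η]; rfl
  assoc f g h := funext fun l => by rw [← ext_comp]; rfl

variable {D : Thy.{u}} {ι : Type}

/-- the nerve of a family of algebras -/
@[reducible] noncomputable def nerve (X : ι → Alg D.toSig) : Psh (piCat D ι) where
  obj a := ∀ l, GMap (posG (a.tr l)) (X l).G
  map f σ l := (f l).comp (ext (σ l)).map
  map_id _ σ := funext fun l => η_ext (σ l)
  map_comp f g σ := funext fun l => by rw [← ext_comp]; rfl

theorem y_eq_nerve (c : TObj.{u} ι) : (piCat D ι).y c = nerve fun l => FrT D (c.tr l) := rfl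

/-- functoriality of the nerve -/
@[reducible] noncomputable def nerveMap {X X' : ι → Alg D.toSig} (φ : ∀ l, AHom (X l) (X' l)) :
    PMap (nerve X) (nerve X') where
  app _ σ l := (σ l).comp (φ l).map
  nat f σ := funext fun l => by
    show _ = (f l).comp (ext ((σ l).comp (φ l).map)).map
    rw [← ext_comp]; rfl

/-- the family of points -/
def ptObj (ι : Type) : TObj.{u} ι := ⟨fun _ => disk 0⟩

/-- the inclusion of the first vertices -/
noncomputable def vtxHom (D : Thy.{u}) (B : TObj.{u} ι) : (piCat D ι).Hom (ptObj ι) B :=
  fun l => cls 0 ((η D (posG (B.tr l))).app 0 (Pos.v0 _))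

end Crest.Agent.R248
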