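import Crest.Agent.R248.PullAux

/-!
# Row 248, bridge file 3: every algebra of the cover gives a model of `C`.

Steps (1)-(3) of the recipe below are in `PullAux.lean`.
-/

set_option autoImplicit false

namespace Crest.Agent.R248

open CategoryTheory Opposite Crest.GeometryTopology.Coherator

universe u

/-- a functor from algebras of the cover back to models, inverse on the left to `Cover.alg` -/
structure Pull {C : GlobTheory.{u}} (K : Cover C) where
  obj : Alg K.D.toSig → C.GlobModel
  map : ∀ {Z Z' : Alg K.D.toSig}, AHom Z Z' → (obj Z ⟶ obj Z')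
  map_comp : ∀ {Z Z' Z'' : Alg K.D.toSig} (f : AHom Z Z') (g : AHom Z' Z''),
    map (f.comp g) = map f ≫ map g
  cells : ∀ Z, GIso (obj Z).cells Z.G
  cells_nat : ∀ {Z Z' : Alg K.D.toSig} (f : AHom Z Z'),
    GMap.comp (GlobTheory.GlobModel.cellsMap (map f)) (cells Z').hom = (cells Z).hom.comp f.map
  counit : ∀ X : C.GlobModel, obj (K.alg X) ⟶ X
  counit_cells : ∀ X, GlobTheory.GlobModel.cellsMap (counit X) = (cells (K.alg X)).hom
  counit_nat : ∀ {X Y : C.GlobModel} (f : X ⟶ Y), map (K.hom f) ≫ counit Y = counit X ≫ f

namespace PullAux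

open GlobTheory GlobTheory.GlobModel

variable {C : GlobTheory.{u}} {D : Thy.{u}} (F : TheoryMap C (Th D))

/-- the model of `C` underlying an algebra -/
noncomputable def pobj (Z : Alg D.toSig) : C.GlobModel where
  functor :=
    { obj := fun S => AHom (FS D S.unop.shape) Z
      map := fun {S S'} c => ↾fun φ =>
        AHom.comp (F.map (S := S'.unop.shape) (T := S.unop.shape) c.unop) φ
      map_id := fun S => by
        ext1
        apply TypeCat.Fun.ext
        funext φ
        exact congrArg (fun ψ => AHom.comp ψ φ) (F.map_one S.unop.shape)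
      map_comp := fun {S S' S''} c d => by
        ext1
        apply TypeCat.Fun.ext
        funext φ
        exact congrArg (fun ψ => AHom.comp ψ φ) (F.map_seq d.unop c.unop) }
  sums S b h hb hh := by
    have e : ∀ {S T : Shape} (f : S ⟶ T), F.map (C.ofShape f) = fmap D f :=
      fun f => F.map_ofShape f
    refine (Limits.Types.isPullback_iff _ _ _ _).2 ⟨?_, ?_, ?_⟩
    · ext1
      apply TypeCat.Fun.ext
      funext φ
      show AHom.comp (F.map (C.ofShape (S.hinge hb)))
          (AHom.comp (F.map (C.ofShape (S.inLeft b h hb hh))) φ) =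
        AHom.comp (F.map (C.ofShape (Shape.faceMap hh false)))
          (AHom.comp (F.map (C.ofShape (S.inRight b h hb hh))) φ)
      rw [e, e, e, e, ← acomp_assoc, ← acomp_assoc, glue_alg_comm]
    · rintro φ ψ ⟨h1, h2⟩
      refine glue_alg_uniq S b h hb hh ?_ ?_
      · rw [← e]; exact h1
      · rw [← e]; exact h2
    · intro f g w
      obtain ⟨k, h1, h2⟩ := glue_alg_ex S b h hb hh f g (by rw [← e, ← e]; exact w)
      rw [← e] at h1 h2
      exact ⟨k, h1, h2⟩

theorem pobj_act (Z : Alg D.toSig) {S T : Shape} (c : C.arr S T) (φ : AHom (FS D T) Z) :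
    (pobj F Z).act c φ = AHom.comp (F.map c) φ := rfl

/-- functoriality in the algebra -/
noncomputable def pmap {Z Z' : Alg D.toSig} (f : AHom Z Z') : pobj F Z ⟶ pobj F Z' where
  app S := ↾fun φ : AHom (FS D S.unop.shape) Z => φ.comp f
  naturality _ _ _ := rfl

theorem pobj_src (Z : Alg D.toSig) (n : ℕ) (φ : AHom (FS D (Shape.globe (n + 1))) Z) :
    (pobj F Z).cells.src n φ = (fmap D (Shape.σ n)).comp φ :=
  congrArg (fun ψ => AHom.comp ψ φ) (F.map_ofShape (Shape.σ n))

theorem pobj_tgt (Z : Alg D.toSig) (n : ℕ) (φ : AHom (FS D (Shape.globe (n + 1))) Z) :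
    (pobj F Z).cells.tgt n φ = (fmap D (Shape.τ n)).comp φ :=
  congrArg (fun ψ => AHom.comp ψ φ) (F.map_ofShape (Shape.τ n))

/-- the cells of the underlying model -/
noncomputable def pcl (Z : Alg D.toSig) : GMap (pobj F Z).cells Z.G where
  app _ φ := cl φ
  app_src n φ := (congrArg cl (pobj_src F Z n φ)).trans (cl_σ φ)
  app_tgt n φ := (congrArg cl (pobj_tgt F Z n φ)).trans (cl_τ φ)

/-- the cells of the underlying model, as an isomorphism -/
noncomputable def pcells (Z : Alg D.toSig) : GIso (pobj F Z).cells Z.G where
  hom := pcl F Z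
  inv :=
    { app := fun _ y => (cl_surj y).choose
      app_src := fun n y => cl_inj (by
        refine ((cl_surj _).choose_spec.trans ?_).trans ((pcl F Z).app_src n _).symm
        exact congrArg _ (cl_surj y).choose_spec.symm)
      app_tgt := fun n y => cl_inj (by
        refine ((cl_surj _).choose_spec.trans ?_).trans ((pcl F Z).app_tgt n _).symm
        exact congrArg _ (cl_surj y).choose_spec.symm) }
  hom_inv := GMap.ext' fun _ φ => cl_inj (cl_surj (cl φ)).choose_spec
  inv_hom := GMap.ext' fun _ y => (cl_surj y).choose_spec

end PullAux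

namespace PullAux

open GlobTheory GlobTheory.GlobModel

variable {C : GlobTheory.{u}} (K : Cover C) (F : TheoryMap C (Th K.D.toThy))

/-- the counit -/
noncomputable def counit (hF : F.comp (P K) = TheoryMap.id C) (X : C.GlobModel) :
    pobj F (K.alg X) ⟶ X where
  app S := ↾fun φ : AHom (FS K.D.toThy S.unop.shape) (K.alg X) => unev K X φ
  naturality := by
    intro S S' c
    ext1
    apply TypeCat.Fun.ext
    funext φ
    have h1 : pm K (F.map (S := S'.unop.shape) (T := S.unop.shape) c.unop) = c.unop :=
      congrArg (fun G : TheoryMap C C => G.map (S := S'.unop.shape) (T := S.unop.shape) c.unop) hF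
    have h2 := ev_act K X (F.map (S := S'.unop.shape) (T := S.unop.shape) c.unop) (unev K X φ)
    rw [h1, ev_unev] at h2
    exact ev_inj K X ((ev_unev K X _).trans h2.symm)

end PullAux

open PullAux in
/-- Recipe.  (1) The globular theory `Th` with `arr S T := AHom (FrG D (pshG S)) (FrG D (pshG T))`,
`ofShape f := ext ((pshMap f).comp (η ..))`; it respects sums by `glue_universal`, `ext`, `frG_ext`.
(2) The theory map `P : Th → C`: `P φ` is the unique `c : C.arr S T` with
`segal (freeOn C T) S c = (η ..).comp (φ.comp (ext (genTuple C T))).map` (`segal_bij`); it is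
functorial because a map of models `freeOn C T ⟶ freeOn C U` is a homomorphism (`K.nat`,
`segal_map`, `segal_shape`).  (3) A section `F : TheoryMap C Th` with `F.comp P = id`: build
`F r : TheoryMap (stage r) Th` with `(F r).comp P = toEnd r` by recursion (`stage_zero`, then
`free r`: the chosen fillers come from `K.lift`, using `globe_exists`, `globe_ext`, `segal_gtop`,
`pshMap_σ_gtop`; the equation with `toEnd (r+1)` is the uniqueness part of `free r`), then use
`colim` (existence, and uniqueness for `F.comp P = id`).  (4) `obj Z` is the presheaf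
`S ↦ AHom (FrG D (pshG S)) Z` with action by precomposition with `F c`; the pullback condition is
`glue_universal` again; `cells Z` evaluates at `η (gtop n)`; `counit X` at `S` is the inverse
of `x ↦ ext (segal X S x)`, natural in `S` because `P (F c) = c` and the Yoneda map
`freeOn C T ⟶ X` is a homomorphism. -/
theorem exists_pull {C : GlobTheory.{u}} (T : C.Tower) (K : Cover C) : Nonempty (Pull K) := by
  obtain ⟨F, hF⟩ := exists_section K T
  refine ⟨{ obj := pobj F
            map := pmap F
            map_comp := fun _ _ => rfl
            cells := pcells F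
            cells_nat := fun _ => rfl
            counit := counit K F hF
            counit_cells := fun X => GMap.ext' fun n φ => ?_
            counit_nat := fun {X Y} f => ?_ }⟩
  · exact (cl_ev K X (unev K X φ)).symm.trans (congrArg cl (ev_unev K X φ))
  · apply NatTrans.ext
    funext S
    ext1
    apply TypeCat.Fun.ext
    funext φ
    refine ev_inj K Y ((ev_unev K Y _).trans ?_)
    have h := ev_map K f (unev K X φ)
    rw [ev_unev] at h
    exact h.symm

end Crest.Agent.R248
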