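import Crest.Agent.R248.Cover

/-!
# Row 248, auxiliary file for `Pull.lean`: the globular theory of a syntactic theory, the theory
map to `C` and its section.
-/

set_option autoImplicit false

namespace Crest.Agent.R248

open CategoryTheory CategoryTheory.Limits Opposite Crest.GeometryTopology.Coherator

universe u

namespace PullAux

section Th

variable (D : Thy.{u})

/-- the free algebra on a shape -/
noncomputable abbrev FS (S : Shape) : Alg D.toSig := FrG D (pshG S)

/-- the homomorphism induced by a map of shapes -/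
noncomputable def fmap {S T : Shape} (f : S ⟶ T) : AHom (FS D S) (FS D T) :=
  ext ((pshMap f).comp (η D _))

variable {D}

theorem acomp_assoc {X Y Z W : Alg D.toSig} (f : AHom X Y) (g : AHom Y Z) (h : AHom Z W) :
    (f.comp g).comp h = f.comp (g.comp h) := rfl

theorem aid_comp {X Y : Alg D.toSig} (f : AHom X Y) : (AHom.id X).comp f = f := rfl

theorem acomp_id {X Y : Alg D.toSig} (f : AHom X Y) : f.comp (AHom.id Y) = f := rfl

/-- the restriction of a homomorphism to generators -/
noncomputable def res {S : Shape} {Z : Alg D.toSig} (φ : AHom (FS D S) Z) : GMap (pshG S) Z.G :=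
  (η D _).comp φ.map

theorem res_inj {S : Shape} {Z : Alg D.toSig} {φ ψ : AHom (FS D S) Z} (h : res φ = res ψ) :
    φ = ψ := frG_ext h

theorem res_ext {S : Shape} {Z : Alg D.toSig} (f : GMap (pshG S) Z.G) : res (ext f) = f := η_ext f

theorem ext_res {S : Shape} {Z : Alg D.toSig} (φ : AHom (FS D S) Z) : ext (res φ) = φ :=
  (eq_ext φ).symm

theorem res_comp {S : Shape} {Z Z' : Alg D.toSig} (φ : AHom (FS D S) Z) (g : AHom Z Z') :
    res (φ.comp g) = (res φ).comp g.map := rfl

theorem res_fmap {S T : Shape} (f : S ⟶ T) {Z : Alg D.toSig} (φ : AHom (FS D T) Z) :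
    res ((fmap D f).comp φ) = (pshMap f).comp (res φ) := by
  rw [res_comp, fmap, res_ext]
  rfl

theorem fmap_id (S : Shape) : fmap D (𝟙 S) = AHom.id _ := by
  rw [fmap, pshMap_id, GMap.id_comp, ext_η]

theorem fmap_comp {R S T : Shape} (f : R ⟶ S) (g : S ⟶ T) :
    fmap D (f ≫ g) = (fmap D f).comp (fmap D g) := by
  apply res_inj
  rw [res_fmap, fmap, fmap, res_ext, res_ext, pshMap_comp]
  rfl

theorem glue_comm (S : Shape) (b h : ℕ) (hb : b < S.last) (hh : b < h) :
    S.hinge hb ≫ S.inLeft b h hb hh = Shape.faceMap hh false ≫ S.inRight b h hb hh :=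
  pushout.condition (f := GlobPsh.globeRepFace hb true ≫ S.apex)
    (g := GlobPsh.globeRepFace hh false)

theorem glue_alg_comm (S : Shape) (b h : ℕ) (hb : b < S.last) (hh : b < h) :
    (fmap D (S.hinge hb)).comp (fmap D (S.inLeft b h hb hh)) =
      (fmap D (Shape.faceMap hh false)).comp (fmap D (S.inRight b h hb hh)) := by
  rw [← fmap_comp, ← fmap_comp, glue_comm]

theorem glue_alg_ex (S : Shape) (b h : ℕ) (hb : b < S.last) (hh : b < h) {Z : Alg D.toSig}
    (f : AHom (FS D S) Z) (g : AHom (FS D (Shape.globe h)) Z)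
    (w : (fmap D (S.hinge hb)).comp f = (fmap D (Shape.faceMap hh false)).comp g) :
    ∃ k : AHom (FS D (S.glue b h hb hh)) Z,
      (fmap D (S.inLeft b h hb hh)).comp k = f ∧ (fmap D (S.inRight b h hb hh)).comp k = g := by
  have w' := congrArg res w
  rw [res_fmap, res_fmap] at w'
  obtain ⟨k, ⟨h1, h2⟩, -⟩ := glue_universal S b h hb hh (res f) (res g) w'
  refine ⟨ext k, res_inj ?_, res_inj ?_⟩
  · rw [res_fmap, res_ext, h1]
  · rw [res_fmap, res_ext, h2]

theorem glue_alg_uniq (S : Shape) (b h : ℕ) (hb : b < S.last) (hh : b < h) {Z : Alg D.toSig}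
    {k k' : AHom (FS D (S.glue b h hb hh)) Z}
    (h1 : (fmap D (S.inLeft b h hb hh)).comp k = (fmap D (S.inLeft b h hb hh)).comp k')
    (h2 : (fmap D (S.inRight b h hb hh)).comp k = (fmap D (S.inRight b h hb hh)).comp k') :
    k = k' := by
  have h1' := congrArg res h1
  have h2' := congrArg res h2
  rw [res_fmap, res_fmap] at h1' h2'
  have w : (pshMap (S.hinge hb)).comp ((pshMap (S.inLeft b h hb hh)).comp (res k')) =
      (pshMap (Shape.faceMap hh false)).comp ((pshMap (S.inRight b h hb hh)).comp (res k')) := by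
    rw [← GMap.comp_assoc, ← GMap.comp_assoc, ← pshMap_comp, ← pshMap_comp, glue_comm]
  exact res_inj ((glue_universal S b h hb hh _ _ w).unique ⟨h1', h2'⟩ ⟨rfl, rfl⟩)

variable (D)

/-- the pre-theory of free algebras on shapes -/
noncomputable def preTh : PreTheory.{u} where
  arr S T := AHom (FS D S) (FS D T)
  one _ := AHom.id _
  seq f g := f.comp g
  one_seq _ := rfl
  seq_one _ := rfl
  seq_assoc _ _ _ := rfl
  ofShape f := fmap D f
  ofShape_id := fmap_id
  ofShape_comp := fmap_comp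

/-- the globular theory of free algebras on shapes -/
noncomputable def Th : GlobTheory.{u} where
  toPreTheory := preTh D
  respectsSums S b h hb hh := by
    refine ⟨⟨glue_alg_comm S b h hb hh⟩, ⟨PushoutCocone.IsColimit.mk _
      (fun s => (glue_alg_ex S b h hb hh (Z := FS D s.pt.shape) s.inl s.inr s.condition).choose)
      (fun s => (glue_alg_ex S b h hb hh (Z := FS D s.pt.shape) s.inl s.inr
        s.condition).choose_spec.1)
      (fun s => (glue_alg_ex S b h hb hh (Z := FS D s.pt.shape) s.inl s.inr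
        s.condition).choose_spec.2) ?_⟩⟩
    intro s m h1 h2
    have h3 := (glue_alg_ex S b h hb hh (Z := FS D s.pt.shape) s.inl s.inr
        s.condition).choose_spec
    exact glue_alg_uniq S b h hb hh (h1.trans h3.1.symm) (h2.trans h3.2.symm)

variable {D}

/-- the cell classified by a homomorphism out of the free algebra on a globe -/
noncomputable def cl {n : ℕ} {Z : Alg D.toSig} (φ : AHom (FS D (Shape.globe n)) Z) :
    Z.G.cell n := (res φ).app n (gtop n)

theorem cl_inj {n : ℕ} {Z : Alg D.toSig} {φ ψ : AHom (FS D (Shape.globe n)) Z}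
    (h : cl φ = cl ψ) : φ = ψ := res_inj (globe_ext h)

theorem cl_surj {n : ℕ} {Z : Alg D.toSig} (y : Z.G.cell n) :
    ∃ φ : AHom (FS D (Shape.globe n)) Z, cl φ = y := by
  obtain ⟨f, hf⟩ := globe_exists y
  exact ⟨ext f, by rw [cl, res_ext, hf]⟩

theorem cl_comp {n : ℕ} {Z Z' : Alg D.toSig} (φ : AHom (FS D (Shape.globe n)) Z) (g : AHom Z Z') :
    cl (φ.comp g) = g.map.app n (cl φ) := rfl

theorem cl_σ {n : ℕ} {Z : Alg D.toSig} (φ : AHom (FS D (Shape.globe (n + 1))) Z) :
    cl ((fmap D (Shape.σ n)).comp φ) = Z.G.src n (cl φ) := by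
  rw [cl, res_fmap, GMap.comp_app, pshMap_σ_gtop, (res φ).app_src]
  rfl

theorem cl_τ {n : ℕ} {Z : Alg D.toSig} (φ : AHom (FS D (Shape.globe (n + 1))) Z) :
    cl ((fmap D (Shape.τ n)).comp φ) = Z.G.tgt n (cl φ) := by
  rw [cl, res_fmap, GMap.comp_app, pshMap_τ_gtop, (res φ).app_tgt]
  rfl

theorem cl_par {S : Shape} : ∀ {n : ℕ} {a b : (Th D).arr (Shape.globe n) S},
    (Th D).OpsParallel n a b →
      (FS D S).G.AreParallel n (cl (Z := FS D S) a) (cl (Z := FS D S) b)
  | 0, _, _, _ => trivial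
  | _ + 1, a, b, h =>
    ⟨(cl_σ (Z := FS D S) a).symm.trans ((congrArg (cl (Z := FS D S)) h.1).trans (cl_σ b)),
      (cl_τ (Z := FS D S) a).symm.trans ((congrArg (cl (Z := FS D S)) h.2).trans (cl_τ b))⟩

end Th

section Yon

variable {C : GlobTheory.{u}}

open GlobTheory GlobTheory.GlobModel

theorem act_one (X : C.GlobModel) {S : Shape} (x : X.functor.obj (op ⟨S⟩)) :
    X.act (C.one S) x = x :=
  types_congr_hom (X.functor.map_id (op ⟨S⟩)) x

theorem act_seq (X : C.GlobModel) {R S T : Shape} (f : C.arr R S) (g : C.arr S T)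
    (x : X.functor.obj (op ⟨T⟩)) : X.act (C.seq f g) x = X.act f (X.act g x) :=
  types_congr_hom (X.functor.map_comp
    (Quiver.Hom.op (X := (⟨S⟩ : C.Ob)) (Y := (⟨T⟩ : C.Ob)) g)
    (Quiver.Hom.op (X := (⟨R⟩ : C.Ob)) (Y := (⟨S⟩ : C.Ob)) f)) x

theorem freeOn_act {R S T : Shape} (f : C.arr R S) (g : C.arr S T) :
    (freeOn C T).act f g = C.seq f g := rfl

/-- the Yoneda map of an element -/
noncomputable def yon (X : C.GlobModel) {T : Shape} (x : X.functor.obj (op ⟨T⟩)) :
    freeOn C T ⟶ X where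
  app S := ↾fun c : C.arr S.unop.shape T => X.act c x
  naturality := by
    intro S S' f
    ext c
    exact act_seq X f.unop c x

theorem yon_app (X : C.GlobModel) {S T : Shape} (x : X.functor.obj (op ⟨T⟩)) (c : C.arr S T) :
    ((yon X x : (freeOn C T).functor ⟶ X.functor).app (op ⟨S⟩)) c = X.act c x := rfl

theorem segal_act (X : C.GlobModel) {S T : Shape} (x : X.functor.obj (op ⟨T⟩)) (c : C.arr S T) :
    segal X S (X.act c x) = (segal (freeOn C T) S c).comp (cellsMap (yon X x)) := by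
  rw [← segal_map, yon_app]

theorem segal_eq_gen (X : C.GlobModel) {T : Shape} (x : X.functor.obj (op ⟨T⟩)) :
    segal X T x = (genTuple C T).comp (cellsMap (yon X x)) := by
  rw [genTuple, ← segal_act, act_one]

theorem src_freeOn {S : Shape} {n : ℕ} (z : C.arr (Shape.globe (n + 1)) S) :
    (freeOn C S).cells.src n z = C.seq (C.ofShape (Shape.σ n)) z := rfl

theorem tgt_freeOn {S : Shape} {n : ℕ} (z : C.arr (Shape.globe (n + 1)) S) :
    (freeOn C S).cells.tgt n z = C.seq (C.ofShape (Shape.τ n)) z := rfl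

variable (K : Cover C)

/-- evaluation of terms on a tuple -/
noncomputable def ev (X : C.GlobModel) {T : Shape} (x : X.functor.obj (op ⟨T⟩)) :
    AHom (FS K.D.toThy T) (K.alg X) := ext (segal X T x)

theorem res_ev (X : C.GlobModel) {T : Shape} (x : X.functor.obj (op ⟨T⟩)) :
    res (ev K X x) = segal X T x := res_ext _

theorem ev_map {X Y : C.GlobModel} (f : X ⟶ Y) {T : Shape} (x : X.functor.obj (op ⟨T⟩)) :
    ev K Y ((f : X.functor ⟶ Y.functor).app _ x) = (ev K X x).comp (K.hom f) := by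
  apply res_inj
  rw [res_ev, res_comp, res_ev, segal_map]
  rfl

theorem ev_inj (X : C.GlobModel) {T : Shape} {x y : X.functor.obj (op ⟨T⟩)}
    (h : ev K X x = ev K X y) : x = y := by
  apply (segal_bij X T).1
  rw [← res_ev K, ← res_ev K, h]

theorem ev_surj (X : C.GlobModel) {T : Shape} (φ : AHom (FS K.D.toThy T) (K.alg X)) :
    ∃ x, ev K X x = φ := by
  obtain ⟨x, hx⟩ := (segal_bij X T).2 (res φ)
  exact ⟨x, res_inj (by rw [res_ev, hx])⟩

/-- the inverse of `ev` -/
noncomputable def unev (X : C.GlobModel) {T : Shape} (φ : AHom (FS K.D.toThy T) (K.alg X)) :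
    X.functor.obj (op ⟨T⟩) := (ev_surj K X φ).choose

theorem ev_unev (X : C.GlobModel) {T : Shape} (φ : AHom (FS K.D.toThy T) (K.alg X)) :
    ev K X (unev K X φ) = φ := (ev_surj K X φ).choose_spec

theorem ev_shape (X : C.GlobModel) {S T : Shape} (f : S ⟶ T) (x : X.functor.obj (op ⟨T⟩)) :
    ev K X (X.act (C.ofShape f) x) = (fmap _ f).comp (ev K X x) := by
  apply res_inj
  rw [res_ev, res_fmap, res_ev, segal_shape]

theorem cl_ev (X : C.GlobModel) {n : ℕ} (x : X.cells.cell n) :
    cl (ev K X (T := Shape.globe n) x) = x := by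
  rw [cl, res_ev]
  exact segal_gtop X n x

/-- the generic evaluation -/
noncomputable def gev (T : Shape) : AHom (FS K.D.toThy T) (K.alg (freeOn C T)) :=
  ev K (freeOn C T) (T := T) (C.one T)

/-- the operation of `C` underlying a homomorphism of free algebras -/
noncomputable def pm {S T : Shape} (φ : AHom (FS K.D.toThy S) (FS K.D.toThy T)) : C.arr S T :=
  unev K (freeOn C T) (T := S) (φ.comp (gev K T))

theorem ev_pm {S T : Shape} (φ : AHom (FS K.D.toThy S) (FS K.D.toThy T)) :
    ev K (freeOn C T) (T := S) (pm K φ) = φ.comp (gev K T) := ev_unev K _ _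

theorem ev_act (X : C.GlobModel) {S T : Shape} (φ : AHom (FS K.D.toThy S) (FS K.D.toThy T))
    (x : X.functor.obj (op ⟨T⟩)) : ev K X (X.act (pm K φ) x) = φ.comp (ev K X x) := by
  have h1 := ev_map K (yon X x) (T := S) (pm K φ)
  have h2 := ev_map K (yon X x) (T := T) (C.one T)
  rw [yon_app] at h1 h2
  rw [act_one] at h2
  rw [h1, ev_pm, h2]
  rfl

/-- the theory map to `C` -/
noncomputable def P : TheoryMap (Th K.D.toThy) C where
  map φ := pm K φ
  map_one S := ev_inj K (freeOn C S) (T := S) (ev_pm K (AHom.id _))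
  map_seq {R S T} f g := by
    refine ev_inj K (freeOn C T) (T := R) ?_
    have h1 := ev_act K (freeOn C T) f (pm K g)
    rw [freeOn_act, ev_pm] at h1
    exact (ev_pm K (AHom.comp f g)).trans h1.symm
  map_ofShape {S T} f := by
    refine ev_inj K (freeOn C T) (T := S) ?_
    have h1 := ev_shape K (freeOn C T) f (C.one T)
    rw [freeOn_act, C.seq_one] at h1
    exact (ev_pm K (fmap _ f)).trans h1.symm

theorem gev_cl {S : Shape} {n : ℕ} (a : AHom (FS K.D.toThy (Shape.globe n)) (FS K.D.toThy S)) :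
    (gev K S).map.app n (cl a) = pm K a := by
  rw [← cl_comp, ← ev_pm]
  exact cl_ev K (freeOn C S) (pm K a)

theorem lift_filler {S : Shape} {n : ℕ} (hS : S.dim ≤ n + 1)
    (a b : (Th K.D.toThy).arr (Shape.globe n) S) (hab : (Th K.D.toThy).OpsParallel n a b)
    (z : C.arr (Shape.globe (n + 1)) S) (ha : C.seq (C.ofShape (Shape.σ n)) z = (P K).map a)
    (hb : C.seq (C.ofShape (Shape.τ n)) z = (P K).map b) :
    ∃ w : (Th K.D.toThy).arr (Shape.globe (n + 1)) S,
      ((Th K.D.toThy).seq ((Th K.D.toThy).ofShape (Shape.σ n)) w = a ∧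
        (Th K.D.toThy).seq ((Th K.D.toThy).ofShape (Shape.τ n)) w = b) ∧ (P K).map w = z := by
  have hl : ILift (gev K S).map (n + 1) := K.lift S n hS
  obtain ⟨x, h1, h2, h3⟩ := hl.succ (cl_par hab) z
    ((src_freeOn z).trans (ha.trans (gev_cl K a).symm))
    ((tgt_freeOn z).trans (hb.trans (gev_cl K b).symm))
  obtain ⟨w, rfl⟩ := cl_surj x
  refine ⟨w, ⟨cl_inj ((cl_σ w).trans h1), cl_inj ((cl_τ w).trans h2)⟩, ?_⟩
  exact (gev_cl K w).symm.trans h3

theorem ops_par_map {A B : GlobTheory.{u}} (F : TheoryMap A B) {S : Shape} :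
    ∀ {n : ℕ} {a b : A.arr (Shape.globe n) S}, A.OpsParallel n a b →
      B.OpsParallel n (F.map a) (F.map b)
  | 0, _, _, _ => trivial
  | n + 1, a, b, h => by
    refine ⟨?_, ?_⟩
    · rw [← F.map_ofShape, ← F.map_seq, ← F.map_seq, h.1]
    · rw [← F.map_ofShape, ← F.map_seq, ← F.map_seq, h.2]

theorem filler_map {A B E : GlobTheory.{u}} (F : TheoryMap A B) (G : TheoryMap B E)
    (p : A.Admissible) (z : B.arr (Shape.globe (p.n + 1)) p.shape) (h : IsFillerAlong F p z) :
    IsFillerAlong (F.comp G) p (G.map z) := by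
  refine ⟨?_, ?_⟩
  · rw [← G.map_ofShape, ← G.map_seq, h.1]; rfl
  · rw [← G.map_ofShape, ← G.map_seq, h.2]; rfl

theorem tm_assoc {A B E H : GlobTheory.{u}} (F : TheoryMap A B) (G : TheoryMap B E)
    (I : TheoryMap E H) : (F.comp G).comp I = F.comp (G.comp I) := rfl

theorem step (T : C.Tower) (r : ℕ) (F : TheoryMap (T.stage r) (Th K.D.toThy))
    (hF : F.comp (P K) = T.toEnd r) :
    ∃ H : TheoryMap (T.stage (r + 1)) (Th K.D.toThy),
      H.comp (P K) = T.toEnd (r + 1) ∧ (T.next r).comp H = F := by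
  have hz : ∀ g, IsFillerAlong (T.toEnd r) (T.prob r g) ((T.toEnd (r + 1)).map (T.fill r g)) :=
    fun g => T.toEnd_comm r ▸ filler_map _ _ _ _ ((T.free r).1 g)
  have hw : ∀ g, ∃ w, IsFillerAlong F (T.prob r g) w ∧
      (P K).map w = (T.toEnd (r + 1)).map (T.fill r g) := by
    intro g
    refine lift_filler K (T.prob r g).dim_le _ _ (ops_par_map F (T.prob r g).parallel) _ ?_ ?_
    · rw [(hz g).1, ← hF]; rfl
    · rw [(hz g).2, ← hF]; rfl
  choose w hw1 hw2 using hw
  obtain ⟨H, ⟨h1, h2⟩, -⟩ := (T.free r).2 _ F w hw1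
  refine ⟨H, ?_, h1⟩
  refine ((T.free r).2 C (T.toEnd r) _ hz).unique ⟨?_, fun g => ?_⟩ ⟨T.toEnd_comm r, fun _ => rfl⟩
  · rw [← tm_assoc, h1, hF]
  · rw [← hw2, ← h2]; rfl

/-- the compatible family of lifts -/
noncomputable def stg (T : C.Tower) : (r : ℕ) →
    {F : TheoryMap (T.stage r) (Th K.D.toThy) // F.comp (P K) = T.toEnd r}
  | 0 => ⟨(T.stage_zero _).some.default, by
      obtain ⟨hu⟩ := T.stage_zero C
      exact Subsingleton.elim _ _⟩
  | r + 1 => ⟨(step K T r (stg T r).1 (stg T r).2).choose,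
      (step K T r (stg T r).1 (stg T r).2).choose_spec.1⟩

theorem exists_section (T : C.Tower) :
    ∃ F : TheoryMap C (Th K.D.toThy), F.comp (P K) = TheoryMap.id C := by
  obtain ⟨F, hF, -⟩ := T.colim (Th K.D.toThy) (fun r => (stg K T r).1)
    (fun r => (step K T r (stg K T r).1 (stg K T r).2).choose_spec.2)
  refine ⟨F, (T.colim C T.toEnd T.toEnd_comm).unique (fun r => ?_) (fun _ => rfl)⟩
  rw [← tm_assoc, hF r, (stg K T r).2]

end Yon

end PullAux

end Crest.Agent.R248
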