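import Crest.Agent.R248.WI

/-!
# Row 248: the small object argument for functorial contexts.
-/

set_option autoImplicit false

namespace Crest.Agent.R248

open Crest.GeometryTopology.Coherator

universe u

theorem Eval.ren {O : OpFam.{u}} {Y : GS.{u}} {R : OpRel O Y} {X X' : Vars.{u}} {ρ : Asg X Y}
    {ρ' : Asg X' Y} {r : ∀ n, X n → X' n} (hρ : ∀ n x y, ρ n x y → ρ' n (r n x) y) {n : ℕ}
    {t : Tm O X n} {y : Y.cell n} (h : Eval R ρ t y) : Eval R ρ' (t.ren r) y :=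
  h.subst fun n x y h => .var (hρ n x y h)

/-- raw codes: `false` = new cells with an arity, `true` = terms at an object -/
inductive Cd (O : OpFam.{u}) (𝒞 : SCat.{u}) (X Y : 𝒞.Obj → Vars.{u}) :
    Bool → 𝒞.Obj → ℕ → Type u
  | ic0 {c : 𝒞.Obj} (y : Y c 0) : Cd O 𝒞 X Y false c 0
  | icS {c : 𝒞.Obj} {n : ℕ} (s t : Cd O 𝒞 X Y true c n) (y : Y c (n + 1)) :
      Cd O 𝒞 X Y false c (n + 1)
  | jt {c : 𝒞.Obj} {n : ℕ} (a : Cd O 𝒞 X Y true c n) (w : Y c (n + 1)) : Cd O 𝒞 X Y false c n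
  | jc {c : 𝒞.Obj} {n : ℕ} (a : Cd O 𝒞 X Y true c n) (w : Y c (n + 1)) :
      Cd O 𝒞 X Y false c (n + 1)
  | old {c : 𝒞.Obj} {n : ℕ} (x : X c n) : Cd O 𝒞 X Y true c n
  | nv {c' c : 𝒞.Obj} {n : ℕ} (κ : Cd O 𝒞 X Y false c' n) (φ : 𝒞.Hom c' c) :
      Cd O 𝒞 X Y true c n
  | op {c : 𝒞.Obj} {A : Tr} {n : ℕ} (γ : O A n) (σ : ∀ k, Pos.{u} A k → Cd O 𝒞 X Y true c k) :
      Cd O 𝒞 X Y true c (n + 1)

/-- variables of the extended contexts -/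
abbrev NV (O : OpFam.{u}) (𝒞 : SCat.{u}) (X Y : 𝒞.Obj → Vars.{u}) (c : 𝒞.Obj) : Vars.{u} :=
  fun n => X c n ⊕ Σ c', Cd O 𝒞 X Y false c' n × 𝒞.Hom c' c

namespace Cd

variable {O : OpFam.{u}} {𝒞 : SCat.{u}} {X Y : 𝒞.Obj → Vars.{u}}

/-- the generic variable of a cell -/
abbrev gv {c : 𝒞.Obj} {n : ℕ} (κ : Cd O 𝒞 X Y false c n) : NV O 𝒞 X Y c n :=
  .inr ⟨c, κ, 𝒞.id c⟩

def toTm : {b : Bool} → {c : 𝒞.Obj} → {n : ℕ} → Cd O 𝒞 X Y b c n → Tm O (NV O 𝒞 X Y c) n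
  | _, _, _, ic0 y => .var (gv (ic0 y))
  | _, _, _, icS s t y => .var (gv (icS s t y))
  | _, _, _, jt a w => .var (gv (jt a w))
  | _, _, _, jc a w => .var (gv (jc a w))
  | _, _, _, old x => .var (.inl x)
  | _, _, _, nv κ φ => .var (.inr ⟨_, κ, φ⟩)
  | _, _, _, op γ σ => .op γ fun k p => toTm (σ k p)

def ofTm {c : 𝒞.Obj} : {n : ℕ} → Tm O (NV O 𝒞 X Y c) n → Cd O 𝒞 X Y true c n
  | _, .var (.inl x) => old x
  | _, .var (.inr ⟨_, κ, φ⟩) => nv κ φ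
  | _, .op γ σ => op γ fun k p => ofTm (σ k p)

@[simp] theorem toTm_ofTm {c : 𝒞.Obj} : ∀ {n : ℕ} (t : Tm O (NV O 𝒞 X Y c) n),
    toTm (ofTm t) = t
  | _, .var (.inl _) => rfl
  | _, .var (.inr ⟨_, _, _⟩) => rfl
  | _, .op γ σ => by
    simp only [ofTm, toTm]; congr 1; funext k p; exact toTm_ofTm (σ k p)

end Cd

/-- input of the small object argument -/
structure SOAIn (D : Thy.{u}) (𝒞 : SCat.{u}) where
  F : FCtx D.Op 𝒞
  V : ∀ c, VSet (F.Δ c).Var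
  stable : F.Stable V
  closed : ∀ c, Closed D.toSig (F.Δ c) (V c)
  R : AFun D.toSig 𝒞
  f : ∀ c, AHom (Fr D (F.Δ c) (V c)) (R.obj c)
  nat : ∀ a b (φ : 𝒞.Hom a b), ((FCtx.alg V stable).map φ).comp (f b) = (f a).comp (R.map φ)
  L : ℕ

namespace SOAIn

variable {D : Thy.{u}} {𝒞 : SCat.{u}} (I : SOAIn D 𝒞)

abbrev C (b : Bool) (c : 𝒞.Obj) (n : ℕ) :=
  Cd D.Op 𝒞 (fun c => (I.F.Δ c).Var) (fun c => (I.R.obj c).G.cell) b c n

abbrev Var (c : 𝒞.Obj) : Vars.{u} :=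
  NV D.Op 𝒞 (fun c => (I.F.Δ c).Var) (fun c => (I.R.obj c).G.cell) c

/-- the generic variable of a cell -/
abbrev gv {c : 𝒞.Obj} {n : ℕ} (κ : I.C false c n) : I.Var c n := .inr ⟨c, κ, 𝒞.id c⟩

def nren {a b : 𝒞.Obj} (φ : 𝒞.Hom a b) (n : ℕ) : I.Var a n → I.Var b n
  | .inl x => .inl (I.F.ren φ n x)
  | .inr ⟨c', κ, ψ⟩ => .inr ⟨c', κ, 𝒞.comp ψ φ⟩

/-- source of an old variable -/
def osrc {c : 𝒞.Obj} : (n : ℕ) → (I.F.Δ c).Var n → Tm D.Op (I.Var c) n.pred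
  | 0, x => .var (.inl x)
  | _ + 1, x => ((I.F.Δ c).src x).ren fun _ => .inl

def otgt {c : 𝒞.Obj} : (n : ℕ) → (I.F.Δ c).Var n → Tm D.Op (I.Var c) n.pred
  | 0, x => .var (.inl x)
  | _ + 1, x => ((I.F.Δ c).tgt x).ren fun _ => .inl

def bs : {b : Bool} → {c : 𝒞.Obj} → {n : ℕ} → I.C b c n → Tm D.Op (I.Var c) n.pred
  | _, _, _, .ic0 y => .var (Cd.gv (.ic0 y))
  | _, _, _, .icS s _ _ => s.toTm
  | _, _, _, .jt a _ => bs a
  | _, _, _, .jc a _ => a.toTm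
  | _, _, _, .old x => I.osrc _ x
  | _, _, _, .nv κ φ => (bs κ).ren (I.nren φ)
  | _, _, _, .op γ σ => (D.src γ).subst fun k p => (σ k p).toTm

def bt : {b : Bool} → {c : 𝒞.Obj} → {n : ℕ} → I.C b c n → Tm D.Op (I.Var c) n.pred
  | _, _, _, .ic0 y => .var (Cd.gv (.ic0 y))
  | _, _, _, .icS _ t _ => t.toTm
  | _, _, _, .jt a _ => bt a
  | _, _, _, .jc a w => .var (Cd.gv (.jt a w))
  | _, _, _, .old x => I.otgt _ x
  | _, _, _, .nv κ φ => (bt κ).ren (I.nren φ)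
  | _, _, _, .op γ σ => (D.tgt γ).subst fun k p => (σ k p).toTm

/-- the extended contexts -/
@[reducible] def Δ (c : 𝒞.Obj) : Ctx D.Op where
  Var := I.Var c
  src v := match v with
    | .inl x => ((I.F.Δ c).src x).ren fun _ => .inl
    | .inr ⟨_, κ, φ⟩ => (I.bs κ).ren (I.nren φ)
  tgt v := match v with
    | .inl x => ((I.F.Δ c).tgt x).ren fun _ => .inl
    | .inr ⟨_, κ, φ⟩ => (I.bt κ).ren (I.nren φ)

theorem nren_id (a : 𝒞.Obj) (n : ℕ) : ∀ x : I.Var a n, I.nren (𝒞.id a) n x = x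
  | .inl x => congrArg Sum.inl (I.F.ren_id a n x)
  | .inr ⟨_, _, ψ⟩ => by simp only [nren, 𝒞.comp_id]

theorem nren_comp {a b c : 𝒞.Obj} (f : 𝒞.Hom a b) (g : 𝒞.Hom b c) (n : ℕ) :
    ∀ x : I.Var a n, I.nren (𝒞.comp f g) n x = I.nren g n (I.nren f n x)
  | .inl x => congrArg Sum.inl (I.F.ren_comp f g n x)
  | .inr ⟨_, _, ψ⟩ => by simp only [nren, 𝒞.assoc]

theorem ren_id {a : 𝒞.Obj} {n : ℕ} (t : Tm D.Op (I.Var a) n) : t.ren (I.nren (𝒞.id a)) = t := by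
  simp only [Tm.ren, I.nren_id, Tm.subst_id]

theorem ren_ren {a b c : 𝒞.Obj} (f : 𝒞.Hom a b) (g : 𝒞.Hom b c) {n : ℕ}
    (t : Tm D.Op (I.Var a) n) :
    (t.ren (I.nren f)).ren (I.nren g) = t.ren (I.nren (𝒞.comp f g)) := by
  simp only [Tm.ren, Tm.subst_subst, Tm.subst_var, I.nren_comp]

/-- the extended functorial context -/
@[reducible] def F' : FCtx D.Op 𝒞 where
  Δ := I.Δ
  ren := I.nren
  ren_id := I.nren_id
  ren_comp := I.nren_comp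
  src_ren f n v := match v with
    | .inl x => by
      show ((I.F.Δ _).src (I.F.ren f _ x)).ren _ = (((I.F.Δ _).src x).ren _).ren _
      rw [I.F.src_ren]
      simp only [Tm.ren, Tm.subst_subst, Tm.subst_var, nren]
    | .inr ⟨_, κ, φ⟩ => (I.ren_ren φ f (I.bs κ)).symm
  tgt_ren f n v := match v with
    | .inl x => by
      show ((I.F.Δ _).tgt (I.F.ren f _ x)).ren _ = (((I.F.Δ _).tgt x).ren _).ren _
      rw [I.F.tgt_ren]
      simp only [Tm.ren, Tm.subst_subst, Tm.subst_var, nren]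
    | .inr ⟨_, κ, φ⟩ => (I.ren_ren φ f (I.bt κ)).symm

theorem rsrc_toTm {c : 𝒞.Obj} {n : ℕ} (a : I.C true c (n + 1)) :
    rsrc D.toSig (I.Δ c) a.toTm = I.bs a := by cases a <;> rfl

theorem rtgt_toTm {c : 𝒞.Obj} {n : ℕ} (a : I.C true c (n + 1)) :
    rtgt D.toSig (I.Δ c) a.toTm = I.bt a := by cases a <;> rfl

/-- the label of a cell -/
def lab {c : 𝒞.Obj} : {n : ℕ} → I.C false c n → (I.R.obj c).G.cell n
  | _, .ic0 y => y
  | _, .icS _ _ y => y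
  | _, .jt _ w => (I.R.obj c).G.tgt _ w
  | _, .jc _ w => w

/-- variables allowed by a set of cells -/
def vs (P : ∀ c n, I.C false c n → Prop) (c : 𝒞.Obj) : VSet (I.Var c) := fun n v =>
  match v with
  | .inl x => I.V c n x
  | .inr ⟨c', κ, _⟩ => P c' n κ

/-- the assignment of labels -/
def ρ (P : ∀ c n, I.C false c n → Prop) (c : 𝒞.Obj) : Asg (I.Var c) (I.R.obj c).G := fun n v y =>
  match v with
  | .inl x => (I.f c).asg n x y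
  | .inr ⟨c', κ, φ⟩ => P c' n κ ∧ (I.R.map φ).map.app n (I.lab κ) = y

/-- cells whose attaching data are valid over `P` -/
def Φ (P : ∀ c n, I.C false c n → Prop) (c : 𝒞.Obj) : (n : ℕ) → I.C false c n → Prop
  | _, .ic0 _ => I.L ≤ 0
  | _, .icS (n := n) s t y => I.L ≤ n + 1 ∧ OK D.toSig (I.Δ c) (I.vs P c) s.toTm ∧
      OK D.toSig (I.Δ c) (I.vs P c) t.toTm ∧ RPar D.toSig (I.Δ c) n s.toTm t.toTm ∧
      Eval (I.R.obj c).str.op (I.ρ P c) s.toTm ((I.R.obj c).G.src n y) ∧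
      Eval (I.R.obj c).str.op (I.ρ P c) t.toTm ((I.R.obj c).G.tgt n y)
  | _, .jt (n := n) a w => n < I.L ∧ OK D.toSig (I.Δ c) (I.vs P c) a.toTm ∧
      Eval (I.R.obj c).str.op (I.ρ P c) a.toTm ((I.R.obj c).G.src n w)
  | _, .jc (n := n) a w => n < I.L ∧ OK D.toSig (I.Δ c) (I.vs P c) a.toTm ∧
      Eval (I.R.obj c).str.op (I.ρ P c) a.toTm ((I.R.obj c).G.src n w)

theorem vs_mono {P Q : ∀ c n, I.C false c n → Prop} (h : ∀ c n κ, P c n κ → Q c n κ) (c : 𝒞.Obj)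
    (n : ℕ) : ∀ v, I.vs P c n v → I.vs Q c n v
  | .inl _ => id
  | .inr ⟨_, _, _⟩ => h _ _ _

theorem ρ_mono {P Q : ∀ c n, I.C false c n → Prop} (h : ∀ c n κ, P c n κ → Q c n κ) (c : 𝒞.Obj)
    (n : ℕ) : ∀ v y, I.ρ P c n v y → I.ρ Q c n v y
  | .inl _, _ => id
  | .inr ⟨_, _, _⟩, _ => fun a => ⟨h _ _ _ a.1, a.2⟩

theorem ev_mono {P Q : ∀ c n, I.C false c n → Prop} (h : ∀ c n κ, P c n κ → Q c n κ) {c : 𝒞.Obj}
    {n : ℕ} {t : Tm D.Op (I.Var c) n} {y} (e : Eval (I.R.obj c).str.op (I.ρ P c) t y) :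
    Eval (I.R.obj c).str.op (I.ρ Q c) t y := e.mono (fun _ _ _ _ _ h => h) (I.ρ_mono h c)

theorem Φ_mono {P Q : ∀ c n, I.C false c n → Prop} (h : ∀ c n κ, P c n κ → Q c n κ) (c : 𝒞.Obj) :
    ∀ n κ, I.Φ P c n κ → I.Φ Q c n κ
  | _, .ic0 _ => id
  | _, .icS _ _ _ => fun ⟨a, b, d, e, f, g⟩ =>
    ⟨a, b.mono (I.vs_mono h c), d.mono (I.vs_mono h c), e, I.ev_mono h f, I.ev_mono h g⟩
  | _, .jt _ _ => fun ⟨a, b, d⟩ => ⟨a, b.mono (I.vs_mono h c), I.ev_mono h d⟩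
  | _, .jc _ _ => fun ⟨a, b, d⟩ => ⟨a, b.mono (I.vs_mono h c), I.ev_mono h d⟩

/-- cells valid at a stage -/
def Val : ℕ → ∀ c n, I.C false c n → Prop
  | 0 => fun _ _ _ => False
  | r + 1 => I.Φ (Val r)

theorem Val_succ : ∀ r c n κ, I.Val r c n κ → I.Val (r + 1) c n κ
  | 0 => fun _ _ _ h => h.elim
  | r + 1 => I.Φ_mono (Val_succ r)

theorem Val_mono {r r' : ℕ} (h : r ≤ r') (c n κ) (hκ : I.Val r c n κ) : I.Val r' c n κ := by
  induction h with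
  | refl => exact hκ
  | step _ ih => exact I.Val_succ _ _ _ _ ih

/-- valid cells -/
def ok (c : 𝒞.Obj) (n : ℕ) (κ : I.C false c n) : Prop := ∃ r, I.Val (r + 1) c n κ

theorem ok_of_Val {r : ℕ} (c n κ) (h : I.Val r c n κ) : I.ok c n κ := ⟨r, I.Val_succ _ _ _ _ h⟩

/-- the old variables -/
abbrev U (c : 𝒞.Obj) : VSet (I.Var c) := I.vs (fun _ _ _ => False) c

/-- all valid variables -/
abbrev U' (c : 𝒞.Obj) : VSet (I.Var c) := I.vs I.ok c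

theorem vs_stable (P : ∀ c n, I.C false c n → Prop) : I.F'.Stable (I.vs P)
  | a, b, f, n, .inl x => I.stable a b f n x
  | _, _, _, _, .inr ⟨_, _, _⟩ => id

theorem bp_inl (c : 𝒞.Obj) (T : VSet (I.F.Δ c).Var) :
    BP D.toSig (I.F.Δ c) (I.Δ c) T fun _ x => .var (.inl x) := fun _ _ _ => ⟨rfl, rfl⟩

theorem ok_inl (P : ∀ c n, I.C false c n → Prop) {c : 𝒞.Obj} {n : ℕ} {x : (I.F.Δ c).Var n}
    (h : I.V c n x) : OK D.toSig (I.Δ c) (I.vs P c) (.var (.inl x)) :=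
  OK.ren (Δ' := I.Δ c) (T' := I.vs P c) (r := fun _ => Sum.inl) (I.bp_inl c (I.V c))
    (fun _ _ h => h.mem) (I.closed c n x h)

/-- the old variables give the input algebra -/
def e (c : 𝒞.Obj) : AHom (Fr D (I.F.Δ c) (I.V c)) (Fr D (I.Δ c) (I.U c)) :=
  frRen (fun _ => .inl) (I.bp_inl c _) fun _ _ h => h.mem

theorem e_bij (c : 𝒞.Obj) (n : ℕ) : Function.Bijective ((I.e c).map.app n) :=
  frRen_bij _ _ _ (fun _ _ _ _ _ h => Sum.inl_injective h) (fun k v hv => by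
    rcases v with x | ⟨c', κ, φ⟩
    · exact ⟨x, I.closed c k x hv.mem, rfl⟩
    · exact hv.mem.elim) n

open Classical in
/-- the stage of a variable -/
noncomputable def st {c : 𝒞.Obj} (n : ℕ) : I.Var c n → ℕ
  | .inl _ => 0
  | .inr ⟨c', κ, _⟩ => if h : I.ok c' n κ then Nat.find h else 0

theorem Val_st {c c' : 𝒞.Obj} {n : ℕ} {κ : I.C false c' n} (φ : 𝒞.Hom c' c) (h : I.ok c' n κ) :
    I.Φ (I.Val (I.st n (.inr ⟨c', κ, φ⟩))) c' n κ := by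
  classical
  simp only [st, dif_pos h]
  exact Nat.find_spec h

theorem below_of_Val {c : 𝒞.Obj} (r : ℕ) (n : ℕ) : ∀ v, I.vs (I.Val r) c n v →
    Below (I.U c) (I.U' c) I.st r n v
  | .inl _ => Or.inl
  | .inr ⟨c', κ, φ⟩ => fun h => by
    classical
    have h' := I.ok_of_Val _ _ _ h
    refine Or.inr ⟨h', ?_⟩
    simp only [st, dif_pos h']
    cases r with
    | zero => exact h.elim
    | succ r => exact Nat.lt_succ_of_le (Nat.find_min' h' h)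

theorem ok_ren_below {c c' : 𝒞.Obj} (φ : 𝒞.Hom c' c) {r n : ℕ} {t : Tm D.Op (I.Var c') n}
    (h : OK D.toSig (I.Δ c') (I.vs (I.Val r) c') t) :
    OK D.toSig (I.Δ c) (Below (I.U c) (I.U' c) I.st r) (t.ren (I.nren φ)) :=
  ((I.vs_stable _).ok φ h).mono (I.below_of_Val r)

/-- the pairs -/
def pair (c : 𝒞.Obj) (n : ℕ) (x : I.Var c n) (h : I.Var c (n + 1)) : Prop :=
  ∃ (c' : 𝒞.Obj) (a : I.C true c' n) (w : (I.R.obj c').G.cell (n + 1)) (φ : 𝒞.Hom c' c),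
    I.ok c' n (.jt a w) ∧ x = .inr ⟨c', .jt a w, φ⟩ ∧ h = .inr ⟨c', .jc a w, φ⟩

theorem icell_cases {c : 𝒞.Obj} {n : ℕ} {x : I.Var c n} (h1 : I.U' c n x) (h2 : ¬I.U c n x)
    (h3 : ¬∃ h, I.pair c n x h) (h4 : ¬IsJc (I.pair c) n x) :
    I.L ≤ n ∧ BdOK D.toSig (I.Δ c) (Below (I.U c) (I.U' c) I.st (I.st n x)) n x := by
  rcases x with x | ⟨c', κ, φ⟩
  · exact absurd h1 h2
  have hv := I.Val_st φ h1
  cases κ with
  | ic0 y => exact ⟨hv, trivial⟩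
  | icS s t y =>
    obtain ⟨a, b, d, e, -⟩ := hv
    exact ⟨a, I.ok_ren_below φ b, I.ok_ren_below φ d, RPar.subst (I.F'.bp φ _) b d e⟩
  | jt a w => exact absurd ⟨_, c', a, w, φ, h1, rfl, rfl⟩ h3
  | jc a w => exact absurd ⟨_, c', a, w, φ, h1, rfl, rfl⟩ h4

/-- the extension at each object is a staged extension -/
noncomputable def J (c : 𝒞.Obj) : JExt D.toSig (I.Δ c) (I.U c) (I.U' c) where
  st := I.st
  pair := I.pair c
  sub := I.vs_mono (fun _ _ _ h => h.elim) c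
  closed n v hv := by
    rcases v with x | ⟨c', κ, φ⟩
    · exact I.ok_inl _ hv
    · exact hv.elim
  pair_uniq := by
    rintro n _ _ _ ⟨c1, a, w, φ, -, rfl, rfl⟩ ⟨c2, a', w', φ', -, e, rfl⟩
    cases e
    rfl
  pair_new := by
    rintro n _ _ ⟨c1, a, w, φ, h, rfl, rfl⟩
    exact ⟨h, id, h, id⟩
  pair_st := by
    rintro n _ _ ⟨c1, a, w, φ, h, rfl, rfl⟩
    rfl
  pair_not := by
    rintro n _ _ k ⟨c1, a, w, φ, -, rfl, rfl⟩ ⟨c2, a', w', φ', -, e, -⟩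
    cases e
  pair_tgt := by
    rintro n _ _ ⟨c1, a, w, φ, -, rfl, rfl⟩
    exact congrArg (fun ψ => (Tm.var (Sum.inr ⟨c1, Cd.jt a w, ψ⟩) : Tm D.Op (I.Var c) n))
      (𝒞.id_comp φ)
  pair_src := by
    rintro n _ _ ⟨c1, a, w, φ, h, rfl, rfl⟩
    exact I.ok_ren_below φ (I.Val_st φ h).2.1
  pair_par := by
    rintro n _ _ ⟨c1, a, w, φ, h, rfl, rfl⟩
    cases n with
    | zero => trivial
    | succ n =>
      have := (I.Val_st φ h).2.1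
      exact ⟨(rsrc_subst (I.F'.bp φ _) this).trans (congrArg (Tm.subst _) (I.rsrc_toTm a)),
        (rtgt_subst (I.F'.bp φ _) this).trans (congrArg (Tm.subst _) (I.rtgt_toTm a))⟩
  icell _ _ h1 h2 h3 h4 := (I.icell_cases h1 h2 h3 h4).2

theorem J_idim (c : 𝒞.Obj) : (I.J c).IDim I.L :=
  fun _ _ h => (I.icell_cases h.1 h.2.1 h.2.2.1 h.2.2.2).1

theorem closed' (c : 𝒞.Obj) : Closed D.toSig (I.Δ c) (I.U' c) := (I.J c).closed'

theorem f_nat {a b : 𝒞.Obj} (φ : 𝒞.Hom a b) {n : ℕ} {x : (I.F.Δ a).Var n} {y}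
    (h : (I.f a).asg n x y) : (I.f b).asg n (I.F.ren φ n x) ((I.R.map φ).map.app n y) := by
  obtain ⟨hx, rfl⟩ := h
  exact ⟨I.stable.ok φ hx, AHom.app_eq (I.nat a b φ) n (fv x hx)⟩

theorem ρ_ren (P : ∀ c n, I.C false c n → Prop) {a b : 𝒞.Obj} (φ : 𝒞.Hom a b) (n : ℕ) :
    ∀ v y, I.ρ P a n v y → I.ρ P b n (I.nren φ n v) ((I.R.map φ).map.app n y)
  | .inl _, _, h => I.f_nat φ h
  | .inr ⟨_, _, ψ⟩, _, h => ⟨h.1, by rw [I.R.map_comp, ← h.2]; rfl⟩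

theorem ev_ren (P : ∀ c n, I.C false c n → Prop) {a b : 𝒞.Obj} (φ : 𝒞.Hom a b) {n : ℕ}
    {t : Tm D.Op (I.Var a) n} {y} (h : Eval (I.R.obj a).str.op (I.ρ P a) t y) :
    Eval (I.R.obj b).str.op (I.ρ P b) (t.ren (I.nren φ)) ((I.R.map φ).map.app n y) :=
  Eval.ren (ρ := fun n v y => I.ρ P b n (I.nren φ n v) y) (r := I.nren φ) (fun _ _ _ h => h)
    (h.map (I.R.map φ).map (I.R.map φ).hom (I.ρ_ren P φ))

theorem ρ_func (P : ∀ c n, I.C false c n → Prop) (c : 𝒞.Obj) (n : ℕ) :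
    ∀ v y y', I.ρ P c n v y → I.ρ P c n v y' → y = y'
  | .inl _, _, _, h, h' => (I.f c).asg_valid.func _ _ _ _ h h'
  | .inr ⟨_, _, _⟩, _, _, h, h' => h.2.symm.trans h'.2

theorem ρ_law_inl (P : ∀ c n, I.C false c n → Prop) (c : 𝒞.Obj) (n : ℕ)
    (x : (I.F.Δ c).Var (n + 1)) (y) (h : I.ρ P c _ (.inl x) y) :
    Eval (I.R.obj c).str.op (I.ρ P c) ((I.Δ c).src (.inl x)) ((I.R.obj c).G.src n y) ∧
    Eval (I.R.obj c).str.op (I.ρ P c) ((I.Δ c).tgt (.inl x)) ((I.R.obj c).G.tgt n y) :=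
  ⟨Eval.ren (ρ' := I.ρ P c) (r := fun _ => Sum.inl) (fun _ _ _ h => h)
      ((I.f c).asg_valid.law n x y h).1,
    Eval.ren (ρ' := I.ρ P c) (r := fun _ => Sum.inl) (fun _ _ _ h => h)
      ((I.f c).asg_valid.law n x y h).2⟩

theorem valid_Val : ∀ r c, Valid (I.Δ c) (I.R.obj c).str (I.ρ (I.Val r) c)
  | 0, c => ⟨I.ρ_func _ c, fun n v y h => by
      rcases v with x | ⟨c', κ, φ⟩
      · exact I.ρ_law_inl _ c n x y h
      · exact h.1.elim⟩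
  | r + 1, c => ⟨I.ρ_func _ c, fun n v y h => by
      rcases v with x | ⟨c', κ, φ⟩
      · exact I.ρ_law_inl _ c n x y h
      obtain ⟨hv, rfl⟩ := h
      rw [← (I.R.map φ).map.app_src, ← (I.R.map φ).map.app_tgt]
      refine And.imp (I.ev_ren _ φ) (I.ev_ren _ φ) ?_
      cases κ with
      | icS s t y => exact ⟨I.ev_mono (I.Val_succ r) hv.2.2.2.2.1,
          I.ev_mono (I.Val_succ r) hv.2.2.2.2.2⟩
      | jt a w =>
        obtain ⟨h1, h2⟩ := (valid_Val r c').bdry hv.2.2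
        rw [I.rsrc_toTm, (I.R.obj c').G.src_src] at h1
        rw [I.rtgt_toTm, (I.R.obj c').G.tgt_tgt] at h2
        exact ⟨I.ev_mono (I.Val_succ r) h1, I.ev_mono (I.Val_succ r) h2⟩
      | jc a w =>
        exact ⟨I.ev_mono (I.Val_succ r) hv.2.2, .var ⟨hv, by rw [I.R.map_id]; rfl⟩⟩⟩

theorem valid (c : 𝒞.Obj) : Valid (I.Δ c) (I.R.obj c).str (I.ρ I.ok c) :=
  ⟨I.ρ_func _ c, fun n v y h => by
    rcases v with x | ⟨c', κ, φ⟩
    · exact I.ρ_law_inl _ c n x y h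
    obtain ⟨⟨r, hr⟩, e⟩ := h
    obtain ⟨h1, h2⟩ := (I.valid_Val (r + 1) c).law n (.inr ⟨c', κ, φ⟩) y ⟨hr, e⟩
    exact ⟨I.ev_mono I.ok_of_Val h1, I.ev_mono I.ok_of_Val h2⟩⟩

theorem ρ_total (c : 𝒞.Obj) (n : ℕ) : ∀ v, OK D.toSig (I.Δ c) (I.U' c) (.var v) →
    ∃ y, I.ρ I.ok c n v y
  | .inl x, h => ⟨_, I.closed c n x h.mem, rfl⟩
  | .inr ⟨_, _, _⟩, h => ⟨_, h.mem, rfl⟩

/-- the map to the target -/
noncomputable def p (c : 𝒞.Obj) : AHom (Fr D (I.Δ c) (I.U' c)) (I.R.obj c) :=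
  lift (I.valid c) (I.ρ_total c)

theorem p_fac (c : 𝒞.Obj) :
    ((I.e c).comp (frIncl (I.J c).sub')).comp (I.p c) = I.f c :=
  fr_ext fun _ _ hx => lift_eq (I.valid c) (I.ρ_total c) (.var ⟨hx, rfl⟩)

theorem p_nat {a b : 𝒞.Obj} (φ : 𝒞.Hom a b) :
    ((FCtx.alg (F := I.F') I.U' (I.vs_stable _)).map φ).comp (I.p b) =
      (I.p a).comp (I.R.map φ) :=
  fr_ext fun _ v hv => lift_eq (I.valid b) (I.ρ_total b)
    (.var (I.ρ_ren _ φ _ _ _ (lift_var (I.valid a) (I.ρ_total a) v hv)))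

theorem p_cell {c c' : 𝒞.Obj} {n : ℕ} (κ : I.C false c' n) (φ : 𝒞.Hom c' c)
    (h : OK D.toSig (I.Δ c) (I.U' c) (.var (.inr ⟨c', κ, φ⟩))) :
    (I.p c).map.app n (fv _ h) = (I.R.map φ).map.app n (I.lab κ) :=
  lift_eq _ _ (.var ⟨h.mem, rfl⟩)

theorem exists_stage {c : 𝒞.Obj} {n : ℕ} (t : (Fr D (I.Δ c) (I.U' c)).G.cell n) :
    ∃ r0, ∀ r, r0 ≤ r → OK D.toSig (I.Δ c) (I.vs (I.Val r) c) t.1 ∧
      Eval (I.R.obj c).str.op (I.ρ (I.Val r) c) t.1 ((I.p c).map.app n t) := by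
  obtain ⟨r0, h0⟩ := OK.directed (fun r => I.vs (I.Val r) c)
    (fun r r' h => I.vs_mono (I.Val_mono h) c) (t.2.mono fun k v hv => by
      rcases v with x | ⟨c', κ, φ⟩
      · exact ⟨0, hv⟩
      · obtain ⟨r, hr⟩ := hv; exact ⟨r + 1, hr⟩)
  refine ⟨r0, fun r hr => ?_⟩
  have h1 := h0.mono (I.vs_mono (I.Val_mono hr) c)
  refine ⟨h1, ?_⟩
  obtain ⟨y, hy⟩ := (I.valid_Val r c).total (I.R.obj c).total (fun k v hv => by
    rcases v with x | ⟨c', κ, φ⟩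
    · exact ⟨_, I.closed c k x hv.mem, rfl⟩
    · exact ⟨_, hv.mem, rfl⟩) h1
  rw [show (I.p c).map.app n t = y from lift_eq _ _ (I.ev_mono I.ok_of_Val hy)]
  exact hy

theorem jlift (c : 𝒞.Obj) (n : ℕ) (hn : n < I.L) : JLift (I.p c).map n := by
  intro a w hw
  obtain ⟨r, hr⟩ := I.exists_stage a
  obtain ⟨h1, h2⟩ := hr r le_rfl
  have hκ : I.ok c _ (.jc (Cd.ofTm a.1) w) :=
    ⟨r, hn, by rwa [Cd.toTm_ofTm], by rwa [Cd.toTm_ofTm, hw]⟩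
  refine ⟨fv (I.gv (.jc (Cd.ofTm a.1) w)) (I.closed' c _ _ hκ), Subtype.ext ?_, ?_⟩
  · exact (I.ren_id _).trans (Cd.toTm_ofTm _)
  · rw [I.p_cell, I.R.map_id]; rfl

/-- saturated lifting: any set of valid variables containing the generic ones -/
theorem ilift_sat (c : 𝒞.Obj) (T : VSet (I.Var c))
    (hT : ∀ n v, OK D.toSig (I.Δ c) T (.var v) → I.U' c n v)
    (hT' : ∀ n κ, I.ok c n κ → T n (I.gv κ)) (n : ℕ) (hn : I.L ≤ n) :
    ILift ((frIncl hT).comp (I.p c)).map n := by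
  cases n with
  | zero =>
    refine ILift.of_zero fun y => ?_
    have hκ : I.ok c _ (.ic0 y) := ⟨0, hn⟩
    refine ⟨fv (I.gv (.ic0 y)) (.var0 (Δ := I.Δ c) (I.gv (.ic0 y)) (hT' _ _ hκ)), ?_⟩
    refine (I.p_cell _ _ _).trans ?_
    rw [I.R.map_id]; rfl
  | succ n =>
    refine ILift.of_succ fun s t hst y hs ht => ?_
    obtain ⟨r1, hr1⟩ := I.exists_stage ((frIncl hT).map.app _ s)
    obtain ⟨r2, hr2⟩ := I.exists_stage ((frIncl hT).map.app _ t)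
    obtain ⟨h1, h2⟩ := hr1 (r1 + r2) (by omega)
    obtain ⟨h3, h4⟩ := hr2 (r1 + r2) (by omega)
    have hp := (frG_par s t).1 hst
    have hκ : I.ok c _ (.icS (Cd.ofTm s.1) (Cd.ofTm t.1) y) :=
      ⟨r1 + r2, hn, by rwa [Cd.toTm_ofTm], by rwa [Cd.toTm_ofTm],
        by rwa [Cd.toTm_ofTm, Cd.toTm_ofTm], by rw [Cd.toTm_ofTm, hs]; exact h2,
        by rw [Cd.toTm_ofTm, ht]; exact h4⟩
    have e1 : (I.Δ c).src (I.gv (.icS (Cd.ofTm s.1) (Cd.ofTm t.1) y)) = s.1 :=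
      (I.ren_id _).trans (Cd.toTm_ofTm _)
    have e2 : (I.Δ c).tgt (I.gv (.icS (Cd.ofTm s.1) (Cd.ofTm t.1) y)) = t.1 :=
      (I.ren_id _).trans (Cd.toTm_ofTm _)
    have hok : OK D.toSig (I.Δ c) T (.var (I.gv (.icS (Cd.ofTm s.1) (Cd.ofTm t.1) y))) :=
      .varS (Δ := I.Δ c) _ (hT' _ _ hκ) (by rw [e1]; exact s.2) (by rw [e2]; exact t.2)
        (by rw [e1, e2]; exact hp)
    refine ⟨fv _ hok, Subtype.ext e1, Subtype.ext e2, ?_⟩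
    refine (I.p_cell _ _ _).trans ?_
    rw [I.R.map_id]; rfl

theorem fib (c : 𝒞.Obj) : Fib I.L (I.p c).map :=
  ⟨I.jlift c, fun n hn => I.ilift_sat c (I.U' c) (fun _ _ h => h.mem) (fun _ _ h => h) n hn⟩

end SOAIn

end Crest.Agent.R248
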