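import Crest.Agent.R248.Basic

/-!
# Row 248, bridge file 1: shapes versus trees, and the Segal bijection for models.

-/

set_option autoImplicit false

namespace Crest.Agent.R248

open CategoryTheory CategoryTheory.Limits Opposite Crest.GeometryTopology.Coherator

universe u

/-- universe lift of a globular set -/
@[reducible] def liftG (X : GlobSet.{0}) : GS.{u} where
  cell n := ULift.{u} (X.cell n)
  src n x := ⟨X.src n x.down⟩
  tgt n x := ⟨X.tgt n x.down⟩
  src_src n x := congrArg ULift.up (X.src_src n x.down)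
  tgt_tgt n x := congrArg ULift.up (X.tgt_tgt n x.down)

def liftMap {X Y : GlobSet.{0}} (f : GlobSet.Map X Y) : GMap (liftG.{u} X) (liftG Y) :=
  ⟨fun n x => ⟨f.app n x.down⟩, fun n x => congrArg ULift.up (f.app_src n x.down),
    fun n x => congrArg ULift.up (f.app_tgt n x.down)⟩

/-- the globular set of a shape, in universe `u` -/
noncomputable abbrev pshG (S : Shape) : GS.{u} := liftG (GlobPsh.toGlobSet S.psh)

/-- the globular map of a map of shapes -/
noncomputable def pshMap {S T : Shape} (f : S ⟶ T) : GMap (pshG.{u} S) (pshG T) :=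
  liftMap (GlobPsh.toGlobSetMap (f : S.psh ⟶ T.psh))

theorem pshMap_id (S : Shape) : pshMap.{u} (𝟙 S) = GMap.id _ := rfl

theorem pshMap_comp {R S T : Shape} (f : R ⟶ S) (g : S ⟶ T) :
    pshMap.{u} (f ≫ g) = (pshMap f).comp (pshMap g) := rfl

/-- isomorphisms of globular sets -/
structure GIso (X Y : GS.{u}) where
  hom : GMap X Y
  inv : GMap Y X
  hom_inv : hom.comp inv = GMap.id X
  inv_hom : inv.comp hom = GMap.id Y

/-- the top cell of the `n`-globe -/
noncomputable def gtop (n : ℕ) : (pshG.{u} (Shape.globe n)).cell n :=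
  ⟨(𝟙 (GlobeObj.mk n) : GlobeObj.mk n ⟶ GlobeObj.mk n)⟩

theorem pshMap_σ_gtop (n : ℕ) :
    (pshMap.{u} (Shape.σ n)).app n (gtop n) = (pshG (Shape.globe (n + 1))).src n (gtop (n + 1)) :=
  rfl

theorem pshMap_τ_gtop (n : ℕ) :
    (pshMap.{u} (Shape.τ n)).app n (gtop n) = (pshG (Shape.globe (n + 1))).tgt n (gtop (n + 1)) :=
  rfl

/-- an arrow of globes as a cell of the globe -/
noncomputable def gcell {k n : ℕ} (a : GlobeObj.Arrow k n) : (pshG.{u} (Shape.globe n)).cell k := ⟨a⟩

theorem src_gcell {k n : ℕ} (h : k < n) (a : GlobeObj.Arrow (k + 1) n) :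
    (pshG.{u} (Shape.globe n)).src k (gcell a) = gcell (.pole h false) := by
  cases a <;> rfl

theorem tgt_gcell {k n : ℕ} (h : k < n) (a : GlobeObj.Arrow (k + 1) n) :
    (pshG.{u} (Shape.globe n)).tgt k (gcell a) = gcell (.pole h true) := by
  cases a <;> rfl

theorem face_pole (n : ℕ) : ∀ (d k : ℕ) (h : k < n), k + d + 1 = n → ∀ β : Bool,
    Face (pshG.{u} (Shape.globe n)) ⟨n, gtop n⟩ ⟨k, gcell (.pole h β)⟩
  | 0, k, h, e, β => by
    subst e
    cases β
    · exact Face.src (X := pshG (Shape.globe (k + 1))) (gtop (k + 1)) Face.refl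
    · exact Face.tgt (X := pshG (Shape.globe (k + 1))) (gtop (k + 1)) Face.refl
  | d + 1, k, h, e, β => by
    have h' : k + 1 < n := by omega
    have := face_pole n d (k + 1) h' (by omega) false
    cases β
    · exact Face.src (X := pshG (Shape.globe n)) _ this
    · exact Face.tgt (X := pshG (Shape.globe n)) _ this

theorem face_gcell {k n : ℕ} (a : GlobeObj.Arrow k n) :
    Face (pshG.{u} (Shape.globe n)) ⟨n, gtop n⟩ ⟨k, gcell a⟩ := by
  cases a with
  | refl => exact Face.refl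
  | pole h β => exact face_pole n (n - k - 1) k h (by omega) β

/-- Cells of the globe are `GlobeObj.Arrow k n` (`refl` or `pole`); every cell is an iterated face
of `gtop n` (`Face`, `Face.app_eq` in `Basic.lean`). -/
theorem globe_ext {n : ℕ} {Y : GS.{u}} {f g : GMap (pshG (Shape.globe n)) Y}
    (h : f.app n (gtop n) = g.app n (gtop n)) : f = g :=
  GMap.ext' fun _ a => Face.app_eq (face_gcell (n := n) a.down) h

/-- the poles of a disk -/
def pole (β : Bool) : (k n : ℕ) → k < n → Pos.{u} (Tr.disk n) k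
  | _, 0, h => absurd h (Nat.not_lt_zero _)
  | 0, _ + 1, _ => .vtx (if β then 1 else 0)
  | k + 1, n + 1, h => .br 0 (pole β k n (Nat.lt_of_succ_lt_succ h))

theorem src_top : ∀ (k : ℕ) (h : k < k + 1), Pos.src (top.{u} (k + 1)) = pole false k (k + 1) h
  | 0, _ => rfl
  | k + 1, _ => congrArg (Pos.br (ch := fun _ => Tr.disk (k + 1)) 0) (src_top k (by omega))

theorem tgt_top : ∀ (k : ℕ) (h : k < k + 1), Pos.tgt (top.{u} (k + 1)) = pole true k (k + 1) h
  | 0, _ => rfl
  | k + 1, _ => congrArg (Pos.br (ch := fun _ => Tr.disk (k + 1)) 0) (tgt_top k (by omega))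

theorem src_pole (β : Bool) : ∀ (k n : ℕ) (h : k + 1 < n) (h' : k < n),
    Pos.src (pole.{u} β (k + 1) n h) = pole false k n h'
  | _, 0, h, _ => absurd h (Nat.not_lt_zero _)
  | 0, _ + 1, _, _ => rfl
  | k + 1, n + 1, _, _ =>
    congrArg (Pos.br (ch := fun _ => Tr.disk n) 0) (src_pole β k n (by omega) (by omega))

theorem tgt_pole (β : Bool) : ∀ (k n : ℕ) (h : k + 1 < n) (h' : k < n),
    Pos.tgt (pole.{u} β (k + 1) n h) = pole true k n h'
  | _, 0, h, _ => absurd h (Nat.not_lt_zero _)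
  | 0, _ + 1, _, _ => rfl
  | k + 1, n + 1, _, _ =>
    congrArg (Pos.br (ch := fun _ => Tr.disk n) 0) (tgt_pole β k n (by omega) (by omega))

/-- arrows of globes as positions of the disk -/
def dpos : {k n : ℕ} → GlobeObj.Arrow k n → Pos.{u} (Tr.disk n) k
  | _, _, .refl n => top n
  | _, _, .pole h β => pole β _ _ h

theorem arrow_le {k n : ℕ} (a : GlobeObj.Arrow k n) : k ≤ n := by
  cases a with
  | refl => exact le_rfl
  | pole h _ => exact h.le

theorem src_dpos {k n : ℕ} (h : k < n) (a : GlobeObj.Arrow (k + 1) n) :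
    Pos.src (dpos.{u} a) = pole false k n h := by
  cases a with
  | refl => exact src_top k h
  | pole h' β => exact src_pole β k n h' h

theorem tgt_dpos {k n : ℕ} (h : k < n) (a : GlobeObj.Arrow (k + 1) n) :
    Pos.tgt (dpos.{u} a) = pole true k n h := by
  cases a with
  | refl => exact tgt_top k h
  | pole h' β => exact tgt_pole β k n h' h

/-- the comparison map from the globe to the disk -/
noncomputable def gd (n : ℕ) : GMap (pshG.{u} (Shape.globe n)) (posG (Tr.disk n)) where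
  app _ a := dpos (n := n) a.down
  app_src k a := by
    have h : k < n := arrow_le (n := n) a.down
    exact (congrArg (fun c : (pshG.{u} (Shape.globe n)).cell k => dpos (n := n) c.down)
      (src_gcell h a.down)).trans (src_dpos h a.down).symm
  app_tgt k a := by
    have h : k < n := arrow_le (n := n) a.down
    exact (congrArg (fun c : (pshG.{u} (Shape.globe n)).cell k => dpos (n := n) c.down)
      (tgt_gcell h a.down)).trans (tgt_dpos h a.down).symm

theorem gd_gtop (n : ℕ) : (gd.{u} n).app n (gtop n) = top n := rfl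

/-- Send `refl` to `y` and `pole _ b` to the iterated source (`b = false`) or target of `y`. -/
theorem globe_exists {n : ℕ} {Y : GS.{u}} (y : Y.cell n) :
    ∃ f : GMap (pshG (Shape.globe n)) Y, f.app n (gtop n) = y :=
  ⟨(gd n).comp (cls n y), cls_top n y⟩

theorem pushout_elem {W X Y Z : Type} {a : W ⟶ X} {b : W ⟶ Y} {i : X ⟶ Z} {j : Y ⟶ Z}
    (hp : IsPushout a b i j) {T : Type u} (f : X → T) (g : Y → T) (w : ∀ x, f (a x) = g (b x)) :
    ∃! k : Z → T, (∀ x, k (i x) = f x) ∧ ∀ y, k (j y) = g y := by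
  have hq := hp.map uliftFunctor.{u, 0}
  have hw : uliftFunctor.{u, 0}.map a ≫ (TypeCat.ofHom fun x : ULift.{u} X => f x.down) =
      uliftFunctor.{u, 0}.map b ≫ (TypeCat.ofHom fun y : ULift.{u} Y => g y.down) := by
    ext x
    exact w x.down
  refine ⟨fun z => hq.desc _ _ hw (ULift.up z), ⟨fun x => ?_, fun y => ?_⟩, fun k hk => ?_⟩
  · exact types_congr_hom (hq.inl_desc _ _ hw) (ULift.up x)
  · exact types_congr_hom (hq.inr_desc _ _ hw) (ULift.up y)
  · have : (TypeCat.ofHom fun z : ULift.{u} Z => k z.down) = hq.desc _ _ hw := by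
      apply hq.hom_ext
      · rw [hq.inl_desc]; ext x; exact hk.1 x.down
      · rw [hq.inr_desc]; ext y; exact hk.2 y.down
    funext z
    exact types_congr_hom this (ULift.up z)

theorem glue_isPushout (S : Shape) (b h : ℕ) (hb : b < S.last) (hh : b < h) (n : ℕ) :
    IsPushout ((S.hinge hb : (Shape.globe b).psh ⟶ S.psh).app (op (GlobeObj.mk n)))
      ((Shape.faceMap hh false : (Shape.globe b).psh ⟶ (Shape.globe h).psh).app (op (GlobeObj.mk n)))
      ((S.inLeft b h hb hh : S.psh ⟶ (S.glue b h hb hh).psh).app (op (GlobeObj.mk n)))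
      ((S.inRight b h hb hh : (Shape.globe h).psh ⟶ (S.glue b h hb hh).psh).app
        (op (GlobeObj.mk n))) :=
  (IsPushout.of_hasPushout (GlobPsh.globeRepFace hb true ≫ S.apex)
    (GlobPsh.globeRepFace hh false)).map ((evaluation _ _).obj (op (GlobeObj.mk n)))

/-- The gluing squares are pushouts for maps into globular sets of universe `u`.
Recipe: pushouts of presheaves are computed objectwise (`evaluation` preserves colimits), so in
each dimension the square is a pushout of types; use `Types.Pushout`/`IsPushout` in `Type`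
(joint surjectivity and `IsPushout.desc` after `uliftFunctor`, which preserves colimits), or map
the square through `(whiskeringRight ..).obj uliftFunctor.{u}` and turn a `GMap` into a natural
transformation (a presheaf on globes is determined by `σ`, `τ`). -/
theorem glue_universal (S : Shape) (b h : ℕ) (hb : b < S.last) (hh : b < h) {Y : GS.{u}}
    (f : GMap (pshG S) Y) (g : GMap (pshG (Shape.globe h)) Y)
    (w : (pshMap (S.hinge hb)).comp f = (pshMap (Shape.faceMap hh false)).comp g) :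
    ∃! k : GMap (pshG (S.glue b h hb hh)) Y,
      (pshMap (S.inLeft b h hb hh)).comp k = f ∧ (pshMap (S.inRight b h hb hh)).comp k = g := by
  have hu := fun (n m : ℕ) (f' : (pshG.{u} S).cell n → Y.cell m)
      (g' : (pshG.{u} (Shape.globe h)).cell n → Y.cell m)
      (w' : ∀ x, f' ((pshMap (S.hinge hb)).app n x) = g' ((pshMap (Shape.faceMap hh false)).app n x)) =>
    pushout_elem (glue_isPushout S b h hb hh n) (fun x => f' ⟨x⟩) (fun x => g' ⟨x⟩) fun x => w' ⟨x⟩
  have hw : ∀ n x, f.app n ((pshMap (S.hinge hb)).app n x) =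
      g.app n ((pshMap (Shape.faceMap hh false)).app n x) := fun n x =>
    congrArg (fun k : GMap _ Y => k.app n x) w
  have hk := fun n => hu n n (f.app n) (g.app n) (hw n)
  choose k hk hk' using hk
  have e1 : ∀ n x, k n ((pshMap.{u} (S.inLeft b h hb hh)).app n x).down = f.app n x :=
    fun n x => (hk n).1 x.down
  have e2 : ∀ n x, k n ((pshMap.{u} (S.inRight b h hb hh)).app n x).down = g.app n x :=
    fun n x => (hk n).2 x.down
  refine ⟨⟨fun n x => k n x.down, fun n x => ?_, fun n x => ?_⟩,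
    ⟨GMap.ext' e1, GMap.ext' e2⟩, fun k' hk'' => GMap.ext' fun n x => ?_⟩
  · have := (hu (n + 1) n (fun x => Y.src n (f.app (n + 1) x)) (fun x => Y.src n (g.app (n + 1) x))
      (fun x => by rw [hw])).unique
      (y₁ := fun z => k n ((pshG.{u} (S.glue b h hb hh)).src n ⟨z⟩).down)
      (y₂ := fun z => Y.src n (k (n + 1) z))
      ⟨fun x => (congrArg (fun c => k n (ULift.down c))
          ((pshMap.{u} (S.inLeft b h hb hh)).app_src n ⟨x⟩).symm).trans
          ((e1 n _).trans (f.app_src n _)),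
        fun x => (congrArg (fun c => k n (ULift.down c))
          ((pshMap.{u} (S.inRight b h hb hh)).app_src n ⟨x⟩).symm).trans
          ((e2 n _).trans (g.app_src n _))⟩
      ⟨fun x => congrArg (Y.src n) (e1 _ ⟨x⟩), fun x => congrArg (Y.src n) (e2 _ ⟨x⟩)⟩
    exact congrFun this x.down
  · have := (hu (n + 1) n (fun x => Y.tgt n (f.app (n + 1) x)) (fun x => Y.tgt n (g.app (n + 1) x))
      (fun x => by rw [hw])).unique
      (y₁ := fun z => k n ((pshG.{u} (S.glue b h hb hh)).tgt n ⟨z⟩).down)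
      (y₂ := fun z => Y.tgt n (k (n + 1) z))
      ⟨fun x => (congrArg (fun c => k n (ULift.down c))
          ((pshMap.{u} (S.inLeft b h hb hh)).app_tgt n ⟨x⟩).symm).trans
          ((e1 n _).trans (f.app_tgt n _)),
        fun x => (congrArg (fun c => k n (ULift.down c))
          ((pshMap.{u} (S.inRight b h hb hh)).app_tgt n ⟨x⟩).symm).trans
          ((e2 n _).trans (g.app_tgt n _))⟩
      ⟨fun x => congrArg (Y.tgt n) (e1 _ ⟨x⟩), fun x => congrArg (Y.tgt n) (e2 _ ⟨x⟩)⟩
    exact congrFun this x.down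
  · exact congrFun (hk' n (fun z => k'.app n ⟨z⟩)
      ⟨fun x => congrArg (fun k : GMap (pshG S) Y => k.app n ⟨x⟩) hk''.1,
        fun x => congrArg (fun k : GMap (pshG (Shape.globe h)) Y => k.app n ⟨x⟩) hk''.2⟩) x.down

/-! ## Gluing a globe, abstractly -/

/-- iterated source (`β = false`) or target (`β = true`) -/
def fc (β : Bool) {b n : ℕ} (hb : b < n) {Y : GS.{u}} (y : Y.cell n) : Y.cell b :=
  (cls n y).app b (pole β b n hb)

theorem fc_map (β : Bool) {b n : ℕ} (hb : b < n) {Y Z : GS.{u}} (f : GMap Y Z) (y : Y.cell n) :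
    f.app b (fc β hb y) = fc β hb (f.app n y) := by
  unfold fc
  rw [← cls_comp]
  rfl

theorem fc_zero_false {n : ℕ} (h : 0 < n + 1) {Y : GS.{u}} (y : Y.cell (n + 1)) :
    fc false h y = s0 Y (n + 1) y := rfl

theorem fc_zero_true {n : ℕ} (h : 0 < n + 1) {Y : GS.{u}} (y : Y.cell (n + 1)) :
    fc true h y = t0 Y (n + 1) y := rfl

theorem fc_hom (β : Bool) {b n : ℕ} (hb : b < n) (hb' : b + 1 < n + 1) {Y : GS.{u}}
    {x x' : Y.cell 0} (y : (homG Y x x').cell n) : (fc β hb y).1 = fc β hb' y.1 := by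
  obtain ⟨y, rfl, rfl⟩ := y
  rfl

theorem s0_fc (β : Bool) {b n : ℕ} (hb : b + 1 < n + 1) {Y : GS.{u}} (y : Y.cell (n + 1)) :
    s0 Y (b + 1) (fc β hb y) = s0 Y (n + 1) y :=
  (fc β (Nat.lt_of_succ_lt_succ hb) (Y := homG Y _ _) ⟨y, rfl, rfl⟩).2.1

theorem t0_fc (β : Bool) {b n : ℕ} (hb : b + 1 < n + 1) {Y : GS.{u}} (y : Y.cell (n + 1)) :
    t0 Y (b + 1) (fc β hb y) = t0 Y (n + 1) y :=
  (fc β (Nat.lt_of_succ_lt_succ hb) (Y := homG Y _ _) ⟨y, rfl, rfl⟩).2.2

theorem globe_pole {n : ℕ} {Y : GS.{u}} (g : GMap (pshG (Shape.globe n)) Y) (β : Bool) {b : ℕ}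
    (hb : b < n) : g.app b (gcell (.pole hb β)) = fc β hb (g.app n (gtop n)) := by
  have : g = (gd n).comp (cls n (g.app n (gtop n))) := globe_ext (cls_top n _).symm
  exact congrArg (fun k : GMap (pshG (Shape.globe n)) Y => k.app b (gcell (.pole hb β))) this

/-- `X'` is obtained from `X` by gluing an `h`-cell `z` along the `b`-dimensional target of `x` -/
def IsGlue {X X' : GS.{u}} {n b h : ℕ} (hb : b < n) (hh : b < h) (x : X.cell n) (i : GMap X X')
    (z : X'.cell h) : Prop :=
  fc true hb (i.app n x) = fc false hh z ∧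
    ∀ (Y : GS.{u}) (f : GMap X Y) (y : Y.cell h), fc true hb (f.app n x) = fc false hh y →
      ∃! k : GMap X' Y, i.comp k = f ∧ k.app h z = y

theorem IsGlue.iso {X X' Z Z' : GS.{u}} {n b h : ℕ} {hb : b < n} {hh : b < h} {x : X.cell n}
    {i : GMap X X'} {z : X'.cell h} {x₂ : Z.cell n} {j : GMap Z Z'} {z₂ : Z'.cell h}
    (h1 : IsGlue hb hh x i z) (h2 : IsGlue hb hh x₂ j z₂) (e : GIso X Z) (he : e.hom.app n x = x₂) :
    ∃ e' : GIso X' Z', e'.hom.app h z = z₂ := by
  have he' : e.inv.app n x₂ = x := by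
    rw [← he, ← GMap.comp_app, e.hom_inv]; rfl
  obtain ⟨k, ⟨hk1, hk2⟩, -⟩ := h1.2 Z' (e.hom.comp j) z₂ (by rw [GMap.comp_app, he, h2.1])
  obtain ⟨l, ⟨hl1, hl2⟩, -⟩ := h2.2 X' (e.inv.comp i) z (by rw [GMap.comp_app, he', h1.1])
  refine ⟨⟨k, l, (h1.2 X' i z h1.1).unique ⟨?_, ?_⟩ ⟨rfl, rfl⟩,
    (h2.2 Z' j z₂ h2.1).unique ⟨?_, ?_⟩ ⟨rfl, rfl⟩⟩, hk2⟩
  · rw [← GMap.comp_assoc, hk1, GMap.comp_assoc, hl1, ← GMap.comp_assoc, e.hom_inv]; rfl
  · rw [GMap.comp_app, hk2, hl2]
  · rw [← GMap.comp_assoc, hl1, GMap.comp_assoc, hk1, ← GMap.comp_assoc, e.inv_hom]; rfl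
  · rw [GMap.comp_app, hl2, hk2]

/-- the inclusion of the last globe -/
noncomputable def apexMap (S : Shape) : Shape.globe S.last ⟶ S := S.apex

/-- the top cell of the last globe of a shape -/
noncomputable def apexCell (S : Shape) : (pshG.{u} S).cell S.last :=
  (pshMap (apexMap S)).app S.last (gtop S.last)

theorem isGlue_shape (S : Shape) (b h : ℕ) (hb : b < S.last) (hh : b < h) :
    IsGlue hb hh (apexCell.{u} S) (pshMap (S.inLeft b h hb hh)) (apexCell (S.glue b h hb hh)) := by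
  have key : ∀ (Y : GS.{u}) (f : GMap (pshG S) Y) (g : GMap (pshG (Shape.globe h)) Y),
      (pshMap (S.hinge hb)).comp f = (pshMap (Shape.faceMap hh false)).comp g ↔
        fc true hb (f.app _ (apexCell S)) = fc false hh (g.app h (gtop h)) := by
    intro Y f g
    have e1 : ((pshMap (S.hinge hb)).comp f).app b (gtop b) = fc true hb (f.app _ (apexCell S)) :=
      globe_pole ((pshMap (apexMap S)).comp f) true hb
    have e2 : ((pshMap (Shape.faceMap hh false)).comp g).app b (gtop b) =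
        fc false hh (g.app h (gtop h)) := globe_pole g false hh
    rw [← e1, ← e2]
    exact ⟨fun h => by rw [h], globe_ext⟩
  have hw : S.hinge hb ≫ S.inLeft b h hb hh = Shape.faceMap hh false ≫ S.inRight b h hb hh :=
    pushout.condition (f := GlobPsh.globeRepFace hb true ≫ S.apex)
      (g := GlobPsh.globeRepFace hh false)
  refine ⟨(key _ (pshMap (S.inLeft b h hb hh)) (pshMap (S.inRight b h hb hh))).1 (by
    rw [← pshMap_comp, ← pshMap_comp, hw]), fun Y f y hy => ?_⟩
  obtain ⟨g, rfl⟩ := globe_exists y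
  obtain ⟨k, ⟨h1, h2⟩, h3⟩ := glue_universal S b h hb hh f g ((key Y f g).2 hy)
  refine ⟨k, ⟨h1, ?_⟩, fun k' hk' => h3 k' ⟨hk'.1, globe_ext hk'.2⟩⟩
  rw [← h2]; rfl

/-! ## Grafting -/

/-- the position at the end of the chain of last children -/
inductive Last : (A : Tr) → (n : ℕ) → Pos.{u} A n → Prop
  | nil (ch : Fin 0 → Tr) : Last (.node 0 ch) 0 (.vtx 0)
  | cons {m n : ℕ} (ch : Fin (m + 1) → Tr) (p : Pos (ch (Fin.last m)) n) :
      Last (ch (Fin.last m)) n p → Last (.node (m + 1) ch) (n + 1) (.br (Fin.last m) p)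

theorem Last.exists : ∀ A : Tr, ∃ n p, Last.{u} A n p
  | .node 0 ch => ⟨0, _, Last.nil ch⟩
  | .node (m + 1) ch => by
    obtain ⟨n, p, h⟩ := Last.exists (ch (Fin.last m))
    exact ⟨n + 1, _, Last.cons ch p h⟩

/-- the last position as a function -/
def lastP : (A : Tr) → Σ n, Pos.{u} A n
  | .node 0 _ => ⟨0, .vtx 0⟩
  | .node (m + 1) ch => ⟨(lastP (ch (Fin.last m))).1 + 1, .br (Fin.last m) (lastP _).2⟩

theorem Last.eq {A : Tr} {n : ℕ} {p : Pos.{u} A n} (h : Last A n p) : lastP A = ⟨n, p⟩ := by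
  induction h with
  | nil ch => rfl
  | cons ch p _ ih => rw [lastP, ih]

theorem last_disk : ∀ n, Last.{u} (Tr.disk n) n (top n)
  | 0 => Last.nil _
  | n + 1 => Last.cons (m := 0) (fun _ => Tr.disk n) (top n) (last_disk n)

/-- `A'` is obtained from `A` by grafting -/
def GlueTo (A : Tr) {n b h : ℕ} (hb : b < n) (hh : b < h) (p : Pos.{u} A n) (A' : Tr) : Prop :=
  ∃ (i : GMap (posG A) (posG A')) (z : Pos A' h), Last A' h z ∧ IsGlue hb hh p i z

theorem glueTo_zero {m n d : ℕ} (ch : Fin (m + 2) → Tr) (hd : ch (Fin.last _) = Tr.disk d)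
    (p : Pos.{u} (ch (Fin.last m).castSucc) n) (hb : 0 < n + 1) (hh : 0 < d + 1) :
    GlueTo (.node (m + 1) fun l => ch l.castSucc) hb hh (.br (Fin.last m) p) (.node (m + 2) ch) := by
  obtain ⟨q, hq, hex, hext⟩ : ∃ q : Pos.{u} (ch (Fin.last _)) d, Last _ d q ∧
      (∀ (Y : GS.{u}) (y : Y.cell d), ∃ k : GMap (posG (ch (Fin.last _))) Y, k.app d q = y) ∧
      ∀ (Y : GS.{u}) (f g : GMap (posG (ch (Fin.last _))) Y), f.app d q = g.app d q → f = g := by
    rw [hd]
    exact ⟨top d, last_disk d, fun Y y => ⟨cls d y, cls_top d y⟩, fun Y f g h => disk_ext h⟩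
  let i : GMap (posG.{u} (.node (m + 1) fun l => ch l.castSucc)) (posG (.node (m + 2) ch)) :=
    (homGraph _).asm (fun j => Pos.vtx j.castSucc) fun l => brMap ch l.castSucc
  refine ⟨i, .br (Fin.last _) q, Last.cons ch q hq, ?_, fun Y f y hy => ?_⟩
  · rw [fc_zero_true, fc_zero_false, Graph.s0_br]
    exact Graph.t0_br (ch := ch) (Fin.last m).castSucc n p
  rw [fc_zero_true, fc_zero_false, t0_map, Graph.t0_br] at hy
  let x : Fin (m + 3) → Y.cell 0 := Fin.lastCases (t0 Y _ y) fun j => f.app 0 (.vtx j)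
  have hx1 : x (Fin.last _) = t0 Y _ y := Fin.lastCases_last
  have hx2 : ∀ j : Fin (m + 2), x j.castSucc = f.app 0 (.vtx j) := fun j => Fin.lastCases_castSucc j
  have hσ : ∀ l : Fin (m + 2), ∃ σ : GMap (posG (ch l)) (homG Y (x l.castSucc) (x l.succ)),
      (∀ l' : Fin (m + 1), ∀ e : l'.castSucc = l, ∀ k (r : Pos (ch l'.castSucc) k),
        (σ.app k (e ▸ r)).1 = f.app (k + 1) (.br l' r)) ∧
      ∀ e : Fin.last _ = l, (σ.app d (e ▸ q)).1 = y := by
    intro l
    induction l using Fin.lastCases with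
    | last =>
      obtain ⟨k, hk⟩ := hex (homG Y (x (Fin.last _).castSucc) (x (Fin.last _).succ))
        ⟨y, by rw [hx2, ← hy]; rfl, hx1.symm⟩
      exact ⟨k, fun l' e => absurd e (Fin.castSucc_lt_last l').ne, fun _ => congrArg Subtype.val hk⟩
    | cast l =>
      refine ⟨(brMap (fun l : Fin (m + 1) => ch l.castSucc) l).comp (homMap f _ _ _ _
        (hx2 _).symm (hx2 l.succ).symm), fun l' e k r => ?_,
        fun e => absurd e.symm (Fin.castSucc_lt_last l).ne⟩
      obtain rfl := Fin.castSucc_injective _ e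
      rfl
  choose σ hσ1 hσ2 using hσ
  refine ⟨(homGraph Y).asm x σ, ⟨GMap.ext' fun k r => ?_, hσ2 _ rfl⟩, fun k' hk' => ?_⟩
  · cases r with
    | vtx j => exact hx2 j
    | br l r => exact hσ1 _ l rfl _ r
  · obtain ⟨hf, hy'⟩ := hk'
    have hv : ∀ j, k'.app 0 (.vtx j) = x j := by
      intro j
      induction j using Fin.lastCases with
      | last => rw [hx1, ← hy', t0_map, Graph.t0_br]; rfl
      | cast j => rw [hx2, ← hf]; rfl
    obtain ⟨σ', rfl⟩ := (homGraph Y).asm_surj k' x hv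
    congr 1
    funext l
    induction l using Fin.lastCases with
    | last => exact hext _ _ _ (Subtype.ext (hy'.trans (hσ2 _ rfl).symm))
    | cast l =>
      exact GMap.ext' fun k r => Subtype.ext ((congrArg (fun s : GMap (posG (.node (m + 1)
        fun l => ch l.castSucc)) Y => s.app (k + 1) (.br l r)) hf).trans (hσ1 _ l rfl k r).symm)

theorem glueTo_succ {m n b h : ℕ} (ch ch' : Fin (m + 1) → Tr)
    (he : ∀ l : Fin m, ch l.castSucc = ch' l.castSucc) {hb : b < n} {hh : b < h}
    {p : Pos.{u} (ch (Fin.last m)) n} (H : GlueTo (ch (Fin.last m)) hb hh p (ch' (Fin.last m)))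
    (hb' : b + 1 < n + 1) (hh' : b + 1 < h + 1) :
    GlueTo (.node (m + 1) ch) hb' hh' (.br (Fin.last m) p) (.node (m + 1) ch') := by
  obtain ⟨i0, z, hz, hg1, hg2⟩ := H
  have hι : ∀ l, ∃ ι : GMap (posG.{u} (ch l)) (posG (ch' l)),
      (∀ e : Fin.last m = l, HEq ι i0) ∧ (l ≠ Fin.last m → ∀ (Y : GS.{u}) (f : GMap (posG (ch l)) Y),
        ∃! k : GMap (posG (ch' l)) Y, ι.comp k = f) := by
    intro l
    induction l using Fin.lastCases with
    | last => exact ⟨i0, fun _ => HEq.rfl, fun h => absurd rfl h⟩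
    | cast l =>
      have : ∃ ι : GMap (posG.{u} (ch l.castSucc)) (posG (ch' l.castSucc)),
          ∀ (Y : GS.{u}) (f : GMap (posG (ch l.castSucc)) Y),
            ∃! k : GMap (posG (ch' l.castSucc)) Y, ι.comp k = f := by
        rw [← he l]
        exact ⟨GMap.id _, fun Y f => ⟨f, rfl, fun k hk => hk⟩⟩
      obtain ⟨ι, hι⟩ := this
      exact ⟨ι, fun e => absurd e.symm (Fin.castSucc_lt_last l).ne, fun _ => hι⟩
  choose ι hι1 hι2 using hι
  obtain rfl : ι (Fin.last m) = i0 := eq_of_heq (hι1 _ rfl)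
  let i : GMap (posG.{u} (.node (m + 1) ch)) (posG (.node (m + 1) ch')) :=
    (homGraph _).asm (fun j => Pos.vtx j) fun l => (ι l).comp (brMap ch' l)
  refine ⟨i, .br (Fin.last _) z, Last.cons ch' z hz, ?_, fun Y f y hy => ?_⟩
  · have := congrArg ((brMap ch' (Fin.last m)).app b) hg1
    rw [fc_map, fc_map] at this
    have h2 := congrArg Subtype.val this
    rw [fc_hom true hb hb', fc_hom false hh hh'] at h2
    exact h2
  obtain ⟨x, hx⟩ : ∃ x : Fin (m + 2) → Y.cell 0, ∀ j, f.app 0 (.vtx j) = x j := ⟨_, fun _ => rfl⟩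
  obtain ⟨σ, rfl⟩ := (homGraph Y).asm_surj f x hx
  let a := (σ (Fin.last m)).app n p
  have ha : fc true hb' a.1 = fc false hh' y := hy
  have hs : s0 Y (h + 1) y = x (Fin.last m).castSucc := by
    rw [← s0_fc false hh', ← ha, s0_fc]; exact a.2.1
  have ht : t0 Y (h + 1) y = x (Fin.last m).succ := by
    rw [← t0_fc false hh', ← ha, t0_fc]; exact a.2.2
  obtain ⟨k0, ⟨hk1, hk2⟩, hk3⟩ := hg2 _ (σ (Fin.last m)) ⟨y, hs, ht⟩ (Subtype.ext (by
    rw [fc_hom true hb hb', fc_hom false hh hh']; exact ha))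
  have hσ : ∀ l, ∃ τ : GMap (posG (ch' l)) (homG Y (x l.castSucc) (x l.succ)),
      (ι l).comp τ = σ l ∧ ∀ e : Fin.last m = l, HEq τ k0 := by
    intro l
    by_cases e : l = Fin.last m
    · subst e; exact ⟨k0, hk1, fun _ => HEq.rfl⟩
    · obtain ⟨τ, hτ, -⟩ := hι2 l e _ (σ l)
      exact ⟨τ, hτ, fun e' => absurd e'.symm e⟩
  choose τ hτ1 hτ2 using hσ
  obtain rfl : τ (Fin.last m) = k0 := eq_of_heq (hτ2 _ rfl)
  refine ⟨(homGraph Y).asm x τ, ⟨GMap.ext' fun k r => ?_, congrArg Subtype.val hk2⟩,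
    fun k' hk' => ?_⟩
  · cases r with
    | vtx j => rfl
    | br l r => exact congrArg (fun s : GMap _ (homG Y _ _) => (s.app _ r).1) (hτ1 l)
  · obtain ⟨e1, e2⟩ := hk'
    obtain ⟨τ', rfl⟩ := (homGraph Y).asm_surj k' x fun j =>
      congrArg (fun s : GMap (posG (.node (m + 1) ch)) Y => s.app 0 (.vtx j)) e1
    have e3 : ∀ l, (ι l).comp (τ' l) = σ l := fun l => GMap.ext' fun k r => Subtype.ext
      (congrArg (fun s : GMap (posG (.node (m + 1) ch)) Y => s.app (k + 1) (.br l r)) e1)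
    congr 1
    funext l
    by_cases e : l = Fin.last m
    · subst e; exact hk3 _ ⟨e3 _, Subtype.ext e2⟩
    · exact (hι2 l e _ (σ l)).unique (e3 l) (hτ1 l)

theorem dim_node_succ {m : ℕ} (ch : Fin (m + 1) → Tr) :
    (Tr.node (m + 1) ch).dim =
      max (Tr.node m fun l => ch l.castSucc).dim ((ch (Fin.last m)).dim + 1) := by
  apply le_antisymm
  · rw [Tr.dim, if_neg (Nat.succ_ne_zero m)]
    refine Nat.succ_le_of_lt (lt_of_le_of_lt (b := max (Tr.node m fun l => ch l.castSucc).dim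
      ((ch (Fin.last m)).dim + 1) - 1) (Finset.sup_le fun l _ => ?_) (by omega))
    induction l using Fin.lastCases with
    | last => omega
    | cast l => have := Tr.dim_ch_lt (fun l : Fin m => ch l.castSucc) l; omega
  · refine max_le ?_ (Tr.dim_ch_lt ch _)
    have h0 := Tr.dim_ch_lt ch (Fin.last m)
    obtain ⟨k, hk⟩ : ∃ k, (Tr.node (m + 1) ch).dim = k + 1 := ⟨_, (Nat.succ_pred_eq_of_pos
      (lt_of_le_of_lt (Nat.zero_le _) h0)).symm⟩
    rw [hk]
    exact Tr.dim_le_succ _ k fun l => by have := Tr.dim_ch_lt ch l.castSucc; omega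

theorem exists_graft {A : Tr} {n : ℕ} {p : Pos.{u} A n} (hp : Last A n p) :
    ∀ {b h : ℕ} (hb : b < n) (hh : b < h), ∃ A' : Tr, A'.dim = max A.dim h ∧ GlueTo A hb hh p A' := by
  induction hp with
  | nil ch => intro b h hb; exact absurd hb (Nat.not_lt_zero _)
  | @cons m n ch p hp ih =>
    intro b h hb hh
    obtain ⟨d, rfl⟩ : ∃ d, h = d + 1 := ⟨h - 1, by omega⟩
    cases b with
    | zero =>
      obtain ⟨ch', h1, h2⟩ : ∃ ch' : Fin (m + 2) → Tr, ch' (Fin.last _) = Tr.disk d ∧
          ch = fun l => ch' l.castSucc :=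
        ⟨Fin.lastCases (Tr.disk d) ch, Fin.lastCases_last, funext fun l => by simp⟩
      subst h2
      exact ⟨_, by rw [dim_node_succ, h1, Tr.dim_disk], glueTo_zero ch' h1 p hb hh⟩
    | succ b =>
      obtain ⟨T, hT, H⟩ := ih (Nat.lt_of_succ_lt_succ hb) (Nat.lt_of_succ_lt_succ hh)
      obtain ⟨ch', h1, h2⟩ : ∃ ch' : Fin (m + 1) → Tr, ch' (Fin.last _) = T ∧
          ∀ l : Fin m, ch l.castSucc = ch' l.castSucc :=
        ⟨Fin.lastCases T fun l => ch l.castSucc, Fin.lastCases_last, fun l => by simp⟩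
      subst h1
      refine ⟨_, ?_, glueTo_succ ch ch' h2 H hb hh⟩
      rw [dim_node_succ, dim_node_succ ch, hT, funext h2]
      omega

/-- the number of nodes -/
def Tr.size : Tr → ℕ
  | .node _ ch => (∑ l, (ch l).size) + 1

theorem exists_ungraft : ∀ A : Tr, (∃ d, A = Tr.disk d) ∨
    ∃ (A₀ : Tr) (n b h : ℕ) (hb : b < n) (hh : b < h) (p : Pos.{u} A₀ n), Last A₀ n p ∧
      A₀.size < A.size ∧ A.dim = max A₀.dim h ∧ GlueTo A₀ hb hh p A
  | .node 0 ch => Or.inl ⟨0, congrArg _ (funext fun l => l.elim0)⟩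
  | .node (m + 1) ch => by
    rcases exists_ungraft (ch (Fin.last m)) with ⟨d, hd⟩ | ⟨T, n, b, h, hb, hh, p, hp, hs, hdim, H⟩
    · cases m with
      | zero =>
        exact Or.inl ⟨d + 1, congrArg _ (funext fun l => by
          rw [Subsingleton.elim (α := Fin 1) l (Fin.last 0), hd])⟩
      | succ m =>
        obtain ⟨n, p, hp⟩ := Last.exists.{u} (ch (Fin.last m).castSucc)
        refine Or.inr ⟨.node (m + 1) fun l => ch l.castSucc, n + 1, 0, d + 1, by omega, by omega,
          .br (Fin.last m) p, Last.cons (fun l => ch l.castSucc) p hp, ?_,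
          by rw [dim_node_succ, hd, Tr.dim_disk],
          glueTo_zero ch hd p _ _⟩
        have : 0 < (ch (Fin.last _)).size := by cases ch (Fin.last _); simp [Tr.size]
        simp only [Tr.size]
        rw [Fin.sum_univ_castSucc (n := m + 1)]
        omega
    · obtain ⟨ch₀, h1, h2⟩ : ∃ ch₀ : Fin (m + 1) → Tr, ch₀ (Fin.last _) = T ∧
          ∀ l : Fin m, ch₀ l.castSucc = ch l.castSucc :=
        ⟨Fin.lastCases T fun l => ch l.castSucc, Fin.lastCases_last,
          fun l => Fin.lastCases_castSucc l⟩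
      subst h1
      refine Or.inr ⟨.node (m + 1) ch₀, n + 1, b + 1, h + 1, by omega, by omega,
        .br (Fin.last m) p, Last.cons _ p hp, ?_, ?_, glueTo_succ ch₀ ch h2 H _ _⟩
      · simp only [Tr.size]
        rw [Fin.sum_univ_castSucc, Fin.sum_univ_castSucc]
        simp only [h2]
        omega
      · rw [dim_node_succ, dim_node_succ ch₀, hdim, funext h2]
        omega

/-- the tree `A` represents the shape `S` -/
def Rep (A : Tr) (S : Shape) : Prop :=
  A.dim = S.dim ∧ ∃ (p : Pos.{u} A S.last) (e : GIso (posG.{u} A) (pshG S)),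
    Last A S.last p ∧ e.hom.app _ p = apexCell S

theorem rep_disk (n : ℕ) : Rep.{u} (Tr.disk n) (Shape.globe n) :=
  ⟨Tr.dim_disk n, top n, ⟨cls n (gtop n), gd n, disk_ext (by
      rw [GMap.comp_app, cls_top]; rfl), globe_ext (cls_top n _)⟩, last_disk n, cls_top n _⟩

theorem Rep.glue {A A' : Tr} {S : Shape} {b h : ℕ} {hb : b < S.last} {hh : b < h}
    (hr : Rep.{u} A S) {p : Pos.{u} A S.last} (hp : Last A S.last p) (H : GlueTo A hb hh p A')
    (hd : A'.dim = max A.dim h) : Rep.{u} A' (S.glue b h hb hh) := by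
  obtain ⟨h1, p', e, hp', he⟩ := hr
  obtain rfl : p' = p := eq_of_heq (Sigma.mk.inj (hp'.eq.symm.trans hp.eq)).2
  obtain ⟨i, z, hz, hg⟩ := H
  obtain ⟨e', he'⟩ := hg.iso (isGlue_shape S b h hb hh) e he
  exact ⟨by rw [hd, h1]; rfl, z, e', hz, he'⟩

theorem shape_rep (S : Shape) : ∃ A : Tr, Rep.{u} A S := by
  obtain ⟨n, P⟩ := S
  induction P with
  | single n => exact ⟨_, rep_disk n⟩
  | @glue n P b h hb hh ih =>
    obtain ⟨A, hr⟩ := ih
    obtain ⟨p, -, hp, -⟩ := hr.2
    obtain ⟨A', hd, H⟩ := exists_graft hp hb hh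
    exact ⟨A', hr.glue hp H hd⟩

theorem tree_rep (A : Tr) : ∃ S : Shape, Rep.{u} A S := by
  induction hN : A.size using Nat.strong_induction_on generalizing A with
  | _ N ih =>
    rcases exists_ungraft.{u} A with ⟨d, rfl⟩ | ⟨A₀, n, b, h, hb, hh, p, hp, hs, hd, H⟩
    · exact ⟨_, rep_disk d⟩
    · obtain ⟨S, hr⟩ := ih _ (hN ▸ hs) A₀ rfl
      obtain ⟨p', -, hp', -⟩ := hr.2
      obtain rfl : n = S.last := (Sigma.mk.inj (hp.eq.symm.trans hp'.eq)).1
      exact ⟨_, hr.glue hp H hd⟩

/-- Every shape is the globular set of positions of a tree of the same height. -/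
theorem shape_tree (S : Shape) :
    ∃ A : Tr, A.dim = S.dim ∧ Nonempty (GIso (posG.{u} A) (pshG S)) := by
  obtain ⟨A, h1, -, e, -⟩ := shape_rep.{u} S
  exact ⟨A, h1, ⟨e⟩⟩

/-- Every tree comes from a shape. -/
theorem tree_shape (A : Tr) :
    ∃ S : Shape, S.dim = A.dim ∧ Nonempty (GIso (posG.{u} A) (pshG S)) := by
  obtain ⟨S, h1, -, e, -⟩ := tree_rep.{u} A
  exact ⟨S, h1.symm, ⟨e⟩⟩

/-! ## The Segal bijection -/

section Segal

variable {C : GlobTheory.{u}}

/-- a cell of a shape as a map of shapes from a globe (Yoneda) -/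
noncomputable def cellMap {S : Shape} {n : ℕ} (p : (pshG.{u} S).cell n) : Shape.globe n ⟶ S :=
  (yonedaEquiv.symm p.down : GlobPsh.globeRep n ⟶ S.psh)

theorem cellMap_map {S T : Shape} (f : S ⟶ T) {n : ℕ} (p : (pshG.{u} S).cell n) :
    cellMap ((pshMap f).app n p) = cellMap p ≫ f :=
  (yonedaEquiv_symm_naturality_right (GlobeObj.mk n) (f : S.psh ⟶ T.psh) p.down).symm

theorem cellMap_gtop (n : ℕ) : cellMap (gtop.{u} n) = 𝟙 (Shape.globe n) := by
  apply (yonedaEquiv (X := GlobeObj.mk n) (F := (Shape.globe n).psh)).injective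
  exact Equiv.apply_symm_apply _ _

theorem cellMap_src {S : Shape} {n : ℕ} (p : (pshG.{u} S).cell (n + 1)) :
    cellMap ((pshG S).src n p) = Shape.σ n ≫ cellMap p :=
  (yonedaEquiv_symm_naturality_left (GlobeObj.σ n) S.psh p.down).symm

theorem cellMap_tgt {S : Shape} {n : ℕ} (p : (pshG.{u} S).cell (n + 1)) :
    cellMap ((pshG S).tgt n p) = Shape.τ n ≫ cellMap p :=
  (yonedaEquiv_symm_naturality_left (GlobeObj.τ n) S.psh p.down).symm

theorem act_ofShape_comp (X : C.GlobModel) {R S T : Shape} (f : R ⟶ S) (g : S ⟶ T)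
    (x : X.functor.obj (op ⟨T⟩)) :
    X.act (C.ofShape (f ≫ g)) x = X.act (C.ofShape f) (X.act (C.ofShape g) x) := by
  rw [C.ofShape_comp]
  exact types_congr_hom (X.functor.map_comp
    (Quiver.Hom.op (X := (⟨S⟩ : C.Ob)) (Y := (⟨T⟩ : C.Ob)) (C.ofShape g))
    (Quiver.Hom.op (X := (⟨R⟩ : C.Ob)) (Y := (⟨S⟩ : C.Ob)) (C.ofShape f))) x

theorem act_ofShape_id (X : C.GlobModel) {S : Shape} (x : X.functor.obj (op ⟨S⟩)) :
    X.act (C.ofShape (𝟙 S)) x = x := by
  rw [C.ofShape_id]
  exact types_congr_hom (X.functor.map_id (op (⟨S⟩ : C.Ob))) x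

/-- an `S`-tuple of a model as a globular map -/
noncomputable def segal (X : C.GlobModel) (S : Shape) (x : X.functor.obj (op ⟨S⟩)) :
    GMap (pshG S) X.cells where
  app _ p := X.act (C.ofShape (cellMap p)) x
  app_src n p := (congrArg (fun c : Shape.globe n ⟶ S => X.act (C.ofShape c) x)
    (cellMap_src p)).trans (act_ofShape_comp X (Shape.σ n) (cellMap p) x)
  app_tgt n p := (congrArg (fun c : Shape.globe n ⟶ S => X.act (C.ofShape c) x)
    (cellMap_tgt p)).trans (act_ofShape_comp X (Shape.τ n) (cellMap p) x)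

theorem segal_map {X Y : C.GlobModel} (f : X ⟶ Y) (S : Shape) (x : X.functor.obj (op ⟨S⟩)) :
    segal Y S ((f : X.functor ⟶ Y.functor).app _ x) =
      (segal X S x).comp (GlobTheory.GlobModel.cellsMap f) :=
  GMap.ext' fun n p => (types_congr_hom ((f : X.functor ⟶ Y.functor).naturality
    (Quiver.Hom.op (X := (⟨Shape.globe n⟩ : C.Ob)) (Y := (⟨S⟩ : C.Ob)) (C.ofShape (cellMap p)))) x).symm

theorem segal_shape (X : C.GlobModel) {S T : Shape} (f : S ⟶ T) (x : X.functor.obj (op ⟨T⟩)) :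
    segal X S (X.act (C.ofShape f) x) = (pshMap f).comp (segal X T x) :=
  GMap.ext' fun n p => by
    show X.act (C.ofShape (cellMap p)) (X.act (C.ofShape f) x) =
      X.act (C.ofShape (cellMap ((pshMap f).app n p))) x
    rw [cellMap_map, act_ofShape_comp]

theorem segal_gtop (X : C.GlobModel) (n : ℕ) (x : X.cells.cell n) :
    (segal X (Shape.globe n) x).app n (gtop n) = x := by
  show X.act (C.ofShape (cellMap (gtop n))) x = x
  rw [cellMap_gtop, act_ofShape_id]

theorem segal_bij_globe (X : C.GlobModel) (n : ℕ) :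
    Function.Bijective (segal X (Shape.globe n)) := by
  constructor
  · intro x y h
    rw [← segal_gtop X n x, h]
    exact segal_gtop X n y
  · intro f
    exact ⟨f.app n (gtop n), globe_ext (segal_gtop X n _)⟩

/-- Induction on the pasting scheme: `globe_ext`/`globe_exists` for a globe, `glue_universal` and
the pullback condition `X.sums` (`Types.isPullback_iff` or `IsPullback.lift` on `PUnit`) for a
gluing. -/
theorem segal_bij (X : C.GlobModel) (S : Shape) : Function.Bijective (segal X S) := by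
  obtain ⟨n, P⟩ := S
  induction P with
  | single n => exact segal_bij_globe X n
  | @glue n P b h hb hh ih =>
    let S : Shape := ⟨n, P⟩
    show Function.Bijective (segal X (S.glue b h hb hh))
    obtain ⟨-, h1, h2⟩ := (Types.isPullback_iff _ _ _ _).1 (X.sums S b h hb hh)
    constructor
    · intro x y hxy
      refine h1 x y ⟨ih.1 ?_, (segal_bij_globe X h).1 ?_⟩
      · exact (segal_shape X (S.inLeft b h hb hh) x).trans
          ((congrArg _ hxy).trans (segal_shape X (S.inLeft b h hb hh) y).symm)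
      · exact (segal_shape X (S.inRight b h hb hh) x).trans
          ((congrArg _ hxy).trans (segal_shape X (S.inRight b h hb hh) y).symm)
    · intro φ
      obtain ⟨x₁, hx₁⟩ := ih.2 ((pshMap (S.inLeft b h hb hh)).comp φ)
      obtain ⟨x₂, hx₂⟩ := (segal_bij_globe X h).2 ((pshMap (S.inRight b h hb hh)).comp φ)
      have hw : S.hinge hb ≫ S.inLeft b h hb hh = Shape.faceMap hh false ≫ S.inRight b h hb hh :=
        pushout.condition (f := GlobPsh.globeRepFace hb true ≫ S.apex)
          (g := GlobPsh.globeRepFace hh false)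
      have hφ : (pshMap (S.hinge hb)).comp ((pshMap (S.inLeft b h hb hh)).comp φ) =
          (pshMap (Shape.faceMap hh false)).comp ((pshMap (S.inRight b h hb hh)).comp φ) := by
        rw [← GMap.comp_assoc, ← GMap.comp_assoc, ← pshMap_comp, ← pshMap_comp, hw]
      obtain ⟨x, e1, e2⟩ := h2 x₁ x₂ ((segal_bij_globe X b).1 (by
        refine (segal_shape X (S.hinge hb) x₁).trans
          (Eq.trans ?_ (segal_shape X (Shape.faceMap hh false) x₂).symm)
        rw [hx₂]
        exact (congrArg _ hx₁).trans hφ))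
      refine ⟨x, (glue_universal S b h hb hh _ _ hφ).unique ⟨?_, ?_⟩ ⟨rfl, rfl⟩⟩
      · exact (segal_shape X (S.inLeft b h hb hh) x).symm.trans ((congrArg _ e1).trans hx₁)
      · exact (segal_shape X (S.inRight b h hb hh) x).symm.trans ((congrArg _ e2).trans hx₂)

end Segal

end Crest.Agent.R248
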