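import Crest.Agent.R248.WI

/-!
# Row 248: embeddings of signatures, restriction of algebras, relative lifting.
-/

set_option autoImplicit false

namespace Crest.Agent.R248

open Crest.GeometryTopology.Coherator

universe u

/-- embeddings of signatures -/
structure SigEmb (Γ Γ' : Sig.{u}) where
  f : ∀ A n, Γ.Op A n → Γ'.Op A n
  src : ∀ A n (γ : Γ.Op A n), Γ'.src (f A n γ) = (Γ.src γ).mapOp f
  tgt : ∀ A n (γ : Γ.Op A n), Γ'.tgt (f A n γ) = (Γ.tgt γ).mapOp f
  ok : ∀ A n (γ : Γ.Op A n), Γ'.ok (f A n γ) ↔ Γ.ok γ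

variable {Γ Γ' : Sig.{u}} (e : SigEmb Γ Γ')

/-- restriction of a structure along an embedding -/
@[reducible] def Str.res {Y : GS.{u}} (R : Str Γ' Y) : Str Γ Y where
  op A n γ τ y := R.op A n (e.f A n γ) τ y
  func _ _ _ _ _ _ h h' := R.func _ _ _ _ _ _ h h'
  law A n γ τ y h := by
    have := R.law _ _ _ _ _ h
    rw [e.src, e.tgt] at this
    exact ⟨Eval.of_mapOp e.f (fun _ _ _ _ _ h => h) this.1,
      Eval.of_mapOp e.f (fun _ _ _ _ _ h => h) this.2⟩

/-- restriction of an algebra along an embedding -/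
@[reducible] def Alg.res (X : Alg Γ') : Alg Γ where
  G := X.G
  str := X.str.res e
  total A n γ h τ := X.total A n _ ((e.ok A n γ).2 h) τ
  act A n γ τ y h := (e.ok A n γ).1 (X.act A n _ τ y h)

/-- restriction of a homomorphism -/
def AHom.res {X Y : Alg Γ'} (f : AHom X Y) : AHom (X.res e) (Y.res e) :=
  ⟨f.map, fun _ _ _ _ _ h => f.hom _ _ _ _ _ h⟩

/-- relative lifting: spheres of `X` with a filler in `Y` get a filler in `X'` over it -/
def RLift {X X' Y : GS.{u}} (k : GMap X X') (p : GMap X Y) (p' : GMap X' Y) (n : ℕ) : Prop :=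
  ∀ (s : X.Sphere n) (y : Y.cell n), Y.bdry n y = p.sphere n s →
    ∃ z, X'.bdry n z = k.sphere n s ∧ p'.app n z = y

end Crest.Agent.R248
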