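import Crest.Agent.R248.Susp

/-!
# Row 248: stages, steps between stages, path objects (definitions).
-/

set_option autoImplicit false

namespace Crest.Agent.R248

open Crest.GeometryTopology.Coherator Tr

universe u

section Cmap

variable {𝒞 : SCat.{u}} {G H J : Psh 𝒞}

/-- composition of maps of presheaves -/
@[reducible] def PMap.comp (φ : PMap G H) (ψ : PMap H J) : PMap G J :=
  ⟨fun c x => ψ.app c (φ.app c x), fun f x => by rw [φ.nat, ψ.nat]⟩

variable {D : Thy.{u}} (K : Diag D.Op 𝒞) (ok : K.CellSet)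

theorem Diag.cmap_comp (φ : PMap G H) (ψ : PMap H J) :
    (K.cmap ok φ).comp (K.cmap ok ψ) = K.cmap ok (φ.comp ψ) := fr_ext fun _ _ _ => rfl

theorem Diag.cmap_congr {φ ψ : PMap G H} (h : ∀ c x, φ.app c x = ψ.app c x) :
    K.cmap ok φ = K.cmap ok ψ :=
  fr_ext fun _ v _ => Subtype.ext (congrArg Tm.var (by simp only [DV.map, h]))

theorem Diag.cmap_id {φ : PMap G G} (h : ∀ c x, φ.app c x = x) : K.cmap ok φ = AHom.id _ :=
  fr_ext fun _ v _ => Subtype.ext (congrArg Tm.var (by simp only [DV.map, h]))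

theorem Diag.cmap_yon (φ : PMap G H) {c : 𝒞.Obj} (g : G.obj c) :
    (K.cmap ok (G.yon g)).comp (K.cmap ok φ) = K.cmap ok (H.yon (φ.app c g)) :=
  (K.cmap_comp ok _ _).trans (K.cmap_congr ok fun _ f => φ.nat f g)

theorem Diag.cmap_yon_yon {b c : 𝒞.Obj} (f : 𝒞.Hom b c) (g : G.obj c) :
    (K.cmap ok ((𝒞.y c).yon f)).comp (K.cmap ok (G.yon g)) = K.cmap ok (G.yon (G.map f g)) :=
  K.cmap_yon ok (G.yon g) f

end Cmap

/-- the inclusion of the first colour -/
def Colored.incl {D : Thy.{u}} {𝒞 : SCat.{u}} {R0 R1 : AFun D.toSig 𝒞}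
    {θ : ∀ c, AHom (R0.obj c) (R1.obj c)} (C : Colored R0 R1 θ) (G : Psh 𝒞) :
    AHom (C.K.col C.ok0 G) (C.K.col C.ok1 G) :=
  frIncl fun _ _ h => ⟨C.le _ _ _ h.mem.1, trivial⟩

theorem Colored.incl_p {D : Thy.{u}} {𝒞 : SCat.{u}} {R0 R1 : AFun D.toSig 𝒞}
    {θ : ∀ c, AHom (R0.obj c) (R1.obj c)} (C : Colored R0 R1 θ) (c : 𝒞.Obj) :
    (C.incl _).comp (C.P1.p c) = (C.P0.p c).comp (θ c) := C.comm c

theorem Colored.incl_cmap {D : Thy.{u}} {𝒞 : SCat.{u}} {R0 R1 : AFun D.toSig 𝒞}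
    {θ : ∀ c, AHom (R0.obj c) (R1.obj c)} (C : Colored R0 R1 θ) {G H : Psh 𝒞} (φ : PMap G H) :
    (C.incl G).comp (C.K.cmap C.ok1 φ) = (C.K.cmap C.ok0 φ).comp (C.incl H) := rfl

/-- a theory with suspended operations acting on the algebras of `D` -/
structure Stage (D : Coh.{u}) where
  Γ : Thy.{u}
  S : Sus D.toSig Γ.toSig
  F : Fgt D.toSig Γ.toSig

namespace Stage

open Sus (nd)

variable {D : Coh.{u}} (T : Stage D)

/-- the operations of the stage -/
noncomputable abbrev O (m : ℕ) (i j : Fin (m + 1)) : AFun D.toSig (piCat D.toThy (Fin m)) :=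
  (Fgt.id T.Γ.toSig).ops (D := D.toThy) (Θ := T.Γ) T.S m i j

/-- the operations of the coherator -/
noncomputable abbrev E (m : ℕ) (i j : Fin (m + 1)) : AFun D.toSig (piCat D.toThy (Fin m)) :=
  T.F.ops (D := D.toThy) (Θ := D.toThy) T.S m i j

/-- evaluation of the operations of the stage at a diagram -/
noncomputable def evO {m : ℕ} {X : Alg T.Γ.toSig} {x : Fin (m + 1) → X.G.cell 0}
    {B : TObj.{u} (Fin m)} (σ : (Sus.nv (D := D.toThy) T.S X x).obj B) (i j : Fin (m + 1)) :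
    AHom ((T.O m i j).obj B) (Sus.hom (D := D.toThy) T.S X (x i) (x j)) :=
  (Fgt.id T.Γ.toSig).evH (D := D.toThy) (Θ := T.Γ) T.S σ i j

theorem evO_val {m : ℕ} {X : Alg T.Γ.toSig} {x : Fin (m + 1) → X.G.cell 0}
    {B : TObj.{u} (Fin m)} (σ : (Sus.nv (D := D.toThy) T.S X x).obj B) (i j : Fin (m + 1)) (n : ℕ)
    (z : ((T.O m i j).obj B).G.cell n) :
    ((T.evO σ i j).map.app n z).1 = (ext (Y := X) (Sus.asm T.S σ)).map.app (n + 1) z.1 := rfl

theorem evO_map {m : ℕ} {X : Alg T.Γ.toSig} {x : Fin (m + 1) → X.G.cell 0}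
    {B B' : TObj.{u} (Fin m)} (f : (piCat D.toThy (Fin m)).Hom B B')
    (σ : (Sus.nv (D := D.toThy) T.S X x).obj B') (i j : Fin (m + 1)) :
    T.evO ((Sus.nv (D := D.toThy) T.S X x).map f σ) i j =
      ((T.O m i j).map f).comp (T.evO σ i j) :=
  (Fgt.id T.Γ.toSig).evH_map (D := D.toThy) (Θ := T.Γ) T.S f σ i j

theorem evO_comp {m : ℕ} {X Y : Alg T.Γ.toSig} {x : Fin (m + 1) → X.G.cell 0}
    {B : TObj.{u} (Fin m)} (σ : (Sus.nv (D := D.toThy) T.S X x).obj B) (φ : AHom X Y)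
    {x' : Fin (m + 1) → Y.G.cell 0} (h : ∀ i, φ.map.app 0 (x i) = x' i) (i j : Fin (m + 1)) :
    (T.evO σ i j).comp (Sus.homA (D := D.toThy) T.S φ _ _ _ _ (h i) (h j)) =
      T.evO ((Sus.nvMap (D := D.toThy) T.S φ x x' h).app B σ) i j :=
  (Fgt.id T.Γ.toSig).evH_comp (D := D.toThy) (Θ := T.Γ) T.S σ φ h i j

/-- the comparison map -/
noncomputable def θ (m : ℕ) (i j : Fin (m + 1)) (B : TObj.{u} (Fin m)) :
    AHom ((T.O m i j).obj B) ((T.E m i j).obj B) :=
  T.evO (T.F.un (D := D.toThy) (Θ := D.toThy) T.S B) i j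

theorem θ_evH {m : ℕ} {W : Alg D.toSig} {x : Fin (m + 1) → W.G.cell 0} {B : TObj.{u} (Fin m)}
    (σ : (Sus.nv (D := D.toThy) T.S (T.F.alg W) x).obj B) (i j : Fin (m + 1)) :
    (T.θ m i j B).comp (T.F.evH (D := D.toThy) (Θ := D.toThy) T.S σ i j) = T.evO σ i j := by
  have := T.evO_comp (T.F.un (D := D.toThy) (Θ := D.toThy) T.S B)
    (T.F.map (T.F.ev (D := D.toThy) (Θ := D.toThy) T.S σ)) (T.F.ev_vx T.S σ) i j
  rwa [Fgt.nvMap_ev_un] at this

theorem θ_nat (m : ℕ) (i j : Fin (m + 1)) (B B' : TObj.{u} (Fin m))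
    (f : (piCat D.toThy (Fin m)).Hom B B') :
    ((T.O m i j).map f).comp (T.θ m i j B') = (T.θ m i j B).comp ((T.E m i j).map f) :=
  (T.evO_map f _ i j).symm.trans (T.θ_evH _ i j).symm

/-- coloured replacements of all comparison maps -/
abbrev Col := ∀ (m : ℕ) (i j : Fin (m + 1)),
  Colored (D := D.toThy) (T.O m i j) (T.E m i j) (T.θ m i j)

variable {T}

/-- action data on an algebra of the stage -/
def ActD (K : T.Col) (X : Alg T.Γ.toSig) : Type u :=
  ∀ (m : ℕ) (x : Fin (m + 1) → X.G.cell 0) (i j : Fin (m + 1)),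
    AHom (Diag.col (D := D.toThy) (K m i j).K (K m i j).ok1 (Sus.nv (D := D.toThy) T.S X x))
      (Sus.hom (D := D.toThy) T.S X (x i) (x j))

variable {K : T.Col} {X Y : Alg T.Γ.toSig}

/-- the action data extend the action of the operations of the stage -/
def ActD.Ext (α : ActD K X) : Prop :=
  ∀ m x i j B (σ : (Sus.nv (D := D.toThy) T.S X x).obj B),
    ((K m i j).incl _).comp ((Diag.cmap (D := D.toThy) (K m i j).K (K m i j).ok1
      (Psh.yon _ σ)).comp (α m x i j)) = ((K m i j).P0.p B).comp (T.evO σ i j)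

/-- a homomorphism commutes with action data -/
def ActD.Comm (α : ActD K X) (α' : ActD K Y) (φ : AHom X Y) : Prop :=
  ∀ m x x' (h : ∀ i, φ.map.app 0 (x i) = x' i) i j,
    (Diag.cmap (D := D.toThy) (K m i j).K (K m i j).ok1
      (Sus.nvMap (D := D.toThy) T.S φ x x' h)).comp (α' m x' i j) =
    (α m x i j).comp (Sus.homA (D := D.toThy) T.S φ _ _ _ _ (h i) (h j))

end Stage

/-- a theory whose algebras are the algebras of the stage with action data -/
structure Step {D : Coh.{u}} (T : Stage D) where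
  Γ' : Thy.{u}
  e : SigEmb T.Γ.toSig Γ'.toSig
  K : T.Col
  bld : ∀ (X : Alg T.Γ.toSig) (α : Stage.ActD K X), α.Ext → AStr Γ'.toSig X.G
  bld_res : ∀ X α h, (bld X α h).res e = X.astr
  bld_surj : ∀ X' : Alg Γ'.toSig, ∃ α h, bld (X'.res e) α h = X'.astr
  bld_hom : ∀ X Y α h α' h' (φ : AHom X Y),
    IsHom (bld X α h).str.op (bld Y α' h').str.op φ.map ↔ α.Comm α' φ

/-- the next stage -/
@[reducible] def Step.next {D : Coh.{u}} {T : Stage D} (P : Step T)
    (F' : Fgt D.toSig P.Γ'.toSig) : Stage D := ⟨P.Γ', T.S.comp P.e, F'⟩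

/-! ## Path objects -/

/-- up to isomorphism, the inclusion of an extension whose single cells have dimension `≥ L` -/
def Pres {D : Thy.{u}} (L : ℕ) {X Y : Alg D.toSig} (f : AHom X Y) : Prop :=
  ∃ (Δ : Ctx D.Op) (U U' : VSet Δ.Var) (J : JExt D.toSig Δ U U') (a : AHom (Fr D Δ U) X)
    (b : AHom (Fr D Δ U') Y), J.IDim L ∧ (∀ n, Function.Bijective (a.map.app n)) ∧
    (∀ n, Function.Bijective (b.map.app n)) ∧ a.comp f = (frIncl J.sub').comp b

/-- the globular data of a path object in the hom direction -/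
structure PathG (L : ℕ) (X : GS.{u}) where
  Y : GS.{u}
  Z : GS.{u}
  q : GMap Y X
  d : GMap Y Z
  p0 : GMap Z Y
  p1 : GMap Z Y
  q_tfib : TFib q
  d_surj : Function.Surjective (d.app 0)
  dp0 : d.comp p0 = GMap.id Y
  dp1 : d.comp p1 = GMap.id Y
  fib : ∀ z z' y y' h1 h2 h3 h4,
    Fib L (pairG (homMap p0 z z' y y' h1 h2) (homMap p1 z z' y y' h3 h4))

/-- algebra structures on a path object -/
structure PathA {Γ : Sig.{u}} {L : ℕ} {X : GS.{u}} (Q : PathG L X) (R : AStr Γ X) where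
  RY : AStr Γ Q.Y
  RZ : AStr Γ Q.Z
  q_hom : IsHom RY.str.op R.str.op Q.q
  d_hom : IsHom RY.str.op RZ.str.op Q.d
  p0_hom : IsHom RZ.str.op RY.str.op Q.p0
  p1_hom : IsHom RZ.str.op RY.str.op Q.p1

namespace PathA

variable {Γ : Sig.{u}} {L : ℕ} {X : GS.{u}} {Q : PathG L X} {R : AStr Γ X} (s : PathA Q R)

@[reducible] def qA : AHom s.RY.alg R.alg := ⟨Q.q, s.q_hom⟩
@[reducible] def dA : AHom s.RY.alg s.RZ.alg := ⟨Q.d, s.d_hom⟩
@[reducible] def p0A : AHom s.RZ.alg s.RY.alg := ⟨Q.p0, s.p0_hom⟩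
@[reducible] def p1A : AHom s.RZ.alg s.RY.alg := ⟨Q.p1, s.p1_hom⟩

/-- the constant path map is cellular on hom algebras -/
def Cell {D : Thy.{u}} (S : Sus D.toSig Γ) : Prop :=
  ∀ y y' z z' h h', Pres L (S.homA s.dA y y' z z' h h')

end PathA

/-- every algebra of the stage has a path object -/
def Stage.HasPath {D : Coh.{u}} (T : Stage D) (L : ℕ) : Prop :=
  ∀ X : Alg T.Γ.toSig, ∃ (Q : PathG L X.G) (s : PathA Q X.astr), s.Cell (D := D.toThy) T.S

/-- the operations of the stage are homotopy invariant -/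
def Stage.HI {D : Coh.{u}} (T : Stage D) (L : ℕ) : Prop :=
  ∀ m i j B, W L ((T.O m i j).map (vtxHom D.toThy B)).map

/-- natural `D`-structures on the hom globular sets of the algebras of a theory -/
structure HomStr (D Θ : Sig.{u}) where
  st : ∀ (X : Alg Θ) (x y : X.G.cell 0), AStr D (homG X.G x y)
  nat : ∀ {X Y : Alg Θ} (φ : AHom X Y) x y x' y' hx hy,
    IsHom (st X x y).str.op (st Y x' y').str.op (homMap φ.map x y x' y' hx hy)

/-- the hom structures of a theory with suspended operations -/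
def Sus.homStr {D : Thy.{u}} {Γ : Sig.{u}} (S : Sus D.toSig Γ) : HomStr D.toSig Γ :=
  ⟨fun X x y => (S.hom X x y).astr, fun φ x y x' y' hx hy => (S.homA φ x y x' y' hx hy).hom⟩

/-- the hom structures of a coherator -/
noncomputable def Coh.homStr (D : Coh.{u}) : HomStr D.toSig D.toSig :=
  ⟨fun X x y => (homAlg X x y).astr, fun φ x y x' y' hx hy => (homAHom φ x y x' y' hx hy).hom⟩

end Crest.Agent.R248
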