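import Crest.Agent.R248.Stage

/-!
# Row 248: construction of the step from a stage to the next one.
-/

set_option autoImplicit false

namespace Crest.Agent.R248

open Crest.GeometryTopology.Coherator Tr

universe u

/-- values of a homomorphism into the hom algebra of a free algebra -/
theorem Sus.hom_val {D Γ : Thy.{u}} (S : Sus D.toSig Γ.toSig) {Δ : Ctx D.Op} {U : VSet Δ.Var}
    {Δ' : Ctx Γ.Op} {U' : VSet Δ'.Var} {a b : (Fr Γ Δ' U').G.cell 0}
    (φ : AHom (Fr D Δ U) (S.hom (Fr Γ Δ' U') a b)) {O : OpFam.{u}} (f : ∀ A n, Γ.Op A n → O A n)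
    {θ : ∀ n, Δ.Var n → Tm O Δ'.Var (n + 1)}
    (hθ : ∀ n v h, (φ.map.app n (fv v h)).1.1.mapOp f = θ n v) :
    ∀ {n : ℕ} (t : Tm D.Op Δ.Var n) (h : OK D.toSig Δ U t), (φ.map.app n ⟨t, h⟩).1.1.mapOp f =
      Tm.tr (fun A n γ => f _ _ (S.f A n γ)) (a.1.mapOp f) (b.1.mapOp f) θ t
  | _, .var v, h => hθ _ v h
  | _, .op γ σ, h => by
    have := φ.hom _ _ γ (mapOfGlob σ h.op_inv.2.1 h.op_inv.2.2) ⟨_, h⟩ rfl
    rw [show (φ.map.app _ ⟨_, h⟩).1.1 = _ from this, Tm.tr_op, Tm.mapOp]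
    congr 1
    funext k p
    revert k p
    exact susp_cases rfl rfl fun k p => S.hom_val φ f hθ (σ k p) (h.op_inv.2.1 k p)

namespace Stage

open Sus (nd)

variable {D : Coh.{u}} {T : Stage D} (K : T.Col)

/-- the new symbols -/
def NewOp : OpFam.{u}
  | .node m ch, n => Σ i j : Fin (m + 1), (K m i j).K.Cell ⟨ch⟩ n

/-- all symbols of the next stage -/
abbrev Op' : OpFam.{u} := fun A n => T.Γ.Op A n ⊕ NewOp K A n

abbrev inl' : ∀ A n, T.Γ.Op A n → Op' K A n := fun _ _ => Sum.inl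

variable {m : ℕ} (i j : Fin (m + 1)) {B B' B'' : TObj.{u} (Fin m)}

/-- a cell as a new symbol -/
abbrev nop {n : ℕ} (κ : (K m i j).K.Cell B n) : Op' K (nd B) n := Sum.inr ⟨i, j, κ⟩

/-- the generic variable of a cell of the first colour -/
noncomputable abbrev gv0 {n : ℕ} (κ : (K m i j).K.Cell B n) (h : (K m i j).ok0 B n κ) :
    (Diag.col (D := D.toThy) (K m i j).K (K m i j).ok0 ((piCat D.toThy (Fin m)).y B)).G.cell n :=
  fv ((K m i j).K.gv κ) ((K m i j).P0.wf _ _ _ h)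

open Classical in
/-- the term naming a cell -/
noncomputable def head {n : ℕ} (κ : (K m i j).K.Cell B n) : Tm (Op' K) (Pos (nd B)) (n + 1) :=
  if h : (K m i j).ok0 B n κ then
    (((K m i j).P0.p B).map.app n (gv0 K i j κ h)).1.1.mapOp (inl' K)
  else .op (nop K i j κ) fun _ p => .var p

theorem head_old {n : ℕ} {κ : (K m i j).K.Cell B n} (h : (K m i j).ok0 B n κ) :
    head K i j κ = (((K m i j).P0.p B).map.app n (gv0 K i j κ h)).1.1.mapOp (inl' K) :=
  dif_pos h

theorem head_new {n : ℕ} {κ : (K m i j).K.Cell B n} (h : ¬(K m i j).ok0 B n κ) :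
    head K i j κ = .op (nop K i j κ) fun _ p => .var p := dif_neg h

variable (T) in
/-- the map on positions induced by a map of families of trees -/
noncomputable abbrev nm (f : (piCat D.toThy (Fin m)).Hom B B') :
    GMap (posG (nd B)) (FrT T.Γ (nd B')).G :=
  Sus.asm (D := D.toThy) T.S ((Sus.nv (D := D.toThy) T.S _ _).map f
    ((Fgt.id T.Γ.toSig).un (D := D.toThy) (Θ := T.Γ) T.S B'))

theorem nm_ext (f : (piCat D.toThy (Fin m)).Hom B B') {X : Alg T.Γ.toSig}
    {x : Fin (m + 1) → X.G.cell 0} (σ : (Sus.nv (D := D.toThy) T.S X x).obj B') :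
    (nm T f).comp (ext (Y := X) (Sus.asm T.S σ)).map =
      Sus.asm T.S ((Sus.nv (D := D.toThy) T.S X x).map f σ) := by
  have := congrArg (fun φ : AHom _ X => (η _ _).comp φ.map)
    ((Fgt.id T.Γ.toSig).nmap_ev (D := D.toThy) (Θ := T.Γ) T.S f σ)
  simpa only [Fgt.nmap, Fgt.ev, AHom.comp_map, ← GMap.comp_assoc, η_ext] using this

/-- the substitution induced by a map of families of trees -/
noncomputable def N (f : (piCat D.toThy (Fin m)).Hom B B') (k : ℕ) (p : Pos (nd B) k) :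
    Tm (Op' K) (Pos (nd B')) k := ((nm T f).app k p).1.mapOp (inl' K)

theorem N_id : N K ((piCat D.toThy (Fin m)).id B) = fun _ p => .var p := by
  funext k p
  rw [N, nm, Psh.map_id, Fgt.asm_un]
  rfl

theorem N_comp (f : (piCat D.toThy (Fin m)).Hom B B') (g : (piCat D.toThy (Fin m)).Hom B' B'')
    (k : ℕ) (p : Pos (nd B) k) :
    (N K f k p).subst (N K g) = N K ((piCat D.toThy (Fin m)).comp f g) k p := by
  have : nm T ((piCat D.toThy (Fin m)).comp f g) = (nm T f).comp (ext (nm T g)).map := by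
    rw [nm_ext, ← Psh.map_comp]
  rw [N, N, this, GMap.comp_app, ext_val, Tm.mapOp_subst]
  rfl

/-- the translation of the variables -/
noncomputable def θK (n : ℕ) (v : DV (K m i j).K.Cell ((piCat D.toThy (Fin m)).y B) n) :
    Tm (Op' K) (Pos (nd B)) (n + 1) := (head K i j v.2.1).subst (N K v.2.2)

theorem θK_gv {n : ℕ} (κ : (K m i j).K.Cell B n) :
    θK K i j n ((K m i j).K.gv κ) = head K i j κ := by
  rw [θK, N_id, Tm.subst_id]

/-- the translation of the terms -/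
noncomputable abbrev trK {n : ℕ}
    (t : Tm D.Op (DV (K m i j).K.Cell ((piCat D.toThy (Fin m)).y B)) n) :
    Tm (Op' K) (Pos (nd B)) (n + 1) :=
  Tm.tr (fun A n γ => inl' K _ _ (T.S.f A n γ)) (.var (.vtx i)) (.var (.vtx j)) (θK K i j) t

theorem trK_nat (f : (piCat D.toThy (Fin m)).Hom B B') {n : ℕ}
    (t : Tm D.Op (DV (K m i j).K.Cell ((piCat D.toThy (Fin m)).y B)) n) :
    (trK K i j t).subst (N K f) = trK K i j (t.ren (DV.map (Psh.yon _ f))) := by
  rw [Tm.subst_tr, trK, Tm.ren, Tm.tr_subst]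
  congr 1
  funext n v
  rw [θK, Tm.subst_subst, funext fun k => funext fun p => N_comp K v.2.2 f k p]
  rfl

theorem p0_val {n : ℕ} (t : (Diag.col (D := D.toThy) (K m i j).K (K m i j).ok0
    ((piCat D.toThy (Fin m)).y B)).G.cell n) :
    (((K m i j).P0.p B).map.app n t).1.1.mapOp (inl' K) = trK K i j t.1 := by
  refine Sus.hom_val (D := D.toThy) T.S ((K m i j).P0.p B) (inl' K) (fun n v h => ?_) t.1 t.2
  have := AHom.app_eq ((K m i j).P0.nat _ _ v.2.2) n (gv0 K i j v.2.1 h.mem.1)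
  have e : (Diag.cmap (D := D.toThy) (K m i j).K (K m i j).ok0 (Psh.yon _ v.2.2)).map.app n
      (gv0 K i j v.2.1 h.mem.1) = fv v h :=
    Subtype.ext (congrArg Tm.var ((K m i j).K.map_yon_gv v))
  rw [AHom.comp_map, GMap.comp_app, e] at this
  rw [this, θK, head_old K i j h.mem.1]
  exact (congrArg (Tm.mapOp (inl' K)) (ext_val _ _)).trans (Tm.mapOp_subst _ _ _)

/-- source of a new symbol -/
noncomputable def nsrc : {A : Tr} → {n : ℕ} → NewOp K A n → Tm (Op' K) (Pos A) n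
  | .node _ _, 0, ⟨i, _, _⟩ => .var (.vtx i)
  | .node _ _, _ + 1, ⟨i, j, κ⟩ => trK K i j ((K _ i j).K.src κ)

/-- target of a new symbol -/
noncomputable def ntgt : {A : Tr} → {n : ℕ} → NewOp K A n → Tm (Op' K) (Pos A) n
  | .node _ _, 0, ⟨_, j, _⟩ => .var (.vtx j)
  | .node _ _, _ + 1, ⟨i, j, κ⟩ => trK K i j ((K _ i j).K.tgt κ)

/-- active new symbols -/
def nok : {A : Tr} → {n : ℕ} → NewOp K A n → Prop
  | .node _ _, _, ⟨i, j, κ⟩ => (K _ i j).ok1 _ _ κ ∧ ¬(K _ i j).ok0 _ _ κ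

/-- the signature of the next stage -/
@[reducible] noncomputable def sig' : Sig.{u} where
  Op := Op' K
  src γ := γ.elim (fun γ => (T.Γ.src γ).mapOp (inl' K)) (nsrc K)
  tgt γ := γ.elim (fun γ => (T.Γ.tgt γ).mapOp (inl' K)) (ntgt K)
  ok γ := γ.elim T.Γ.ok (nok K)

@[reducible] noncomputable def emb : SigEmb T.Γ.toSig (sig' K) :=
  ⟨inl' K, fun _ _ _ => rfl, fun _ _ _ => rfl, fun _ _ _ => Iff.rfl⟩

/-- the context of positions -/
abbrev cx (B : TObj.{u} (Fin m)) : Ctx (Op' K) := Ctx.ofGS _ (posG (nd B))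

/-- expected source -/
noncomputable abbrev eS (n : ℕ)
    (t : Tm D.Op (DV (K m i j).K.Cell ((piCat D.toThy (Fin m)).y B)) n) :
    Tm (Op' K) (Pos (nd B)) n :=
  (T.S.comp (emb K)).trSrc (Δ := (K m i j).K.ten _) (Δ' := cx K B) (.var (.vtx i)) (.var (.vtx j))
    (θK K i j) n t

/-- expected target -/
noncomputable abbrev eT (n : ℕ)
    (t : Tm D.Op (DV (K m i j).K.Cell ((piCat D.toThy (Fin m)).y B)) n) :
    Tm (Op' K) (Pos (nd B)) n :=
  (T.S.comp (emb K)).trTgt (Δ := (K m i j).K.ten _) (Δ' := cx K B) (.var (.vtx i)) (.var (.vtx j))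
    (θK K i j) n t

theorem N_ok (f : (piCat D.toThy (Fin m)).Hom B B') (k : ℕ) (p : Pos (nd B) k) :
    OK (sig' K) (cx K B') ⊤ (N K f k p) := OK.mapOp (emb K) ((nm T f).app k p).2

theorem N_glob (f : (piCat D.toThy (Fin m)).Hom B B') : Glob (sig' K) (cx K B') (N K f) :=
  Glob.mapOp (emb K) (glob_of_map (nm T f))

theorem nop_bd {n : ℕ} (κ : (K m i j).K.Cell B n) :
    (sig' K).src (nop K i j κ) = eS K i j n (.var ((K m i j).K.gv κ)) ∧
      (sig' K).tgt (nop K i j κ) = eT K i j n (.var ((K m i j).K.gv κ)) := by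
  cases n with
  | zero => exact ⟨rfl, rfl⟩
  | succ n =>
    exact ⟨congrArg (trK K i j) ((K m i j).K.src_gv κ).symm,
      congrArg (trK K i j) ((K m i j).K.tgt_gv κ).symm⟩

theorem head_old_ok {n : ℕ} {κ : (K m i j).K.Cell B n} (h : (K m i j).ok0 B n κ) :
    OK (sig' K) (cx K B) ⊤ (head K i j κ) := by
  rw [head_old K i j h]
  exact OK.mapOp (emb K) (((K m i j).P0.p B).map.app n (gv0 K i j κ h)).1.2

theorem head_bd {n : ℕ} (κ : (K m i j).K.Cell B n) :
    rsrc (sig' K) (cx K B) (head K i j κ) = eS K i j n (.var ((K m i j).K.gv κ)) ∧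
      rtgt (sig' K) (cx K B) (head K i j κ) = eT K i j n (.var ((K m i j).K.gv κ)) := by
  by_cases h : (K m i j).ok0 B n κ
  · rw [head_old K i j h, rsrc_mapOp (emb K), rtgt_mapOp (emb K)]
    cases n with
    | zero =>
      obtain ⟨h1, h2⟩ := (((K m i j).P0.p B).map.app 0 (gv0 K i j κ h)).2
      exact ⟨congrArg (fun c => Tm.mapOp (inl' K) c.1) h1,
        congrArg (fun c => Tm.mapOp (inl' K) c.1) h2⟩
    | succ n =>
      exact ⟨(congrArg (fun c => Tm.mapOp (inl' K) c.1.1)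
          (((K m i j).P0.p B).map.app_src n (gv0 K i j κ h))).symm.trans (p0_val K i j _),
        (congrArg (fun c => Tm.mapOp (inl' K) c.1.1)
          (((K m i j).P0.p B).map.app_tgt n (gv0 K i j κ h))).symm.trans (p0_val K i j _)⟩
  · rw [head_new K i j h, rsrc_op, rtgt_op, Tm.subst_id, Tm.subst_id]
    exact nop_bd K i j κ

theorem e_nat {n : ℕ} (v : DV (K m i j).K.Cell ((piCat D.toThy (Fin m)).y B) n) :
    (eS K i j n (.var ((K m i j).K.gv v.2.1))).subst (N K v.2.2) = eS K i j n (.var v) ∧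
      (eT K i j n (.var ((K m i j).K.gv v.2.1))).subst (N K v.2.2) = eT K i j n (.var v) := by
  cases n with
  | zero => exact ⟨rfl, rfl⟩
  | succ n =>
    exact ⟨(trK_nat K i j _ _).trans (congrArg (fun t => trK K i j (Tm.ren _ t))
        ((K m i j).K.src_gv v.2.1)),
      (trK_nat K i j _ _).trans (congrArg (fun t => trK K i j (Tm.ren _ t))
        ((K m i j).K.tgt_gv v.2.1))⟩

theorem θK_bd {n : ℕ} (v : DV (K m i j).K.Cell ((piCat D.toThy (Fin m)).y B) n) :
    rsrc (sig' K) (cx K B) (θK K i j n v) = eS K i j n (.var v) ∧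
      rtgt (sig' K) (cx K B) (θK K i j n v) = eT K i j n (.var v) := by
  obtain ⟨h1, h2⟩ := head_bd K i j v.2.1
  obtain ⟨h3, h4⟩ := e_nat K i j v
  rw [← h3, ← h4, ← h1, ← h2]
  by_cases h : (K m i j).ok0 _ n v.2.1
  · exact ⟨rsrc_subst (BP.of_glob (N_glob K v.2.2) ⊤) (head_old_ok K i j h),
      rtgt_subst (BP.of_glob (N_glob K v.2.2) ⊤) (head_old_ok K i j h)⟩
  · rw [θK, head_new K i j h]
    simp only [Tm.subst_op, Tm.subst_var, rsrc_op, rtgt_op, Tm.subst_id, and_self]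

theorem trK_ok {n : ℕ} {t : Tm D.Op (DV (K m i j).K.Cell ((piCat D.toThy (Fin m)).y B)) n}
    (h : OK D.toSig ((K m i j).K.ten _) ((K m i j).K.vs (K m i j).ok1 ⊤) t) :
    OK (sig' K) (cx K B) ⊤ (trK K i j t) ∧ rsrc (sig' K) (cx K B) (trK K i j t) = eS K i j n t ∧
      rtgt (sig' K) (cx K B) (trK K i j t) = eT K i j n t := by
  refine (T.S.comp (emb K)).ok_tr (Δ' := cx K B) (OK.ofGS_top _ _ _) (OK.ofGS_top _ _ _)
    (fun n v _ => θK_bd K i j v) (fun n v hv h1 h2 h3 => ?_) h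
  by_cases h : (K m i j).ok0 _ n v.2.1
  · exact OK.subst (BP.of_glob (N_glob K v.2.2) ⊤) (fun k p _ => N_ok K _ k p)
      (head_old_ok K i j h)
  · rw [θK, head_new K i j h] at h1 h2 h3 ⊢
    exact .op (Γ := sig' K) (Δ := cx K B) (nop K i j v.2.1) _ ⟨hv.mem.1, h⟩ (N_ok K _) (N_glob K _)
      h1 h2 h3

theorem head_ok {n : ℕ} {κ : (K m i j).K.Cell B n} (h : (K m i j).ok1 B n κ) :
    OK (sig' K) (cx K B) ⊤ (head K i j κ) :=
  θK_gv K i j κ ▸ (trK_ok K i j ((K m i j).P1.wf _ _ _ h)).1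

theorem sig'_wf : (sig' K).WF := by
  rintro A n (γ | γ) h
  · exact OK.mapOp (emb K) (T.Γ.wf A n γ h)
  · obtain ⟨m, ch⟩ := A
    obtain ⟨i, j, κ⟩ := γ
    have := head_ok K i j h.1
    rwa [head_new K i j h.2] at this

/-- the theory of the next stage -/
@[reducible] noncomputable def thy' : Thy.{u} := ⟨sig' K, sig'_wf K⟩

theorem trK_ends : ∀ {n : ℕ} {t : Tm D.Op (DV (K m i j).K.Cell ((piCat D.toThy (Fin m)).y B)) n}
    (h : OK D.toSig ((K m i j).K.ten _) ((K m i j).K.vs (K m i j).ok1 ⊤) t),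
    s0 (FrT (thy' K) (nd B)).G (n + 1) ⟨_, (trK_ok K i j h).1⟩ = Fgt.vx (thy' K) B i ∧
      t0 (FrT (thy' K) (nd B)).G (n + 1) ⟨_, (trK_ok K i j h).1⟩ = Fgt.vx (thy' K) B j
  | 0, _, h => ⟨Subtype.ext (trK_ok K i j h).2.1, Subtype.ext (trK_ok K i j h).2.2⟩
  | n + 1, _, h =>
    ⟨(congrArg (s0 (FrT (thy' K) (nd B)).G (n + 1)) (Subtype.ext (trK_ok K i j h).2.1)).trans
        (trK_ends h.src).1,
      (congrArg (t0 (FrT (thy' K) (nd B)).G (n + 1)) (Subtype.ext (trK_ok K i j h).2.2)).trans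
        (trK_ends h.tgt).2⟩

/-! ## Structures from action data -/

variable {X Y : Alg T.Γ.toSig} {x : Fin (m + 1) → X.G.cell 0}

theorem N_eval {R : OpRel (Op' K) X.G} (hR : ∀ A n γ τ y, X.str.op A n γ τ y → R A n (.inl γ) τ y)
    (f : (piCat D.toThy (Fin m)).Hom B B') (σ : (Sus.nv (D := D.toThy) T.S X x).obj B') (k : ℕ)
    (p : Pos (nd B) k) : Eval R (gr (Sus.asm T.S σ).app) (N K f k p)
      ((Sus.asm T.S ((Sus.nv (D := D.toThy) T.S X x).map f σ)).app k p) := by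
  rw [← nm_ext]
  exact (ext_eval (Y := X) _ _).mapOp (inl' K) hR

theorem head_old_eval {R : OpRel (Op' K) X.G}
    (hR : ∀ A n γ τ y, X.str.op A n γ τ y → R A n (.inl γ) τ y) {n : ℕ}
    {κ : (K m i j).K.Cell B n} (h : (K m i j).ok0 B n κ)
    (σ : (Sus.nv (D := D.toThy) T.S X x).obj B) : Eval R (gr (Sus.asm T.S σ).app) (head K i j κ)
      ((((K m i j).P0.p B).comp (T.evO σ i j)).map.app n (gv0 K i j κ h)).1 := by
  rw [head_old K i j h]
  exact (ext_eval (Y := X) _ _).mapOp (inl' K) hR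

/-- a variable of the second colour -/
noncomputable abbrev fv1 {n : ℕ} (κ : (K m i j).K.Cell B n) (h : (K m i j).ok1 B n κ)
    (σ : (Sus.nv (D := D.toThy) T.S X x).obj B) : (Diag.col (D := D.toThy) (K m i j).K
      (K m i j).ok1 (Sus.nv (D := D.toThy) T.S X x)).G.cell n :=
  fv ⟨B, κ, σ⟩ ((K m i j).P1.wf.closed _ _ _ ⟨h, trivial⟩)

variable {K}

/-- the interpretation of the new symbols -/
def nrel (α : ActD K X) : {A : Tr} → {n : ℕ} → NewOp K A n → GMap (posG A) X.G →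
    X.G.cell (n + 1) → Prop
  | .node m ch, n, ⟨i, j, κ⟩, τ, z => ∃ h : nok K (A := .node m ch) ⟨i, j, κ⟩,
      z = ((α m _ i j).map.app n (fv1 K i j κ h.1 (Sus.gen (D := D.toThy) (B := ⟨ch⟩) T.S τ))).1

/-- the interpretation of all symbols -/
def rel' (α : ActD K X) : OpRel (Op' K) X.G := fun A n γ τ z =>
  γ.elim (fun γ => X.str.op A n γ τ z) fun γ => nrel α γ τ z

theorem head_eval {α : ActD K X} (hα : α.Ext) {n : ℕ} {κ : (K m i j).K.Cell B n}
    (h : (K m i j).ok1 B n κ) (σ : (Sus.nv (D := D.toThy) T.S X x).obj B) :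
    Eval (rel' α) (gr (Sus.asm T.S σ).app) (head K i j κ)
      ((α m x i j).map.app n (fv1 K i j κ h σ)).1 := by
  by_cases h0 : (K m i j).ok0 B n κ
  · have := head_old_eval K i j (R := rel' α) (fun _ _ _ _ _ h => h) h0 σ
    rw [← hα] at this
    have e : fv1 K i j κ h σ = (((K m i j).incl _).comp (Diag.cmap (D := D.toThy) (K m i j).K
        (K m i j).ok1 (Psh.yon _ σ))).map.app n (gv0 K i j κ h0) :=
      Subtype.ext (congrArg Tm.var ((K m i j).K.map_yon_gv (G := Sus.nv T.S X x) ⟨B, κ, σ⟩).symm)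
    rw [e]
    exact this
  · rw [head_new K i j h0]
    refine .op (Sus.asm T.S σ) (fun _ _ => .var rfl) ⟨⟨h, h0⟩, ?_⟩
    rw [show Sus.gen (D := D.toThy) T.S (Sus.asm T.S σ) = σ from Sus.asm_inj _ (Sus.asm_gen _ _)]
    rfl

theorem trK_eval {α : ActD K X} (hα : α.Ext) (σ : (Sus.nv (D := D.toThy) T.S X x).obj B) {n : ℕ}
    (t : (Diag.col (D := D.toThy) (K m i j).K (K m i j).ok1
      ((piCat D.toThy (Fin m)).y B)).G.cell n) :
    Eval (rel' α) (gr (Sus.asm T.S σ).app) (trK K i j t.1)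
      (((Diag.cmap (D := D.toThy) (K m i j).K (K m i j).ok1 (Psh.yon _ σ)).comp
        (α m x i j)).map.app n t).1 := by
  refine Eval.tr (homGraph X.G) (R := (Sus.hom (D := D.toThy) T.S X (x i) (x j)).str.op)
    (R' := rel' α) (s := fun A n γ => inl' K _ _ (T.S.f A n γ))
    (ρ' := gr (Sus.asm T.S σ).app) (a := .var (.vtx i)) (b := .var (.vtx j))
    (fun _ _ _ _ _ h => h) (.var rfl) (.var rfl) ?_ (AHom.eval _ t)
  rintro n v _ ⟨hv, rfl⟩
  exact (head_eval i j hα hv.mem.1 _).subst fun k p y hy =>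
    hy ▸ N_eval K (R := rel' α) (fun _ _ _ _ _ h => h) v.2.2 σ k p

/-- the structure given by action data -/
@[reducible] noncomputable def bld (X : Alg T.Γ.toSig) (α : ActD K X) (hα : α.Ext) :
    AStr (sig' K) X.G where
  str :=
    { op := rel' α
      func := by
        rintro A n (γ | γ) τ y y' h h'
        · exact X.str.func _ _ _ _ _ _ h h'
        · obtain ⟨m, ch⟩ := A
          obtain ⟨i, j, κ⟩ := γ
          exact h.2.trans h'.2.symm
      law := by
        rintro A n (γ | γ) τ y h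
        · exact (X.str.law _ _ _ _ _ h).imp (Eval.mapOp (inl' K) fun _ _ _ _ _ h => h)
            (Eval.mapOp (inl' K) fun _ _ _ _ _ h => h)
        · obtain ⟨m, ch⟩ := A
          obtain ⟨i, j, κ⟩ := γ
          obtain ⟨h, rfl⟩ := h
          cases n with
          | zero =>
            obtain ⟨h1, h2⟩ := ((α m _ i j).map.app 0 (fv1 K i j κ h.1
              (Sus.gen (D := D.toThy) (B := ⟨ch⟩) T.S τ))).2
            exact ⟨.var h1.symm, .var h2.symm⟩
          | succ n =>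
            have w := (K m i j).P1.wf _ _ _ h.1
            have a := trK_eval i j hα (Sus.gen (D := D.toThy) (B := ⟨ch⟩) T.S τ)
              ⟨(K m i j).K.src κ, by rw [← (K m i j).K.src_gv κ]; exact w.src⟩
            have b := trK_eval i j hα (Sus.gen (D := D.toThy) (B := ⟨ch⟩) T.S τ)
              ⟨(K m i j).K.tgt κ, by rw [← (K m i j).K.tgt_gv κ]; exact w.tgt⟩
            rw [Sus.asm_gen] at a b
            have ea := congrArg Subtype.val ((α m _ i j).map.app_src n (fv1 K i j κ h.1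
              (Sus.gen (D := D.toThy) (B := ⟨ch⟩) T.S τ)))
            have eb := congrArg Subtype.val ((α m _ i j).map.app_tgt n (fv1 K i j κ h.1
              (Sus.gen (D := D.toThy) (B := ⟨ch⟩) T.S τ)))
            exact ⟨Eq.subst (motive := Eval _ _ _) ea a, Eq.subst (motive := Eval _ _ _) eb b⟩ }
  total := by
    rintro A n (γ | γ) h τ
    · exact X.total _ _ _ h τ
    · obtain ⟨m, ch⟩ := A
      obtain ⟨i, j, κ⟩ := γ
      exact ⟨_, h, rfl⟩
  act := by
    rintro A n (γ | γ) τ y h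
    · exact X.act _ _ _ _ _ h
    · obtain ⟨m, ch⟩ := A
      obtain ⟨i, j, κ⟩ := γ
      exact h.1

theorem bld_hom (α : ActD K X) (hα : α.Ext) (α' : ActD K Y) (hα' : α'.Ext) (φ : AHom X Y) :
    IsHom (bld X α hα).str.op (bld Y α' hα').str.op φ.map ↔ α.Comm α' φ := by
  constructor
  · intro h m x x' hx i j
    refine fr_ext fun n v hv => Subtype.ext ?_
    have a := (head_eval i j hα hv.mem.1 v.2.2).map (ρ' := gr ((Sus.asm T.S v.2.2).comp φ.map).app)
      φ.map h fun _ _ _ e => congrArg _ e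
    have b := head_eval i j hα' hv.mem.1 ((Sus.nvMap (D := D.toThy) T.S φ x x' hx).app _ v.2.2)
    rw [Sus.asm_nvMap] at b
    exact (Valid.ofGS (bld Y α' hα').str _).uniq b a
  · rintro h A n (γ | γ) τ y hy
    · exact φ.hom _ _ _ _ _ hy
    · obtain ⟨m, ch⟩ := A
      obtain ⟨i, j, κ⟩ := γ
      obtain ⟨hκ, rfl⟩ := hy
      exact ⟨hκ, (congrArg Subtype.val (AHom.app_eq (h m _ _ (fun _ => rfl) i j) n _)).symm⟩

theorem bld_surj (X' : Alg (sig' K)) : ∃ α h, bld (X'.res (emb K)) α h = X'.astr := by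
  let ρ : ∀ m x i j, Asg (DV (K m i j).K.Cell (Sus.nv (D := D.toThy) T.S (X'.res (emb K)) x))
      (homG X'.G (x i) (x j)) := fun m x i j n v z =>
    Eval X'.str.op (gr (Sus.asm T.S v.2.2).app) (head K i j v.2.1) z.1
  have hv : ∀ m x i j, Valid ((K m i j).K.ten _)
      (Sus.hom (D := D.toThy) T.S (X'.res (emb K)) (x i) (x j)).str (ρ m x i j) := by
    intro m x i j
    refine ⟨fun n v _ _ h h' => Subtype.ext ((Valid.ofGS X'.str _).uniq h h'), fun n v z h => ?_⟩
    have key : ∀ (t : Tm D.Op (DV (K m i j).K.Cell ((piCat D.toThy (Fin m)).y v.1)) n)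
        (c : (homG X'.G (x i) (x j)).cell n),
        Eval X'.str.op (gr (Sus.asm T.S v.2.2).app) (trK K i j t) c.1 →
        Eval (Sus.hom (D := D.toThy) T.S (X'.res (emb K)) (x i) (x j)).str.op (ρ m x i j)
          (t.ren (DV.map (Psh.yon _ v.2.2))) c := by
      intro t c hc
      refine Eval.ren (ρ := fun n w z => ρ m x i j n (DV.map (Psh.yon _ v.2.2) n w) z)
        (fun _ _ _ h => h) ?_
      refine Eval.of_tr (homGraph X'.G) (fun _ _ _ _ _ h => h)
        (fun _ h => (Eval.var_iff.1 h).symm) (fun _ h => (Eval.var_iff.1 h).symm)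
        (fun k w z h => ?_) hc
      exact Eval.of_subst (fun k p y hy => (Valid.ofGS X'.str _).uniq
        (N_eval K (X := X'.res (emb K)) (fun _ _ _ _ _ h => h) w.2.2 v.2.2 k p) hy) h
    obtain ⟨h1, h2⟩ := (Valid.ofGS X'.str _).bdry h
    rw [(head_bd K i j v.2.1).1] at h1
    rw [(head_bd K i j v.2.1).2] at h2
    exact ⟨key _ _ ((K m i j).K.src_gv v.2.1 ▸ h1), key _ _ ((K m i j).K.tgt_gv v.2.1 ▸ h2)⟩
  have ht : ∀ m x i j n v, OK D.toSig ((K m i j).K.ten _) ((K m i j).K.vs (K m i j).ok1 ⊤)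
      (.var v) → ∃ z, ρ m x i j n v z := by
    intro m x i j n v h
    have w := (K m i j).P1.wf _ _ _ h.mem.1
    obtain ⟨e1, e2⟩ := trK_ends K i j w
    have := ext_eval (D := thy' K) (Y := X') (Sus.asm T.S v.2.2) ⟨_, (trK_ok K i j w).1⟩
    refine ⟨⟨(ext (D := thy' K) (Y := X') (Sus.asm T.S v.2.2)).map.app _ ⟨_, (trK_ok K i j w).1⟩,
      (s0_map _ _ _).trans ((congrArg _ e1).trans (ext_η_app _ _ _)),
      (t0_map _ _ _).trans ((congrArg _ e2).trans (ext_η_app _ _ _))⟩, ?_⟩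
    simp only [ρ]
    rw [← θK_gv]
    exact this
  refine ⟨fun m x i j => lift (hv m x i j) (ht m x i j), fun m x i j B σ => ?_,
    AStr.eq_of_le ?_⟩
  · refine fr_ext fun n w hw => lift_eq (hv m x i j) (ht m x i j) (.var ?_)
    have := head_old_eval K i j (X := X'.res (emb K)) (R := X'.str.op) (fun _ _ _ _ _ h => h)
      hw.mem.1 ((Sus.nv (D := D.toThy) T.S _ x).map w.2.2 σ)
    rw [evO_map, ← AHom.comp_assoc, ← (K m i j).P0.nat] at this
    have e : fv w hw = (Diag.cmap (D := D.toThy) (K m i j).K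
        (K m i j).ok0 (Psh.yon _ w.2.2)).map.app n (gv0 K i j w.2.1 hw.mem.1) :=
      Subtype.ext (congrArg Tm.var ((K m i j).K.map_yon_gv w).symm)
    rw [e]
    exact this
  · rintro A n (γ | γ) τ y hy
    · exact hy
    · obtain ⟨m, ch⟩ := A
      obtain ⟨i, j, κ⟩ := γ
      obtain ⟨hκ, rfl⟩ := hy
      have := lift_var (hv m _ i j) (ht m _ i j) _ (fv1 K i j κ hκ.1
        (Sus.gen (D := D.toThy) (X := X'.res (emb K)) (B := ⟨ch⟩) T.S τ)).2
      simp only [ρ] at this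
      rw [head_new K i j hκ.2, Sus.asm_gen] at this
      obtain ⟨τ', h1, h2⟩ := Eval.op_iff.1 this
      obtain rfl : τ = τ' := GMap.ext' fun k p => Eval.var_iff.1 (h1 k p)
      exact h2

end Stage

theorem exists_step {D : Coh.{u}} (T : Stage D) : Nonempty (Step T) := by
  let K : T.Col := fun m i j => (exists_colored _ _ _ (T.θ_nat m i j)).some
  exact ⟨⟨Stage.thy' K, Stage.emb K, K, Stage.bld, fun _ _ _ => AStr.eq_of_le fun _ _ _ _ _ h => h,
    Stage.bld_surj, fun _ _ => Stage.bld_hom⟩⟩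

end Crest.Agent.R248
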