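import Crest.Agent.R248.PiCat
import Crest.Agent.R248.SigEmb

/-!
# Row 248: suspension of terms, hom algebras of theories with suspended operations.
-/

set_option autoImplicit false

namespace Crest.Agent.R248

open Crest.GeometryTopology.Coherator Tr

universe u

/-! ## Total structures on a fixed globular set -/

/-- total structures -/
structure AStr (Γ : Sig.{u}) (G : GS.{u}) where
  str : Str Γ G
  total : str.Total
  act : str.Act

@[reducible] def AStr.alg {Γ : Sig.{u}} {G : GS.{u}} (R : AStr Γ G) : Alg Γ :=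
  ⟨G, R.str, R.total, R.act⟩

@[reducible] def Alg.astr {Γ : Sig.{u}} (X : Alg Γ) : AStr Γ X.G := ⟨X.str, X.total, X.act⟩

@[reducible] def AStr.res {Γ Γ' : Sig.{u}} {G : GS.{u}} (R : AStr Γ' G) (e : SigEmb Γ Γ') :
    AStr Γ G := (R.alg.res e).astr

/-- total structures are equal as soon as one is contained in the other -/
theorem AStr.eq_of_le {Γ : Sig.{u}} {G : GS.{u}} {R R' : AStr Γ G}
    (h : ∀ A n γ τ y, R.str.op A n γ τ y → R'.str.op A n γ τ y) : R = R' := by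
  have : R.str.op = R'.str.op := by
    funext A n γ τ y
    refine propext ⟨h _ _ _ _ _, fun h' => ?_⟩
    obtain ⟨y', hy⟩ := R.total A n γ (R'.act _ _ _ _ _ h') τ
    rwa [R'.str.func _ _ _ _ _ _ h' (h _ _ _ _ _ hy)]
  obtain ⟨⟨a, _, _⟩, _, _⟩ := R
  obtain ⟨⟨b, _, _⟩, _, _⟩ := R'
  cases this
  rfl

/-! ## Change of symbols along an embedding -/

section Emb

variable {Γ Γ' : Sig.{u}} (e : SigEmb Γ Γ')

theorem rsrc_mapOp {G : GS.{u}} {n : ℕ} (t : Tm Γ.Op G.cell (n + 1)) :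
    rsrc Γ' (Ctx.ofGS _ G) (t.mapOp e.f) = (rsrc Γ (Ctx.ofGS _ G) t).mapOp e.f := by
  cases t with
  | var x => rfl
  | op γ σ => simp only [Tm.mapOp, rsrc_op, e.src, Tm.mapOp_subst]

theorem rtgt_mapOp {G : GS.{u}} {n : ℕ} (t : Tm Γ.Op G.cell (n + 1)) :
    rtgt Γ' (Ctx.ofGS _ G) (t.mapOp e.f) = (rtgt Γ (Ctx.ofGS _ G) t).mapOp e.f := by
  cases t with
  | var x => rfl
  | op γ σ => simp only [Tm.mapOp, rtgt_op, e.tgt, Tm.mapOp_subst]

theorem RPar.mapOp {G : GS.{u}} : ∀ {n : ℕ} {s t : Tm Γ.Op G.cell n},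
    RPar Γ (Ctx.ofGS _ G) n s t → RPar Γ' (Ctx.ofGS _ G) n (s.mapOp e.f) (t.mapOp e.f)
  | 0, _, _, _ => trivial
  | _ + 1, _, _, h => ⟨by rw [rsrc_mapOp, rsrc_mapOp, h.1], by rw [rtgt_mapOp, rtgt_mapOp, h.2]⟩

theorem Glob.mapOp {G : GS.{u}} {A : Tr} {σ : ∀ k, Pos A k → Tm Γ.Op G.cell k}
    (h : Glob Γ (Ctx.ofGS _ G) σ) : Glob Γ' (Ctx.ofGS _ G) fun k p => (σ k p).mapOp e.f :=
  fun k p => ⟨by rw [rsrc_mapOp, (h k p).1], by rw [rtgt_mapOp, (h k p).2]⟩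

theorem OK.mapOp {G : GS.{u}} {n : ℕ} {t : Tm Γ.Op (Ctx.ofGS Γ.Op G).Var n}
    (h : OK Γ (Ctx.ofGS _ G) ⊤ t) :
    OK Γ' (Ctx.ofGS _ G) ⊤ (t.mapOp e.f) := by
  induction h with
  | var0 x _ => exact OK.ofGS_top G _ x
  | varS x _ _ _ _ _ _ => exact OK.ofGS_top G _ x
  | op γ σ h1 _ h3 _ _ h6 ih1 ih2 ih3 =>
    rw [Tm.mapOp_subst, ← e.src] at ih2
    rw [Tm.mapOp_subst, ← e.tgt] at ih3
    have := h6.mapOp e
    rw [Tm.mapOp_subst, Tm.mapOp_subst, ← e.src, ← e.tgt] at this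
    exact .op (Δ := Ctx.ofGS _ G) _ _ ((e.ok _ _ _).2 h1) ih1 (h3.mapOp e) ih2 ih3 this

end Emb

/-! ## Suspension of terms -/

/-- a family indexed by the positions of a tree from vertices and branches -/
def nodeArg {T : ℕ → Type u} {m : ℕ} {ch : Fin m → Tr} (x : Fin (m + 1) → T 0)
    (σ : ∀ l k, Pos.{u} (ch l) k → T (k + 1)) : ∀ k, Pos.{u} (.node m ch) k → T k
  | _, .vtx i => x i
  | _, .br l p => σ l _ p

/-- arguments of a suspended operation -/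
def suspArg {T : ℕ → Type u} {A : Tr} (a b : T 0) (σ : ∀ k, Pos.{u} A k → T (k + 1)) :
    ∀ k, Pos.{u} (susp A) k → T k :=
  nodeArg (m := 1) (ch := fun _ => A) (ends a b) fun _ => σ

/-- the three kinds of positions of a suspension -/
abbrev sv0 (A : Tr) : Pos.{u} (susp A) 0 := Pos.vtx (ch := fun _ : Fin 1 => A) 0
abbrev sv1 (A : Tr) : Pos.{u} (susp A) 0 := Pos.vtx (ch := fun _ : Fin 1 => A) 1
abbrev sbr {A : Tr} {n : ℕ} (p : Pos.{u} A n) : Pos.{u} (susp A) (n + 1) :=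
  Pos.br (ch := fun _ : Fin 1 => A) 0 p

theorem susp_cases {A : Tr} {P : ∀ k, Pos.{u} (susp A) k → Prop} (h0 : P 0 (sv0 A))
    (h1 : P 0 (sv1 A)) (h : ∀ k p, P (k + 1) (sbr p)) : ∀ k p, P k p := by
  intro k p
  cases p with
  | vtx i => fin_cases i; exacts [h0, h1]
  | br l p =>
    obtain rfl : l = 0 := Subsingleton.elim _ _
    exact h _ p

namespace Tm

variable {O O' : OpFam.{u}} (s : ∀ A n, O A n → O' (susp A) (n + 1)) {V V' X X' : Vars.{u}}

/-- suspension of a term, with end points `a`, `b` and a translation of the variables -/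
def tr (a b : Tm O' X 0) (θ : ∀ n, V n → Tm O' X (n + 1)) : {n : ℕ} → Tm O V n → Tm O' X (n + 1)
  | _, var v => θ _ v
  | _, op γ σ => op (s _ _ γ) (suspArg a b fun k p => tr a b θ (σ k p))

@[simp] theorem tr_var (a b : Tm O' X 0) (θ : ∀ n, V n → Tm O' X (n + 1)) {n : ℕ} (v : V n) :
    tr s a b θ (var v) = θ n v := rfl

theorem tr_op (a b : Tm O' X 0) (θ : ∀ n, V n → Tm O' X (n + 1)) {A : Tr} {n : ℕ} (γ : O A n)
    (σ : ∀ k, Pos.{u} A k → Tm O V k) :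
    tr s a b θ (op γ σ) = op (s _ _ γ) (suspArg a b fun k p => tr s a b θ (σ k p)) := rfl

theorem subst_tr (a b : Tm O' X 0) (θ : ∀ n, V n → Tm O' X (n + 1)) (ψ : ∀ n, X n → Tm O' X' n) :
    ∀ {n : ℕ} (t : Tm O V n), (tr s a b θ t).subst ψ =
      tr s (a.subst ψ) (b.subst ψ) (fun n v => (θ n v).subst ψ) t
  | _, var _ => rfl
  | _, op γ σ => by
    simp only [tr_op, subst_op]
    congr 1
    funext k p
    revert k p
    exact susp_cases rfl rfl fun k p => subst_tr a b θ ψ (σ k p)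

theorem tr_subst (a b : Tm O' X 0) (θ : ∀ n, V' n → Tm O' X (n + 1)) (χ : ∀ n, V n → Tm O V' n) :
    ∀ {n : ℕ} (t : Tm O V n), tr s a b θ (t.subst χ) =
      tr s a b (fun n v => tr s a b θ (χ n v)) t
  | _, var _ => rfl
  | _, op γ σ => by
    simp only [tr_op, subst_op]
    congr 2
    funext k p
    exact tr_subst a b θ χ (σ k p)

theorem mapOp_tr {O'' : OpFam.{u}} (f : ∀ A n, O' A n → O'' A n) (a b : Tm O' X 0)
    (θ : ∀ n, V n → Tm O' X (n + 1)) : ∀ {n : ℕ} (t : Tm O V n), (tr s a b θ t).mapOp f =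
      tr (fun A n γ => f _ _ (s A n γ)) (a.mapOp f) (b.mapOp f) (fun n v => (θ n v).mapOp f) t
  | _, var _ => rfl
  | _, op γ σ => by
    simp only [tr_op, mapOp]
    congr 1
    funext k p
    revert k p
    exact susp_cases rfl rfl fun k p => mapOp_tr f a b θ (σ k p)

/-- the standard suspension -/
abbrev trS {A : Tr} {n : ℕ} (t : Tm O (Pos.{u} A) n) : Tm O' (Pos.{u} (susp A)) (n + 1) :=
  tr s (var (sv0 A)) (var (sv1 A)) (fun _ p => var (sbr p)) t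

theorem trS_subst (a b : Tm O' X 0) (θ : ∀ n, V n → Tm O' X (n + 1)) {A : Tr} {n : ℕ}
    (t : Tm O (Pos.{u} A) n) (σ : ∀ k, Pos.{u} A k → Tm O V k) :
    (trS s t).subst (suspArg a b fun k p => tr s a b θ (σ k p)) = tr s a b θ (t.subst σ) := by
  rw [subst_tr, tr_subst]
  rfl

end Tm

/-- a signature containing the suspensions of the symbols of another one -/
structure Sus (D Γ : Sig.{u}) where
  f : ∀ A n, D.Op A n → Γ.Op (susp A) (n + 1)
  ok : ∀ A n (γ : D.Op A n), Γ.ok (f A n γ) ↔ D.ok γ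
  src : ∀ A n (γ : D.Op A n), Γ.src (f A n γ) = Tm.trS f (D.src γ)
  tgt : ∀ A n (γ : D.Op A n), Γ.tgt (f A n γ) = Tm.trS f (D.tgt γ)

@[reducible] def Sus.comp {D Γ Γ' : Sig.{u}} (S : Sus D Γ) (e : SigEmb Γ Γ') : Sus D Γ' where
  f A n γ := e.f _ _ (S.f A n γ)
  ok A n γ := (e.ok _ _ _).trans (S.ok A n γ)
  src A n γ := by rw [e.src, S.src, Tm.mapOp_tr]; rfl
  tgt A n γ := by rw [e.tgt, S.tgt, Tm.mapOp_tr]; rfl

section TR

variable {D Γ : Sig.{u}} (S : Sus D Γ) {Δ : Ctx D.Op} {Δ' : Ctx Γ.Op}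
  (a b : Tm Γ.Op Δ'.Var 0) (θ : ∀ n, Δ.Var n → Tm Γ.Op Δ'.Var (n + 1))

/-- the expected source of a suspended term -/
def Sus.trSrc : (n : ℕ) → Tm D.Op Δ.Var n → Tm Γ.Op Δ'.Var n
  | 0, _ => a
  | _ + 1, t => Tm.tr S.f a b θ (rsrc D Δ t)

/-- the expected target of a suspended term -/
def Sus.trTgt : (n : ℕ) → Tm D.Op Δ.Var n → Tm Γ.Op Δ'.Var n
  | 0, _ => b
  | _ + 1, t => Tm.tr S.f a b θ (rtgt D Δ t)

variable {a b θ}

theorem Sus.trSrc_par : ∀ {n : ℕ} {s t : Tm D.Op Δ.Var n}, RPar D Δ n s t →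
    S.trSrc a b θ n s = S.trSrc a b θ n t ∧ S.trTgt a b θ n s = S.trTgt a b θ n t
  | 0, _, _, _ => ⟨rfl, rfl⟩
  | _ + 1, _, _, h => ⟨congrArg (Tm.tr S.f a b θ) h.1, congrArg (Tm.tr S.f a b θ) h.2⟩

/-- **Suspension of well-formed terms.** -/
theorem Sus.ok_tr {T : VSet Δ.Var} {T' : VSet Δ'.Var} (ha : OK Γ Δ' T' a) (hb : OK Γ Δ' T' b)
    (hbd : ∀ n v, OK D Δ T (.var v) → rsrc Γ Δ' (θ n v) = S.trSrc a b θ n (.var v) ∧
      rtgt Γ Δ' (θ n v) = S.trTgt a b θ n (.var v))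
    (hok : ∀ n v, OK D Δ T (.var v) → OK Γ Δ' T' (rsrc Γ Δ' (θ n v)) →
      OK Γ Δ' T' (rtgt Γ Δ' (θ n v)) → RPar Γ Δ' n (rsrc Γ Δ' (θ n v)) (rtgt Γ Δ' (θ n v)) →
      OK Γ Δ' T' (θ n v))
    {n : ℕ} {t : Tm D.Op Δ.Var n} (h : OK D Δ T t) :
    OK Γ Δ' T' (Tm.tr S.f a b θ t) ∧ rsrc Γ Δ' (Tm.tr S.f a b θ t) = S.trSrc a b θ n t ∧
      rtgt Γ Δ' (Tm.tr S.f a b θ t) = S.trTgt a b θ n t := by
  induction h with
  | var0 x hx =>
    have h0 : OK D Δ T (.var x) := .var0 x hx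
    obtain ⟨e1, e2⟩ := hbd _ _ h0
    exact ⟨hok _ _ h0 (e1 ▸ ha) (e2 ▸ hb) trivial, e1, e2⟩
  | varS x hx h1 h2 h3 ih1 ih2 =>
    have h0 : OK D Δ T (.var x) := .varS x hx h1 h2 h3
    obtain ⟨e1, e2⟩ := hbd _ _ h0
    refine ⟨hok _ _ h0 (e1 ▸ ih1.1) (e2 ▸ ih2.1) ?_, e1, e2⟩
    rw [e1, e2]
    exact ⟨ih1.2.1.trans ((S.trSrc_par h3).1.trans ih2.2.1.symm),
      ih1.2.2.trans ((S.trSrc_par h3).2.trans ih2.2.2.symm)⟩
  | op γ σ h1 _ h3 _ _ h6 ih1 ih2 ih3 =>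
    have e1 := Tm.trS_subst S.f a b θ (D.src γ) σ
    have e2 := Tm.trS_subst S.f a b θ (D.tgt γ) σ
    rw [← S.src] at e1
    rw [← S.tgt] at e2
    refine ⟨.op _ _ ((S.ok _ _ _).2 h1) (susp_cases ha hb fun k p => (ih1 k p).1) ?_
      (e1 ▸ ih2.1) (e2 ▸ ih3.1) ?_, e1, e2⟩
    · intro k p
      cases p with
      | br l p =>
        obtain rfl : l = 0 := Subsingleton.elim _ _
        cases k with
        | zero => exact (ih1 _ p).2
        | succ k =>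
          exact ⟨(ih1 _ p).2.1.trans (congrArg (Tm.tr S.f a b θ) (h3 k p).1),
            (ih1 _ p).2.2.trans (congrArg (Tm.tr S.f a b θ) (h3 k p).2)⟩
    · rw [e1, e2]
      exact ⟨ih2.2.1.trans ((S.trSrc_par h6).1.trans ih3.2.1.symm),
        ih2.2.2.trans ((S.trSrc_par h6).2.trans ih3.2.2.symm)⟩

end TR

/-! ## Evaluation of suspended terms -/

section EvalTr

variable {O O' : OpFam.{u}} {s : ∀ A n, O A n → O' (susp A) (n + 1)} {Y : GS.{u}} (G : Graph Y)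
  {x y : Y.cell 0} {V X : Vars.{u}} {R : OpRel O (G.H x y)} {R' : OpRel O' Y}
  {ρ : Asg V (G.H x y)} {ρ' : Asg X Y} {a b : Tm O' X 0} {θ : ∀ n, V n → Tm O' X (n + 1)}

theorem Graph.susp_surj {A : Tr} (τ : GMap (posG (Tr.susp A)) Y) (h0 : τ.app 0 (sv0 A) = x)
    (h1 : τ.app 0 (sv1 A) = y) : ∃ σ : GMap (posG A) (G.H x y), G.susp x y σ = τ := by
  obtain ⟨σ, hσ⟩ := G.asm_surj (m := 1) (ch := fun _ => A) τ (ends x y) fun i => by
    fin_cases i; exacts [h0, h1]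
  exact ⟨σ 0, susp_ext fun n p => by rw [← hσ]; rfl⟩

theorem Graph.susp_inj {A : Tr} {σ σ' : GMap (posG A) (G.H x y)}
    (h : G.susp x y σ = G.susp x y σ') : σ = σ' :=
  GMap.ext' fun n p => G.inj n (by rw [← G.susp_br, h, G.susp_br])

theorem Eval.tr (hR : ∀ A n γ τ z, R A n γ τ z → R' _ _ (s A n γ) (G.susp x y τ) (G.ι _ z))
    (ha : Eval R' ρ' a x) (hb : Eval R' ρ' b y)
    (hθ : ∀ n v z, ρ n v z → Eval R' ρ' (θ n v) (G.ι n z)) {n : ℕ} {t : Tm O V n}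
    {z : (G.H x y).cell n} (h : Eval R ρ t z) : Eval R' ρ' (Tm.tr s a b θ t) (G.ι n z) := by
  induction h with
  | var h => exact hθ _ _ _ h
  | op τ _ h2 ih => exact .op (G.susp x y τ) (susp_cases ha hb ih) (hR _ _ _ _ _ h2)

theorem Eval.of_tr (hR : ∀ A n γ τ z, R' _ _ (s A n γ) (G.susp x y τ) (G.ι _ z) → R A n γ τ z)
    (ha : ∀ c, Eval R' ρ' a c → c = x) (hb : ∀ c, Eval R' ρ' b c → c = y)
    (hθ : ∀ n v z, Eval R' ρ' (θ n v) (G.ι n z) → ρ n v z) : ∀ {n : ℕ} {t : Tm O V n}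
    {z : (G.H x y).cell n}, Eval R' ρ' (Tm.tr s a b θ t) (G.ι n z) → Eval R ρ t z
  | _, .var v, z, h => .var (hθ _ v z h)
  | _, .op γ σ, z, h => by
    obtain ⟨τ, h1, h2⟩ := Eval.op_iff.1 h
    obtain ⟨τ', rfl⟩ := G.susp_surj τ (ha _ (h1 _ (sv0 _))) (hb _ (h1 _ (sv1 _)))
    exact .op τ' (fun k p => Eval.of_tr hR ha hb hθ (h1 _ (sbr p))) (hR _ _ _ _ _ h2)

end EvalTr

/-! ## Hom algebras -/

namespace Sus

variable {D : Thy.{u}} {Γ : Sig.{u}} (S : Sus D.toSig Γ)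

theorem ends_op {Y : GS.{u}} (R : Str Γ Y) : ∀ (n : ℕ) {A : Tr} {γ : D.Op A n}, D.ok γ →
    ∀ {τ : GMap (posG (susp A)) Y} {c : Y.cell (n + 2)}, R.op _ _ (S.f A n γ) τ c →
      s0 Y _ c = τ.app 0 (sv0 A) ∧ t0 Y _ c = τ.app 0 (sv1 A) := by
  intro n
  induction n using Nat.strong_induction_on with
  | _ n ih =>
  intro A γ hγ τ c h
  have key : ∀ (t : Tm D.Op (Pos A) n) (c : Y.cell (n + 1)),
      OK D.toSig (Ctx.ofGS _ (posG A)) ⊤ t → Eval R.op (gr τ.app) (Tm.trS S.f t) c →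
      s0 Y _ c = τ.app 0 (sv0 A) ∧ t0 Y _ c = τ.app 0 (sv1 A) := by
    intro t c ht hc
    cases t with
    | var p =>
      obtain rfl := Eval.var_iff.1 hc
      exact ⟨(s0_map τ _ _).trans (congrArg _ (Graph.s0_br (ch := fun _ : Fin 1 => A) 0 n p)),
        (t0_map τ _ _).trans (congrArg _ (Graph.t0_br (ch := fun _ : Fin 1 => A) 0 n p))⟩
    | op γ' σ =>
      obtain ⟨τ', h1, h2⟩ := Eval.op_iff.1 hc
      have := ih _ (Nat.lt_succ_self _) ht.op_inv.1 h2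
      rwa [← Eval.var_iff.1 (h1 _ (sv0 _)), ← Eval.var_iff.1 (h1 _ (sv1 _))] at this
  obtain ⟨h1, h2⟩ := R.law _ _ _ _ _ h
  rw [S.src] at h1
  rw [S.tgt] at h2
  exact ⟨(key _ _ (D.wf.src hγ) h1).1, (key _ _ (D.wf.tgt hγ) h2).2⟩

/-- the hom algebra -/
@[reducible] def hom (X : Alg Γ) (x y : X.G.cell 0) : Alg D.toSig where
  G := homG X.G x y
  str :=
    { op := fun A n γ τ z => X.str.op _ _ (S.f A n γ) ((homGraph X.G).susp x y τ) z.1
      func := fun _ _ _ _ _ _ h h' => Subtype.ext (X.str.func _ _ _ _ _ _ h h')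
      law := fun A n γ τ z h => by
        obtain ⟨h1, h2⟩ := X.str.law _ _ _ _ _ h
        rw [S.src] at h1
        rw [S.tgt] at h2
        exact ⟨Eval.of_tr (homGraph X.G) (fun _ _ _ _ _ h => h)
            (fun _ h => (Eval.var_iff.1 h).symm) (fun _ h => (Eval.var_iff.1 h).symm)
            (fun _ _ _ h => Subtype.ext (Eval.var_iff.1 h)) h1,
          Eval.of_tr (homGraph X.G) (fun _ _ _ _ _ h => h)
            (fun _ h => (Eval.var_iff.1 h).symm) (fun _ h => (Eval.var_iff.1 h).symm)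
            (fun _ _ _ h => Subtype.ext (Eval.var_iff.1 h)) h2⟩ }
  total A n γ hγ τ := by
    obtain ⟨c, hc⟩ := X.total _ _ _ ((S.ok A n γ).2 hγ) ((homGraph X.G).susp x y τ)
    exact ⟨⟨c, S.ends_op X.str n hγ hc⟩, hc⟩
  act A n γ _ _ h := (S.ok A n γ).1 (X.act _ _ _ _ _ h)

theorem comp_hom {Γ' : Sig.{u}} (e : SigEmb Γ Γ') (X : Alg Γ') (x y : X.G.cell 0) :
    (S.comp e).hom X x y = S.hom (X.res e) x y := rfl

variable {X Y Z : Alg Γ}

/-- the induced homomorphism of hom algebras -/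
def homA (φ : AHom X Y) (x y : X.G.cell 0) (x' y' : Y.G.cell 0) (hx : φ.map.app 0 x = x')
    (hy : φ.map.app 0 y = y') : AHom (S.hom X x y) (S.hom Y x' y') where
  map := homMap φ.map x y x' y' hx hy
  hom A n γ τ z h := by
    have := φ.hom _ _ _ _ _ h
    rwa [show ((homGraph X.G).susp x y τ).comp φ.map =
      (homGraph Y.G).susp x' y' (τ.comp (homMap φ.map x y x' y' hx hy)) from
      susp_ext fun _ _ => rfl] at this

@[simp] theorem homA_val (φ : AHom X Y) (x y : X.G.cell 0) (x' y' : Y.G.cell 0)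
    (hx : φ.map.app 0 x = x') (hy : φ.map.app 0 y = y') (n : ℕ) (z : (homG X.G x y).cell n) :
    ((S.homA φ x y x' y' hx hy).map.app n z).1 = φ.map.app (n + 1) z.1 := rfl

theorem homA_congr {φ ψ : AHom X Y} (h : φ = ψ) {x y x' y'} {h1 h2 h3 h4} :
    S.homA φ x y x' y' h1 h2 = S.homA ψ x y x' y' h3 h4 := by subst h; rfl

theorem homA_comp (φ : AHom X Y) (ψ : AHom Y Z) {x y x' y' x'' y''} {h1 h2 h3 h4} :
    (S.homA φ x y x' y' h1 h2).comp (S.homA ψ x' y' x'' y'' h3 h4) =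
      S.homA (φ.comp ψ) x y x'' y'' ((congrArg _ h1).trans h3) ((congrArg _ h2).trans h4) := rfl

theorem homA_id {x y : X.G.cell 0} {h1 h2} : S.homA (AHom.id X) x y x y h1 h2 = AHom.id _ := rfl

/-! ## Chains of hom algebras -/

variable {m : ℕ}

/-- the hom algebras along a sequence of objects -/
abbrev ch (X : Alg Γ) (x : Fin (m + 1) → X.G.cell 0) : Fin m → Alg D.toSig :=
  fun l => S.hom X (x l.castSucc) (x l.succ)

/-- the presheaf of diagrams in `X` along a sequence of objects -/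
noncomputable abbrev nv (X : Alg Γ) (x : Fin (m + 1) → X.G.cell 0) : Psh (piCat D (Fin m)) := nerve (S.ch X x)

/-- the tree with the given branches -/
abbrev nd (B : TObj.{u} (Fin m)) : Tr := .node m B.tr

/-- the map on positions given by an element of the presheaf -/
abbrev asm {x : Fin (m + 1) → X.G.cell 0} {B : TObj.{u} (Fin m)} (σ : (S.nv X x).obj B) :
    GMap (posG (nd B)) X.G := (homGraph X.G).asm x σ

/-- functoriality of the presheaf -/
noncomputable abbrev nvMap (φ : AHom X Y) (x : Fin (m + 1) → X.G.cell 0) (x' : Fin (m + 1) → Y.G.cell 0)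
    (h : ∀ i, φ.map.app 0 (x i) = x' i) : PMap (S.nv X x) (S.nv Y x') :=
  nerveMap fun l => S.homA φ _ _ _ _ (h l.castSucc) (h l.succ)

theorem asm_nvMap (φ : AHom X Y) {x : Fin (m + 1) → X.G.cell 0} {x' : Fin (m + 1) → Y.G.cell 0}
    (h : ∀ i, φ.map.app 0 (x i) = x' i) {B : TObj.{u} (Fin m)} (σ : (S.nv X x).obj B) :
    S.asm ((S.nvMap φ x x' h).app B σ) = (S.asm σ).comp φ.map :=
  GMap.ext' fun n p => by
    cases p with
    | vtx i => exact (h i).symm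
    | br l p => rfl

theorem asm_inj {x : Fin (m + 1) → X.G.cell 0} {B : TObj.{u} (Fin m)} {σ σ' : (S.nv X x).obj B}
    (h : S.asm σ = S.asm σ') : σ = σ' := (homGraph X.G).asm_inj x h

/-- the element of the presheaf given by a map on positions -/
def gen {B : TObj.{u} (Fin m)} (τ : GMap (posG (nd B)) X.G) :
    (S.nv X fun i => τ.app 0 (Pos.vtx i)).obj B :=
  fun l => (brMap B.tr l).comp (homMap τ _ _ _ _ rfl rfl)

@[simp] theorem asm_gen {B : TObj.{u} (Fin m)} (τ : GMap (posG (nd B)) X.G) :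
    S.asm (S.gen τ) = τ := GMap.ext' fun n p => by cases p <;> rfl

end Sus

/-! ## Forgetful functors and the functors of operations -/

/-- functors between categories of algebras over globular sets -/
structure Fgt (Θ Γ : Sig.{u}) where
  st : ∀ W : Alg Θ, AStr Γ W.G
  nat : ∀ {W W' : Alg Θ} (f : AHom W W'), IsHom (st W).str.op (st W').str.op f.map

namespace Fgt

@[reducible] def id (Γ : Sig.{u}) : Fgt Γ Γ := ⟨Alg.astr, fun f => f.hom⟩

abbrev alg {Θ Γ : Sig.{u}} (F : Fgt Θ Γ) (W : Alg Θ) : Alg Γ := (F.st W).alg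

@[reducible] def map {Θ Γ : Sig.{u}} (F : Fgt Θ Γ) {W W' : Alg Θ} (f : AHom W W') :
    AHom (F.alg W) (F.alg W') := ⟨f.map, F.nat f⟩

open Sus (nd)

variable {D Θ : Thy.{u}} {Γ : Sig.{u}} (F : Fgt Θ.toSig Γ) (S : Sus D.toSig Γ) {m : ℕ}

/-- the vertices of a tree in the free algebra -/
abbrev vx (Θ : Thy.{u}) (B : TObj.{u} (Fin m)) (i : Fin (m + 1)) : (FrT Θ (nd B)).G.cell 0 :=
  (η Θ (posG (nd B))).app 0 (Pos.vtx i)

/-- the generic diagram -/
def un (B : TObj.{u} (Fin m)) : (S.nv (F.alg (FrT Θ (nd B))) (vx Θ B)).obj B :=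
  S.gen (X := F.alg (FrT Θ (nd B))) (η Θ _)

@[simp] theorem asm_un (B : TObj.{u} (Fin m)) : S.asm (F.un S B) = η Θ _ :=
  S.asm_gen (X := F.alg (FrT Θ (nd B))) _

variable {W W' : Alg Θ.toSig} {x : Fin (m + 1) → W.G.cell 0} {B B' : TObj.{u} (Fin m)}

/-- evaluation at a diagram -/
noncomputable def ev (σ : (S.nv (F.alg W) x).obj B) : AHom (FrT Θ (nd B)) W := ext (S.asm σ)

theorem ev_vx (σ : (S.nv (F.alg W) x).obj B) (i : Fin (m + 1)) :
    (F.ev S σ).map.app 0 (vx Θ B i) = x i := ext_η_app _ _ _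

@[simp] theorem ev_un : F.ev S (F.un S B) = AHom.id _ := by rw [ev, asm_un, ext_η]

theorem ev_comp (σ : (S.nv (F.alg W) x).obj B) (φ : AHom W W') {x' : Fin (m + 1) → W'.G.cell 0}
    (h : ∀ i, φ.map.app 0 (x i) = x' i) :
    (F.ev S σ).comp φ = F.ev S ((S.nvMap (F.map φ) x x' h).app B σ) := by
  rw [ev, ev, ext_comp, S.asm_nvMap]

theorem nvMap_ev_un (σ : (S.nv (F.alg W) x).obj B) :
    (S.nvMap (F.map (F.ev S σ)) _ _ (F.ev_vx S σ)).app B (F.un S B) = σ :=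
  S.asm_inj (by rw [S.asm_nvMap, asm_un]; exact η_ext _)

/-- the action of a map of families of trees on free algebras -/
noncomputable def nmap (f : (piCat D (Fin m)).Hom B B') : AHom (FrT Θ (nd B)) (FrT Θ (nd B')) :=
  F.ev S ((S.nv _ _).map f (F.un S B'))

theorem nmap_vx (f : (piCat D (Fin m)).Hom B B') (i : Fin (m + 1)) :
    (F.nmap S f).map.app 0 (vx Θ B i) = vx Θ B' i := F.ev_vx S _ i

theorem nmap_ev (f : (piCat D (Fin m)).Hom B B') (σ : (S.nv (F.alg W) x).obj B') :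
    (F.nmap S f).comp (F.ev S σ) = F.ev S ((S.nv _ _).map f σ) := by
  rw [nmap, F.ev_comp S _ _ (F.ev_vx S σ), PMap.nat, nvMap_ev_un]

/-- the functor of operations from the vertex `i` to the vertex `j` -/
@[reducible] noncomputable def ops (m : ℕ) (i j : Fin (m + 1)) :
    AFun D.toSig (piCat D (Fin m)) where
  obj B := S.hom (F.alg (FrT Θ (nd B))) (vx Θ B i) (vx Θ B j)
  map f := S.homA (F.map (F.nmap S f)) _ _ _ _ (F.nmap_vx S f i) (F.nmap_vx S f j)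
  map_id B := by
    have : F.nmap S ((piCat D (Fin m)).id B) = AHom.id _ := by rw [nmap, Psh.map_id, ev_un]
    exact AHom.ext' fun n z => Subtype.ext (AHom.app_eq this _ _)
  map_comp f g := by
    have : F.nmap S ((piCat D (Fin m)).comp f g) = (F.nmap S f).comp (F.nmap S g) := by
      rw [nmap, Psh.map_comp, ← nmap_ev]; rfl
    exact AHom.ext' fun n z => Subtype.ext (AHom.app_eq this _ _)

/-- evaluation of operations at a diagram -/
noncomputable def evH (σ : (S.nv (F.alg W) x).obj B) (i j : Fin (m + 1)) :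
    AHom ((F.ops S m i j).obj B) (S.hom (F.alg W) (x i) (x j)) :=
  S.homA (F.map (F.ev S σ)) _ _ _ _ (F.ev_vx S σ i) (F.ev_vx S σ j)

theorem evH_map (f : (piCat D (Fin m)).Hom B B') (σ : (S.nv (F.alg W) x).obj B')
    (i j : Fin (m + 1)) :
    F.evH S ((S.nv _ _).map f σ) i j = ((F.ops S m i j).map f).comp (F.evH S σ i j) :=
  AHom.ext' fun _ _ => Subtype.ext (AHom.app_eq (F.nmap_ev S f σ).symm _ _)

theorem evH_comp (σ : (S.nv (F.alg W) x).obj B) (φ : AHom W W') {x' : Fin (m + 1) → W'.G.cell 0}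
    (h : ∀ i, φ.map.app 0 (x i) = x' i) (i j : Fin (m + 1)) :
    (F.evH S σ i j).comp (S.homA (F.map φ) _ _ _ _ (h i) (h j)) =
      F.evH S ((S.nvMap (F.map φ) x x' h).app B σ) i j :=
  AHom.ext' fun _ _ => Subtype.ext (AHom.app_eq (F.ev_comp S σ φ h) _ _)

@[simp] theorem evH_un (i j : Fin (m + 1)) : F.evH S (F.un S B) i j = AHom.id _ :=
  AHom.ext' fun _ _ => Subtype.ext (AHom.app_eq (F.ev_un S) _ _)

end Fgt

end Crest.Agent.R248
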