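import Crest.Agent.R248.Basic

/-!
# Row 248, file 2: raw terms, signatures, contexts, well-formed terms, evaluation, algebras,
free algebras.
-/

set_option autoImplicit false

namespace Crest.Agent.R248

open Crest.GeometryTopology.Coherator

universe u

/-- families of operation symbols: `O A n` are the symbols of arity `A` producing `(n+1)`-cells -/
abbrev OpFam := Tr → ℕ → Type u

/-- graded sets of variables -/
abbrev Vars := ℕ → Type u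

/-- predicates on graded sets -/
abbrev VSet (X : Vars.{u}) := ∀ n, X n → Prop

inductive Tm (O : OpFam.{u}) (X : Vars.{u}) : ℕ → Type u
  | var {n : ℕ} (x : X n) : Tm O X n
  | op {A : Tr} {n : ℕ} (γ : O A n) (σ : ∀ k, Pos.{u} A k → Tm O X k) : Tm O X (n + 1)

namespace Tm

variable {O : OpFam.{u}} {X Y Z : Vars.{u}}

def subst (θ : ∀ n, X n → Tm O Y n) : {n : ℕ} → Tm O X n → Tm O Y n
  | _, var x => θ _ x
  | _, op γ σ => op γ fun k p => subst θ (σ k p)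

@[simp] theorem subst_var (θ : ∀ n, X n → Tm O Y n) {n : ℕ} (x : X n) :
    (var x : Tm O X n).subst θ = θ n x := rfl

@[simp] theorem subst_op (θ : ∀ n, X n → Tm O Y n) {A : Tr} {n : ℕ} (γ : O A n)
    (σ : ∀ k, Pos.{u} A k → Tm O X k) :
    (op γ σ).subst θ = op γ fun k p => (σ k p).subst θ := rfl

theorem subst_subst (θ : ∀ n, X n → Tm O Y n) (θ' : ∀ n, Y n → Tm O Z n) :
    ∀ {n : ℕ} (t : Tm O X n), (t.subst θ).subst θ' = t.subst fun k x => (θ k x).subst θ'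
  | _, var _ => rfl
  | _, op γ σ => by
    simp only [subst_op]; congr 1; funext k p; exact subst_subst θ θ' (σ k p)

@[simp] theorem subst_id : ∀ {n : ℕ} (t : Tm O X n), t.subst (fun _ x => var x) = t
  | _, var _ => rfl
  | _, op γ σ => by
    rw [subst_op]; congr 1; funext k p; exact subst_id (σ k p)

/-- renaming -/
abbrev ren (r : ∀ n, X n → Y n) {n : ℕ} (t : Tm O X n) : Tm O Y n :=
  t.subst fun k x => var (r k x)

def IsVar {n : ℕ} (t : Tm O X n) : Prop := ∃ x, t = var x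

theorem subst_eq_var {θ : ∀ n, X n → Tm O Y n} {n : ℕ} {t : Tm O X n} {y : Y n}
    (h : t.subst θ = var y) : ∃ x, t = var x ∧ θ n x = var y := by
  cases t with
  | var x => exact ⟨x, rfl, h⟩
  | op γ σ => simp at h

theorem subst_eq_op {θ : ∀ n, X n → Tm O Y n} {A : Tr} {n : ℕ} {t : Tm O X (n + 1)} {γ : O A n}
    {σ : ∀ k, Pos.{u} A k → Tm O Y k} (h : t.subst θ = op γ σ) :
    (∃ x, t = var x ∧ θ _ x = op γ σ) ∨ ∃ τ, t = op γ τ ∧ ∀ k p, (τ k p).subst θ = σ k p := by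
  cases t with
  | var x => exact Or.inl ⟨x, rfl, h⟩
  | op γ' τ =>
    simp only [subst_op, op.injEq] at h
    obtain ⟨rfl, h1, h2⟩ := h
    cases h1
    exact Or.inr ⟨τ, rfl, fun k p => congrFun (congrFun (eq_of_heq h2) k) p⟩

theorem op_inj {A : Tr} {n : ℕ} {γ γ' : O A n} {σ σ' : ∀ k, Pos.{u} A k → Tm O X k}
    (h : op γ σ = op γ' σ') : γ = γ' ∧ σ = σ' := by
  simp only [op.injEq, heq_eq_eq, true_and] at h
  exact h

/-- change of operation symbols -/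
def mapOp {O' : OpFam.{u}} (f : ∀ A n, O A n → O' A n) : {n : ℕ} → Tm O X n → Tm O' X n
  | _, var x => var x
  | _, op γ σ => op (f _ _ γ) fun k p => mapOp f (σ k p)

theorem mapOp_subst {O' : OpFam.{u}} (f : ∀ A n, O A n → O' A n) (θ : ∀ n, X n → Tm O Y n) :
    ∀ {n : ℕ} (t : Tm O X n),
      (t.subst θ).mapOp f = (t.mapOp f).subst fun k x => (θ k x).mapOp f
  | _, var _ => rfl
  | _, op γ σ => by
    simp only [subst_op, mapOp]; congr 1; funext k p; exact mapOp_subst f θ (σ k p)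

end Tm

/-- raw signatures: symbols, raw boundaries, and the set of active symbols -/
structure Sig where
  Op : OpFam.{u}
  src : ∀ {A : Tr} {n : ℕ}, Op A n → Tm Op (Pos A) n
  tgt : ∀ {A : Tr} {n : ℕ}, Op A n → Tm Op (Pos A) n
  ok : ∀ {A : Tr} {n : ℕ}, Op A n → Prop

/-- raw contexts -/
structure Ctx (O : OpFam.{u}) where
  Var : Vars.{u}
  src : ∀ {n : ℕ}, Var (n + 1) → Tm O Var n
  tgt : ∀ {n : ℕ}, Var (n + 1) → Tm O Var n

/-- a globular set as a context -/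
@[reducible] def Ctx.ofGS (O : OpFam.{u}) (G : GS.{u}) : Ctx O where
  Var := G.cell
  src x := .var (G.src _ x)
  tgt x := .var (G.tgt _ x)

/-- the signature with a smaller set of active symbols -/
@[reducible] def Sig.res (Γ : Sig.{u}) (S : ∀ (A : Tr) (n : ℕ), Γ.Op A n → Prop) : Sig.{u} where
  Op := Γ.Op
  src := Γ.src
  tgt := Γ.tgt
  ok γ := S _ _ γ

section Raw

variable (Γ : Sig.{u}) (Δ : Ctx Γ.Op)

abbrev Ctx.T (Δ : Ctx Γ.Op) (n : ℕ) := Tm Γ.Op Δ.Var n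

def rsrc : {n : ℕ} → Tm Γ.Op Δ.Var (n + 1) → Tm Γ.Op Δ.Var n
  | _, .var x => Δ.src x
  | _, .op γ σ => (Γ.src γ).subst σ

def rtgt : {n : ℕ} → Tm Γ.Op Δ.Var (n + 1) → Tm Γ.Op Δ.Var n
  | _, .var x => Δ.tgt x
  | _, .op γ σ => (Γ.tgt γ).subst σ

@[simp] theorem rsrc_var {n : ℕ} (x : Δ.Var (n + 1)) : rsrc Γ Δ (.var x) = Δ.src x := rfl
@[simp] theorem rtgt_var {n : ℕ} (x : Δ.Var (n + 1)) : rtgt Γ Δ (.var x) = Δ.tgt x := rfl
@[simp] theorem rsrc_op {A : Tr} {n : ℕ} (γ : Γ.Op A n) (σ : ∀ k, Pos A k → Tm Γ.Op Δ.Var k) :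
    rsrc Γ Δ (.op γ σ) = (Γ.src γ).subst σ := rfl
@[simp] theorem rtgt_op {A : Tr} {n : ℕ} (γ : Γ.Op A n) (σ : ∀ k, Pos A k → Tm Γ.Op Δ.Var k) :
    rtgt Γ Δ (.op γ σ) = (Γ.tgt γ).subst σ := rfl

def RPar : (n : ℕ) → Tm Γ.Op Δ.Var n → Tm Γ.Op Δ.Var n → Prop
  | 0, _, _ => True
  | _ + 1, s, t => rsrc Γ Δ s = rsrc Γ Δ t ∧ rtgt Γ Δ s = rtgt Γ Δ t

/-- a family of raw terms indexed by positions commutes with the raw boundaries -/
def Glob {A : Tr} (σ : ∀ k, Pos.{u} A k → Tm Γ.Op Δ.Var k) : Prop :=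
  ∀ k (p : Pos A (k + 1)), rsrc Γ Δ (σ _ p) = σ k p.src ∧ rtgt Γ Δ (σ _ p) = σ k p.tgt

/-- well-formed terms all of whose hereditary variables lie in `T` -/
inductive OK (T : VSet Δ.Var) : {n : ℕ} → Tm Γ.Op Δ.Var n → Prop
  | var0 (x : Δ.Var 0) : T 0 x → OK T (.var x)
  | varS {n : ℕ} (x : Δ.Var (n + 1)) : T _ x → OK T (Δ.src x) → OK T (Δ.tgt x) →
      RPar Γ Δ n (Δ.src x) (Δ.tgt x) → OK T (.var x)
  | op {A : Tr} {n : ℕ} (γ : Γ.Op A n) (σ : ∀ k, Pos A k → Tm Γ.Op Δ.Var k) : Γ.ok γ →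
      (∀ k p, OK T (σ k p)) → Glob Γ Δ σ → OK T ((Γ.src γ).subst σ) → OK T ((Γ.tgt γ).subst σ) →
      RPar Γ Δ n ((Γ.src γ).subst σ) ((Γ.tgt γ).subst σ) → OK T (.op γ σ)

variable {Γ Δ}

namespace OK

variable {T T' : VSet Δ.Var}

theorem src {n : ℕ} {t : Tm Γ.Op Δ.Var (n + 1)} (h : OK Γ Δ T t) : OK Γ Δ T (rsrc Γ Δ t) := by
  cases h with
  | varS x _ h _ _ => exact h
  | op γ σ _ _ _ h _ _ => exact h

theorem tgt {n : ℕ} {t : Tm Γ.Op Δ.Var (n + 1)} (h : OK Γ Δ T t) : OK Γ Δ T (rtgt Γ Δ t) := by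
  cases h with
  | varS x _ _ h _ => exact h
  | op γ σ _ _ _ _ h _ => exact h

theorem par {n : ℕ} {t : Tm Γ.Op Δ.Var (n + 1)} (h : OK Γ Δ T t) :
    RPar Γ Δ n (rsrc Γ Δ t) (rtgt Γ Δ t) := by
  cases h with
  | varS x _ _ _ h => exact h
  | op γ σ _ _ _ _ _ h => exact h

theorem mem {n : ℕ} {x : Δ.Var n} (h : OK Γ Δ T (.var x)) : T n x := by
  cases h with
  | var0 _ h => exact h
  | varS _ h _ _ _ => exact h

theorem op_inv {A : Tr} {n : ℕ} {γ : Γ.Op A n} {σ : ∀ k, Pos A k → Tm Γ.Op Δ.Var k}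
    (h : OK Γ Δ T (.op γ σ)) : Γ.ok γ ∧ (∀ k p, OK Γ Δ T (σ k p)) ∧ Glob Γ Δ σ := by
  cases h with
  | op _ _ h1 h2 h3 _ _ _ => exact ⟨h1, h2, h3⟩

/-- monotonicity in the variable set; only well-formed variables matter -/
theorem mono' {n : ℕ} {t : Tm Γ.Op Δ.Var n} (h : OK Γ Δ T t)
    (hT : ∀ k x, OK Γ Δ T (.var x) → T' k x) : OK Γ Δ T' t := by
  induction h with
  | var0 x hx => exact .var0 x (hT _ _ (.var0 x hx))
  | varS x hx h1 h2 h3 ih1 ih2 => exact .varS x (hT _ _ (.varS x hx h1 h2 h3)) ih1 ih2 h3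
  | op γ σ h1 _ h3 _ _ h6 ih1 ih2 ih3 => exact .op γ σ h1 ih1 h3 ih2 ih3 h6

theorem mono {n : ℕ} {t : Tm Γ.Op Δ.Var n} (h : OK Γ Δ T t) (hT : ∀ k x, T k x → T' k x) :
    OK Γ Δ T' t := h.mono' fun k x hx => hT k x hx.mem

/-- the closure of a set of variables -/
theorem closure {n : ℕ} {t : Tm Γ.Op Δ.Var n} (h : OK Γ Δ T t) :
    OK Γ Δ (fun _ x => OK Γ Δ T (.var x)) t := h.mono' fun _ _ hx => hx

theorem inter {n : ℕ} {t : Tm Γ.Op Δ.Var n} (h : OK Γ Δ T t) (h' : OK Γ Δ T' t) :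
    OK Γ Δ (fun k x => T k x ∧ T' k x) t := by
  induction h with
  | var0 x hx => exact .var0 x ⟨hx, h'.mem⟩
  | varS x hx _ _ h3 ih1 ih2 => exact .varS x ⟨hx, h'.mem⟩ (ih1 h'.src) (ih2 h'.tgt) h3
  | op γ σ h1 _ h3 _ _ h6 ih1 ih2 ih3 =>
    exact .op γ σ h1 (fun k p => ih1 k p (h'.op_inv.2.1 k p)) h3 (ih2 h'.src) (ih3 h'.tgt) h6

theorem var_of_par {n : ℕ} {x : Δ.Var n} {a : Tm Γ.Op Δ.Var n} (hx : T n x) (ha : OK Γ Δ T a)
    (hp : RPar Γ Δ n a (.var x)) : OK Γ Δ T (.var x) := by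
  cases n with
  | zero => exact .var0 x hx
  | succ n =>
    obtain ⟨h1, h2⟩ := hp
    simp only [rsrc_var, rtgt_var] at h1 h2
    exact .varS x hx (h1 ▸ ha.src) (h2 ▸ ha.tgt) (h1 ▸ h2 ▸ ha.par)

/-- `0`-dimensional terms are variables -/
theorem zero_var (t : Tm Γ.Op Δ.Var 0) : ∃ x, t = .var x := by
  cases t with
  | var x => exact ⟨x, rfl⟩

/-- directed unions of variable sets -/
theorem directed {n : ℕ} {t : Tm Γ.Op Δ.Var n} (S : ℕ → VSet Δ.Var)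
    (hS : ∀ r r', r ≤ r' → ∀ k x, S r k x → S r' k x)
    (h : OK Γ Δ (fun k x => ∃ r, S r k x) t) : ∃ r, OK Γ Δ (S r) t := by
  induction h with
  | var0 x hx => obtain ⟨r, hr⟩ := hx; exact ⟨r, .var0 x hr⟩
  | varS x hx _ _ h3 ih1 ih2 =>
    obtain ⟨r, hr⟩ := hx
    obtain ⟨r1, h1⟩ := ih1
    obtain ⟨r2, h2⟩ := ih2
    refine ⟨r + r1 + r2, .varS x (hS _ _ (by omega) _ _ hr) (h1.mono (hS _ _ (by omega)))
      (h2.mono (hS _ _ (by omega))) h3⟩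
  | @op A n γ σ h1 _ h3 _ _ h6 ih1 ih2 ih3 =>
    choose f hf using ih1
    obtain ⟨r0, hr0⟩ := (Set.finite_range fun a : Σ k, Pos.{u} A k => f a.1 a.2).bddAbove
    obtain ⟨r1, h1'⟩ := ih2
    obtain ⟨r2, h2'⟩ := ih3
    refine ⟨r0 + r1 + r2, .op γ σ h1 (fun k p => (hf k p).mono (hS _ _ ?_)) h3
      (h1'.mono (hS _ _ (by omega))) (h2'.mono (hS _ _ (by omega))) h6⟩
    have := hr0 ⟨⟨k, p⟩, rfl⟩
    simp only at this
    omega

end OK

theorem RPar.refl : ∀ (n : ℕ) (t : Tm Γ.Op Δ.Var n), RPar Γ Δ n t t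
  | 0, _ => trivial
  | _ + 1, _ => ⟨rfl, rfl⟩

theorem RPar.symm : ∀ {n : ℕ} {s t : Tm Γ.Op Δ.Var n}, RPar Γ Δ n s t → RPar Γ Δ n t s
  | 0, _, _, _ => trivial
  | _ + 1, _, _, h => ⟨h.1.symm, h.2.symm⟩

end Raw

/-! ## Substitutions between contexts -/

section Subst

variable {Γ : Sig.{u}} {Δ Δ' : Ctx Γ.Op} {T : VSet Δ.Var} {T' : VSet Δ'.Var}

/-- the substitution commutes with boundaries at the well-formed variables of `T` -/
def BP (Γ : Sig.{u}) (Δ Δ' : Ctx Γ.Op) (T : VSet Δ.Var) (θ : ∀ n, Δ.Var n → Tm Γ.Op Δ'.Var n) :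
    Prop :=
  ∀ n (x : Δ.Var (n + 1)), OK Γ Δ T (.var x) →
    rsrc Γ Δ' (θ _ x) = (Δ.src x).subst θ ∧ rtgt Γ Δ' (θ _ x) = (Δ.tgt x).subst θ

theorem rsrc_subst {θ : ∀ n, Δ.Var n → Tm Γ.Op Δ'.Var n} (hθ : BP Γ Δ Δ' T θ) {n : ℕ}
    {t : Tm Γ.Op Δ.Var (n + 1)} (h : OK Γ Δ T t) :
    rsrc Γ Δ' (t.subst θ) = (rsrc Γ Δ t).subst θ := by
  cases t with
  | var x => exact (hθ n x h).1
  | op γ σ => simp only [Tm.subst_op, rsrc_op, Tm.subst_subst]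

theorem rtgt_subst {θ : ∀ n, Δ.Var n → Tm Γ.Op Δ'.Var n} (hθ : BP Γ Δ Δ' T θ) {n : ℕ}
    {t : Tm Γ.Op Δ.Var (n + 1)} (h : OK Γ Δ T t) :
    rtgt Γ Δ' (t.subst θ) = (rtgt Γ Δ t).subst θ := by
  cases t with
  | var x => exact (hθ n x h).2
  | op γ σ => simp only [Tm.subst_op, rtgt_op, Tm.subst_subst]

theorem RPar.subst {θ : ∀ n, Δ.Var n → Tm Γ.Op Δ'.Var n} (hθ : BP Γ Δ Δ' T θ) :
    ∀ {n : ℕ} {s t : Tm Γ.Op Δ.Var n}, OK Γ Δ T s → OK Γ Δ T t → RPar Γ Δ n s t →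
      RPar Γ Δ' n (s.subst θ) (t.subst θ)
  | 0, _, _, _, _, _ => trivial
  | _ + 1, _, _, hs, ht, h =>
    ⟨by rw [rsrc_subst hθ hs, rsrc_subst hθ ht, h.1], by rw [rtgt_subst hθ hs, rtgt_subst hθ ht, h.2]⟩

theorem OK.subst {θ : ∀ n, Δ.Var n → Tm Γ.Op Δ'.Var n} (hθ : BP Γ Δ Δ' T θ)
    (hv : ∀ n x, OK Γ Δ T (.var x) → OK Γ Δ' T' (θ n x)) {n : ℕ} {t : Tm Γ.Op Δ.Var n}
    (h : OK Γ Δ T t) : OK Γ Δ' T' (t.subst θ) := by
  induction h with
  | var0 x hx => exact hv _ _ (.var0 x hx)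
  | varS x hx h1 h2 h3 _ _ => exact hv _ _ (.varS x hx h1 h2 h3)
  | op γ σ h1 h2 h3 h4 h5 h6 ih1 ih2 ih3 =>
    rw [Tm.subst_subst] at ih2 ih3
    refine .op γ _ h1 ih1 (fun k p => ?_) ih2 ih3 ?_
    · rw [rsrc_subst hθ (h2 _ p), rtgt_subst hθ (h2 _ p), (h3 k p).1, (h3 k p).2]
      exact ⟨rfl, rfl⟩
    · have := RPar.subst hθ h4 h5 h6
      rwa [Tm.subst_subst, Tm.subst_subst] at this

/-- renamings: only the membership of the images has to be checked -/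
theorem OK.ren {r : ∀ n, Δ.Var n → Δ'.Var n} (hθ : BP Γ Δ Δ' T fun n x => .var (r n x))
    (hv : ∀ n x, OK Γ Δ T (.var x) → T' n (r n x)) {n : ℕ} {t : Tm Γ.Op Δ.Var n}
    (h : OK Γ Δ T t) : OK Γ Δ' T' (t.ren r) := by
  have key : ∀ {n : ℕ} {t : Tm Γ.Op Δ.Var n}, OK Γ Δ T t → OK Γ Δ' T' (t.ren r) := by
    intro n t h
    induction h with
    | var0 x hx => exact .var0 _ (hv _ _ (.var0 x hx))
    | varS x hx h1 h2 h3 ih1 ih2 =>
      have hx' : OK Γ Δ T (.var x) := .varS x hx h1 h2 h3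
      obtain ⟨e1, e2⟩ := hθ _ x hx'
      simp only [rsrc_var, rtgt_var] at e1 e2
      refine .varS _ (hv _ _ hx') (e1 ▸ ih1) (e2 ▸ ih2) ?_
      rw [e1, e2]
      exact RPar.subst hθ h1 h2 h3
    | op γ σ h1 h2 h3 h4 h5 h6 ih1 ih2 ih3 =>
      simp only [Tm.ren, Tm.subst_subst] at ih2 ih3
      refine .op γ _ h1 ih1 (fun k p => ?_) ih2 ih3 ?_
      · rw [rsrc_subst hθ (h2 _ p), rtgt_subst hθ (h2 _ p), (h3 k p).1, (h3 k p).2]
        exact ⟨rfl, rfl⟩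
      · have := RPar.subst hθ h4 h5 h6
        rwa [Tm.subst_subst, Tm.subst_subst] at this
  exact key h

/-- reflecting membership along a renaming -/
theorem OK.reflect {r : ∀ n, Δ.Var n → Δ'.Var n} (hθ : BP Γ Δ Δ' T fun n x => .var (r n x))
    {n : ℕ} {t : Tm Γ.Op Δ.Var n} (h : OK Γ Δ T t) (h' : OK Γ Δ' T' (t.ren r)) :
    OK Γ Δ (fun k x => T k x ∧ OK Γ Δ' T' (.var (r k x))) t := by
  induction h with
  | var0 x hx => exact .var0 x ⟨hx, h'⟩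
  | varS x hx h1 h2 h3 ih1 ih2 =>
    obtain ⟨e1, e2⟩ := hθ _ x (.varS x hx h1 h2 h3)
    have a := h'.src
    have b := h'.tgt
    rw [Tm.ren, Tm.subst_var] at a b
    rw [e1] at a
    rw [e2] at b
    exact .varS x ⟨hx, h'⟩ (ih1 a) (ih2 b) h3
  | op γ σ h1 h2 h3 h4 h5 h6 ih1 ih2 ih3 =>
    refine .op γ σ h1 (fun k p => ih1 k p (h'.op_inv.2.1 k p)) h3 (ih2 ?_) (ih3 ?_) h6
    · have := h'.src
      simpa only [Tm.ren, Tm.subst_op, rsrc_op, Tm.subst_subst] using this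
    · have := h'.tgt
      simpa only [Tm.ren, Tm.subst_op, rtgt_op, Tm.subst_subst] using this

theorem Tm.subst_congr {θ θ' : ∀ n, Δ.Var n → Tm Γ.Op Δ'.Var n}
    (hv : ∀ n x, OK Γ Δ T (.var x) → θ n x = θ' n x) {n : ℕ} {t : Tm Γ.Op Δ.Var n}
    (h : OK Γ Δ T t) : t.subst θ = t.subst θ' := by
  induction h with
  | var0 x hx => exact hv _ _ (.var0 x hx)
  | varS x hx h1 h2 h3 _ _ => exact hv _ _ (.varS x hx h1 h2 h3)
  | op γ σ _ _ _ _ _ _ ih1 _ _ => simp only [Tm.subst_op, ih1]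

theorem Tm.ren_inj {r : ∀ n, Δ.Var n → Δ'.Var n}
    (hr : ∀ n x y, OK Γ Δ T (.var x) → OK Γ Δ T (.var y) → r n x = r n y → x = y) :
    ∀ {n : ℕ} {s t : Tm Γ.Op Δ.Var n}, OK Γ Δ T s → OK Γ Δ T t → s.ren r = t.ren r → s = t
  | _, .var x, .var y, hs, ht, h => by
    simp only [Tm.ren, Tm.subst_var, Tm.var.injEq] at h
    rw [hr _ x y hs ht h]
  | _, .var x, .op _ _, _, _, h => by simp [Tm.ren] at h
  | _, .op _ _, .var x, _, _, h => by simp [Tm.ren] at h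
  | _, .op γ σ, .op γ' σ', hs, ht, h => by
    simp only [Tm.ren, Tm.subst_op, Tm.op.injEq] at h
    obtain ⟨rfl, h1, h2⟩ := h
    cases h1
    congr 1
    funext k p
    exact Tm.ren_inj hr (hs.op_inv.2.1 k p) (ht.op_inv.2.1 k p)
      (congrFun (congrFun (eq_of_heq h2) k) p)

theorem OK.ofGS_var (G : GS.{u}) {T : VSet G.cell}
    (hs : ∀ n x, T (n + 1) x → T n (G.src n x) ∧ T n (G.tgt n x)) :
    ∀ (n : ℕ) (x : G.cell n), T n x → OK Γ (Ctx.ofGS Γ.Op G) T (.var x)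
  | 0, x, hx => .var0 (Δ := Ctx.ofGS Γ.Op G) x hx
  | n + 1, x, hx => by
    refine .varS (Δ := Ctx.ofGS Γ.Op G) x hx (OK.ofGS_var G hs n _ (hs n x hx).1)
      (OK.ofGS_var G hs n _ (hs n x hx).2) ?_
    cases n with
    | zero => trivial
    | succ n =>
      exact ⟨congrArg Tm.var (G.src_src n x), congrArg Tm.var (G.tgt_tgt n x)⟩

theorem OK.ofGS_top (G : GS.{u}) (n : ℕ) (x : G.cell n) :
    OK Γ (Ctx.ofGS Γ.Op G) ⊤ (.var x) :=
  OK.ofGS_var G (fun _ _ _ => ⟨trivial, trivial⟩) n x trivial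

theorem BP.of_glob {A : Tr} {σ : ∀ k, Pos A k → Tm Γ.Op Δ.Var k} (h : Glob Γ Δ σ)
    (S : VSet (posG A).cell) : BP Γ (Ctx.ofGS Γ.Op (posG A)) Δ S σ :=
  fun n x _ => h n x

end Subst

/-- well-formed signatures: every active symbol applied to the generic argument is well formed -/
def Sig.WF (Γ : Sig.{u}) : Prop :=
  ∀ (A : Tr) (n : ℕ) (γ : Γ.Op A n), Γ.ok γ →
    OK Γ (Ctx.ofGS Γ.Op (posG A)) ⊤ (.op γ fun _ p => .var p)

theorem Sig.WF.op {Γ : Sig.{u}} (hΓ : Γ.WF) {Δ : Ctx Γ.Op} {T : VSet Δ.Var} {A : Tr} {n : ℕ}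
    {γ : Γ.Op A n} (hγ : Γ.ok γ) {σ : ∀ k, Pos A k → Tm Γ.Op Δ.Var k}
    (h1 : ∀ k p, OK Γ Δ T (σ k p)) (h2 : Glob Γ Δ σ) : OK Γ Δ T (.op γ σ) :=
  OK.subst (BP.of_glob h2 ⊤) (fun k p _ => h1 k p) (hΓ A n γ hγ)

theorem Sig.WF.src {Γ : Sig.{u}} (hΓ : Γ.WF) {A : Tr} {n : ℕ} {γ : Γ.Op A n} (hγ : Γ.ok γ) :
    OK Γ (Ctx.ofGS Γ.Op (posG A)) ⊤ (Γ.src γ) := by
  have := (hΓ A n γ hγ).src
  rwa [rsrc_op, Tm.subst_id] at this

theorem Sig.WF.tgt {Γ : Sig.{u}} (hΓ : Γ.WF) {A : Tr} {n : ℕ} {γ : Γ.Op A n} (hγ : Γ.ok γ) :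
    OK Γ (Ctx.ofGS Γ.Op (posG A)) ⊤ (Γ.tgt γ) := by
  have := (hΓ A n γ hγ).tgt
  rwa [rtgt_op, Tm.subst_id] at this

theorem Sig.WF.par {Γ : Sig.{u}} (hΓ : Γ.WF) {A : Tr} {n : ℕ} {γ : Γ.Op A n} (hγ : Γ.ok γ) :
    RPar Γ (Ctx.ofGS Γ.Op (posG A)) n (Γ.src γ) (Γ.tgt γ) := by
  have := (hΓ A n γ hγ).par
  rwa [rsrc_op, rtgt_op, Tm.subst_id, Tm.subst_id] at this

/-! ## Evaluation -/

/-- a relation interpreting the symbols -/
abbrev OpRel (O : OpFam.{u}) (Y : GS.{u}) :=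
  ∀ (A : Tr) (n : ℕ), O A n → GMap (posG A) Y → Y.cell (n + 1) → Prop

/-- relational assignments -/
abbrev Asg (X : Vars.{u}) (Y : GS.{u}) := ∀ n, X n → Y.cell n → Prop

/-- the graph of a function as an assignment -/
abbrev gr {X : Vars.{u}} {Y : GS.{u}} (f : ∀ n, X n → Y.cell n) : Asg X Y := fun n x y => f n x = y

inductive Eval {O : OpFam.{u}} {Y : GS.{u}} (R : OpRel O Y) {X : Vars.{u}} (ρ : Asg X Y) :
    {n : ℕ} → Tm O X n → Y.cell n → Prop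
  | var {n : ℕ} {x : X n} {y : Y.cell n} : ρ n x y → Eval R ρ (.var x) y
  | op {A : Tr} {n : ℕ} {γ : O A n} {σ : ∀ k, Pos A k → Tm O X k} (τ : GMap (posG A) Y)
      {y : Y.cell (n + 1)} : (∀ k p, Eval R ρ (σ k p) (τ.app k p)) → R A n γ τ y →
      Eval R ρ (.op γ σ) y

namespace Eval

variable {O : OpFam.{u}} {Y Y' : GS.{u}} {R : OpRel O Y} {X X' : Vars.{u}} {ρ : Asg X Y}

theorem var_iff {n : ℕ} {x : X n} {y : Y.cell n} : Eval R ρ (.var x) y ↔ ρ n x y :=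
  ⟨fun h => by cases h; assumption, .var⟩

theorem op_iff {A : Tr} {n : ℕ} {γ : O A n} {σ : ∀ k, Pos A k → Tm O X k} {y : Y.cell (n + 1)} :
    Eval R ρ (.op γ σ) y ↔
      ∃ τ : GMap (posG A) Y, (∀ k p, Eval R ρ (σ k p) (τ.app k p)) ∧ R A n γ τ y :=
  ⟨fun h => by cases h with | op τ h1 h2 => exact ⟨τ, h1, h2⟩, fun ⟨τ, h1, h2⟩ => .op τ h1 h2⟩

/-- transport along a map respecting the relations -/
theorem map {R' : OpRel O Y'} {ρ' : Asg X Y'} (f : GMap Y Y')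
    (hR : ∀ A n γ τ y, R A n γ τ y → R' A n γ (τ.comp f) (f.app _ y))
    (hρ : ∀ n x y, ρ n x y → ρ' n x (f.app n y)) {n : ℕ} {t : Tm O X n} {y : Y.cell n}
    (h : Eval R ρ t y) : Eval R' ρ' t (f.app n y) := by
  induction h with
  | var h => exact .var (hρ _ _ _ h)
  | op τ _ h2 ih => exact .op (τ.comp f) ih (hR _ _ _ _ _ h2)

theorem mono {R' : OpRel O Y} {ρ' : Asg X Y} (hR : ∀ A n γ τ y, R A n γ τ y → R' A n γ τ y)
    (hρ : ∀ n x y, ρ n x y → ρ' n x y) {n : ℕ} {t : Tm O X n} {y : Y.cell n}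
    (h : Eval R ρ t y) : Eval R' ρ' t y :=
  map (GMap.id Y) hR hρ h

theorem func (hR : ∀ A n γ τ y y', R A n γ τ y → R A n γ τ y' → y = y')
    (hρ : ∀ n x y y', ρ n x y → ρ n x y' → y = y') {n : ℕ} {t : Tm O X n} {y y' : Y.cell n}
    (h : Eval R ρ t y) (h' : Eval R ρ t y') : y = y' := by
  induction h with
  | var h => exact hρ _ _ _ _ h (var_iff.1 h')
  | op τ _ h2 ih =>
    obtain ⟨τ', h3, h4⟩ := op_iff.1 h'
    have : τ = τ' := GMap.ext' fun k p => ih k p (h3 k p)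
    subst this
    exact hR _ _ _ _ _ _ h2 h4

theorem subst {ρ' : Asg X' Y} {θ : ∀ n, X n → Tm O X' n}
    (hθ : ∀ n x y, ρ n x y → Eval R ρ' (θ n x) y) {n : ℕ} {t : Tm O X n} {y : Y.cell n}
    (h : Eval R ρ t y) : Eval R ρ' (t.subst θ) y := by
  induction h with
  | var h => exact hθ _ _ _ h
  | op τ _ h2 ih => exact .op τ ih h2

theorem of_subst {ρ' : Asg X' Y} {θ : ∀ n, X n → Tm O X' n}
    (hθ : ∀ n x y, Eval R ρ' (θ n x) y → ρ n x y) :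
    ∀ {n : ℕ} {t : Tm O X n} {y : Y.cell n}, Eval R ρ' (t.subst θ) y → Eval R ρ t y
  | _, .var x, y, h => .var (hθ _ x y h)
  | _, .op _ _, _, h => by
    obtain ⟨τ, h1, h2⟩ := op_iff.1 h
    exact .op τ (fun k p => of_subst hθ (h1 k p)) h2

theorem mapOp {O' : OpFam.{u}} {R' : OpRel O' Y} (f : ∀ A n, O A n → O' A n)
    (hR : ∀ A n γ τ y, R A n γ τ y → R' A n (f A n γ) τ y) {n : ℕ} {t : Tm O X n} {y : Y.cell n}
    (h : Eval R ρ t y) : Eval R' ρ (t.mapOp f) y := by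
  induction h with
  | var h => exact .var h
  | op τ _ h2 ih => exact .op τ ih (hR _ _ _ _ _ h2)

theorem of_mapOp {O' : OpFam.{u}} {R' : OpRel O' Y} (f : ∀ A n, O A n → O' A n)
    (hR : ∀ A n γ τ y, R' A n (f A n γ) τ y → R A n γ τ y) :
    ∀ {n : ℕ} {t : Tm O X n} {y : Y.cell n}, Eval R' ρ (t.mapOp f) y → Eval R ρ t y
  | _, .var _, _, h => .var (var_iff.1 h)
  | _, .op _ _, _, h => by
    obtain ⟨τ, h1, h2⟩ := op_iff.1 h
    exact .op τ (fun k p => of_mapOp f hR (h1 k p)) (hR _ _ _ _ _ h2)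

end Eval

/-! ## Partial and total algebras -/

/-- a partial algebra structure on a globular set -/
structure Str (Γ : Sig.{u}) (Y : GS.{u}) where
  op : OpRel Γ.Op Y
  func : ∀ A n γ τ y y', op A n γ τ y → op A n γ τ y' → y = y'
  law : ∀ A n γ τ y, op A n γ τ y →
    Eval op (gr τ.app) (Γ.src γ) (Y.src n y) ∧ Eval op (gr τ.app) (Γ.tgt γ) (Y.tgt n y)

/-- total on all active symbols -/
def Str.Total {Γ : Sig.{u}} {Y : GS.{u}} (R : Str Γ Y) : Prop :=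
  ∀ A n (γ : Γ.Op A n), Γ.ok γ → ∀ τ, ∃ y, R.op A n γ τ y

/-- defined only on active symbols -/
def Str.Act {Γ : Sig.{u}} {Y : GS.{u}} (R : Str Γ Y) : Prop :=
  ∀ A n (γ : Γ.Op A n) τ y, R.op A n γ τ y → Γ.ok γ

structure Alg (Γ : Sig.{u}) where
  G : GS.{u}
  str : Str Γ G
  total : str.Total
  act : str.Act

/-- a globular map is a homomorphism for two operation relations -/
def IsHom {O : OpFam.{u}} {Y Y' : GS.{u}} (R : OpRel O Y) (R' : OpRel O Y') (f : GMap Y Y') : Prop :=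
  ∀ A n γ τ y, R A n γ τ y → R' A n γ (τ.comp f) (f.app _ y)

structure AHom {Γ : Sig.{u}} (Y Y' : Alg Γ) where
  map : GMap Y.G Y'.G
  hom : IsHom Y.str.op Y'.str.op map

namespace AHom

variable {Γ : Sig.{u}} {X Y Z : Alg Γ}

@[ext] theorem ext {f g : AHom X Y} (h : f.map = g.map) : f = g := by
  cases f; cases g; cases h; rfl

def id (X : Alg Γ) : AHom X X := ⟨GMap.id _, fun _ _ _ _ _ h => h⟩

def comp (f : AHom X Y) (g : AHom Y Z) : AHom X Z :=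
  ⟨f.map.comp g.map, fun _ _ _ _ _ h => g.hom _ _ _ _ _ (f.hom _ _ _ _ _ h)⟩

@[simp] theorem id_map (X : Alg Γ) : (id X).map = GMap.id _ := rfl
@[simp] theorem comp_map (f : AHom X Y) (g : AHom Y Z) : (f.comp g).map = f.map.comp g.map := rfl

end AHom

/-- a valid assignment: functional and compatible with boundaries -/
structure Valid {Γ : Sig.{u}} (Δ : Ctx Γ.Op) {Y : GS.{u}} (R : Str Γ Y) (ρ : Asg Δ.Var Y) :
    Prop where
  func : ∀ n x y y', ρ n x y → ρ n x y' → y = y'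
  law : ∀ n (x : Δ.Var (n + 1)) y, ρ _ x y →
    Eval R.op ρ (Δ.src x) (Y.src n y) ∧ Eval R.op ρ (Δ.tgt x) (Y.tgt n y)

section Valid

variable {Γ : Sig.{u}} {Δ : Ctx Γ.Op} {Y : GS.{u}} {R : Str Γ Y} {ρ : Asg Δ.Var Y}

theorem Valid.uniq (hρ : Valid Δ R ρ) {n : ℕ} {t : Tm Γ.Op Δ.Var n} {y y' : Y.cell n}
    (h : Eval R.op ρ t y) (h' : Eval R.op ρ t y') : y = y' :=
  Eval.func R.func hρ.func h h'

theorem Valid.bdry (hρ : Valid Δ R ρ) {n : ℕ} {t : Tm Γ.Op Δ.Var (n + 1)} {y : Y.cell (n + 1)}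
    (h : Eval R.op ρ t y) :
    Eval R.op ρ (rsrc Γ Δ t) (Y.src n y) ∧ Eval R.op ρ (rtgt Γ Δ t) (Y.tgt n y) := by
  cases h with
  | var h => exact hρ.law _ _ _ h
  | op τ h1 h2 =>
    obtain ⟨a, b⟩ := R.law _ _ _ _ _ h2
    exact ⟨a.subst fun k p y hy => hy ▸ h1 k p, b.subst fun k p y hy => hy ▸ h1 k p⟩

theorem Valid.par (hρ : Valid Δ R ρ) : ∀ {n : ℕ} {s t : Tm Γ.Op Δ.Var n} {y z : Y.cell n},
    RPar Γ Δ n s t → Eval R.op ρ s y → Eval R.op ρ t z → Y.AreParallel n y z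
  | 0, _, _, _, _, _, _, _ => trivial
  | _ + 1, _, _, _, _, h, hs, ht =>
    ⟨hρ.uniq (h.1 ▸ (hρ.bdry hs).1) (hρ.bdry ht).1, hρ.uniq (h.2 ▸ (hρ.bdry hs).2) (hρ.bdry ht).2⟩

/-- values of a globular family assemble to a map -/
theorem Valid.exists_map (hρ : Valid Δ R ρ) {A : Tr} {σ : ∀ k, Pos A k → Tm Γ.Op Δ.Var k}
    (hg : Glob Γ Δ σ) (h : ∀ k p, ∃ y, Eval R.op ρ (σ k p) y) :
    ∃ τ : GMap (posG A) Y, ∀ k p, Eval R.op ρ (σ k p) (τ.app k p) := by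
  choose f hf using h
  refine ⟨⟨f, fun k p => ?_, fun k p => ?_⟩, hf⟩
  · exact hρ.uniq (hf k (Pos.src p)) ((hg k p).1 ▸ (hρ.bdry (hf _ p)).1)
  · exact hρ.uniq (hf k (Pos.tgt p)) ((hg k p).2 ▸ (hρ.bdry (hf _ p)).2)

theorem Valid.total (hρ : Valid Δ R ρ) (hR : R.Total) {T : VSet Δ.Var}
    (hT : ∀ n x, OK Γ Δ T (.var x) → ∃ y, ρ n x y) {n : ℕ} {t : Tm Γ.Op Δ.Var n}
    (h : OK Γ Δ T t) : ∃ y, Eval R.op ρ t y := by
  induction h with
  | var0 x hx => obtain ⟨y, hy⟩ := hT _ _ (.var0 x hx); exact ⟨y, .var hy⟩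
  | varS x hx h1 h2 h3 _ _ => obtain ⟨y, hy⟩ := hT _ _ (.varS x hx h1 h2 h3); exact ⟨y, .var hy⟩
  | op γ σ h1 _ h3 _ _ _ ih _ _ =>
    obtain ⟨τ, hτ⟩ := hρ.exists_map h3 ih
    obtain ⟨y, hy⟩ := hR _ _ γ h1 τ
    exact ⟨y, .op τ hτ hy⟩

theorem Valid.ofGS {G : GS.{u}} (R : Str Γ Y) (f : GMap G Y) :
    Valid (Ctx.ofGS Γ.Op G) R (gr f.app) where
  func _ _ _ _ h h' := h.symm.trans h'
  law n x _ h := ⟨.var (h ▸ f.app_src n x), .var (h ▸ f.app_tgt n x)⟩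

end Valid

/-! ## Free algebras -/

/-- theories: well-formed signatures -/
structure Thy extends Sig.{u} where
  wf : toSig.WF

section Free

variable (Γ : Sig.{u}) (Δ : Ctx Γ.Op) (T : VSet Δ.Var)

/-- the globular set of well-formed terms -/
@[reducible] def frG : GS.{u} where
  cell n := {t : Tm Γ.Op Δ.Var n // OK Γ Δ T t}
  src _ t := ⟨rsrc Γ Δ t.1, t.2.src⟩
  tgt _ t := ⟨rtgt Γ Δ t.1, t.2.tgt⟩
  src_src _ t := Subtype.ext t.2.par.1
  tgt_tgt _ t := Subtype.ext t.2.par.2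

variable {Γ Δ T}

theorem frG_par : ∀ {n : ℕ} (s t : (frG Γ Δ T).cell n),
    (frG Γ Δ T).AreParallel n s t ↔ RPar Γ Δ n s.1 t.1
  | 0, _, _ => Iff.rfl
  | _ + 1, _, _ => ⟨fun h => ⟨congrArg Subtype.val h.1, congrArg Subtype.val h.2⟩,
      fun h => ⟨Subtype.ext h.1, Subtype.ext h.2⟩⟩

theorem glob_of_map {A : Tr} (τ : GMap (posG A) (frG Γ Δ T)) :
    Glob Γ Δ fun k p => (τ.app k p).1 := fun k p =>
  ⟨(congrArg Subtype.val (τ.app_src k p)).symm, (congrArg Subtype.val (τ.app_tgt k p)).symm⟩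

/-- a globular family of well-formed terms as a map -/
def mapOfGlob {A : Tr} (σ : ∀ k, Pos A k → Tm Γ.Op Δ.Var k) (h1 : ∀ k p, OK Γ Δ T (σ k p))
    (h2 : Glob Γ Δ σ) : GMap (posG A) (frG Γ Δ T) :=
  ⟨fun k p => ⟨σ k p, h1 k p⟩, fun k p => Subtype.ext (h2 k p).1.symm,
    fun k p => Subtype.ext (h2 k p).2.symm⟩

variable (Γ Δ T) in
def frOp : OpRel Γ.Op (frG Γ Δ T) :=
  fun _ _ γ τ y => y.1 = .op γ fun k p => (τ.app k p).1

theorem eval_fr {X : Vars.{u}} {ρ : Asg X (frG Γ Δ T)} {θ : ∀ n, X n → Tm Γ.Op Δ.Var n}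
    (hθ : ∀ n x (h : OK Γ Δ T (θ n x)), ρ n x ⟨θ n x, h⟩) :
    ∀ {n : ℕ} (t : Tm Γ.Op X n) (h : OK Γ Δ T (t.subst θ)),
      Eval (frOp Γ Δ T) ρ t ⟨t.subst θ, h⟩
  | _, .var x, h => .var (hθ _ x h)
  | _, .op _ σ, h => .op (mapOfGlob _ h.op_inv.2.1 h.op_inv.2.2)
      (fun k p => eval_fr hθ (σ k p) (h.op_inv.2.1 k p)) rfl

theorem eval_fr_val {X : Vars.{u}} {ρ : Asg X (frG Γ Δ T)} {θ : ∀ n, X n → Tm Γ.Op Δ.Var n}
    (hθ : ∀ n x y, ρ n x y → y.1 = θ n x) {n : ℕ} {t : Tm Γ.Op X n} {y : (frG Γ Δ T).cell n}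
    (h : Eval (frOp Γ Δ T) ρ t y) : y.1 = t.subst θ := by
  induction h with
  | var h => exact hθ _ _ _ h
  | op τ _ h2 ih =>
    rw [h2, Tm.subst_op]
    congr 1
    funext k p
    exact ih k p

variable (Γ Δ T) in
@[reducible] def frStr : Str Γ (frG Γ Δ T) where
  op := frOp Γ Δ T
  func _ _ _ _ _ _ h h' := Subtype.ext (h.trans h'.symm)
  law A n γ τ y h := by
    obtain ⟨y, hy⟩ := y
    have h' : y = .op γ fun k p => (τ.app k p).1 := h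
    subst h'
    exact ⟨eval_fr (θ := fun k p => (τ.app k p).1) (fun _ _ _ => rfl) _ hy.src,
      eval_fr (θ := fun k p => (τ.app k p).1) (fun _ _ _ => rfl) _ hy.tgt⟩

end Free

section FreeAlg

variable (D : Thy.{u}) (Δ : Ctx D.Op) (T : VSet Δ.Var)

/-- the free algebra on the well-formed part of `(Δ, T)` -/
@[reducible] def Fr : Alg D.toSig where
  G := frG D.toSig Δ T
  str := frStr D.toSig Δ T
  total _ _ _ hγ τ := ⟨⟨_, D.wf.op hγ (fun k p => (τ.app k p).2) (glob_of_map τ)⟩, rfl⟩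
  act _ _ _ _ y h := by
    have := y.2
    rw [show y.1 = _ from h] at this
    exact this.op_inv.1

variable {D Δ T}

/-- a well-formed variable as a cell of the free algebra -/
abbrev fv {n : ℕ} (x : Δ.Var n) (h : OK D.toSig Δ T (.var x)) : (Fr D Δ T).G.cell n := ⟨.var x, h⟩

/-- an operation applied to a map, as a cell of the free algebra -/
def fop {A : Tr} {n : ℕ} (γ : D.Op A n) (hγ : D.ok γ) (τ : GMap (posG A) (Fr D Δ T).G) :
    (Fr D Δ T).G.cell (n + 1) :=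
  ⟨.op γ fun k p => (τ.app k p).1, D.wf.op hγ (fun k p => (τ.app k p).2) (glob_of_map τ)⟩

theorem fop_op {A : Tr} {n : ℕ} (γ : D.Op A n) (hγ : D.ok γ) (τ : GMap (posG A) (Fr D Δ T).G) :
    (Fr D Δ T).str.op A n γ τ (fop γ hγ τ) := rfl

/-- the tautological assignment -/
def frAsg : Asg Δ.Var (Fr D Δ T).G := fun _ x y => y.1 = .var x

theorem eval_self {n : ℕ} (t : (Fr D Δ T).G.cell n) : Eval (Fr D Δ T).str.op frAsg t.1 t := by
  obtain ⟨t, ht⟩ := t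
  have := eval_fr (Γ := D.toSig) (Δ := Δ) (T := T) (ρ := frAsg) (θ := fun _ x => .var x)
    (fun _ _ _ => rfl) t (by simpa using ht)
  simpa using this

variable {Y Z : Alg D.toSig}

/-- the assignment underlying a homomorphism out of a free algebra -/
def AHom.asg (f : AHom (Fr D Δ T) Y) : Asg Δ.Var Y.G :=
  fun n x y => ∃ h : OK D.toSig Δ T (.var x), f.map.app n (fv x h) = y

theorem AHom.eval (f : AHom (Fr D Δ T) Y) {n : ℕ} (t : (Fr D Δ T).G.cell n) :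
    Eval Y.str.op f.asg t.1 (f.map.app n t) := by
  refine Eval.map f.map f.hom ?_ (eval_self t)
  rintro k x ⟨y, hy⟩ h
  have h' : y = .var x := h
  subst h'
  exact ⟨hy, rfl⟩

theorem AHom.asg_valid (f : AHom (Fr D Δ T) Y) : Valid Δ Y.str f.asg where
  func := by
    rintro n x _ _ ⟨_, rfl⟩ ⟨_, rfl⟩; rfl
  law := by
    rintro n x _ ⟨h, rfl⟩
    rw [← f.map.app_src, ← f.map.app_tgt]
    exact ⟨f.eval ((Fr D Δ T).G.src n (fv x h)), f.eval ((Fr D Δ T).G.tgt n (fv x h))⟩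

theorem AHom.eq_of_eval (f : AHom (Fr D Δ T) Y) {ρ : Asg Δ.Var Y.G} (hρ : Valid Δ Y.str ρ)
    (hf : ∀ n x (h : OK D.toSig Δ T (.var x)), ρ n x (f.map.app n (fv x h))) {n : ℕ}
    {t : (Fr D Δ T).G.cell n} {y : Y.G.cell n} (h : Eval Y.str.op ρ t.1 y) : f.map.app n t = y := by
  refine hρ.uniq (Eval.mono (fun _ _ _ _ _ h => h) ?_ (f.eval t)) h
  rintro k x _ ⟨h, rfl⟩
  exact hf k x h

theorem fr_ext {f g : AHom (Fr D Δ T) Y}
    (h : ∀ n x (hx : OK D.toSig Δ T (.var x)), f.map.app n (fv x hx) = g.map.app n (fv x hx)) :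
    f = g := by
  ext1
  refine GMap.ext' fun n t => f.eq_of_eval g.asg_valid (fun k x hx => ⟨hx, (h k x hx).symm⟩) ?_
  exact g.eval t

/-- the homomorphism out of a free algebra given by a valid assignment -/
noncomputable def lift {ρ : Asg Δ.Var Y.G} (hρ : Valid Δ Y.str ρ)
    (hT : ∀ n x, OK D.toSig Δ T (.var x) → ∃ y, ρ n x y) : AHom (Fr D Δ T) Y where
  map :=
    { app := fun _ t => (hρ.total Y.total hT t.2).choose
      app_src := fun _ t => hρ.uniq (hρ.total Y.total hT t.2.src).choose_spec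
        (hρ.bdry (hρ.total Y.total hT t.2).choose_spec).1
      app_tgt := fun _ t => hρ.uniq (hρ.total Y.total hT t.2.tgt).choose_spec
        (hρ.bdry (hρ.total Y.total hT t.2).choose_spec).2 }
  hom := by
    rintro A n γ τ ⟨y, hy⟩ h
    have h' : y = .op γ fun k p => (τ.app k p).1 := h
    subst h'
    obtain ⟨τ', h1, h2⟩ := Eval.op_iff.1 (hρ.total Y.total hT hy).choose_spec
    convert h2
    exact GMap.ext' fun k p => hρ.uniq (hρ.total Y.total hT (τ.app k p).2).choose_spec (h1 k p)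

theorem lift_eval {ρ : Asg Δ.Var Y.G} (hρ : Valid Δ Y.str ρ)
    (hT : ∀ n x, OK D.toSig Δ T (.var x) → ∃ y, ρ n x y) {n : ℕ} (t : (Fr D Δ T).G.cell n) :
    Eval Y.str.op ρ t.1 ((lift hρ hT).map.app n t) :=
  (hρ.total Y.total hT t.2).choose_spec

theorem lift_var {ρ : Asg Δ.Var Y.G} (hρ : Valid Δ Y.str ρ)
    (hT : ∀ n x, OK D.toSig Δ T (.var x) → ∃ y, ρ n x y) {n : ℕ} (x : Δ.Var n)
    (h : OK D.toSig Δ T (.var x)) : ρ n x ((lift hρ hT).map.app n (fv x h)) :=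
  Eval.var_iff.1 (lift_eval hρ hT (fv x h))

theorem lift_eq {ρ : Asg Δ.Var Y.G} (hρ : Valid Δ Y.str ρ)
    (hT : ∀ n x, OK D.toSig Δ T (.var x) → ∃ y, ρ n x y) {n : ℕ} {t : (Fr D Δ T).G.cell n}
    {y : Y.G.cell n} (h : Eval Y.str.op ρ t.1 y) : (lift hρ hT).map.app n t = y :=
  hρ.uniq (lift_eval hρ hT t) h

variable {Δ' : Ctx D.Op} {T' : VSet Δ'.Var}

/-- a substitution as a homomorphism of free algebras -/
def frSub (θ : ∀ n, Δ.Var n → Tm D.Op Δ'.Var n) (hθ : BP D.toSig Δ Δ' T θ)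
    (hv : ∀ n x, OK D.toSig Δ T (.var x) → OK D.toSig Δ' T' (θ n x)) :
    AHom (Fr D Δ T) (Fr D Δ' T') where
  map :=
    { app := fun _ t => ⟨t.1.subst θ, t.2.subst hθ hv⟩
      app_src := fun _ t => Subtype.ext (rsrc_subst hθ t.2).symm
      app_tgt := fun _ t => Subtype.ext (rtgt_subst hθ t.2).symm }
  hom := by
    rintro A n γ τ ⟨y, hy⟩ h
    have h' : y = .op γ fun k p => (τ.app k p).1 := h
    subst h'
    rfl

/-- a renaming as a homomorphism of free algebras -/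
def frRen (r : ∀ n, Δ.Var n → Δ'.Var n) (hθ : BP D.toSig Δ Δ' T fun n x => .var (r n x))
    (hv : ∀ n x, OK D.toSig Δ T (.var x) → T' n (r n x)) : AHom (Fr D Δ T) (Fr D Δ' T') :=
  frSub _ hθ fun _ _ h => OK.ren hθ hv h

@[simp] theorem frSub_val (θ : ∀ n, Δ.Var n → Tm D.Op Δ'.Var n) (hθ : BP D.toSig Δ Δ' T θ)
    (hv : ∀ n x, OK D.toSig Δ T (.var x) → OK D.toSig Δ' T' (θ n x)) (n : ℕ)
    (t : (Fr D Δ T).G.cell n) : ((frSub θ hθ hv).map.app n t).1 = t.1.subst θ := rfl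

@[simp] theorem frRen_val (r : ∀ n, Δ.Var n → Δ'.Var n)
    (hθ : BP D.toSig Δ Δ' T fun n x => .var (r n x))
    (hv : ∀ n x, OK D.toSig Δ T (.var x) → T' n (r n x)) (n : ℕ)
    (t : (Fr D Δ T).G.cell n) : ((frRen r hθ hv).map.app n t).1 = t.1.ren r := rfl

/-- inclusion of free algebras on nested variable sets -/
def frIncl {T T' : VSet Δ.Var} (h : ∀ n x, OK D.toSig Δ T (.var x) → T' n x) :
    AHom (Fr D Δ T) (Fr D Δ T') where
  map := ⟨fun _ t => ⟨t.1, t.2.mono' h⟩, fun _ _ => rfl, fun _ _ => rfl⟩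
  hom _ _ _ _ _ h := h

@[simp] theorem frIncl_val {T T' : VSet Δ.Var} (h : ∀ n x, OK D.toSig Δ T (.var x) → T' n x)
    (n : ℕ) (t : (Fr D Δ T).G.cell n) : ((frIncl h).map.app n t).1 = t.1 := rfl

theorem frIncl_inj {T T' : VSet Δ.Var} (h : ∀ n x, OK D.toSig Δ T (.var x) → T' n x) (n : ℕ) :
    Function.Injective ((frIncl h).map.app n) := fun _ _ e =>
  Subtype.ext (congrArg Subtype.val e :)

/-- a renaming which is injective and onto on well-formed variables is bijective on terms -/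
theorem frRen_bij (r : ∀ n, Δ.Var n → Δ'.Var n) (hθ : BP D.toSig Δ Δ' T fun n x => .var (r n x))
    (hv : ∀ n x, OK D.toSig Δ T (.var x) → T' n (r n x))
    (hi : ∀ n x y, OK D.toSig Δ T (.var x) → OK D.toSig Δ T (.var y) → r n x = r n y → x = y)
    (hs : ∀ n x', OK D.toSig Δ' T' (.var x') → ∃ x, OK D.toSig Δ T (.var x) ∧ r n x = x') (n : ℕ) :
    Function.Bijective ((frRen r hθ hv).map.app n) := by
  refine ⟨fun s t h => Subtype.ext (Tm.ren_inj hi s.2 t.2 (congrArg Subtype.val h)), ?_⟩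
  have key : ∀ {n : ℕ} {t' : Tm D.Op Δ'.Var n}, OK D.toSig Δ' T' t' →
      ∃ t, OK D.toSig Δ T t ∧ t.ren r = t' := by
    intro n t' h
    induction h with
    | var0 x hx => obtain ⟨x, h1, rfl⟩ := hs _ _ (.var0 x hx); exact ⟨.var x, h1, rfl⟩
    | varS x hx h1 h2 h3 _ _ =>
      obtain ⟨y, h4, h5⟩ := hs _ _ (.varS x hx h1 h2 h3); exact ⟨.var y, h4, congrArg Tm.var h5⟩
    | op γ σ h1 _ h3 _ _ _ ih _ _ =>
      choose f hf1 hf2 using ih
      refine ⟨.op γ f, D.wf.op h1 hf1 fun k p => ⟨?_, ?_⟩, ?_⟩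
      · refine Tm.ren_inj hi (hf1 _ p).src (hf1 _ _) ?_
        rw [Tm.ren, ← rsrc_subst hθ (hf1 _ p), hf2]
        exact (congrArg _ (hf2 _ p)).trans (h3 k p).1
      · refine Tm.ren_inj hi (hf1 _ p).tgt (hf1 _ _) ?_
        rw [Tm.ren, ← rtgt_subst hθ (hf1 _ p), hf2]
        exact (congrArg _ (hf2 _ p)).trans (h3 k p).2
      · simp only [Tm.ren, Tm.subst_op]
        congr 1
        funext k p
        exact hf2 k p
  rintro ⟨t', ht'⟩
  obtain ⟨t, h1, rfl⟩ := key ht'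
  exact ⟨⟨t, h1⟩, rfl⟩

/-! ### Free algebras on globular sets -/

variable (D) in
/-- the free algebra on a globular set -/
abbrev FrG (G : GS.{u}) : Alg D.toSig := Fr D (Ctx.ofGS D.Op G) ⊤

variable (D) in
/-- the free algebra on a tree -/
abbrev FrT (A : Tr) : Alg D.toSig := FrG D (posG A)

variable (D) in
/-- insertion of generators -/
def η (G : GS.{u}) : GMap G (FrG D G).G :=
  ⟨fun n x => fv x (OK.ofGS_top G n x), fun _ _ => rfl, fun _ _ => rfl⟩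

@[simp] theorem η_val (G : GS.{u}) (n : ℕ) (x : G.cell n) : ((η D G).app n x).1 = .var x := rfl

/-- extension of a globular map to the free algebra -/
noncomputable def ext {G : GS.{u}} (f : GMap G Y.G) : AHom (FrG D G) Y :=
  lift (Valid.ofGS Y.str f) fun n x _ => ⟨f.app n x, rfl⟩

theorem ext_eval {G : GS.{u}} (f : GMap G Y.G) {n : ℕ} (t : (FrG D G).G.cell n) :
    Eval Y.str.op (gr f.app) t.1 ((ext f).map.app n t) := lift_eval _ _ t

theorem ext_eq {G : GS.{u}} (f : GMap G Y.G) {n : ℕ} {t : (FrG D G).G.cell n} {y : Y.G.cell n}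
    (h : Eval Y.str.op (gr f.app) t.1 y) : (ext f).map.app n t = y := lift_eq _ _ h

@[simp] theorem ext_η_app {G : GS.{u}} (f : GMap G Y.G) (n : ℕ) (x : G.cell n) :
    (ext f).map.app n ((η D G).app n x) = f.app n x := ext_eq f (.var rfl)

@[simp] theorem η_ext {G : GS.{u}} (f : GMap G Y.G) : (η D G).comp (ext f).map = f :=
  GMap.ext' fun n x => ext_η_app f n x

theorem frG_ext {G : GS.{u}} {f g : AHom (FrG D G) Y}
    (h : (η D G).comp f.map = (η D G).comp g.map) : f = g :=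
  fr_ext fun n x _ => congrArg (fun φ : GMap G Y.G => φ.app n x) h

theorem ext_comp {G : GS.{u}} (f : GMap G Y.G) (g : AHom Y Z) :
    (ext f).comp g = ext (f.comp g.map) :=
  frG_ext (by rw [AHom.comp_map, ← GMap.comp_assoc, η_ext, η_ext])

@[simp] theorem ext_η (G : GS.{u}) : ext (η D G) = AHom.id (FrG D G) := frG_ext (by simp)

theorem eq_ext {G : GS.{u}} (f : AHom (FrG D G) Y) : f = ext ((η D G).comp f.map) :=
  frG_ext (by simp)

theorem ext_val {G : GS.{u}} (f : GMap G (Fr D Δ T).G) {n : ℕ} (t : (FrG D G).G.cell n) :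
    ((ext f).map.app n t).1 = t.1.subst fun k x => (f.app k x).1 :=
  eval_fr_val (fun _ _ _ h => by rw [← h]) (ext_eval f t)

theorem AHom.app_fop {A : Tr} {n : ℕ} (f : AHom (Fr D Δ T) Y) (γ : D.Op A n) (hγ : D.ok γ)
    (τ : GMap (posG A) (Fr D Δ T).G) :
    Y.str.op A n γ (τ.comp f.map) (f.map.app _ (fop γ hγ τ)) := f.hom _ _ _ _ _ (fop_op γ hγ τ)

/-- the value of an operation is the image of the generic application -/
theorem op_iff_ext {A : Tr} {n : ℕ} {γ : D.Op A n} (hγ : D.ok γ) (τ : GMap (posG A) Y.G)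
    (y : Y.G.cell (n + 1)) :
    Y.str.op A n γ τ y ↔ (ext τ).map.app _ (fop γ hγ (η D _)) = y := by
  have h := (ext τ).app_fop γ hγ (η D _)
  rw [η_ext] at h
  exact ⟨fun h' => Y.str.func _ _ _ _ _ _ h h', fun h' => h' ▸ h⟩

end FreeAlg

/-! ## Terminal algebra and products -/

@[reducible] def unitG : GS.{u} := ⟨fun _ => PUnit, fun _ _ => ⟨⟩, fun _ _ => ⟨⟩, fun _ _ => rfl, fun _ _ => rfl⟩

def toUnit (Y : GS.{u}) : GMap Y unitG := ⟨fun _ _ => ⟨⟩, fun _ _ => rfl, fun _ _ => rfl⟩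

theorem eval_unit {Γ : Sig.{u}} {Δ : Ctx Γ.Op} {T : VSet Δ.Var} {ρ : Asg Δ.Var unitG}
    (hρ : ∀ n x y, ρ n x y) {n : ℕ} {t : Tm Γ.Op Δ.Var n} (h : OK Γ Δ T t) (y : unitG.cell n) :
    Eval (O := Γ.Op) (Y := unitG) (fun _ _ γ _ _ => Γ.ok γ) ρ t y := by
  induction h with
  | var0 x _ => exact .var (hρ _ _ _)
  | varS x _ _ _ _ _ _ => exact .var (hρ _ _ _)
  | op γ σ h1 _ _ _ _ _ ih _ _ => exact .op (toUnit _) (fun k p => ih k p _) h1

@[reducible] def unitAlg (D : Thy.{u}) : Alg D.toSig where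
  G := unitG
  str :=
    { op := fun _ _ γ _ _ => D.ok γ
      func := fun _ _ _ _ _ _ _ _ => rfl
      law := fun _ _ _ _ _ h => ⟨eval_unit (fun _ _ _ => rfl) (D.wf.src h) _,
        eval_unit (fun _ _ _ => rfl) (D.wf.tgt h) _⟩ }
  total _ _ _ h _ := ⟨⟨⟩, h⟩
  act _ _ _ _ _ h := h

def toUnitA {D : Thy.{u}} (Y : Alg D.toSig) : AHom Y (unitAlg D) :=
  ⟨toUnit _, fun _ _ _ _ _ h => Y.act _ _ _ _ _ h⟩

theorem ILift_unit_iff {Y : GS.{u}} {n : ℕ} :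
    ILift (toUnit Y) n ↔ ∀ s : Y.Sphere n, ∃ x, Y.bdry n x = s := by
  constructor
  · intro h s
    obtain ⟨x, hx, -⟩ := h s ⟨⟩ (by cases n <;> rfl)
    exact ⟨x, hx⟩
  · intro h s _ _
    obtain ⟨x, hx⟩ := h s
    exact ⟨x, hx, rfl⟩

theorem W_unit_iff {Y : GS.{u}} {L : ℕ} : W L (toUnit Y) ↔ Conn L Y := by
  constructor
  · intro h n hn s
    obtain ⟨x, hx, -⟩ := h n hn s ⟨⟩ (by cases n <;> rfl)
    exact ⟨x, hx⟩
  · intro h n hn s _ _
    obtain ⟨x, hx⟩ := h n hn s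
    exact ⟨x, hx, ⟨⟩, rfl, rfl⟩

@[reducible] def prodG (X Y : GS.{u}) : GS.{u} where
  cell n := X.cell n × Y.cell n
  src n c := (X.src n c.1, Y.src n c.2)
  tgt n c := (X.tgt n c.1, Y.tgt n c.2)
  src_src n c := Prod.ext (X.src_src n c.1) (Y.src_src n c.2)
  tgt_tgt n c := Prod.ext (X.tgt_tgt n c.1) (Y.tgt_tgt n c.2)

def fstG (X Y : GS.{u}) : GMap (prodG X Y) X := ⟨fun _ c => c.1, fun _ _ => rfl, fun _ _ => rfl⟩
def sndG (X Y : GS.{u}) : GMap (prodG X Y) Y := ⟨fun _ c => c.2, fun _ _ => rfl, fun _ _ => rfl⟩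
def pairG {X Y Z : GS.{u}} (f : GMap Z X) (g : GMap Z Y) : GMap Z (prodG X Y) :=
  ⟨fun n z => (f.app n z, g.app n z), fun n z => Prod.ext (f.app_src n z) (g.app_src n z),
    fun n z => Prod.ext (f.app_tgt n z) (g.app_tgt n z)⟩

theorem eval_prod {O : OpFam.{u}} {X Y : GS.{u}} {R : OpRel O X} {R' : OpRel O Y} {V : Vars.{u}}
    {ρ : Asg V X} {ρ' : Asg V Y} {ρ'' : Asg V (prodG X Y)}
    (hρ : ∀ n v x y, ρ n v x → ρ' n v y → ρ'' n v (x, y)) {n : ℕ} {t : Tm O V n} {x : X.cell n}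
    {y : Y.cell n} (h : Eval R ρ t x) (h' : Eval R' ρ' t y) :
    Eval (Y := prodG X Y)
      (fun A n γ τ c => R A n γ (τ.comp (fstG X Y)) c.1 ∧ R' A n γ (τ.comp (sndG X Y)) c.2)
      ρ'' t (x, y) := by
  induction h with
  | var h => exact .var (hρ _ _ _ _ h (Eval.var_iff.1 h'))
  | op τ _ h2 ih =>
    obtain ⟨τ', h3, h4⟩ := Eval.op_iff.1 h'
    exact .op (pairG τ τ') (fun k p => ih k p (h3 k p)) ⟨h2, h4⟩

@[reducible] def prodAlg {Γ : Sig.{u}} (X Y : Alg Γ) : Alg Γ where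
  G := prodG X.G Y.G
  str :=
    { op := fun A n γ τ c =>
        X.str.op A n γ (τ.comp (fstG _ _)) c.1 ∧ Y.str.op A n γ (τ.comp (sndG _ _)) c.2
      func := fun _ _ _ _ _ _ h h' =>
        Prod.ext (X.str.func _ _ _ _ _ _ h.1 h'.1) (Y.str.func _ _ _ _ _ _ h.2 h'.2)
      law := fun _ _ _ _ _ h =>
        ⟨eval_prod (fun _ _ _ _ h h' => Prod.ext h h') (X.str.law _ _ _ _ _ h.1).1
          (Y.str.law _ _ _ _ _ h.2).1,
        eval_prod (fun _ _ _ _ h h' => Prod.ext h h') (X.str.law _ _ _ _ _ h.1).2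
          (Y.str.law _ _ _ _ _ h.2).2⟩ }
  total A n γ h τ := by
    obtain ⟨x, hx⟩ := X.total A n γ h (τ.comp (fstG _ _))
    obtain ⟨y, hy⟩ := Y.total A n γ h (τ.comp (sndG _ _))
    exact ⟨(x, y), hx, hy⟩
  act _ _ _ _ _ h := X.act _ _ _ _ _ h.1

def fstA {Γ : Sig.{u}} (X Y : Alg Γ) : AHom (prodAlg X Y) X := ⟨fstG _ _, fun _ _ _ _ _ h => h.1⟩
def sndA {Γ : Sig.{u}} (X Y : Alg Γ) : AHom (prodAlg X Y) Y := ⟨sndG _ _, fun _ _ _ _ _ h => h.2⟩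
def pairA {Γ : Sig.{u}} {X Y Z : Alg Γ} (f : AHom Z X) (g : AHom Z Y) : AHom Z (prodAlg X Y) :=
  ⟨pairG f.map g.map, fun _ _ _ _ _ h => ⟨f.hom _ _ _ _ _ h, g.hom _ _ _ _ _ h⟩⟩

end Crest.Agent.R248
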