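import Crest.Agent.R248.StepEx
import Crest.Agent.R248.Next
import Crest.Agent.R248.PathExt
import Crest.Agent.R248.PathArg
import Crest.Agent.R248.Path0
import Crest.Agent.R248.Interp
import Crest.Agent.R248.Cyl

/-!
# Row 248: the tower of stages, path objects for the algebras of a coherator, the main induction.
-/

set_option autoImplicit false

namespace Crest.Agent.R248

open Crest.GeometryTopology.Coherator Tr

universe u

variable {D : Coh.{u}} {L : ℕ}

/-- a chosen step -/
noncomputable def Stage.step (T : Stage D) : Step T := (exists_step T).some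

/-- the chosen next stage -/
@[reducible] noncomputable def Stage.succ (T : Stage D) : Stage D :=
  T.step.next T.step.exists_fgt.choose

theorem Stage.HasPath.succ (hP : PJ D.toThy L) {T : Stage D} (h : T.HasPath L) :
    T.succ.HasPath L := by
  intro X
  obtain ⟨Q, s, hs⟩ := h (X.res T.step.e)
  obtain ⟨s', -, -, hs'⟩ := T.step.path_ext hP (Stage.hi_of_path hP h) Q _ X.astr rfl s hs
  exact ⟨Q, s', hs'⟩

/-- the tower of stages -/
noncomputable def Stage.tower (T : Stage D) : ℕ → Stage D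
  | 0 => T
  | s + 1 => (tower T s).succ

theorem Stage.tower_hasPath (hP : PJ D.toThy L) {T : Stage D} (h : T.HasPath L) :
    ∀ s, (T.tower s).HasPath L
  | 0 => h
  | s + 1 => (tower_hasPath hP h s).succ hP

/-- the tower of theories -/
noncomputable def Stage.thyTower (T : Stage D) : ThyTower D where
  Γ s := (T.tower s).Γ
  e s := (T.tower s).step.e
  dst s W := ((T.tower s).F.st W).str
  total s W := ((T.tower s).F.st W).total
  act s W := ((T.tower s).F.st W).act
  nat s _ _ f := (T.tower s).F.nat f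
  compat s W := by
    rw [← (T.tower s).step.exists_fgt.choose_spec.1 W]
    exact fun _ _ _ _ _ h => h
  fill s A n := (T.tower s).step.exists_fgt.choose_spec.2 A n

/-- algebras of a coherator have path objects in the hom direction -/
theorem exists_pathA (hP : PJ D.toThy L) (X : Alg D.toSig) :
    ∃ (Q : PathG L X.G) (_ : PathA Q X.astr), ∀ y y', W L (homMap Q.d y y' _ _ rfl rfl) := by
  obtain ⟨T, hT⟩ := exists_stage0 D L
  obtain ⟨Q, s0, hs0⟩ := hT (T.F.alg X)
  have key : ∀ r (s : {s : PathA Q (((T.tower r).F.st X)) //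
      s.Cell (D := D.toThy) (T.tower r).S}),
      ∃ s' : {s : PathA Q (((T.tower (r + 1)).F.st X)) //
        s.Cell (D := D.toThy) (T.tower (r + 1)).S},
        s'.1.RY.res (T.tower r).step.e = s.1.RY ∧ s'.1.RZ.res (T.tower r).step.e = s.1.RZ := by
    intro r s
    obtain ⟨s', h1, h2, h3⟩ := (T.tower r).step.path_ext hP
      (Stage.hi_of_path hP (Stage.tower_hasPath hP hT r)) Q _ _
      ((T.tower r).step.exists_fgt.choose_spec.1 X) s.1 s.2
    exact ⟨⟨s', h3⟩, h1, h2⟩
  choose nx hnx using key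
  let s : ∀ r, {s : PathA Q (((T.tower r).F.st X)) // s.Cell (D := D.toThy) (T.tower r).S} :=
    fun r => Nat.rec ⟨s0, hs0⟩ nx r
  let SY : T.thyTower.Seq Q.Y := ⟨fun r => (s r).1.RY.str, fun r => (s r).1.RY.total,
    fun r => (s r).1.RY.act, fun r => by
      rw [← (hnx r (s r)).1]; exact fun _ _ _ _ _ h => h⟩
  let SZ : T.thyTower.Seq Q.Z := ⟨fun r => (s r).1.RZ.str, fun r => (s r).1.RZ.total,
    fun r => (s r).1.RZ.act, fun r => by
      rw [← (hnx r (s r)).2]; exact fun _ _ _ _ _ h => h⟩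
  obtain ⟨R, h1, h2, h3⟩ := T.thyTower.exists_interp
  exact ⟨Q, ⟨⟨R _ SY, (h1 _ SY).1, (h1 _ SY).2⟩, ⟨R _ SZ, (h1 _ SZ).1, (h1 _ SZ).2⟩,
    h3 _ SY X Q.q fun r => (s r).1.q_hom, h2 _ _ SY SZ Q.d fun r => (s r).1.d_hom,
    h2 _ _ SZ SY Q.p0 fun r => (s r).1.p0_hom, h2 _ _ SZ SY Q.p1 fun r => (s r).1.p1_hom⟩,
    fun y y' => (hs0 y y' _ _ rfl rfl).W hP⟩

theorem PJ1_succ (hP : PJ D.toThy L) : PJ1 D.toThy (L + 1) := by
  intro Δ U U' J h1 h2 n hn
  cases n with
  | zero =>
    refine WLift.of_zero fun ⟨y, hy⟩ => ?_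
    obtain ⟨x, rfl⟩ := OK.zero_var y
    have hx : U 0 x := by
      by_contra hU
      rcases J.cases_new hy.mem hU with h | ⟨k, h⟩ | h
      · exact h1 _ _ h
      · exact absurd (h2 _ _ _ h) (by omega)
      · exact h
    exact ⟨⟨.var x, .var0 x hx⟩, step_refl (Fr D.toThy Δ U') _⟩
  | succ n =>
    obtain ⟨Q, s, hd⟩ := exists_pathA hP (Fr D.toThy Δ U')
    exact path_arg D.homStr J h1 h2 Q s hd n (by omega)

theorem PJ_all (D : Coh.{u}) : ∀ L, PJ D.toThy L
  | 0 => fun _ _ _ _ _ => W_zero _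
  | L + 1 => (exists_cylObj D L (PJ1_succ (PJ_all D L))).elim fun K =>
      PJ_succ D L K (PJ_all D L) (PJ1_succ (PJ_all D L))

end Crest.Agent.R248
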