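import Crest.Agent.R248.JExt

/-!
# Row 248: the positions of a tree are obtained from the first vertex by adding pairs.
-/

set_option autoImplicit false

namespace Crest.Agent.R248

open Crest.GeometryTopology.Coherator

universe u

namespace Pos

/-- the stage of a position -/
def st : {A : Tr} → {n : ℕ} → Pos.{u} A n → ℕ
  | _, _, vtx i => i
  | _, _, br l p => l + 1 + st p

/-- pairs of positions `(x, h)` with `h` ending at `x` -/
inductive Pair : {A : Tr} → {n : ℕ} → Pos.{u} A n → Pos.{u} A (n + 1) → Prop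
  | vtx {m : ℕ} {ch : Fin m → Tr} (l : Fin m) :
      Pair (Pos.vtx (ch := ch) l.succ) (Pos.br l (v0 (ch l)))
  | br {m : ℕ} {ch : Fin m → Tr} (l : Fin m) {n : ℕ} {x : Pos (ch l) n} {h : Pos (ch l) (n + 1)} :
      Pair x h → Pair (Pos.br l x) (Pos.br l h)

/-- the first vertex as a predicate -/
def IsV0 {A : Tr} (n : ℕ) (p : Pos.{u} A n) : Prop := (⟨n, p⟩ : Σ n, Pos A n) = ⟨0, v0 A⟩

theorem isV0_v0 (A : Tr) : IsV0 0 (v0.{u} A) := rfl

theorem IsV0.eq {A : Tr} {p : Pos.{u} A 0} (h : IsV0 0 p) : p = v0 A := by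
  cases h; rfl

theorem IsV0.dim {A : Tr} {n : ℕ} {p : Pos.{u} A n} (h : IsV0 n p) : n = 0 :=
  congrArg Sigma.fst h

@[simp] theorem st_v0 : ∀ A : Tr, st (v0.{u} A) = 0
  | .node _ _ => rfl

theorem Pair.tgt {A : Tr} {n : ℕ} {x : Pos.{u} A n} {h : Pos A (n + 1)} (hp : Pair x h) :
    Pos.tgt h = x := by
  induction hp with
  | vtx l => rfl
  | br l _ ih => exact congrArg (Pos.br l) ih

theorem Pair.st_eq {A : Tr} {n : ℕ} {x : Pos.{u} A n} {h : Pos A (n + 1)} (hp : Pair x h) :
    st h = st x := by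
  induction hp with
  | vtx l => simp [st]
  | br l _ ih => simp only [st, ih]

theorem Pair.not_v0 {A : Tr} {n : ℕ} {x : Pos.{u} A n} {h : Pos A (n + 1)} (hp : Pair x h) :
    ¬IsV0 n x := by
  cases hp with
  | vtx l => intro e; have := congrArg st e.eq; simp [st] at this
  | br l _ => intro e; cases e.dim

theorem Pair.st_src {A : Tr} {n : ℕ} {x : Pos.{u} A n} {h : Pos A (n + 1)} (hp : Pair x h) :
    st (Pos.src h) < st x := by
  induction hp with
  | vtx l => simp [st, Pos.src]
  | br l _ ih => simp only [st, Pos.src]; omega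

theorem Pair.uniq {A : Tr} {n : ℕ} {x : Pos.{u} A n} {h h' : Pos A (n + 1)} (hp : Pair x h)
    (hp' : Pair x h') : h = h' := by
  induction hp with
  | vtx l =>
    generalize hx : Pos.vtx l.succ = x at hp'
    cases hp' with
    | vtx l' =>
      obtain rfl : l = l' := Fin.succ_injective _ (by simpa using hx)
      rfl
  | br l _ ih =>
    cases hp' with
    | br _ hq => rw [ih hq]

theorem Pair.not_both {A : Tr} {n : ℕ} {x : Pos.{u} A n} {h : Pos A (n + 1)} (hp : Pair x h)
    {k : Pos A (n + 2)} : ¬Pair h k := by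
  induction hp with
  | vtx l =>
    intro hq
    cases hq with
    | br _ hq => exact hq.not_v0 (isV0_v0 _)
  | br l _ ih =>
    intro hq
    cases hq with
    | br _ hq => exact ih hq

theorem cases_pair : ∀ {A : Tr} {n : ℕ} (p : Pos.{u} A n),
    IsV0 n p ∨ (∃ h, Pair p h) ∨ IsJc (X := Pos A) (fun _ x h => Pair x h) n p
  | .node _ _, _, vtx i => by
    refine Fin.cases (Or.inl rfl) (fun l => Or.inr (Or.inl ⟨_, Pair.vtx l⟩)) i
  | .node _ _, _, br l p => by
    rcases cases_pair p with h | ⟨h, hp⟩ | h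
    · cases h.dim
      obtain rfl := h.eq
      exact Or.inr (Or.inr ⟨_, Pair.vtx l⟩)
    · exact Or.inr (Or.inl ⟨_, Pair.br l hp⟩)
    · rename_i n
      cases n with
      | zero => exact h.elim
      | succ n => obtain ⟨x, hx⟩ := h; exact Or.inr (Or.inr ⟨_, Pair.br l hx⟩)

theorem st_src_le : ∀ {A : Tr} {n : ℕ} (p : Pos.{u} A (n + 1)), st (src p) ≤ st p
  | _, 0, br l p => by simp only [src, st, Fin.val_castSucc]; omega
  | _, _ + 1, br l p => by have := st_src_le p; simp only [src, st]; omega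

theorem st_tgt_le : ∀ {A : Tr} {n : ℕ} (p : Pos.{u} A (n + 1)), st (tgt p) ≤ st p
  | _, 0, br l p => by simp only [tgt, st, Fin.val_succ]; omega
  | _, _ + 1, br l p => by have := st_tgt_le p; simp only [tgt, st]; omega

end Pos

/-- the positions of a tree as an extension by pairs of the first vertex -/
def treeJ (Γ : Sig.{u}) (A : Tr) : JExt Γ (Ctx.ofGS Γ.Op (posG A)) Pos.IsV0 ⊤ where
  st _ p := Pos.st p
  pair _ x h := Pos.Pair x h
  sub _ _ _ := trivial
  closed n p hp := by
    cases hp.dim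
    exact .var0 (Δ := Ctx.ofGS Γ.Op (posG A)) p hp
  pair_uniq _ _ _ _ a b := a.uniq b
  pair_new _ _ _ a := ⟨trivial, a.not_v0, trivial, fun e => by cases e.dim⟩
  pair_st _ _ _ a := a.st_eq
  pair_not _ _ _ _ a := a.not_both
  pair_tgt _ _ _ a := congrArg Tm.var a.tgt
  pair_src _ x h a := (OK.ofGS_var (posG A) (T := fun _ y => Pos.st y < Pos.st x)
    (fun _ y hy => ⟨(Pos.st_src_le y).trans_lt hy, (Pos.st_tgt_le y).trans_lt hy⟩) _ _
      a.st_src).mono fun _ _ hy => Or.inr ⟨trivial, hy⟩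
  pair_par n x h a := by
    have := par_src_tgt (X := posG A) n h
    rw [show (posG A).tgt n h = x from a.tgt] at this
    cases n with
    | zero => trivial
    | succ n => exact ⟨congrArg Tm.var this.1, congrArg Tm.var this.2⟩
  icell n x _ h1 h2 h3 := by
    rcases Pos.cases_pair x with h | h | h
    · exact absurd h h1
    · exact absurd h h2
    · exact absurd h h3

theorem treeJ_noI (Γ : Sig.{u}) (A : Tr) : (treeJ Γ A).NoI := by
  rintro n x ⟨-, h1, h2, h3⟩
  rcases Pos.cases_pair x with h | h | h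
  · exact h1 h
  · exact h2 h
  · exact h3 h

/-- extensions by pairs of positive dimension are in `W L` -/
def PJ1 (D : Thy.{u}) (L : ℕ) : Prop :=
  ∀ (Δ : Ctx D.Op) (U U' : VSet Δ.Var) (J : JExt D.toSig Δ U U'), J.NoI → J.Pos1 →
    W L (frIncl (D := D) J.sub').map

end Crest.Agent.R248
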