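import Crest.Agent.R248.TreeJ
import Crest.Agent.R248.Homotopy

/-!
# Row 248: inclusions of free algebras which are equivalences; small categories and functorial
contexts.
-/

set_option autoImplicit false

namespace Crest.Agent.R248

open Crest.GeometryTopology.Coherator

universe u

/-! ## Inverses of bijective homomorphisms -/

section Inv

variable {Γ : Sig.{u}} {X Y Z : Alg Γ}

theorem AHom.comp_assoc {V : Alg Γ} (f : AHom X Y) (g : AHom Y Z) (h : AHom Z V) :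
    (f.comp g).comp h = f.comp (g.comp h) := rfl

@[simp] theorem AHom.id_comp (f : AHom X Y) : (AHom.id X).comp f = f := rfl
@[simp] theorem AHom.comp_id (f : AHom X Y) : f.comp (AHom.id Y) = f := rfl

theorem AHom.app_eq {f g : AHom X Y} (h : f = g) (n : ℕ) (x : X.G.cell n) :
    f.map.app n x = g.map.app n x := by rw [h]

theorem AHom.ext' {f g : AHom X Y} (h : ∀ n x, f.map.app n x = g.map.app n x) : f = g :=
  AHom.ext (GMap.ext' h)

theorem GMap.exists_inv {X Y : GS.{u}} (f : GMap X Y) (hf : ∀ n, Function.Bijective (f.app n)) :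
    ∃ g : GMap Y X, f.comp g = GMap.id X ∧ g.comp f = GMap.id Y := by
  choose g hg using fun n y => (hf n).2 y
  refine ⟨⟨g, fun n y => (hf n).1 ?_, fun n y => (hf n).1 ?_⟩,
    GMap.ext' fun n x => (hf n).1 (hg n _), GMap.ext' hg⟩
  · rw [hg, f.app_src, hg]
  · rw [hg, f.app_tgt, hg]

theorem AHom.exists_inv (f : AHom X Y) (hf : ∀ n, Function.Bijective (f.map.app n)) :
    ∃ g : AHom Y X, f.comp g = AHom.id X ∧ g.comp f = AHom.id Y := by
  obtain ⟨g, h1, h2⟩ := f.map.exists_inv hf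
  refine ⟨⟨g, fun A n γ τ y h => ?_⟩, AHom.ext h1, AHom.ext h2⟩
  obtain ⟨x, hx⟩ := X.total A n γ (Y.act _ _ _ _ _ h) (τ.comp g)
  have := f.hom _ _ _ _ _ hx
  rw [GMap.comp_assoc, h2, GMap.comp_id] at this
  rw [← Y.str.func _ _ _ _ _ _ this h, ← GMap.comp_app, h1]
  exact hx

end Inv

/-- fibrations of level `L` -/
def Fib (L : ℕ) {X Y : GS.{u}} (p : GMap X Y) : Prop :=
  (∀ n, n < L → JLift p n) ∧ ∀ n, L ≤ n → ILift p n

theorem Fib.tfib {L : ℕ} {X Y : GS.{u}} {p : GMap X Y} (h : Fib L p) (hw : W L p) : TFib p :=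
  fun n => (lt_or_ge n L).elim (fun hn => ILift.of_W_JLift (hw n hn) (h.1 n hn)) (h.2 n)

theorem Fib.zero {X Y : GS.{u}} {p : GMap X Y} (h : Fib 0 p) : TFib p :=
  fun n => h.2 n (Nat.zero_le n)

theorem TFib.fib {X Y : GS.{u}} {p : GMap X Y} (h : TFib p) (L : ℕ) : Fib L p :=
  ⟨fun n _ => JLift.of_ILift (h n) (h (n + 1)), fun n _ => h n⟩

theorem JLift.comp {X Y Z : GS.{u}} {f : GMap X Y} {g : GMap Y Z} {n : ℕ} (hf : JLift f n)
    (hg : JLift g n) : JLift (f.comp g) n := by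
  intro a w hw
  obtain ⟨y, h1, rfl⟩ := hg (f.app n a) w hw
  obtain ⟨x, h2, rfl⟩ := hf a y h1
  exact ⟨x, h2, rfl⟩

theorem Fib.comp {L : ℕ} {X Y Z : GS.{u}} {f : GMap X Y} {g : GMap Y Z} (hf : Fib L f)
    (hg : Fib L g) : Fib L (f.comp g) :=
  ⟨fun n hn => (hf.1 n hn).comp (hg.1 n hn), fun n hn => (hf.2 n hn).comp (hg.2 n hn)⟩

theorem Fib.jlift {L : ℕ} {X Y : GS.{u}} {p : GMap X Y} (h : Fib L p) (n : ℕ) : JLift p n :=
  (lt_or_ge n L).elim (h.1 n) fun hn => JLift.of_ILift (h.2 n hn) (h.2 _ (by omega))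

/-! ## Inclusions in `W L` -/

/-- the inclusion of free algebras on `U ⊆ U'` is in `W L` -/
def WI (D : Thy.{u}) (L : ℕ) (Δ : Ctx D.Op) (U U' : VSet Δ.Var) : Prop :=
  ∃ h : ∀ n x, OK D.toSig Δ U (.var x) → U' n x, W L (frIncl (D := D) h).map

namespace WI

variable {D : Coh.{u}} {L : ℕ} {Δ : Ctx D.Op} {U U' U'' : VSet Δ.Var}

theorem W' (h : WI D.toThy L Δ U U') (h' : ∀ n x, OK D.toSig Δ U (.var x) → U' n x) :
    W L (frIncl (D := D.toThy) h').map := h.2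

theorem of_eqv (h : ∀ n x, OK D.toSig Δ U (.var x) → U' n x)
    (h' : ∀ n x, OK D.toSig Δ U' (.var x) → U n x) : WI D.toThy L Δ U U' :=
  ⟨h, W_of_bij (Y := Fr D.toThy Δ U') (fun n => ⟨frIncl_inj h n,
    fun t => ⟨⟨t.1, t.2.mono' h'⟩, rfl⟩⟩) L⟩

theorem refl (L : ℕ) (U : VSet Δ.Var) : WI D.toThy L Δ U U :=
  of_eqv (fun _ _ h => h.mem) fun _ _ h => h.mem

theorem zero (h : ∀ n x, OK D.toSig Δ U (.var x) → U' n x) : WI D.toThy 0 Δ U U' := ⟨h, W_zero _⟩

theorem mono {L' : ℕ} (h : WI D.toThy L Δ U U') (hl : L' ≤ L) : WI D.toThy L' Δ U U' :=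
  ⟨h.1, h.2.mono hl⟩

theorem trans (h : WI D.toThy L Δ U U') (h' : WI D.toThy L Δ U' U'') : WI D.toThy L Δ U U'' :=
  ⟨fun n x hx => h'.1 n x (hx.mono' h.1), W.comp (Z := Fr D.toThy Δ U'') h.2 h'.2⟩

theorem cancel (hs : ∀ n x, OK D.toSig Δ U' (.var x) → U'' n x) (h : WI D.toThy L Δ U U')
    (h' : WI D.toThy L Δ U U'') : WI D.toThy L Δ U' U'' :=
  ⟨hs, W.of_comp_right (g := frIncl hs) h.2 h'.2⟩

theorem cancel' (hs : ∀ n x, OK D.toSig Δ U' (.var x) → U'' n x) (h : WI D.toThy L Δ U U')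
    (h' : WI D.toThy (L + 1) Δ U U'') : WI D.toThy (L + 1) Δ U' U'' :=
  ⟨hs, W.of_comp_right' (g := frIncl hs) h.2 h'.2⟩

/-- replacing both sets by sets with the same well-formed variables -/
theorem congr {V V' : VSet Δ.Var} (h : WI D.toThy L Δ U U')
    (h1 : ∀ n x, OK D.toSig Δ V (.var x) → U n x) (h2 : ∀ n x, OK D.toSig Δ U (.var x) → V n x)
    (h3 : ∀ n x, OK D.toSig Δ U' (.var x) → V' n x)
    (h4 : ∀ n x, OK D.toSig Δ V' (.var x) → U' n x) : WI D.toThy L Δ V V' :=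
  ((of_eqv h1 h2).trans h).trans (of_eqv h3 h4)

theorem closure_iff : WI D.toThy L Δ U U' ↔
    WI D.toThy L Δ (fun _ x => OK D.toSig Δ U (.var x)) fun _ x => OK D.toSig Δ U' (.var x) :=
  ⟨fun h => h.congr (fun _ _ h => h.mem.mem) (fun _ _ h => h) (fun _ _ h => h)
    fun _ _ h => h.mem.mem, fun h => h.congr (fun _ _ h => h) (fun _ _ h => h.mem.mem)
    (fun _ _ h => h.mem.mem) fun _ _ h => h⟩

theorem union (S : ℕ → VSet Δ.Var) (hS : ∀ r r', r ≤ r' → ∀ k x, S r k x → S r' k x)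
    (h : ∀ r, WI D.toThy L Δ U (S r)) : WI D.toThy L Δ U fun k x => ∃ r, S r k x := by
  refine ⟨fun n x hx => ⟨0, (h 0).1 n x hx⟩, fun n hn s y hy => ?_⟩
  obtain ⟨r, hr⟩ := OK.directed S hS y.2
  let j : AHom (Fr D.toThy Δ (S r)) (Fr D.toThy Δ fun k x => ∃ r, S r k x) :=
    frIncl fun _ _ h => ⟨r, h.mem⟩
  obtain ⟨x, hx, hs⟩ := (h r).2 n hn s ⟨y.1, hr⟩ (sphere_inj (frIncl_inj _) n (by
    rw [← bdry_map j.map, ← sphere_comp]; exact hy))
  exact ⟨x, hx, step_map j.map hs⟩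

/-- transfer along a renaming which is bijective on both levels -/
theorem of_ren {Δ' : Ctx D.Op} {V V' : VSet Δ'.Var} (r : ∀ n, Δ.Var n → Δ'.Var n)
    (hθ : BP D.toSig Δ Δ' U' fun n x => .var (r n x))
    (hU : ∀ n x, OK D.toSig Δ U (.var x) → U' n x)
    (hV : ∀ n x, OK D.toSig Δ' V (.var x) → V' n x)
    (hv : ∀ n x, OK D.toSig Δ U (.var x) → V n (r n x))
    (hv' : ∀ n x, OK D.toSig Δ U' (.var x) → V' n (r n x))
    (hi : ∀ n x y, OK D.toSig Δ U' (.var x) → OK D.toSig Δ U' (.var y) → r n x = r n y → x = y)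
    (hs : ∀ n x', OK D.toSig Δ' V (.var x') → ∃ x, OK D.toSig Δ U (.var x) ∧ r n x = x')
    (hs' : ∀ n x', OK D.toSig Δ' V' (.var x') → ∃ x, OK D.toSig Δ U' (.var x) ∧ r n x = x') :
    WI D.toThy L Δ U U' ↔ WI D.toThy L Δ' V V' := by
  have hθ0 : BP D.toSig Δ Δ' U fun n x => .var (r n x) := fun n x hx => hθ n x (hx.mono' hU)
  have b0 := frRen_bij r hθ0 hv (fun n x y hx hy => hi n x y (hx.mono' hU) (hy.mono' hU)) hs
  have b1 := frRen_bij r hθ hv' hi hs'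
  have e : (frIncl (D := D.toThy) hU).map.comp (frRen r hθ hv').map =
      (frRen r hθ0 hv).map.comp (frIncl (D := D.toThy) hV).map := rfl
  constructor
  · intro h
    refine ⟨hV, W.of_comp_right (g := frIncl hV) (W_of_bij (Y := Fr D.toThy Δ' V) b0 L) ?_⟩
    rw [← e]
    exact W.comp (Z := Fr D.toThy Δ' V') h.2 (W_of_bij (Y := Fr D.toThy Δ' V') b1 L)
  · intro h
    refine ⟨hU, W.of_comp_left ?_ (W_of_bij (Y := Fr D.toThy Δ' V') b1 _)⟩
    rw [e]
    exact W.comp (Z := Fr D.toThy Δ' V') (W_of_bij (Y := Fr D.toThy Δ' V) b0 L) h.2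

end WI

/-- extensions whose single cells have dimension at least `L` are in `W L` -/
theorem JExt.W_of_idim {D : Coh.{u}} {L : ℕ} (hP : PJ D.toThy L) {Δ : Ctx D.Op}
    {U U' : VSet Δ.Var} (J : JExt D.toSig Δ U U') (hJ : J.IDim L) : WI D.toThy L Δ U U' := by
  let M : VSet Δ.Var := fun n x => U n x ∨ (n < L ∧ ∃ h, J.pair n x h) ∨
    IsJc (fun k y h => k < L ∧ J.pair k y h) n x
  have hM' : ∀ n x, M n x → U' n x := by
    rintro n x (h | ⟨-, h, hp⟩ | h)
    · exact J.sub n x h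
    · exact (J.pair_new _ _ _ hp).1
    · cases n with
      | zero => exact h.elim
      | succ n => obtain ⟨y, -, hp⟩ := h; exact (J.pair_new _ _ _ hp).2.2.1
  have low : ∀ n x, U' n x → n < L → M n x := by
    intro n x hx hn
    by_cases hU : U n x
    · exact Or.inl hU
    rcases J.cases_new hx hU with h | h | h
    · exact absurd (hJ n x h) (by omega)
    · exact Or.inr (Or.inl ⟨hn, h⟩)
    · cases n with
      | zero => exact h.elim
      | succ n => obtain ⟨y, hp⟩ := h; exact Or.inr (Or.inr ⟨y, by omega, hp⟩)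
  have lowt : ∀ {n : ℕ} {t : Tm D.Op Δ.Var n}, OK D.toSig Δ U' t → n < L → OK D.toSig Δ M t :=
    fun h hn => (h.dim_vars D.dim_le le_rfl).mono fun k x hx => low k x hx.1 (by omega)
  have hc : Closed D.toSig Δ M := by
    rintro n x (h | ⟨hn, h, hp⟩ | h)
    · exact (J.closed n x h).mono fun _ _ h => Or.inl h
    · exact lowt (J.closed' n x (J.pair_new _ _ _ hp).1) hn
    · cases n with
      | zero => exact h.elim
      | succ n =>
        obtain ⟨y, hn, hp⟩ := h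
        have := J.closed' _ x (J.pair_new _ _ _ hp).2.2.1
        exact .varS x (Or.inr (Or.inr ⟨y, hn, hp⟩)) (lowt this.src hn) (lowt this.tgt hn) this.par
  have hp : ∀ n x h, J.pair n x h → (M n x ↔ M _ h) := by
    intro n x h hp
    constructor
    · rintro (a | ⟨a, -⟩ | a)
      · exact absurd a (J.pair_new _ _ _ hp).2.1
      · exact Or.inr (Or.inr ⟨x, a, hp⟩)
      · cases n with
        | zero => exact a.elim
        | succ n => obtain ⟨y, -, b⟩ := a; exact absurd hp (J.pair_not _ _ _ _ b)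
    · rintro (a | ⟨-, k, a⟩ | ⟨y, a, b⟩)
      · exact absurd a (J.pair_new _ _ _ hp).2.2.2
      · exact absurd a (J.pair_not _ _ _ _ hp)
      · exact Or.inr (Or.inl ⟨a, h, hp⟩)
  let J' := J.shrink U M (fun n x => ⟨fun h => ⟨h, Or.inl h⟩, fun h => h.1⟩) hM' hc hp
  have h1 := hP Δ U M J' fun n x hx => by
    obtain ⟨⟨-, a, b, c⟩, d | ⟨-, d⟩ | d⟩ := JExt.shrink_icell _ hx
    · exact a d
    · exact b d
    · cases n with
      | zero => exact d
      | succ n => obtain ⟨y, -, e⟩ := d; exact c ⟨y, e⟩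
  refine ⟨J.sub', fun n hn s y hy => ?_⟩
  let j : AHom (Fr D.toThy Δ M) (Fr D.toThy Δ U') := frIncl fun k x h => hM' k x h.mem
  obtain ⟨x, hx, hs⟩ := h1 n hn s ⟨y.1, lowt y.2 hn⟩ (sphere_inj (frIncl_inj _) n (by
    rw [← bdry_map j.map, ← sphere_comp]; exact hy))
  exact ⟨x, hx, step_map j.map hs⟩

/-! ## Small categories, functors to algebras, functorial contexts -/

/-- small categories -/
structure SCat where
  Obj : Type u
  Hom : Obj → Obj → Type u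
  id : ∀ c, Hom c c
  comp : ∀ {a b c : Obj}, Hom a b → Hom b c → Hom a c
  id_comp : ∀ {a b : Obj} (f : Hom a b), comp (id a) f = f
  comp_id : ∀ {a b : Obj} (f : Hom a b), comp f (id b) = f
  assoc : ∀ {a b c d : Obj} (f : Hom a b) (g : Hom b c) (h : Hom c d),
    comp (comp f g) h = comp f (comp g h)

/-- the category with one object and one map -/
@[reducible] def SCat.pt : SCat.{u} where
  Obj := PUnit
  Hom _ _ := PUnit
  id _ := ⟨⟩
  comp _ _ := ⟨⟩
  id_comp _ := rfl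
  comp_id _ := rfl
  assoc _ _ _ := rfl

/-- functors to algebras -/
structure AFun (Γ : Sig.{u}) (𝒞 : SCat.{u}) where
  obj : 𝒞.Obj → Alg Γ
  map : ∀ {a b : 𝒞.Obj}, 𝒞.Hom a b → AHom (obj a) (obj b)
  map_id : ∀ a, map (𝒞.id a) = AHom.id _
  map_comp : ∀ {a b c : 𝒞.Obj} (f : 𝒞.Hom a b) (g : 𝒞.Hom b c),
    map (𝒞.comp f g) = (map f).comp (map g)

/-- functorial contexts -/
structure FCtx (O : OpFam.{u}) (𝒞 : SCat.{u}) where
  Δ : 𝒞.Obj → Ctx O
  ren : ∀ {a b : 𝒞.Obj}, 𝒞.Hom a b → ∀ n, (Δ a).Var n → (Δ b).Var n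
  ren_id : ∀ a n x, ren (𝒞.id a) n x = x
  ren_comp : ∀ {a b c : 𝒞.Obj} (f : 𝒞.Hom a b) (g : 𝒞.Hom b c) n x,
    ren (𝒞.comp f g) n x = ren g n (ren f n x)
  src_ren : ∀ {a b : 𝒞.Obj} (f : 𝒞.Hom a b) n (x : (Δ a).Var (n + 1)),
    (Δ b).src (ren f _ x) = ((Δ a).src x).ren (ren f)
  tgt_ren : ∀ {a b : 𝒞.Obj} (f : 𝒞.Hom a b) n (x : (Δ a).Var (n + 1)),
    (Δ b).tgt (ren f _ x) = ((Δ a).tgt x).ren (ren f)

namespace FCtx

variable {D : Thy.{u}} {𝒞 : SCat.{u}} (F : FCtx D.Op 𝒞)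

theorem bp {a b : 𝒞.Obj} (f : 𝒞.Hom a b) (T : VSet (F.Δ a).Var) :
    BP D.toSig (F.Δ a) (F.Δ b) T fun n x => .var (F.ren f n x) :=
  fun n x _ => ⟨F.src_ren f n x, F.tgt_ren f n x⟩

/-- families of sets of variables stable under the renamings -/
def Stable (V : ∀ c, VSet (F.Δ c).Var) : Prop :=
  ∀ a b (f : 𝒞.Hom a b) n x, V a n x → V b n (F.ren f n x)

variable {F}

theorem Stable.ok {V : ∀ c, VSet (F.Δ c).Var} (hV : F.Stable V) {a b : 𝒞.Obj} (f : 𝒞.Hom a b)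
    {n : ℕ} {t : Tm D.Op (F.Δ a).Var n} (h : OK D.toSig (F.Δ a) (V a) t) :
    OK D.toSig (F.Δ b) (V b) (t.ren (F.ren f)) :=
  OK.ren (F.bp f _) (fun n x hx => hV a b f n x hx.mem) h

/-- the functor of free algebras -/
@[reducible] def alg (V : ∀ c, VSet (F.Δ c).Var) (hV : F.Stable V) : AFun D.toSig 𝒞 where
  obj c := Fr D (F.Δ c) (V c)
  map f := frRen (F.ren f) (F.bp f _) fun n x hx => hV _ _ f n x hx.mem
  map_id a := fr_ext fun n x _ => Subtype.ext (congrArg Tm.var (F.ren_id a n x))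
  map_comp f g := fr_ext fun n x _ => Subtype.ext (congrArg Tm.var (F.ren_comp f g n x))

/-- a single context as a functorial context -/
@[reducible] def single {O : OpFam.{u}} (Δ : Ctx O) : FCtx O SCat.pt where
  Δ _ := Δ
  ren _ _ x := x
  ren_id _ _ _ := rfl
  ren_comp _ _ _ _ := rfl
  src_ren _ _ _ := (Tm.subst_id _).symm
  tgt_ren _ _ _ := (Tm.subst_id _).symm

end FCtx

end Crest.Agent.R248
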