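import Crest.Agent.R248.TreeJ
import Crest.Agent.R248.Homotopy

/-!
# Row 248: the category of elements of the nerve of an algebra, and abstract systems of
equivalences between full subcategories of it.
-/

set_option autoImplicit false

namespace Crest.Agent.R248

open Crest.GeometryTopology.Coherator Tr

universe u

section El

variable {D : Thy.{u}}

/-- tree-shaped diagrams of cells of an algebra -/
abbrev El (X : Alg D.toSig) : Type u := Σ B : Tr, GMap (posG B) X.G

/-- maps of tree-shaped diagrams: families of terms over the target shape -/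
def Arr {X : Alg D.toSig} (e e' : El X) : Type u :=
  {f : GMap (posG e.1) (FrT D e'.1).G // f.comp (ext e'.2).map = e.2}

noncomputable def Arr.id {X : Alg D.toSig} (e : El X) : Arr e e := ⟨η D _, η_ext _⟩

noncomputable def Arr.comp {X : Alg D.toSig} {e e' e'' : El X} (f : Arr e e') (g : Arr e' e'') :
    Arr e e'' :=
  ⟨f.1.comp (ext g.1).map, by
    rw [GMap.comp_assoc, ← AHom.comp_map, ext_comp, g.2, f.2]⟩

theorem Arr.id_comp {X : Alg D.toSig} {e e' : El X} (f : Arr e e') : (Arr.id e).comp f = f :=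
  Subtype.ext (η_ext _)

theorem Arr.comp_id {X : Alg D.toSig} {e e' : El X} (f : Arr e e') : f.comp (Arr.id e') = f :=
  Subtype.ext (by show f.1.comp (ext (η D _)).map = _; rw [ext_η]; rfl)

/-- image of a diagram under a homomorphism -/
def El.map {X X' : Alg D.toSig} (φ : AHom X X') (e : El X) : El X' := ⟨e.1, e.2.comp φ.map⟩

/-- the slice of a full subcategory over a diagram `u` -/
def loc {X : Alg D.toSig} (u : El X) (T : El X → Prop) : El (FrT D u.1) → Prop :=
  fun e => T (e.map (ext u.2))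

/-- the generic diagram of shape `B` -/
def El.gen (B : Tr) : El (FrT D B) := ⟨B, η D _⟩

theorem El.gen_map {X : Alg D.toSig} (u : El X) : (El.gen u.1).map (ext u.2) = u := by
  cases u; simp only [El.gen, El.map, η_ext]

/-- the full subcategory has a terminal object -/
def HasTerm {X : Alg D.toSig} (T : El X → Prop) : Prop :=
  ∃ t, T t ∧ ∀ e, T e → ∃ f : Arr e t, ∀ g : Arr e t, g = f

theorem hasTerm_of_gen {B : Tr} {T : El (FrT D B) → Prop} (h : T (El.gen B)) : HasTerm T :=
  ⟨_, h, fun e _ => ⟨⟨e.2, by show e.2.comp (ext (η D _)).map = _; rw [ext_η]; rfl⟩,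
    fun g => Subtype.ext (by
      obtain ⟨g, hg⟩ := g
      have : g.comp (ext (η D _)).map = e.2 := hg
      rw [ext_η] at this
      exact this)⟩⟩

theorem hasTerm_loc {X : Alg D.toSig} {u : El X} {T : El X → Prop} (h : T u) :
    HasTerm (loc u T) := hasTerm_of_gen (by show T _; rw [El.gen_map]; exact h)

/-- `e` has a reflection into `𝒰` -/
def Reflects {X : Alg D.toSig} (𝒰 : El X → Prop) (e : El X) : Prop :=
  ∃ u, 𝒰 u ∧ ∃ a : Arr e u, ∀ u', 𝒰 u' → ∀ f : Arr e u', ∃! g : Arr u u', a.comp g = f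

theorem reflects_self {X : Alg D.toSig} {𝒰 : El X → Prop} {e : El X} (h : 𝒰 e) : Reflects 𝒰 e :=
  ⟨e, h, Arr.id e, fun _ _ f => ⟨f, f.id_comp, fun g hg => g.id_comp.symm.trans hg⟩⟩

end El

/-- An abstract system of equivalences: `WT ℓ X T T'` says that the inclusion of full
subcategories `T ⊆ T'` of the category of elements of the nerve of `X` induces a map in `W ℓ` on
homotopy colimits of a fixed homotopically constant diagram. -/
structure WSys (D : Thy.{u}) (L : ℕ) where
  WT : ℕ → (X : Alg D.toSig) → (El X → Prop) → (El X → Prop) → Prop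
  refl : ∀ ℓ X T, WT ℓ X T T
  zero : ∀ X T T', T ≤ T' → WT 0 X T T'
  mono : ∀ {ℓ ℓ' X T T'}, WT ℓ X T T' → ℓ' ≤ ℓ → WT ℓ' X T T'
  trans : ∀ {ℓ X T T' T''}, WT ℓ X T T' → WT ℓ X T' T'' → WT ℓ X T T''
  cancel : ∀ {ℓ X T T' T''}, T' ≤ T'' → WT ℓ X T T' → WT ℓ X T T'' → WT ℓ X T' T''
  cancel' : ∀ {ℓ X T T' T''}, T' ≤ T'' → WT ℓ X T T' → WT (ℓ + 1) X T T'' → WT (ℓ + 1) X T' T''
  union : ∀ {ℓ X T} (S : ℕ → El X → Prop), Monotone S → (∀ r, WT ℓ X T (S r)) →
    WT ℓ X T fun e => ∃ r, S r e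
  gl : ∀ {ℓ X T T'} (𝒰 : El X → Prop), ℓ ≤ L → T ≤ T' → (∀ e, T' e → Reflects 𝒰 e) →
    (∀ u, 𝒰 u → WT ℓ _ (loc u T) (loc u T')) → WT ℓ X T T'
  ls : ∀ {X T T'}, T ≤ T' → HasTerm T → HasTerm T' → WT L X T T'
  exc : ∀ {X T T'} (N : El X → Prop), T ≤ T' → (∀ e e', N e → T' e' → IsEmpty (Arr e e')) →
    WT L X T T' → (∀ u, N u → WT L _ (loc u T) (loc u T')) →
    WT L X (fun e => T e ∨ N e) fun e => T' e ∨ N e

end Crest.Agent.R248
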