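import Crest.Agent.R248.TreeJ
import Crest.Agent.R248.Homotopy

/-!
# Row 248: cylinder contexts; trees with whiskers are highly connected.

SKELETON (task "R248 Whisker.lean"): keep the names and statements; auxiliary lemmas are free.
-/

set_option autoImplicit false

namespace Crest.Agent.R248

open Crest.GeometryTopology.Coherator Tr

universe u

/-- variables of the cylinder on a globular set: two copies of each cell and a connecting cell -/
inductive CV (G : GS.{u}) : ℕ → Type u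
  | y0 {n : ℕ} (x : G.cell n) : CV G n
  | y1 {n : ℕ} (x : G.cell n) : CV G n
  | w {n : ℕ} (x : G.cell n) : CV G (n + 1)

def CV.map {G G' : GS.{u}} (f : GMap G G') : ∀ n, CV G n → CV G' n
  | _, .y0 x => .y0 (f.app _ x)
  | _, .y1 x => .y1 (f.app _ x)
  | _, .w x => .w (f.app _ x)

/-- families of transport terms -/
abbrev CylT (O : OpFam.{u}) := ∀ j, Tm O (CV (posG.{u} (disk j))) j

/-- the cylinder context: `w x` runs from the transport term `T j` at `x` to `y1 x` -/
@[reducible] def cylCtx {O : OpFam.{u}} (T : CylT O) (G : GS.{u}) : Ctx O where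
  Var := CV G
  src {n} v := match n, v with
    | _, .y0 x => .var (.y0 (G.src _ x))
    | _, .y1 x => .var (.y1 (G.src _ x))
    | _, .w x => (T _).ren (CV.map (cls _ x))
  tgt {n} v := match n, v with
    | _, .y0 x => .var (.y0 (G.tgt _ x))
    | _, .y1 x => .var (.y1 (G.tgt _ x))
    | _, .w x => .var (.y1 x)

/-- all `y0 x`, and `y1 x`, `w x` for `x` of dimension `< N` -/
def cylB (N : ℕ) (G : GS.{u}) : VSet (CV G)
  | _, .y0 _ => True
  | k, .y1 _ => k < N
  | _, .w (n := k) _ => k < N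

/-- all `y0 x`, `y1 x`, and `w x` for `x` of dimension `< N` -/
def cylV (N : ℕ) (G : GS.{u}) : VSet (CV G)
  | _, .y0 _ => True
  | _, .y1 _ => True
  | _, .w (n := k) _ => k < N

theorem Conn.retract {X X' : GS.{u}} {L : ℕ} (h : Conn L X') (i : GMap X X') (r : GMap X' X)
    (hir : ∀ n x, r.app n (i.app n x) = x) : Conn L X := by
  intro n hn s
  obtain ⟨x, hx⟩ := h n hn (i.sphere n s)
  refine ⟨r.app n x, ?_⟩
  rw [bdry_map, hx, ← sphere_comp, show i.comp r = GMap.id X from GMap.ext' hir, sphere_id]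

namespace Wh

/-- variables of the enlarged context -/
inductive WV (m : ℕ) (ch : Fin m → Tr) : ℕ → Type u
  | old {n : ℕ} (v : CV (posG.{u} (.node m ch)) n) : WV m ch n
  | b (l : Fin m) : WV m ch 1
  | h (l : Fin m) : WV m ch 2

/-- the path with `2 m + 1` edges -/
def path (m : ℕ) : Tr := .node (2 * m + 1) fun _ => pt

variable {m : ℕ} {ch : Fin m → Tr}

/-- the path inside the enlarged context -/
def rP (ch : Fin m → Tr) : ∀ n, Pos.{u} (path m) n → WV.{u} m ch n
  | _, .vtx j => if j.1 % 2 = 0 then .old (.y0 (.vtx ⟨j.1 / 2, by omega⟩))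
      else .old (.y1 (.vtx ⟨j.1 / 2, by omega⟩))
  | _, .br j (.vtx _) => if h : j.1 % 2 = 0 then .old (.w (.vtx ⟨j.1 / 2, by omega⟩))
      else .b ⟨j.1 / 2, by omega⟩
  | _, .br _ (.br l _) => l.elim0

/-- vertices of the path -/
def pv (j : ℕ) (hj : j < 2 * m + 1 + 1) : Pos.{u} (path m) 0 := .vtx ⟨j, hj⟩

/-- edges of the path -/
def pe (j : ℕ) (hj : j < 2 * m + 1) : Pos.{u} (path m) 1 := .br ⟨j, hj⟩ (.vtx 0)

theorem rP_v0 (i : Fin (m + 1)) (j : ℕ) (hj : j < 2 * m + 1 + 1) (e : j = 2 * i.1) :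
    rP.{u} ch 0 (pv j hj) = .old (.y0 (.vtx i)) := by
  subst e
  simp only [pv, rP]
  rw [if_pos (by omega)]
  congr 3
  exact Fin.ext (by simp)

theorem rP_v1 (i : Fin (m + 1)) (j : ℕ) (hj : j < 2 * m + 1 + 1) (e : j = 2 * i.1 + 1) :
    rP.{u} ch 0 (pv j hj) = .old (.y1 (.vtx i)) := by
  subst e
  simp only [pv, rP]
  rw [if_neg (by omega)]
  congr 3
  exact Fin.ext (by simp only; omega)

theorem rP_e0 (i : Fin (m + 1)) (j : ℕ) (hj : j < 2 * m + 1) (e : j = 2 * i.1) :
    rP.{u} ch 1 (pe j hj) = .old (.w (.vtx i)) := by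
  subst e
  refine (dif_pos (by simp only; omega)).trans ?_
  congr 3
  exact Fin.ext (by simp)

theorem rP_e1 (l : Fin m) (j : ℕ) (hj : j < 2 * m + 1) (e : j = 2 * l.1 + 1) :
    rP.{u} ch 1 (pe j hj) = .b l := by
  subst e
  refine (dif_neg (by simp only; omega)).trans ?_
  congr 1
  exact Fin.ext (by simp only; omega)

theorem path_cases (P : ∀ n, Pos.{u} (path m) n → Prop)
    (h0 : ∀ (i : Fin (m + 1)) hj, P 0 (pv (2 * i.1) hj))
    (h1 : ∀ (i : Fin (m + 1)) hj, P 0 (pv (2 * i.1 + 1) hj))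
    (h2 : ∀ (i : Fin (m + 1)) hj, P 1 (pe (2 * i.1) hj))
    (h3 : ∀ (l : Fin m) hj, P 1 (pe (2 * l.1 + 1) hj)) : ∀ n p, P n p
  | _, .vtx ⟨j, hj⟩ => by
    rcases Nat.even_or_odd' j with ⟨i, rfl | rfl⟩
    · exact h0 ⟨i, by omega⟩ hj
    · exact h1 ⟨i, by omega⟩ hj
  | _, .br ⟨j, hj⟩ (.vtx k) => by
    obtain rfl : k = 0 := Subsingleton.elim (α := Fin 1) _ _
    rcases Nat.even_or_odd' j with ⟨i, rfl | rfl⟩
    · exact h2 ⟨i, by omega⟩ hj
    · exact h3 ⟨i, by omega⟩ hj
  | _, .br _ (.br l _) => l.elim0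

variable (D : Coh.{u})

/-- an edge of the path as a cell of a hom object -/
def edge (j : ℕ) (hj : j < 2 * m + 1) :
    (homG (FrT D.toThy (path m)).G ((η D.toThy _).app 0 (pv j (by omega)))
      ((η D.toThy _).app 0 (pv (j + 1) (by omega)))).cell 0 :=
  ⟨(η D.toThy (posG (path m))).app 1 (pe j hj), rfl, rfl⟩

/-- the composite of the edges `2 l` and `2 l + 1` -/
noncomputable def cmp (l : Fin m) :=
  (wl (FrT D.toThy (path m)) (edge D (2 * l.1) (by omega)) _).app 0
    (edge D (2 * l.1 + 1) (by omega))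

/-- the enlarged context -/
@[reducible] noncomputable def ctx (T : CylT D.Op) (ch : Fin m → Tr) : Ctx D.Op where
  Var := WV m ch
  src {n} v := match n, v with
    | _, .old v => ((cylCtx T (posG (.node m ch))).src v).ren fun _ => .old
    | _, .b l => .var (.old (.y1 (.vtx l.castSucc)))
    | _, .h l => (cmp D l).1.1.ren (rP ch)
  tgt {n} v := match n, v with
    | _, .old v => ((cylCtx T (posG (.node m ch))).tgt v).ren fun _ => .old
    | _, .b l => .var (.old (.y0 (.vtx l.succ)))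
    | _, .h l => .var (.old (.y0 (.br l (Pos.v0 (ch l)))))

def U0 (ch : Fin m → Tr) : VSet (WV.{u} m ch)
  | n, .old (.y0 _) => n < 1
  | n, .old (.y1 _) => n < 1
  | _, .old (.w (n := k) _) => k < 1
  | _, .b _ => True
  | _, .h _ => False

def U1 (ch : Fin m → Tr) : VSet (WV.{u} m ch)
  | n, .old v => cylB 1 _ n v
  | _, .b _ => True
  | _, .h _ => True

variable {D} {T : CylT D.Op}

theorem src_w (hT : T 0 = .var (.y0 (top 0))) {G : GS.{u}} (x : G.cell 0) :
    (cylCtx T G).src (CV.w x) = .var (.y0 x) := by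
  show (T 0).ren _ = _
  rw [hT]
  rfl

theorem bp_rP (hT : T 0 = .var (.y0 (top 0))) :
    BP D.toSig (Ctx.ofGS D.Op (posG (path m))) (ctx D T ch) ⊤ fun n x => .var (rP ch n x) := by
  have key : ∀ n (p : Pos.{u} (path m) n), ∀ k (e : n = k + 1),
      rsrc D.toSig (ctx D T ch) (.var (rP ch _ (e ▸ p))) = .var (rP ch k (Pos.src (e ▸ p))) ∧
      rtgt D.toSig (ctx D T ch) (.var (rP ch _ (e ▸ p))) = .var (rP ch k (Pos.tgt (e ▸ p))) := by
    refine path_cases _ (fun _ _ _ e => by omega) (fun _ _ _ e => by omega) ?_ ?_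
    · intro i hj k e
      cases e
      show rsrc D.toSig (ctx D T ch) (.var (rP ch 1 (pe _ hj))) = .var (rP ch 0 (pv (2 * i.1) (by omega))) ∧
        rtgt D.toSig (ctx D T ch) (.var (rP ch 1 (pe _ hj))) = .var (rP ch 0 (pv (2 * i.1 + 1) (by omega)))
      rw [rP_e0 i _ _ rfl, rP_v0 i _ _ rfl, rP_v1 i _ _ rfl]
      refine ⟨?_, rfl⟩
      show ((cylCtx T (posG (.node m ch))).src (CV.w (Pos.vtx i))).ren _ = _
      rw [src_w hT]
      rfl
    · intro l hj k e
      cases e
      show rsrc D.toSig (ctx D T ch) (.var (rP ch 1 (pe _ hj))) = .var (rP ch 0 (pv (2 * l.1 + 1) (by omega))) ∧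
        rtgt D.toSig (ctx D T ch) (.var (rP ch 1 (pe _ hj))) = .var (rP ch 0 (pv (2 * l.1 + 1 + 1) (by omega)))
      rw [rP_e1 l _ _ rfl, rP_v1 l.castSucc (2 * l.1 + 1) _ rfl,
        rP_v0 l.succ _ _ (by simp; omega)]
      exact ⟨rfl, rfl⟩
  exact fun n x _ => key _ x n rfl

theorem U0_rP : ∀ n (p : Pos.{u} (path m) n), U0 ch n (rP ch n p) := by
  refine path_cases _ ?_ ?_ ?_ ?_
  · intro i hj; rw [rP_v0 i _ _ rfl]; exact Nat.zero_lt_one
  · intro i hj; rw [rP_v1 i _ _ rfl]; exact Nat.zero_lt_one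
  · intro i hj; rw [rP_e0 i _ _ rfl]; exact Nat.zero_lt_one
  · intro i hj; rw [rP_e1 i _ _ rfl]; trivial

theorem rP_surj : ∀ n (x : WV.{u} m ch n), U0 ch n x → ∃ p, rP ch n p = x
  | _, .old (.y0 (.vtx i)), _ => ⟨pv (2 * i.1) (by omega), rP_v0 i _ _ rfl⟩
  | _, .old (.y0 (.br _ _)), h => absurd h (by simp [U0])
  | _, .old (.y1 (.vtx i)), _ => ⟨pv (2 * i.1 + 1) (by omega), rP_v1 i _ _ rfl⟩
  | _, .old (.y1 (.br _ _)), h => absurd h (by simp [U0])
  | _, .old (.w (.vtx i)), _ => ⟨pe (2 * i.1) (by omega), rP_e0 i _ _ rfl⟩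
  | _, .old (.w (.br _ _)), h => absurd h (by simp [U0])
  | _, .b l, _ => ⟨pe (2 * l.1 + 1) (by omega), rP_e1 l _ _ rfl⟩
  | _, .h _, h => h.elim

/-- a numerical code used to prove injectivity -/
def code : ∀ n, WV.{u} m ch n → ℕ
  | _, .old (.y0 (.vtx i)) => 2 * i.1
  | _, .old (.y1 (.vtx i)) => 2 * i.1 + 1
  | _, .old (.w (.vtx i)) => 2 * i.1
  | _, .b l => 2 * l.1 + 1
  | _, _ => 0

/-- the index of a position of the path -/
def idx : ∀ n, Pos.{u} (path m) n → ℕ
  | _, .vtx j => j.1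
  | _, .br j _ => j.1

theorem code_rP : ∀ n (p : Pos.{u} (path m) n), code n (rP ch n p) = idx n p := by
  refine path_cases _ ?_ ?_ ?_ ?_
  · intro i hj; rw [rP_v0 i _ _ rfl]; rfl
  · intro i hj; rw [rP_v1 i _ _ rfl]; rfl
  · intro i hj; rw [rP_e0 i _ _ rfl]; rfl
  · intro i hj; rw [rP_e1 i _ _ rfl]; rfl

theorem idx_inj : ∀ n (p q : Pos.{u} (path m) n), idx n p = idx n q → p = q
  | _, .vtx _, .vtx _, h => congrArg Pos.vtx (Fin.ext h)
  | _, .br j (.vtx k), .br j' (.vtx k'), h => by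
    obtain rfl : j = j' := Fin.ext h
    obtain rfl : k = k' := Subsingleton.elim (α := Fin 1) _ _
    rfl
  | _, .br _ (.br l _), _, _ => l.elim0

/-- the free algebra on the path maps isomorphically -/
noncomputable def ρ0 (hT : T 0 = .var (.y0 (top 0))) (ch : Fin m → Tr) :
    AHom (FrT D.toThy (path m)) (Fr D.toThy (ctx D T ch) (U0 ch)) :=
  frRen (rP ch) (bp_rP hT) fun n x _ => U0_rP n x

theorem conn_U0 (hT : T 0 = .var (.y0 (top 0))) (L : ℕ) :
    Conn L (Fr D.toThy (ctx D T ch) (U0 ch)).G :=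
  Conn.of_W' (f := (ρ0 hT ch).map) (W_of_bij (frRen_bij _ _ _
    (fun n x y _ _ h => idx_inj n x y (by rw [← code_rP (ch := ch), h, code_rP]))
    (fun n x h => by
      obtain ⟨p, hp⟩ := rP_surj n x h.mem
      exact ⟨p, OK.ofGS_top _ _ _, hp⟩)) L) (D.full _ L)

/-- stage of a position -/
def stA : ∀ n, Pos.{u} (.node m ch) n → ℕ
  | _, .vtx _ => 0
  | _, .br _ p => Pos.st p

def stW : ∀ n, WV.{u} m ch n → ℕ
  | n, .old (.y0 x) => stA n x
  | _, _ => 0

inductive WPair : ∀ n, WV.{u} m ch n → WV.{u} m ch (n + 1) → Prop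
  | c (l : Fin m) : WPair 1 (.old (.y0 (.br l (Pos.v0 (ch l))))) (.h l)
  | br (l : Fin m) {n : ℕ} {x : Pos (ch l) n} {k : Pos (ch l) (n + 1)} : Pos.Pair x k →
      WPair (n + 1) (.old (.y0 (.br l x))) (.old (.y0 (.br l k)))

theorem WPair.cases' : ∀ n (x : WV.{u} m ch n), U1 ch n x → ¬U0 ch n x →
    (∃ h, WPair n x h) ∨ IsJc WPair n x
  | _, .old (.y0 (.vtx _)), _, h => absurd Nat.zero_lt_one h
  | _, .old (.y0 (.br (n := n) l p)), _, _ => by
    rcases Pos.cases_pair p with h | ⟨k, h⟩ | h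
    · cases h.dim
      obtain rfl := h.eq
      exact Or.inl ⟨_, .c l⟩
    · exact Or.inl ⟨_, .br l h⟩
    · cases n with
      | zero => exact h.elim
      | succ n => obtain ⟨x, hx⟩ := h; exact Or.inr ⟨_, .br l hx⟩
  | _, .old (.y1 _), h, h' => absurd h h'
  | _, .old (.w _), h, h' => absurd h h'
  | _, .b _, _, h' => absurd trivial h'
  | _, .h l, _, _ => Or.inr ⟨_, .c l⟩

theorem ok_y0 (r : ℕ) (S : VSet (WV.{u} m ch))
    (hS : ∀ n x, (n < 1 ∨ stA n x < r) → S n (.old (.y0 x))) (n : ℕ) (x : Pos.{u} (.node m ch) n)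
    (hx : n < 1 ∨ stA n x < r) : OK D.toSig (ctx D T ch) S (.var (.old (.y0 x))) := by
  have h1 : OK D.toSig (Ctx.ofGS D.Op (posG (.node m ch))) (fun n x => n < 1 ∨ stA n x < r)
      (.var x) := by
    refine OK.ofGS_var (posG (.node m ch)) (fun k y hy => ?_) n x hx
    cases y with
    | br l p =>
      cases k with
      | zero => exact ⟨Or.inl Nat.zero_lt_one, Or.inl Nat.zero_lt_one⟩
      | succ k =>
        have hy' : Pos.st p < r := hy.resolve_left (by omega)
        exact ⟨Or.inr ((Pos.st_src_le p).trans_lt hy'), Or.inr ((Pos.st_tgt_le p).trans_lt hy')⟩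
  exact OK.ren (Δ' := ctx D T ch) (r := fun _ y => .old (.y0 y)) (fun _ _ _ => ⟨rfl, rfl⟩)
    (fun k y hy => hS k y hy.mem) h1

/-- the extension by pairs -/
noncomputable def jext (hT : T 0 = .var (.y0 (top 0))) (ch : Fin m → Tr) :
    JExt D.toSig (ctx D T ch) (U0 ch) (U1 ch) where
  st := stW
  pair := WPair
  sub n x h := match n, x, h with
    | _, .old (.y0 _), _ => trivial
    | _, .old (.y1 _), h => h
    | _, .old (.w _), h => h
    | _, .b _, _ => trivial
    | _, .h _, _ => trivial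
  closed n x h := by
    obtain ⟨p, rfl⟩ := rP_surj n x h
    exact (((ρ0 hT ch).map.app n ((η D.toThy _).app n p))).2
  pair_uniq n x h h' a b := by
    cases a with
    | c l =>
      generalize hx : Pos.v0 (ch l) = x at b
      cases b with
      | c => rfl
      | br _ hq => exact absurd (hx ▸ Pos.isV0_v0 _) hq.not_v0
    | br l hp =>
      cases b with
      | c => exact absurd (Pos.isV0_v0 _) hp.not_v0
      | br _ hq => rw [hp.uniq hq]
  pair_new n x h a := by
    cases a with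
    | c l => exact ⟨trivial, by simp [U0], trivial, id⟩
    | br l hp => exact ⟨trivial, by simp [U0], trivial, by simp [U0]⟩
  pair_st n x h a := by
    cases a with
    | c l => exact (Pos.st_v0 _).symm
    | br l hp => exact hp.st_eq
  pair_not n x h k a b := by
    cases a with
    | c l => cases b
    | br l hp =>
      cases b with
      | br _ hq => exact hp.not_both hq
  pair_tgt n x h a := by
    cases a with
    | c l => rfl
    | br l hp => exact congrArg (fun y => Tm.var (WV.old (CV.y0 (Pos.br l y)))) hp.tgt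
  pair_src n x h a := by
    cases a with
    | c l => exact ((ρ0 hT ch).map.app 1 (cmp D l).1).2.mono fun _ _ h => Or.inl h
    | br l hp =>
      exact ok_y0 _ _ (fun k y hy => hy.imp id fun a => ⟨trivial, a⟩) _ _ (Or.inr hp.st_src)
  pair_par n x h a := by
    cases a with
    | c l =>
      have h1 := congrArg Subtype.val (((ρ0 hT ch).map.app_src 0 (cmp D l).1).symm.trans
        (congrArg ((ρ0 hT ch).map.app 0) (cmp D l).2.1))
      have h2 := congrArg Subtype.val (((ρ0 hT ch).map.app_tgt 0 (cmp D l).1).symm.trans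
        (congrArg ((ρ0 hT ch).map.app 0) (cmp D l).2.2))
      exact ⟨h1.trans (congrArg Tm.var (rP_v0 l.castSucc _ _ rfl)),
        h2.trans (congrArg Tm.var (rP_v0 l.succ _ _ (by simp; omega)))⟩
    | @br l n x k hp =>
      have := par_src_tgt (X := posG (.node m ch)) (n + 1) (Pos.br l k)
      rw [show (posG (.node m ch)).tgt (n + 1) (Pos.br l k) = Pos.br l x from
        congrArg (Pos.br l) hp.tgt] at this
      exact ⟨congrArg (fun y => Tm.var (WV.old (CV.y0 y))) this.1,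
        congrArg (fun y => Tm.var (WV.old (CV.y0 y))) this.2⟩
  icell n x h0 h1 h2 h3 := ((WPair.cases' n x h0 h1).elim h2 h3).elim

theorem conn_U1 (hT : T 0 = .var (.y0 (top 0))) (L : ℕ) (h1 : PJ1 D.toThy (L + 1)) :
    Conn (L + 2) (Fr D.toThy (ctx D T ch) (U1 ch)).G :=
  Conn.of_W (h1 _ _ _ (jext hT ch)
    (fun n x h => (WPair.cases' n x h.1 h.2.1).elim h.2.2.1 h.2.2.2)
    (fun n x h a => by cases a <;> omega)) (conn_U0 hT _)

end Wh

/-- A tree `A = node m ch` with a whisker `w v : y0 v → y1 v` at each vertex is `(L+2)`-connected.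

Recipe.  Write `v i = y0 (vtx i)`, `v' i = y1 (vtx i)`, `w i = w (vtx i)`,
`c l = y0 (br l (v0 (ch l)))`.  Enlarge the context to `Δ⁺` by variables `b l` (dimension 1, from
`v' l.castSucc` to `v l.succ`) and `h l` (dimension 2, from the raw term of
`(wl _ (w l.castSucc) _).app 0 (b l)` to `c l`); define that raw term as `t0.subst` of the value
`t0` of the universal composite in `FrT D (two (disk 0) (disk 0))` (see the definition of `wl`,
`ext_val`), or take any universal composite `t0` from `D.full` and compare it with `wl` by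
`D.full` again.  Let `U0 = {v i, v' i, w i, b l}`.  (a) `Fr D Δ⁺ U0` is isomorphic to the free
algebra on the path `node (2m+1) fun _ => pt` (`frRen_bij`; vertex `2i ↦ v i`, `2i+1 ↦ v' i`,
branch `2i ↦ w i`, `2i+1 ↦ b i`), hence contractible (`D.full`, `TFib.of_bij`, `Conn.of_W'`).
(b) `U0 ⊆ U1 = cylB 1 ∪ {b l, h l}` is a `JExt` with `NoI`, `Pos1`: pairs `(c l, h l)` at stage `0`
and `(y0 (br l x), y0 (br l k))` for `Pos.Pair x k` at stage `1 + st` (see `treeJ`), so `Fr D Δ⁺ U1`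
is `Conn (L+2)` by `h1` and `Conn.of_W`.  (c) The algebra of the statement is a retract of
`Fr D Δ⁺ U1`: by the division lemma (`W_wl 1`, `WLift.zero`) choose the images of `b l` and `h l`
and use `lift`; a retract of a `Conn` globular set is `Conn`. -/
theorem conn_wh (D : Coh.{u}) (L : ℕ) (h1 : PJ1 D.toThy (L + 1)) (T : CylT D.Op)
    (hT : T 0 = .var (.y0 (top 0))) (A : Tr) :
    Conn (L + 2) (Fr D.toThy (cylCtx T (posG A)) (cylB 1 _)).G := by
  obtain ⟨m, ch⟩ := A
  let Δ := cylCtx T (posG.{u} (.node m ch))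
  let Y := Fr D.toThy Δ (cylB 1 _)
  have ok0 : ∀ n (x : Pos.{u} (.node m ch) n), OK D.toSig Δ (cylB 1 _) (.var (.y0 x)) := fun n x =>
    OK.ren (Δ' := Δ) (r := fun _ y => .y0 y) (fun _ _ _ => ⟨rfl, rfl⟩) (fun _ _ _ => trivial)
      (OK.ofGS_top (posG (.node m ch)) n x)
  have ok1 : ∀ i, OK D.toSig Δ (cylB 1 _) (.var (.y1 (Pos.vtx i))) := fun i =>
    .var0 (Δ := Δ) _ Nat.zero_lt_one
  have okw : ∀ i, OK D.toSig Δ (cylB 1 _) (.var (.w (Pos.vtx i))) := fun i =>
    .varS (Δ := Δ) _ Nat.zero_lt_one (by rw [Wh.src_w hT]; exact ok0 _ _) (ok1 i) trivial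
  let v : Fin (m + 1) → Y.G.cell 0 := fun i => fv (.y0 (Pos.vtx i)) (ok0 _ _)
  let v' : Fin (m + 1) → Y.G.cell 0 := fun i => fv (.y1 (Pos.vtx i)) (ok1 i)
  let e : ∀ i, (homG Y.G (v i) (v' i)).cell 0 := fun i =>
    ⟨fv (.w (Pos.vtx i)) (okw i), Subtype.ext (Wh.src_w hT (G := posG (.node m ch)) (Pos.vtx i)), rfl⟩
  let c : ∀ l : Fin m, (homG Y.G (v l.castSucc) (v l.succ)).cell 0 := fun l =>
    ⟨fv (.y0 (Pos.br l (Pos.v0 (ch l)))) (ok0 _ _), rfl, rfl⟩
  choose β hβ using fun l : Fin m =>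
    (W_wl 1 Y (e l.castSucc) (v l.succ) 0 Nat.zero_lt_one).zero (c l)
  choose κ hκ1 hκ2 using hβ
  let θ : ∀ n, Wh.WV.{u} m ch n → Tm D.Op Δ.Var n := fun n x => match n, x with
    | _, .old x => .var x
    | _, .b l => (β l).1.1
    | _, .h l => (κ l).1.1
  have hold : ∀ {n : ℕ} (t : Tm D.Op Δ.Var n), (t.ren fun _ => Wh.WV.old).subst θ = t := fun t => by
    rw [Tm.ren, Tm.subst_subst]
    exact Tm.subst_id t
  have okold : ∀ n (x : Δ.Var n), cylB 1 _ n x → OK D.toSig Δ (cylB 1 _) (.var x) := by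
    intro n x hx
    match n, x, hx with
    | _, .y0 x, _ => exact ok0 _ x
    | _, .y1 (.vtx i), _ => exact ok1 i
    | _, .y1 (.br _ _), h => exact absurd h (by simp [cylB])
    | _, .w (.vtx i), _ => exact okw i
    | _, .w (.br _ _), h => exact absurd h (by simp [cylB])
  have hv1 : ∀ n x, Wh.U1 ch n x → OK D.toSig Δ (cylB 1 _) (θ n x) := by
    intro n x hx
    match n, x, hx with
    | _, .old x, hx => exact okold _ x hx
    | _, .b l, _ => exact (β l).1.2
    | _, .h l, _ => exact (κ l).1.2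
  have bp0 : BP D.toSig (Wh.ctx D T ch) Δ (Wh.U0 ch) θ := by
    intro n x hx
    match n, x, hx with
    | _, .old x, _ => exact ⟨(hold _).symm, (hold _).symm⟩
    | _, .b l, _ => exact ⟨congrArg Subtype.val (β l).2.1, congrArg Subtype.val (β l).2.2⟩
    | _, .h l, hx => exact hx.mem.elim
  let φ : AHom (FrT D.toThy (Wh.path m)) Y := (Wh.ρ0 hT ch).comp
    (frSub θ bp0 fun n x hx => hv1 n x ((Wh.jext hT ch).sub n x hx.mem))
  have bp1 : BP D.toSig (Wh.ctx D T ch) Δ (Wh.U1 ch) θ := by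
    intro n x hx
    match n, x, hx with
    | _, .old x, _ => exact ⟨(hold _).symm, (hold _).symm⟩
    | _, .b l, _ => exact ⟨congrArg Subtype.val (β l).2.1, congrArg Subtype.val (β l).2.2⟩
    | _, .h l, _ =>
      have l1 : 2 * l.1 + 1 < 2 * m + 1 := by omega
      have l0 : 2 * l.1 < 2 * m + 1 := by omega
      have e1 : φ.map.app 1 (Wh.edge D (2 * l.1 + 1) l1).1 = (β l).1 :=
        Subtype.ext (congrArg (θ 1) (Wh.rP_e1 l (2 * l.1 + 1) l1 rfl) :)
      have e0 : φ.map.app 1 (Wh.edge D (2 * l.1) l0).1 = (e l.castSucc).1 :=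
        Subtype.ext (congrArg (θ 1) (Wh.rP_e0 l.castSucc (2 * l.1) l0 rfl) :)
      have h3 := wl_nat φ e1 e0
      exact ⟨(congrArg (fun z => z.1.1) (hκ1 l)).trans (congrArg Subtype.val h3).symm,
        congrArg (fun z => z.1.1) (hκ2 l)⟩
  let i : AHom Y (Fr D.toThy (Wh.ctx D T ch) (Wh.U1 ch)) :=
    frRen (fun _ => Wh.WV.old) (fun _ _ _ => ⟨rfl, rfl⟩) fun _ _ hx => hx.mem
  let r : AHom (Fr D.toThy (Wh.ctx D T ch) (Wh.U1 ch)) Y :=
    frSub θ bp1 fun n x hx => hv1 n x hx.mem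
  exact (Wh.conn_U1 hT L h1).retract i.map r.map fun n x => Subtype.ext (hold x.1)

end Crest.Agent.R248
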